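import Crest.Agent.R199.Basic

/-!
Row 199, piece B3: a total inverse graph in which the relators close carries a right action of the
group `Gp A`.

PROOF. For each letter t the map ω ↦ the end of (t,true) is a permutation of Ω with inverse
ω ↦ end of (t,false) (`symm`, `det`, totality). φ := FreeGroup.lift of these into the opposite of
`Equiv.Perm Ω`. Claim: Rd Δ ω w (φ (mk w) ω): induction on w. Then relators lie in the
kernel of φ (Rd Δ ω w ω and Rd_det), so `Subgroup.normalClosure_le_normal`; descend to
`Gp A →* (Equiv.Perm Ω)ᵐᵒᵖ` (QuotientGroup.lift) and put act ω g := φ g ω.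
-/
set_option autoImplicit false

namespace Crest.Agent.R199

variable {T P : Type}

theorem exists_act {A : IG T P} {Ω : Type} (Δ : IG T Ω) (htot : ∀ ω a, ∃ ω', Δ.E ω a ω')
    (hrel : ∀ x w ω, Rd A x w x → Rd Δ ω w ω) :
    ∃ act : Ω → Gp A → Ω, (∀ ω, act ω 1 = ω) ∧
      (∀ ω g h, act (act ω g) h = act ω (g * h)) ∧
      ∀ ω w, Rd Δ ω w (act ω (QuotientGroup.mk (FreeGroup.mk w))) := by
  classical
  choose nx hnx using htot
  have hback : ∀ ω t b, nx (nx ω (t, b)) (t, !b) = ω := by
    intro ω t b
    exact Δ.det _ _ _ _ (hnx _ _) (Δ.symm _ _ _ (hnx ω (t, b)))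
  let perm : T → Equiv.Perm Ω := fun t =>
    { toFun := fun ω => nx ω (t, true)
      invFun := fun ω => nx ω (t, false)
      left_inv := fun ω => hback ω t true
      right_inv := fun ω => hback ω t false }
  let φ : FreeGroup T →* (Equiv.Perm Ω)ᵐᵒᵖ := FreeGroup.lift fun t => MulOpposite.op (perm t)
  let ac : Ω → FreeGroup T → Ω := fun ω g => (MulOpposite.unop (φ g)) ω
  have ac_one : ∀ ω, ac ω 1 = ω := by
    intro ω
    show (MulOpposite.unop (φ 1)) ω = ω
    rw [map_one]; rfl
  have ac_mul : ∀ ω g h, ac (ac ω g) h = ac ω (g * h) := by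
    intro ω g h
    show (MulOpposite.unop (φ h)) ((MulOpposite.unop (φ g)) ω) = (MulOpposite.unop (φ (g * h))) ω
    rw [map_mul]; rfl
  have ac_letter : ∀ ω a, Δ.E ω a (ac ω (FreeGroup.mk [a])) := by
    rintro ω ⟨t, b⟩
    cases b with
    | true =>
      have : ac ω (FreeGroup.mk [(t, true)]) = nx ω (t, true) := by
        show (MulOpposite.unop (φ (FreeGroup.of t))) ω = _
        simp only [φ, FreeGroup.lift_apply_of]
        rfl
      rw [this]; exact hnx _ _
    | false =>
      have : ac ω (FreeGroup.mk [(t, false)]) = nx ω (t, false) := by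
        have h1 : FreeGroup.mk [(t, false)] = (FreeGroup.of t)⁻¹ := by
          simp [FreeGroup.of, FreeGroup.invRev]
        show (MulOpposite.unop (φ (FreeGroup.mk [(t, false)]))) ω = _
        rw [h1, map_inv]
        simp only [φ, FreeGroup.lift_apply_of]
        rfl
      rw [this]; exact hnx _ _
  have ac_rd : ∀ w ω, Rd Δ ω w (ac ω (FreeGroup.mk w)) := by
    intro w
    induction w with
    | nil =>
      intro ω
      exact (ac_one ω).symm
    | cons a w ih =>
      intro ω
      have h1 : FreeGroup.mk (a :: w) = FreeGroup.mk [a] * FreeGroup.mk w := by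
        rw [FreeGroup.mul_mk]; rfl
      rw [h1, ← ac_mul]
      exact ⟨_, ac_letter ω a, ih _⟩
  have hker : Subgroup.normalClosure (rels A) ≤ φ.ker := by
    apply Subgroup.normalClosure_le_normal
    rintro g ⟨x, w, hw, rfl⟩
    rw [SetLike.mem_coe, MonoidHom.mem_ker]
    apply MulOpposite.unop_injective
    ext ω
    exact Rd_det (ac_rd w ω) (hrel x w ω hw)
  refine ⟨fun ω g => (MulOpposite.unop (QuotientGroup.lift _ φ hker g)) ω, ?_, ?_, ?_⟩
  · intro ω
    show (MulOpposite.unop (QuotientGroup.lift _ φ hker 1)) ω = ω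
    rw [map_one]; rfl
  · intro ω g h
    show (MulOpposite.unop (QuotientGroup.lift _ φ hker h))
      ((MulOpposite.unop (QuotientGroup.lift _ φ hker g)) ω) =
        (MulOpposite.unop (QuotientGroup.lift _ φ hker (g * h))) ω
    rw [map_mul]; rfl
  · intro ω w
    exact ac_rd w ω

end Crest.Agent.R199
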