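import Crest.Agent.R199.PlusBasic

/-!
Row 199, piece B4: the labelling θ of the layers by elements of the group.

PROOF. `val_eq`: w ++ invRev w' reads x → x, so it is a relator.
`theta_step`: θ' β := θ b * q (mk w) for chosen b,x,y,w with At β b x y (at_ex), Rd A x w y (at_conn).
Independence: At β b x y, At β b' x' y' ⇒ Rr b x y b' x' y' (at_iff): Cell (b,x)(b₁,x₁) by v,
Cell (b',x')(b₁,x₁') by v', Rd x₁ s y, Rd x₁' s y'. θ b₁ = θ b q(v) = θ b' q(v') (compatibility along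
words, induction), and v ++ s, w both read x → y so q(v)q(s) = q(w) (`val_eq`). So
θ b q(w) = θ b₁ q(s) = θ b' q(w').  θ' (ι b) = θ b by iota_at with w = []. Edges by E_iff: At β b x y,
At β' b x y', w reads x → y, w ++ [a] reads x → y'.
`exists_theta`: recursion on k over the pairs (θ k, compatibility).
-/
set_option autoImplicit false

namespace Crest.Agent.R199

variable {T B B' P : Type} {A : IG T P}

/-- the image in the group of a word -/
def gv (A : IG T P) (w : List (T × Bool)) : Gp A := QuotientGroup.mk (FreeGroup.mk w)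

theorem gv_nil : gv A [] = 1 := rfl

theorem gv_append (w w' : List (T × Bool)) : gv A (w ++ w') = gv A w * gv A w' := by
  unfold gv
  rw [← FreeGroup.mul_mk]; rfl

theorem gv_invRev (w : List (T × Bool)) : gv A (FreeGroup.invRev w) = (gv A w)⁻¹ := by
  unfold gv
  rw [← FreeGroup.inv_mk]; rfl

theorem val_eq {x y : P} {w w' : List (T × Bool)} (h : Rd A x w y) (h' : Rd A x w' y) :
    gv A w = gv A w' := by
  have h1 : gv A (w ++ FreeGroup.invRev w') = 1 := by
    refine (QuotientGroup.eq_one_iff _).2 (Subgroup.subset_normalClosure ?_)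
    exact ⟨x, _, Rd_trans h (Rd_inv h'), rfl⟩
  rw [gv_append, gv_invRev] at h1
  exact mul_inv_eq_one.1 h1

theorem theta_word {Γ : IG T B} (θ : B → Gp A)
    (hθ : ∀ b a b', Γ.E b a b' → θ b' = θ b * gv A [a]) {b b' : B} {w : List (T × Bool)}
    (h : Rd Γ b w b') : θ b' = θ b * gv A w := by
  induction w generalizing b with
  | nil =>
    obtain rfl : b = b' := h
    rw [gv_nil, mul_one]
  | cons a w ih =>
    obtain ⟨c, h1, h2⟩ := h
    rw [ih h2, hθ b a c h1, mul_assoc, ← gv_append]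
    rfl

theorem theta_indep {Γ : IG T B} {Γ' : IG T B'} {ι : B → B'}
    {At : B' → B → P → P → Prop} (hP : IsPlus A Γ Γ' ι At) (θ : B → Gp A)
    (hθ : ∀ b a b', Γ.E b a b' → θ b' = θ b * gv A [a]) {β : B'} {b b' : B} {x y x' y' : P}
    {w w' : List (T × Bool)} (h : At β b x y) (hw : Rd A x w y) (h' : At β b' x' y')
    (hw' : Rd A x' w' y') : θ b * gv A w = θ b' * gv A w' := by
  obtain ⟨b₁, x₁, x₁', s, ⟨v, h1, h2⟩, ⟨v', h3, h4⟩, h5, h6⟩ :=
    (hP.at_iff β b x y b' x' y' h).1 h'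
  rw [val_eq hw (Rd_trans h2 h5), val_eq hw' (Rd_trans h4 h6), gv_append, gv_append,
    ← mul_assoc, ← mul_assoc, ← theta_word θ hθ h1, ← theta_word θ hθ h3]

theorem theta_step {Γ : IG T B} {Γ' : IG T B'} {ι : B → B'}
    {At : B' → B → P → P → Prop} (hP : IsPlus A Γ Γ' ι At) (θ : B → Gp A)
    (hθ : ∀ b a b', Γ.E b a b' → θ b' = θ b * gv A [a]) :
    ∃ θ' : B' → Gp A, (∀ b, θ' (ι b) = θ b) ∧
      (∀ b a b', Γ'.E b a b' → θ' b' = θ' b * gv A [a]) ∧
      ∀ β b x y w, At β b x y → Rd A x w y → θ' β = θ b * gv A w := by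
  classical
  have hex : ∀ β, ∃ g : Gp A, ∀ b x y w, At β b x y → Rd A x w y → g = θ b * gv A w := by
    intro β
    obtain ⟨b, x, y, h⟩ := hP.at_ex β
    obtain ⟨w, hw⟩ := at_conn hP h
    exact ⟨θ b * gv A w, fun b' x' y' w' h' hw' => theta_indep hP θ hθ h hw h' hw'⟩
  choose θ' hθ' using hex
  refine ⟨θ', ?_, ?_, fun β b x y w h hw => hθ' β b x y w h hw⟩
  · intro b
    by_cases hne : Nonempty P
    · obtain ⟨y⟩ := hne
      rw [hθ' (ι b) b y y [] (hP.iota_at b y) rfl, gv_nil, mul_one]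
    · obtain ⟨_, x, _⟩ := hP.at_ex (ι b)
      exact absurd ⟨x⟩ hne
  · intro β a β' h
    obtain ⟨b, x, y, y', h1, h2, h3⟩ := edge_at hP h
    obtain ⟨w, hw⟩ := at_conn hP h1
    rw [hθ' β' b x y' (w ++ [a]) h2 (Rd_trans hw (Rd_single.2 h3)), hθ' β b x y w h1 hw,
      gv_append, mul_assoc]

theorem exists_theta [Nonempty P] (Tw : Tower A) :
    ∃ θ : ∀ k, Tw.B k → Gp A, θ 0 Tw.b0 = 1 ∧ (∀ k b, θ (k + 1) (Tw.ι k b) = θ k b) ∧
      (∀ k b a b', (Tw.Γ k).E b a b' → θ k b' = θ k b * gv A [a]) ∧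
      ∀ k β b x y w, Tw.At k β b x y → Rd A x w y → θ (k + 1) β = θ k b * gv A w := by
  classical
  let F : ∀ k, {θ : Tw.B k → Gp A //
      ∀ b a b', (Tw.Γ k).E b a b' → θ b' = θ b * gv A [a]} := fun k =>
    Nat.rec (motive := fun k => {θ : Tw.B k → Gp A //
      ∀ b a b', (Tw.Γ k).E b a b' → θ b' = θ b * gv A [a]})
      ⟨fun _ => 1, fun b a b' h => absurd h (Tw.no_edge b a b')⟩
      (fun k θ => ⟨Classical.choose (theta_step (Tw.plus k) θ.1 θ.2),
        (Classical.choose_spec (theta_step (Tw.plus k) θ.1 θ.2)).2.1⟩) k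
  refine ⟨fun k => (F k).1, rfl, fun k b => ?_, fun k => (F k).2, fun k β b x y w h hw => ?_⟩
  · exact (Classical.choose_spec (theta_step (Tw.plus k) (F k).1 (F k).2)).1 b
  · exact (Classical.choose_spec (theta_step (Tw.plus k) (F k).1 (F k).2)).2.2 β b x y w h hw

end Crest.Agent.R199
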