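import Crest.Agent.R199.DatumDefs
import Crest.Agent.R199.Theta

/-!
Row 199, piece I4: the algebraic identity of a cell.

`Vc D c` : the V-vertices in the connected component of the leaf `o c`; `uv D c v` : the group element of
a path from the leaf to v.  `Acell` : the function γ ↦ Σ_{v ∈ Vc c} [φ(uv c v) = γ] f_v.

PROOF of `uv_spec`: val_eq.
`cell_identity`: the left-hand side is Σ over half-edges h with h.1.1 ∈ Vc c, π h.1.2 = c' and
φ(uv c h.1.1) * φ(gv [(h.1.2,true)]) = γ of 1 (values in ZMod 2 are 0 or 1; f v t ≠ 0 ↔ f v t = 1). Call this finite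
set S (classical; HE is finite). m maps S to S: (m h).1.1 is connected to h.1.1 via the W-vertex (path
[(h.1.2,true),((m h).1.2,false)]), `cls`, and uv c h.1.1 * gv [h.1.2] = uv c (m h).1.1 * gv [(m h).1.2] since both are values of
paths from the leaf to wv h (`val_eq`). The fixed points of m are the o c'' (`fix`), and o c'' ∈ S
forces c'' = c (all V-vertices of the component of the leaf o c have cp = c: cp is constant along edges
by cp_m, and cp_o). So |S| is odd iff o c ∈ S (Finset.sum_involution on S.erase (o c), or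
Finset.card parity of fixed points of an involution) and o c ∈ S iff c' = c (o_cls) and γ = 1
(uv c (o c).1.1 = (gv [((o c).1.2,true)])⁻¹: the one-letter path [((o c).1.2,false)] from the leaf).
-/
set_option autoImplicit false

namespace Crest.Agent.R199

open Classical

variable {T C V : Type} [Fintype T] [Fintype V] [DecidableEq C] {g0 : ℕ}

/-- the leaf of component `c` -/
noncomputable def Datum.leaf (D : Datum T C V g0) (c : C) : V ⊕ Set (HE D.f) := D.wv (D.o c)

noncomputable def Vc (D : Datum T C V g0) (c : C) : Finset V :=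
  Finset.univ.filter (fun v => ∃ w, Rd D.A (D.leaf c) w (Sum.inl v))

noncomputable def uv (D : Datum T C V g0) (c : C) (v : V) : Gp D.A :=
  if h : ∃ w, Rd D.A (D.leaf c) w (Sum.inl v) then gv D.A h.choose else 1

theorem uv_spec (D : Datum T C V g0) {c : C} {v : V} {w : List (T × Bool)}
    (h : Rd D.A (D.leaf c) w (Sum.inl v)) : uv D c v = gv D.A w := by
  have h' : ∃ w, Rd D.A (D.leaf c) w (Sum.inl v) := ⟨w, h⟩
  unfold uv
  rw [dif_pos h']
  exact val_eq h'.choose_spec h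

theorem mem_Vc (D : Datum T C V g0) {c : C} {v : V} :
    v ∈ Vc D c ↔ ∃ w, Rd D.A (D.leaf c) w (Sum.inl v) := by
  simp [Vc]

theorem gv_ft (D : Datum T C V g0) (t : T) :
    gv D.A [(t, false)] * gv D.A [(t, true)] = 1 := by
  have h : gv D.A [(t, false)] = (gv D.A [(t, true)])⁻¹ := by
    rw [← gv_invRev]
    simp [FreeGroup.invRev]
  rw [h, inv_mul_cancel]

/-- the component function on positions -/
def CP (D : Datum T C V g0) (c : C) : V ⊕ Set (HE D.f) → Prop
  | Sum.inl v => D.cp v = c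
  | Sum.inr s => ∀ h : HE D.f, (Sum.inr s : V ⊕ Set (HE D.f)) = D.wv h → D.cp h.1.1 = c

theorem CP_wv (D : Datum T C V g0) (c : C) (h : HE D.f) :
    CP D c (D.wv h) ↔ D.cp h.1.1 = c := by
  constructor
  · intro hc
    exact hc h rfl
  · intro hc h' hh'
    rcases D.wv_inj (h := h) (h' := h') hh' with e | e
    · rw [e]; exact hc
    · rw [e, D.cp_m]; exact hc

theorem CP_Rd (D : Datum T C V g0) (c : C) {w : List (T × Bool)} {x y : V ⊕ Set (HE D.f)}
    (h : Rd D.A x w y) (hx : CP D c x) : CP D c y := by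
  induction w generalizing x with
  | nil =>
    obtain rfl : x = y := h
    exact hx
  | cons a w ih =>
    obtain ⟨z, h1, h2⟩ := h
    refine ih h2 ?_
    obtain ⟨k, ⟨e1, e2, e3⟩ | ⟨e1, e2, e3⟩⟩ := h1
    · rw [e3, CP_wv]
      rw [e1] at hx
      exact hx
    · rw [e3]
      rw [e1, CP_wv] at hx
      exact hx

theorem cp_Vc (D : Datum T C V g0) {c : C} {v : V} (h : v ∈ Vc D c) : D.cp v = c := by
  obtain ⟨w, hw⟩ := (mem_Vc D).1 h
  have h1 : CP D c (D.leaf c) := by
    unfold Datum.leaf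
    rw [CP_wv]
    exact D.cp_o c
  exact CP_Rd D c hw h1

/-- moving along the matching -/
theorem m_Vc (D : Datum T C V g0) {c : C} {h : HE D.f} (hv : h.1.1 ∈ Vc D c) :
    (D.m h).1.1 ∈ Vc D c ∧
      uv D c (D.m h).1.1 * gv D.A [((D.m h).1.2, true)] =
        uv D c h.1.1 * gv D.A [(h.1.2, true)] := by
  obtain ⟨w, hw⟩ := (mem_Vc D).1 hv
  have e1 : D.A.E (Sum.inl h.1.1) (h.1.2, true) (D.wv h) := D.E_inl.2 ⟨h, rfl, rfl, rfl⟩
  have e2 : D.A.E (D.wv h) ((D.m h).1.2, false) (Sum.inl (D.m h).1.1) :=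
    D.E_wv.2 (Or.inr ⟨rfl, rfl⟩)
  have hr : Rd D.A (D.leaf c) ((w ++ [(h.1.2, true)]) ++ [((D.m h).1.2, false)])
      (Sum.inl (D.m h).1.1) :=
    Rd_trans (Rd_trans hw (Rd_single.2 e1)) (Rd_single.2 e2)
  refine ⟨(mem_Vc D).2 ⟨_, hr⟩, ?_⟩
  rw [uv_spec D hr, uv_spec D hw, gv_append, gv_append, mul_assoc, gv_ft, mul_one]

theorem o_Vc (D : Datum T C V g0) (c : C) :
    (D.o c).1.1 ∈ Vc D c ∧ uv D c (D.o c).1.1 * gv D.A [((D.o c).1.2, true)] = 1 := by
  have hr : Rd D.A (D.leaf c) [((D.o c).1.2, false)] (Sum.inl (D.o c).1.1) := by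
    rw [Rd_single]
    exact D.E_wv.2 (Or.inl ⟨rfl, rfl⟩)
  exact ⟨(mem_Vc D).2 ⟨_, hr⟩, by rw [uv_spec D hr, gv_ft]⟩

theorem zmod2_ite (a : ZMod 2) : a = if a ≠ 0 then 1 else 0 := by
  revert a; decide

noncomputable def Acell (D : Datum T C V g0) {Γ : Type} [Group Γ] (φ : Gp D.A →* Γ) (c : C) :
    Γ → T → ZMod 2 :=
  fun γ t => ∑ v ∈ Vc D c, if φ (uv D c v) = γ then D.f v t else 0

theorem cell_identity (D : Datum T C V g0) {Γ : Type} [Group Γ] (φ : Gp D.A →* Γ) (c c' : C)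
    (γ : Γ) :
    ∑ t with D.π t = c', Acell D φ c (γ * (φ (gv D.A [(t, true)]))⁻¹) t =
      if γ = 1 ∧ c' = c then 1 else 0 := by
  set S : Finset (V × T) := Finset.univ.filter (fun p => D.f p.1 p.2 ≠ 0 ∧ p.1 ∈ Vc D c ∧
    D.π p.2 = c' ∧ φ (uv D c p.1 * gv D.A [(p.2, true)]) = γ) with hS
  have memS : ∀ p, p ∈ S ↔ D.f p.1 p.2 ≠ 0 ∧ p.1 ∈ Vc D c ∧
    D.π p.2 = c' ∧ φ (uv D c p.1 * gv D.A [(p.2, true)]) = γ := by
    intro p; rw [hS]; simp
  have h1 : ∑ t with D.π t = c', Acell D φ c (γ * (φ (gv D.A [(t, true)]))⁻¹) t =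
      ∑ p ∈ S, (1 : ZMod 2) := by
    have h2 : ∀ t, Acell D φ c (γ * (φ (gv D.A [(t, true)]))⁻¹) t =
        ∑ v : V, if (v ∈ Vc D c ∧ φ (uv D c v * gv D.A [(t, true)]) = γ) ∧ D.f v t ≠ 0
          then (1 : ZMod 2) else 0 := by
      intro t
      unfold Acell
      rw [← Finset.sum_filter_add_sum_filter_not Finset.univ (fun v => v ∈ Vc D c)]
      have h3 : ∑ v with ¬ v ∈ Vc D c,
          (if (v ∈ Vc D c ∧ φ (uv D c v * gv D.A [(t, true)]) = γ) ∧ D.f v t ≠ 0
            then (1 : ZMod 2) else 0) = 0 := by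
        refine Finset.sum_eq_zero fun v hv => ?_
        rw [Finset.mem_filter] at hv
        rw [if_neg]
        rintro ⟨⟨h, _⟩, _⟩
        exact hv.2 h
      rw [h3, add_zero]
      have h4 : Finset.univ.filter (fun v => v ∈ Vc D c) = Vc D c := by
        ext v; simp
      rw [h4]
      refine Finset.sum_congr rfl fun v hv => ?_
      have h5 : φ (uv D c v) = γ * (φ (gv D.A [(t, true)]))⁻¹ ↔
          φ (uv D c v * gv D.A [(t, true)]) = γ := by
        rw [map_mul]
        exact eq_mul_inv_iff_mul_eq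
      by_cases h6 : φ (uv D c v * gv D.A [(t, true)]) = γ
      · rw [if_pos (h5.2 h6)]
        by_cases h7 : D.f v t ≠ 0
        · rw [if_pos ⟨⟨hv, h6⟩, h7⟩]
          have := zmod2_ite (D.f v t)
          rw [if_pos h7] at this
          exact this
        · rw [if_neg (fun h => h7 h.2)]
          exact not_not.1 h7
      · rw [if_neg (fun h => h6 (h5.1 h)), if_neg (fun h => h6 h.1.2)]
    rw [Finset.sum_congr rfl (fun t _ => h2 t), Finset.sum_filter]
    rw [hS, Finset.sum_filter, Fintype.sum_prod_type, Finset.sum_comm]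
    refine Finset.sum_congr rfl fun t _ => ?_
    by_cases h3 : D.π t = c'
    · rw [if_pos h3]
      refine Finset.sum_congr rfl fun v _ => ?_
      by_cases h4 : (v ∈ Vc D c ∧ φ (uv D c v * gv D.A [(t, true)]) = γ) ∧ D.f v t ≠ 0
      · rw [if_pos h4, if_pos ⟨h4.2, h4.1.1, h3, h4.1.2⟩]
      · rw [if_neg h4, if_neg (fun h => h4 ⟨⟨h.2.1, h.2.2.2⟩, h.1⟩)]
    · rw [if_neg h3]
      symm
      exact Finset.sum_eq_zero fun v _ => if_neg (fun h => h3 h.2.2.1)
  rw [h1]
  -- the involution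
  have h2 : ∑ p ∈ S.erase (D.o c).1, (1 : ZMod 2) = 0 := by
    refine Finset.sum_involution (fun p hp => (D.m ⟨p, ((memS p).1 (Finset.mem_of_mem_erase hp)).1⟩).1)
      ?_ ?_ ?_ ?_
    · intro p hp
      decide
    · intro p hp _ he
      have hpS := (memS p).1 (Finset.mem_of_mem_erase hp)
      have h3 : D.m ⟨p, hpS.1⟩ = ⟨p, hpS.1⟩ := Subtype.ext he
      obtain ⟨c'', h4⟩ := (D.fix _).1 h3
      have h5 : D.cp p.1 = c := cp_Vc D hpS.2.1
      have h6 : D.cp (D.o c'').1.1 = c'' := D.cp_o c''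
      rw [← h4] at h6
      have h7 : c'' = c := by rw [← h6]; exact h5
      rw [h7] at h4
      exact Finset.ne_of_mem_erase hp (congrArg Subtype.val h4)
    · intro p hp
      have hpS := (memS p).1 (Finset.mem_of_mem_erase hp)
      rw [Finset.mem_erase]
      constructor
      · intro he
        have h3 : D.m ⟨p, hpS.1⟩ = D.o c := Subtype.ext he
        have h4 : (⟨p, hpS.1⟩ : HE D.f) = D.o c := by
          rw [← D.inv ⟨p, hpS.1⟩, h3]
          exact (D.fix _).2 ⟨c, rfl⟩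
        exact Finset.ne_of_mem_erase hp (congrArg Subtype.val h4)
      · rw [memS]
        have h3 := m_Vc D (h := ⟨p, hpS.1⟩) hpS.2.1
        refine ⟨(D.m ⟨p, hpS.1⟩).2, h3.1, ?_, ?_⟩
        · exact (D.cls ⟨p, hpS.1⟩).trans hpS.2.2.1
        · exact (congrArg φ h3.2).trans hpS.2.2.2
    · intro p hp
      exact congrArg Subtype.val (D.inv _)
  by_cases h3 : (D.o c).1 ∈ S
  · rw [← Finset.add_sum_erase S _ h3, h2, add_zero]
    have h4 := (memS _).1 h3
    rw [if_pos]
    refine ⟨?_, ?_⟩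
    · rw [← h4.2.2.2, (o_Vc D c).2, map_one]
    · rw [← h4.2.2.1, D.o_cls]
  · rw [← Finset.erase_eq_of_notMem h3, h2, if_neg]
    rintro ⟨h4, h5⟩
    refine h3 ((memS _).2 ⟨(D.o c).2, (o_Vc D c).1, ?_, ?_⟩)
    · rw [D.o_cls, h5]
    · rw [(o_Vc D c).2, map_one, h4]

end Crest.Agent.R199
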