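import Crest.Agent.R199.Defs

/-! Row 199, basic API for `Rd`, `Cell` (proved). -/
set_option autoImplicit false

namespace Crest.Agent.R199

open FreeGroup (IsReduced invRev)

variable {T B P : Type}

theorem Rd_nil {Γ : IG T B} {b b' : B} : Rd Γ b [] b' ↔ b = b' := Iff.rfl

theorem Rd_cons {Γ : IG T B} {b b' : B} {a : T × Bool} {w : List (T × Bool)} :
    Rd Γ b (a :: w) b' ↔ ∃ c, Γ.E b a c ∧ Rd Γ c w b' := Iff.rfl

theorem Rd_refl {Γ : IG T B} (b : B) : Rd Γ b [] b := rfl

theorem Rd_single {Γ : IG T B} {b b' : B} {a : T × Bool} : Rd Γ b [a] b' ↔ Γ.E b a b' := by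
  simp [Rd]

theorem Rd_append {Γ : IG T B} {w w' : List (T × Bool)} {b b' : B} :
    Rd Γ b (w ++ w') b' ↔ ∃ c, Rd Γ b w c ∧ Rd Γ c w' b' := by
  induction w generalizing b with
  | nil => simp [Rd]
  | cons a w ih =>
    simp only [List.cons_append, Rd, ih]
    constructor
    · rintro ⟨c, h1, d, h2, h3⟩; exact ⟨d, ⟨c, h1, h2⟩, h3⟩
    · rintro ⟨d, ⟨c, h1, h2⟩, h3⟩; exact ⟨c, h1, d, h2, h3⟩

theorem Rd_trans {Γ : IG T B} {w w' : List (T × Bool)} {b c b' : B}
    (h : Rd Γ b w c) (h' : Rd Γ c w' b') : Rd Γ b (w ++ w') b' :=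
  Rd_append.2 ⟨c, h, h'⟩

theorem Rd_det {Γ : IG T B} {w : List (T × Bool)} {b c c' : B}
    (h : Rd Γ b w c) (h' : Rd Γ b w c') : c = c' := by
  induction w generalizing b with
  | nil => exact h.symm.trans h'
  | cons a w ih =>
    obtain ⟨d, h1, h2⟩ := h
    obtain ⟨d', h1', h2'⟩ := h'
    obtain rfl := Γ.det _ _ _ _ h1 h1'
    exact ih h2 h2'

theorem Rd_inv {Γ : IG T B} {w : List (T × Bool)} {b c : B}
    (h : Rd Γ b w c) : Rd Γ c (invRev w) b := by
  induction w generalizing b with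
  | nil => exact h.symm
  | cons a w ih =>
    obtain ⟨d, h1, h2⟩ := h
    have : invRev (a :: w) = invRev w ++ [(a.1, !a.2)] := by simp [FreeGroup.invRev]
    rw [this]
    exact Rd_trans (ih h2) (Rd_single.2 (Γ.symm _ _ _ h1))

theorem Rd_inv_iff {Γ : IG T B} {w : List (T × Bool)} {b c : B} :
    Rd Γ c (invRev w) b ↔ Rd Γ b w c :=
  ⟨fun h => by simpa [FreeGroup.invRev_invRev] using Rd_inv h, Rd_inv⟩

/-- start points are determined by end points -/
theorem Rd_inj {Γ : IG T B} {w : List (T × Bool)} {b b' c : B}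
    (h : Rd Γ b w c) (h' : Rd Γ b' w c) : b = b' :=
  Rd_det (Rd_inv h) (Rd_inv h')

theorem Rd_step {Γ : IG T B} {w w' : List (T × Bool)} {b c : B}
    (hs : FreeGroup.Red.Step w w') (h : Rd Γ b w c) : Rd Γ b w' c := by
  cases hs with
  | @not L1 L2 x y =>
    obtain ⟨d, h1, h2⟩ := Rd_append.1 h
    obtain ⟨e, h3, f, h4, h5⟩ := h2
    have h6 := Γ.symm _ _ _ h3
    obtain rfl := Γ.det _ _ _ _ h4 h6
    exact Rd_trans h1 h5

theorem Rd_red {Γ : IG T B} {w w' : List (T × Bool)} {b c : B}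
    (hs : FreeGroup.Red w w') (h : Rd Γ b w c) : Rd Γ b w' c := by
  induction hs with
  | refl => exact h
  | tail _ hs ih => exact Rd_step hs ih

theorem Rd_reduce [DecidableEq T] {Γ : IG T B} {w : List (T × Bool)} {b c : B}
    (h : Rd Γ b w c) : Rd Γ b (FreeGroup.reduce w) c :=
  Rd_red FreeGroup.reduce.red h

/-- every readable word can be replaced by a reduced one of at most the same length, equal in the
free group. -/
theorem exists_reduced (w : List (T × Bool)) : ∃ w', IsReduced w' ∧ w'.length ≤ w.length ∧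
    FreeGroup.mk w' = FreeGroup.mk w ∧ FreeGroup.Red w w' := by
  classical
  refine ⟨FreeGroup.reduce w, ?_, ?_, FreeGroup.reduce.self, FreeGroup.reduce.red⟩
  · exact FreeGroup.isReduced_iff_reduce_eq.2 FreeGroup.reduce.idem
  · exact (FreeGroup.Red.length_le FreeGroup.reduce.red)

theorem Rd_prefix {Γ : IG T B} {w v : List (T × Bool)} {b c : B}
    (h : Rd Γ b w c) (hv : v <+: w) : ∃ d, Rd Γ b v d := by
  obtain ⟨u, rfl⟩ := hv
  obtain ⟨d, h1, _⟩ := Rd_append.1 h
  exact ⟨d, h1⟩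

theorem isReduced_append_left {w w' : List (T × Bool)} (h : IsReduced (w ++ w')) :
    IsReduced w := h.infix ⟨[], w', by simp⟩

theorem isReduced_append_right {w w' : List (T × Bool)} (h : IsReduced (w ++ w')) :
    IsReduced w' := h.infix ⟨w, [], by simp⟩

theorem isReduced_invRev {w : List (T × Bool)} (h : IsReduced w) : IsReduced (invRev w) := by
  classical
  rw [FreeGroup.isReduced_iff_reduce_eq] at h ⊢
  rw [FreeGroup.reduce_invRev, h]

theorem eq_of_mk_eq {w w' : List (T × Bool)} (h : IsReduced w) (h' : IsReduced w')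
    (he : FreeGroup.mk w = FreeGroup.mk w') : w = w' := by
  classical
  rw [← FreeGroup.isReduced_iff_reduce_eq.1 h, ← FreeGroup.isReduced_iff_reduce_eq.1 h']
  exact FreeGroup.reduce.sound he

/-- junction criterion: `w ++ w'` is reduced iff both are and the letters at the junction do not
cancel. -/
theorem isReduced_append_iff {w w' : List (T × Bool)} :
    IsReduced (w ++ w') ↔ IsReduced w ∧ IsReduced w' ∧
      ∀ a ∈ w.getLast?, ∀ b ∈ w'.head?, a.1 = b.1 → a.2 = b.2 := by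
  unfold FreeGroup.IsReduced
  rw [List.isChain_append]

/-- two reduced words cancel along a common middle part. -/
theorem cancel (p s : List (T × Bool)) (hp : IsReduced p) (hs : IsReduced s) :
    ∃ p₁ c q, p = p₁ ++ c ∧ s = invRev c ++ q ∧ IsReduced (p₁ ++ q) := by
  induction p using List.reverseRecOn generalizing s with
  | nil => exact ⟨[], [], s, by simp, by simp, by simpa using hs⟩
  | append_singleton p a ih =>
    by_cases h : IsReduced ((p ++ [a]) ++ s)
    · exact ⟨p ++ [a], [], s, by simp, by simp, h⟩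
    · rw [isReduced_append_iff] at h
      simp only [hp, hs, true_and, not_forall] at h
      obtain ⟨a', ha', b, hb, h1, h2⟩ := h
      simp only [List.getLast?_append, List.getLast?_singleton, Option.some_or,
        Option.mem_def, Option.some.injEq] at ha'
      subst ha'
      cases s with
      | nil => simp at hb
      | cons b' s =>
        simp only [List.head?_cons, Option.mem_def, Option.some.injEq] at hb
        subst hb
        have hb2 : b' = (a.1, !a.2) := by
          refine Prod.ext h1.symm ?_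
          revert h2; cases a.2 <;> cases b'.2 <;> simp
        obtain ⟨p₁, c, q, h3, h4, h5⟩ := ih s (isReduced_append_left hp)
          (isReduced_append_right (w := [b']) hs)
        refine ⟨p₁, c ++ [a], q, by rw [h3]; simp, ?_, h5⟩
        rw [h4, hb2]
        simp [FreeGroup.invRev]

theorem Cell.refl (Γ : IG T B) (A : IG T P) (b : B) (x : P) : Cell Γ A b x b x := ⟨[], rfl, rfl⟩

theorem Cell.symm {Γ : IG T B} {A : IG T P} {b b' : B} {x x' : P}
    (h : Cell Γ A b x b' x') : Cell Γ A b' x' b x := by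
  obtain ⟨w, h1, h2⟩ := h
  exact ⟨invRev w, Rd_inv h1, Rd_inv h2⟩

theorem Cell.trans {Γ : IG T B} {A : IG T P} {b b' b'' : B} {x x' x'' : P}
    (h : Cell Γ A b x b' x') (h' : Cell Γ A b' x' b'' x'') : Cell Γ A b x b'' x'' := by
  obtain ⟨w, h1, h2⟩ := h
  obtain ⟨w', h1', h2'⟩ := h'
  exact ⟨w ++ w', Rd_trans h1 h1', Rd_trans h2 h2'⟩

theorem Cell.reduced {Γ : IG T B} {A : IG T P} {b b' : B} {x x' : P}
    (h : Cell Γ A b x b' x') : ∃ w, IsReduced w ∧ Rd Γ b w b' ∧ Rd A x w x' := by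
  obtain ⟨w, h1, h2⟩ := h
  obtain ⟨w', h3, _, _, h4⟩ := exists_reduced w
  exact ⟨w', h3, Rd_red h4 h1, Rd_red h4 h2⟩

theorem Cell.of_Rd {Γ : IG T B} {A : IG T P} {b b' : B} {x x' : P} {w : List (T × Bool)}
    (h : Rd Γ b w b') (h' : Rd A x w x') : Cell Γ A b x b' x' := ⟨w, h, h'⟩

/-- completeness is a property of the cell -/
theorem Complete.of_Rd {Γ : IG T B} {A : IG T P} {b b' : B} {x x' : P}
    (h : Complete Γ A b x) (hc : Cell Γ A b x b' x') : Complete Γ A b' x' := by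
  intro w y hw
  obtain ⟨v, h1, h2⟩ := hc
  obtain ⟨c, hc⟩ := h (v ++ w) y (Rd_trans h2 hw)
  obtain ⟨d, h3, h4⟩ := Rd_append.1 hc
  obtain rfl := Rd_det h1 h3
  exact ⟨c, h4⟩

theorem Rr.symm {Γ : IG T B} {A : IG T P} {b b' : B} {x y x' y' : P}
    (h : Rr Γ A b x y b' x' y') : Rr Γ A b' x' y' b x y := by
  obtain ⟨b₁, x₁, x₁', s, h1, h2, h3, h4⟩ := h
  exact ⟨b₁, x₁', x₁, s, h2, h1, h4, h3⟩

theorem Rr.refl {Γ : IG T B} {A : IG T P} {b : B} {x y : P} {w : List (T × Bool)}
    (h : Rd A x w y) : Rr Γ A b x y b x y :=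
  ⟨b, x, x, w, Cell.refl Γ A b x, Cell.refl Γ A b x, h, h⟩

/-- in `Rr` the word may be taken reduced -/
theorem Rr.reduced {Γ : IG T B} {A : IG T P} {b b' : B} {x y x' y' : P}
    (h : Rr Γ A b x y b' x' y') : ∃ b₁ x₁ x₁' s, IsReduced s ∧ Cell Γ A b x b₁ x₁ ∧
      Cell Γ A b' x' b₁ x₁' ∧ Rd A x₁ s y ∧ Rd A x₁' s y' := by
  obtain ⟨b₁, x₁, x₁', s, h1, h2, h3, h4⟩ := h
  obtain ⟨s', h5, _, _, h6⟩ := exists_reduced s
  exact ⟨b₁, x₁, x₁', s', h5, h1, h2, Rd_red h6 h3, Rd_red h6 h4⟩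

end Crest.Agent.R199
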