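import Crest.Agent.R199.Geo

/-!
Row 199, part II, pieces CLS1, CLS2 (helper12): choice of the classes (active points).

CLS1 (`info_set`): for a subspace `X` of functions on a finite set `J`, `r = dim X`, there are points
`p : Fin r → J` (injective) such that `f ↦ (f (p c))_c` is a bijection `X → (Fin r → F₂)`.
Proof: the evaluation functionals `evf x : X →ₗ F₂`, `x : J`, span the dual (if `f ∈ X` is killed by
all of them then `f = 0`); `exists_linearIndependent`/`Module.Basis.exists...` gives a basis of the dual
consisting of evaluations. (Or by induction on `dim X`: take `f ≠ 0` in `X`, a point `x` with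
`f x ≠ 0`, and apply the induction hypothesis to the kernel of the evaluation at `x`.)

CLS2 (`classes`): if `3 r + 1 ≤ |J|` then there is an injective `p : Fin r × Fin 3 → J` with
`f ↦ (∑ i, f (p (c, i)))_c` bijective `X → (Fin r → F₂)`.
Proof: process the classes one after the other. State after `k` steps (`k ≤ r`): disjoint finite sets
`P c ⊆ J` (`c : Fin r`), with `|P c| = 3` for `c < k` and `|P c| = 1` for `k ≤ c`, such that
`f ↦ (∑ x ∈ P c, f x)_c` is bijective on `X`. Step: let `φ_c (f) = ∑ x ∈ P c, f x`, a basis of the dual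
(`X ≃ₗ (Fin r → F₂)`), `g ∈ X` the element with `φ_c g = [c = k]`; there are at least 3 unused
points, two of them, `a ≠ b`, have `g a = g b`; replace `P k` by `P k ∪ {a,b}`: the new functional
`φ' = φ_k + ev_a + ev_b` has `φ' g = 1`, and if all new functionals vanish on `f`, then
`φ_c f = 0` for `c ≠ k`, so `f = φ_k(f) • g`, so `0 = φ' f = φ_k(f)`, so `f = 0` : injective, hence
bijective (equal finite dimension).
-/
set_option autoImplicit false

namespace Crest.Agent.R199

open Finset

theorem info_set {J : Type} [Fintype J] [DecidableEq J] (X : Submodule (ZMod 2) (J → ZMod 2))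
    (r : ℕ) (hr : Module.finrank (ZMod 2) X = r) :
    ∃ p : Fin r → J, Function.Injective p ∧
      Function.Bijective fun (f : X) (c : Fin r) => (f : J → ZMod 2) (p c) := by
  -- it suffices to have a separating family of `r` points
  have key : ∀ (Y : Submodule (ZMod 2) (J → ZMod 2)) (k : ℕ), Module.finrank (ZMod 2) Y = k →
      ∀ p : Fin k → J, (∀ f ∈ Y, (∀ c, f (p c) = 0) → f = 0) →
        Function.Bijective fun (f : Y) (c : Fin k) => (f : J → ZMod 2) (p c) := by
    intro Y k hk p hp
    let Φ : Y →ₗ[ZMod 2] (Fin k → ZMod 2) :=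
      { toFun := fun f c => (f : J → ZMod 2) (p c)
        map_add' := fun f g => rfl
        map_smul' := fun a f => rfl }
    have hinj : Function.Injective Φ := by
      rw [← LinearMap.ker_eq_bot, LinearMap.ker_eq_bot']
      intro f hf
      exact Subtype.ext (hp f f.2 fun c => congrFun hf c)
    have hsurj : Function.Surjective Φ :=
      (LinearMap.injective_iff_surjective_of_finrank_eq_finrank (by simp [hk])).1 hinj
    exact ⟨hinj, hsurj⟩
  suffices h : ∀ (k : ℕ) (Y : Submodule (ZMod 2) (J → ZMod 2)), Module.finrank (ZMod 2) Y = k →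
      ∃ p : Fin k → J, Function.Injective p ∧ (∀ f ∈ Y, (∀ c, f (p c) = 0) → f = 0) by
    obtain ⟨p, h1, h2⟩ := h r X hr
    exact ⟨p, h1, key X r hr p h2⟩
  intro k
  induction k with
  | zero =>
    intro Y hY
    refine ⟨Fin.elim0, fun a => a.elim0, fun f hf _ => ?_⟩
    have : Y = ⊥ := Submodule.finrank_eq_zero.1 hY
    rw [this] at hf
    exact (Submodule.mem_bot _).1 hf
  | succ k ih =>
    intro Y hY
    have hne : Y ≠ ⊥ := by
      intro h
      rw [h, finrank_bot] at hY
      omega
    obtain ⟨f₀, hf₀, hf₀'⟩ := Submodule.exists_mem_ne_zero_of_ne_bot hne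
    obtain ⟨x, hx⟩ := Function.ne_iff.1 hf₀'
    -- the subspace of functions vanishing at `x`
    let ev : Y →ₗ[ZMod 2] ZMod 2 := (LinearMap.proj x).comp Y.subtype
    have hev : ∀ f : Y, ev f = (f : J → ZMod 2) x := fun f => rfl
    have hrange : LinearMap.range ev = ⊤ := by
      rw [LinearMap.range_eq_top]
      intro a
      refine ⟨(a * ((f₀ x)⁻¹)) • ⟨f₀, hf₀⟩, ?_⟩
      rw [map_smul, hev, smul_eq_mul]
      have : f₀ x ≠ 0 := hx
      field_simp
    have hker : Module.finrank (ZMod 2) (LinearMap.ker ev) = k := by
      have h1 := LinearMap.finrank_range_add_finrank_ker ev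
      rw [hrange, finrank_top, Module.finrank_self, hY] at h1
      omega
    obtain ⟨p', hp1, hp2⟩ := ih ((LinearMap.ker ev).map Y.subtype)
      (by rw [← hker]; exact Submodule.finrank_map_subtype_eq Y _)
    have hsurj := (key _ k
      (by rw [← hker]; exact Submodule.finrank_map_subtype_eq Y _) p' hp2).2
    have hxp : ∀ c, x ≠ p' c := by
      intro c hc
      obtain ⟨f, hf⟩ := hsurj (fun d => if d = c then 1 else 0)
      have hfc := congrFun hf c
      simp only [if_true] at hfc
      obtain ⟨g, hg1, hg2⟩ := Submodule.mem_map.1 f.2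
      have hg3 : (g : J → ZMod 2) x = 0 := by
        rw [← hev]; exact LinearMap.mem_ker.1 hg1
      rw [← hg2, ← hc] at hfc
      rw [Submodule.subtype_apply, hg3] at hfc
      exact zero_ne_one hfc
    refine ⟨Fin.cons x p', ?_, ?_⟩
    · rw [Fin.cons_injective_iff]
      refine ⟨?_, hp1⟩
      rintro ⟨c, hc⟩
      exact hxp c hc.symm
    · intro f hf hz
      have h0 : f x = 0 := by simpa using hz 0
      have hs : ∀ c, f (p' c) = 0 := fun c => by simpa using hz c.succ
      exact hp2 f (Submodule.mem_map.2 ⟨⟨f, hf⟩, LinearMap.mem_ker.2 h0, rfl⟩) hs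

end Crest.Agent.R199
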