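import Crest.Agent.R199.ClassesA

/-!
Row 199, part II, pieces CLS1, CLS2 (helper12): choice of the classes (active points).

CLS1 (`info_set`): for a subspace `X` of functions on a finite set `J`, `r = dim X`, there are points
`p : Fin r → J` (injective) such that `f ↦ (f (p c))_c` is a bijection `X → (Fin r → F₂)`.
Proof: the evaluation functionals `evf x : X →ₗ F₂`, `x : J`, span the dual (if `f ∈ X` is killed by
all of them then `f = 0`); `exists_linearIndependent`/`Module.Basis.exists...` gives a basis of the dual
consisting of evaluations. (Or by induction on `dim X`: take `f ≠ 0` in `X`, a point `x` with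
`f x ≠ 0`, and apply the induction hypothesis to the kernel of the evaluation at `x`.)

CLS2 (`classes`): if `3 r + 1 ≤ |J|` then there is an injective `p : Fin r × Fin 3 → J` with
`f ↦ (∑ i, f (p (c, i)))_c` bijective `X → (Fin r → F₂)`.
Proof: process the classes one after the other. State after `k` steps (`k ≤ r`): disjoint finite sets
`P c ⊆ J` (`c : Fin r`), with `|P c| = 3` for `c < k` and `|P c| = 1` for `k ≤ c`, such that
`f ↦ (∑ x ∈ P c, f x)_c` is bijective on `X`. Step: let `φ_c (f) = ∑ x ∈ P c, f x`, a basis of the dual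
(`X ≃ₗ (Fin r → F₂)`), `g ∈ X` the element with `φ_c g = [c = k]`; there are at least 3 unused
points, two of them, `a ≠ b`, have `g a = g b`; replace `P k` by `P k ∪ {a,b}`: the new functional
`φ' = φ_k + ev_a + ev_b` has `φ' g = 1`, and if all new functionals vanish on `f`, then
`φ_c f = 0` for `c ≠ k`, so `f = φ_k(f) • g`, so `0 = φ' f = φ_k(f)`, so `f = 0` : injective, hence
bijective (equal finite dimension).
-/
set_option autoImplicit false

namespace Crest.Agent.R199

open Finset

/-- the class-sum map -/
noncomputable def clsMap {J : Type} (X : Submodule (ZMod 2) (J → ZMod 2)) {r : ℕ}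
    (P : Fin r → Finset J) : X →ₗ[ZMod 2] (Fin r → ZMod 2) where
  toFun f c := ∑ x ∈ P c, (f : J → ZMod 2) x
  map_add' f g := by
    funext c
    simp [Finset.sum_add_distrib]
  map_smul' a f := by
    funext c
    simp [Finset.mul_sum]

theorem clsMap_apply {J : Type} (X : Submodule (ZMod 2) (J → ZMod 2)) {r : ℕ}
    (P : Fin r → Finset J) (f : X) (c : Fin r) :
    clsMap X P f c = ∑ x ∈ P c, (f : J → ZMod 2) x := rfl

theorem clsMap_surj {J : Type} [Fintype J] (X : Submodule (ZMod 2) (J → ZMod 2)) {r : ℕ}
    (hr : Module.finrank (ZMod 2) X = r) (P : Fin r → Finset J)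
    (h : Function.Injective (clsMap X P)) : Function.Surjective (clsMap X P) := by
  refine (LinearMap.injective_iff_surjective_of_finrank_eq_finrank ?_).1 h
  rw [hr, Module.finrank_fin_fun]

theorem cls_step {J : Type} [Fintype J] [DecidableEq J] (X : Submodule (ZMod 2) (J → ZMod 2))
    (r : ℕ) (hr : Module.finrank (ZMod 2) X = r) (hJ : 3 * r + 1 ≤ Fintype.card J)
    (k : ℕ) (hk : k ≤ r) :
    ∃ P : Fin r → Finset J, (∀ c c', c ≠ c' → Disjoint (P c) (P c')) ∧
      (∀ c : Fin r, (P c).card = if c.val < k then 3 else 1) ∧
      Function.Injective (clsMap X P) := by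
  induction k with
  | zero =>
    obtain ⟨p, hp, hb⟩ := info_set X r hr
    refine ⟨fun c => {p c}, ?_, ?_, ?_⟩
    · intro c c' hne
      rw [Finset.disjoint_singleton]
      exact fun h => hne (hp h)
    · intro c; simp
    · intro f g hfg
      apply hb.1
      funext c
      have := congrFun hfg c
      simpa [clsMap_apply] using this
  | succ k ih =>
    obtain ⟨P, hd, hc, hi⟩ := ih (by omega)
    have hkr : k < r := by omega
    set κ : Fin r := ⟨k, hkr⟩ with hκ
    have hs := clsMap_surj X hr P hi
    obtain ⟨g, hg⟩ := hs (fun c => if c = κ then 1 else 0)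
    -- unused points
    have hcardU : (univ.biUnion P).card ≤ 3 * r - 2 := by
      refine card_biUnion_le.trans ?_
      have h1 : ∑ c, (P c).card = ∑ c : Fin r, if c.val < k then 3 else 1 :=
        Finset.sum_congr rfl fun c _ => hc c
      rw [h1]
      have h2 : ∀ c : Fin r, (if c.val < k then 3 else 1) ≤ if c = κ then 1 else 3 := by
        intro c
        by_cases hck : c = κ
        · subst hck; simp [hκ]
        · split_ifs <;> omega
      refine (Finset.sum_le_sum fun c _ => h2 c).trans ?_
      rw [← Finset.add_sum_erase univ _ (mem_univ κ)]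
      have h3 : ∑ x ∈ univ.erase κ, (if x = κ then 1 else 3) = ∑ x ∈ univ.erase κ, 3 :=
        Finset.sum_congr rfl fun x hx => by rw [if_neg (Finset.ne_of_mem_erase hx)]
      rw [h3]
      simp only [if_true, Finset.sum_const, smul_eq_mul]
      rw [Finset.card_erase_of_mem (mem_univ κ), Finset.card_univ, Fintype.card_fin]
      omega
    have hU3 : 3 ≤ (univ.biUnion P)ᶜ.card := by
      rw [Finset.card_compl]; omega
    obtain ⟨a, ha, b, hb, hab, hgab⟩ := Finset.exists_ne_map_eq_of_card_lt_of_maps_to
      (s := (univ.biUnion P)ᶜ) (t := (univ : Finset (ZMod 2)))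
      (f := fun x => (g : J → ZMod 2) x)
      (by
        have : (univ : Finset (ZMod 2)).card = 2 := by
          rw [Finset.card_univ, ZMod.card]
        omega)
      (fun x _ => mem_univ _)
    have haP : ∀ c, a ∉ P c := by
      intro c hac
      rw [Finset.mem_compl] at ha
      exact ha (mem_biUnion.2 ⟨c, mem_univ _, hac⟩)
    have hbP : ∀ c, b ∉ P c := by
      intro c hbc
      rw [Finset.mem_compl] at hb
      exact hb (mem_biUnion.2 ⟨c, mem_univ _, hbc⟩)
    set P' : Fin r → Finset J := fun c => if c = κ then insert a (insert b (P κ)) else P c with hP'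
    have hP'k : P' κ = insert a (insert b (P κ)) := by simp [hP']
    have hP'c : ∀ c, c ≠ κ → P' c = P c := by intro c h; simp [hP', h]
    have haib : a ∉ insert b (P κ) := by
      rw [mem_insert, not_or]; exact ⟨hab, haP κ⟩
    refine ⟨P', ?_, ?_, ?_⟩
    · intro c c' hne
      have hdis : ∀ d, d ≠ κ → Disjoint (insert a (insert b (P κ))) (P d) := by
        intro d hdk
        rw [Finset.disjoint_insert_left, Finset.disjoint_insert_left]
        exact ⟨haP d, hbP d, hd κ d (Ne.symm hdk)⟩
      by_cases h1 : c = κ
      · subst h1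
        rw [hP'k, hP'c c' (Ne.symm hne)]
        exact hdis c' (Ne.symm hne)
      · by_cases h2 : c' = κ
        · subst h2
          rw [hP'k, hP'c c h1]
          exact (hdis c h1).symm
        · rw [hP'c c h1, hP'c c' h2]
          exact hd c c' hne
    · intro c
      by_cases h1 : c = κ
      · subst h1
        rw [hP'k, card_insert_of_notMem haib, card_insert_of_notMem (hbP κ), hc κ]
        simp [hκ]
      · rw [hP'c c h1, hc c]
        have : c.val ≠ k := fun h => h1 (Fin.ext h)
        by_cases h3 : c.val < k
        · rw [if_pos h3, if_pos (by omega)]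
        · rw [if_neg h3, if_neg (by omega)]
    · rw [← LinearMap.ker_eq_bot, LinearMap.ker_eq_bot']
      intro f hf
      have hfc : ∀ c, c ≠ κ → clsMap X P f c = 0 := by
        intro c h
        have := congrFun hf c
        rw [clsMap_apply, hP'c c h] at this
        rw [clsMap_apply]; exact this
      have hfg : f = (clsMap X P f κ) • g := by
        apply hi
        funext c
        rw [map_smul, Pi.smul_apply, hg, smul_eq_mul]
        by_cases h : c = κ
        · subst h; simp
        · rw [hfc c h]; simp [h]
      have hk0 : (f : J → ZMod 2) a + ((f : J → ZMod 2) b + clsMap X P f κ) = 0 := by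
        have := congrFun hf κ
        rw [clsMap_apply, hP'k, sum_insert haib, sum_insert (hbP κ)] at this
        rw [clsMap_apply]; exact this
      have hab' : (f : J → ZMod 2) a = (f : J → ZMod 2) b := by
        rw [hfg]
        show (clsMap X P f κ) * (g : J → ZMod 2) a = (clsMap X P f κ) * (g : J → ZMod 2) b
        rw [hgab]
      have ht : clsMap X P f κ = 0 := by
        rw [hab', ← add_assoc] at hk0
        have h2 : (f : J → ZMod 2) b + (f : J → ZMod 2) b = 0 := by
          rw [← two_mul]
          have : (2 : ZMod 2) = 0 := by decide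
          rw [this, zero_mul]
        rwa [h2, zero_add] at hk0
      rw [hfg, ht, zero_smul]

theorem classes {J : Type} [Fintype J] [DecidableEq J] (X : Submodule (ZMod 2) (J → ZMod 2))
    (r : ℕ) (hr : Module.finrank (ZMod 2) X = r) (hJ : 3 * r + 1 ≤ Fintype.card J) :
    ∃ p : Fin r × Fin 3 → J, Function.Injective p ∧
      Function.Bijective fun (f : X) (c : Fin r) => ∑ i : Fin 3, (f : J → ZMod 2) (p (c, i)) := by
  obtain ⟨P, hd, hc, hi⟩ := cls_step X r hr hJ r le_rfl
  have hc3 : ∀ c, (P c).card = 3 := by
    intro c; rw [hc c, if_pos c.2]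
  let e : ∀ c, P c ≃ Fin 3 := fun c => (P c).equivFinOfCardEq (hc3 c)
  have hsum : ∀ (f : J → ZMod 2) (c : Fin r),
      ∑ i : Fin 3, f (((e c).symm i : P c) : J) = ∑ x ∈ P c, f x := by
    intro f c
    rw [Equiv.sum_comp (e c).symm (fun x : P c => f (x : J))]
    exact Finset.sum_coe_sort (P c) f
  refine ⟨fun x => (((e x.1).symm x.2 : P x.1) : J), ?_, ?_⟩
  · rintro ⟨c, i⟩ ⟨c', i'⟩ h
    have h' : (((e c).symm i : P c) : J) = (((e c').symm i' : P c') : J) := h
    by_cases hcc : c = c'
    · subst hcc
      have := (e c).symm.injective (Subtype.ext h')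
      rw [this]
    · exfalso
      have h1 := ((e c).symm i).2
      rw [h'] at h1
      exact (Finset.disjoint_left.1 (hd c c' hcc)) h1 ((e c').symm i').2
  · have hfun : (fun (f : X) (c : Fin r) => ∑ i : Fin 3,
        (f : J → ZMod 2) (((e c).symm i : P c) : J)) = clsMap X P := by
      funext f c
      rw [clsMap_apply]; exact hsum f c
    show Function.Bijective (fun (f : X) (c : Fin r) => ∑ i : Fin 3,
        (f : J → ZMod 2) (((e c).symm i : P c) : J))
    rw [hfun]
    exact ⟨hi, clsMap_surj X hr P hi⟩

end Crest.Agent.R199
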