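import Crest.Agent.R199.Desc

/-!
Row 199, piece C6b: two elements whose geodesic stays at levels >= L have close ancestors.

PROOF of `close_pair`: n minimal with Dn n x y; c from `Dn_fun`, geodesic: Dn m (c s)(c t) ⇒ replacing gives
Dn (n-(t-s)+m) x y ⇒ t-s ≤ m. L := the minimal level on [0,n]: Lev L (c t₀), c t ∉ BB k for k < L, t ≤ n. a ≤ L + t₀
and a' ≤ L + (n - t₀) (mem_BB_iff, Dn_trans: x ∈ BB (L + t₀)). So L ≤ a, L ≤ a', a + a' ≤ n + 2L.
If k+1 ≤ L: r := from `desc` at level L for c; r' from `desc` at level L for the reversed geodesic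
t ↦ c (n-t): Ch L 2 b_L (c r), Ch L 2 b_L' (c (n-r')), c t ∉ BB L for t < r or t > n-r', so r ≤ n-r'
(t₀ is in between). `flat` on [r, n-r'] (L-1): Ch L 8. Together Ch L 12 b_L b_L'. For ancestors b, b' at level
L-1 choose b_L, b_L' by Anc_next: `contr` m = 12 (8*14+16 = 128 < gam): Ch (L-1) 2 b b'. For smaller k:
induction downwards with Anc_next and `contr` m = 2.
-/
set_option autoImplicit false

namespace Crest.Agent.R199

variable {T P G : Type} [Group G] {A : IG T P} {q : FreeGroup T →* G} {BB : ℕ → Set G} {gam : ℕ}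

theorem cp_sub_Dn {n : ℕ} {c : ℕ → G} (hst : ∀ t, t < n → St A q (c t) (c (t + 1))) {s t : ℕ}
    (hs : s ≤ t) (ht : t ≤ n) : Dn A q (t - s) (c s) (c t) := by
  rw [Dn_fun]
  refine ⟨fun i => c (s + i), by simp, ?_, ?_⟩
  · show c (s + (t - s)) = c t
    rw [Nat.add_sub_cancel' hs]
  · intro i hi
    exact hst (s + i) (by omega)

theorem close_pair [Nonempty P] (hA : RG A gam) (hgam : 129 ≤ gam) (hL : Lay A gam q BB)
    {x y : G} {n : ℕ} (hn : Dn A q n x y) (hmin : ∀ m, Dn A q m x y → n ≤ m) {a a' : ℕ}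
    (ha : Lev BB a x) (ha' : Lev BB a' y) :
    ∃ L, L ≤ a ∧ L ≤ a' ∧ a + a' ≤ n + 2 * L ∧
      ∀ k, k + 1 ≤ L → ∀ b b', Anc A q BB k x b → Anc A q BB k y b' → Ch A q BB k 2 b b' := by
  classical
  obtain ⟨c, hc0, hcn, hst⟩ := Dn_fun.1 hn
  have hgeo : ∀ s t m, s ≤ t → t ≤ n → Dn A q m (c s) (c t) → t ≤ s + m := by
    intro s t m hs ht h
    have h1 := cp_sub_Dn hst (Nat.zero_le s) (hs.trans ht)
    have h2 := cp_sub_Dn hst ht le_rfl
    have h3 := Dn_trans (Dn_trans h1 h) h2
    rw [hc0, hcn] at h3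
    have := hmin _ h3
    omega
  have hexL : ∃ l, ∃ t, t ≤ n ∧ c t ∈ BB l := ⟨a, 0, Nat.zero_le n, by rw [hc0]; exact ha.1⟩
  obtain ⟨L, hLdef⟩ : ∃ L, L = Nat.find hexL := ⟨_, rfl⟩
  obtain ⟨t₀, ht₀, hct₀⟩ : ∃ t, t ≤ n ∧ c t ∈ BB L := by rw [hLdef]; exact Nat.find_spec hexL
  have hLmin : ∀ k, k < L → ∀ t, t ≤ n → c t ∉ BB k := by
    intro k hk t ht h
    rw [hLdef] at hk
    exact Nat.find_min hexL hk ⟨t, ht, h⟩
  have hLa : L ≤ a := by
    by_contra hcon
    push Not at hcon
    exact hLmin a hcon 0 (Nat.zero_le n) (by rw [hc0]; exact ha.1)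
  have hLa' : L ≤ a' := by
    by_contra hcon
    push Not at hcon
    exact hLmin a' hcon n le_rfl (by rw [hcn]; exact ha'.1)
  have h1 : Dn A q L 1 (c t₀) := (mem_BB_iff hL).1 hct₀
  have haL : a ≤ L + t₀ := by
    by_contra hcon
    push Not at hcon
    have h2 := Dn_symm (cp_sub_Dn hst (Nat.zero_le t₀) ht₀)
    have h3 := Dn_trans h1 h2
    rw [hc0, ← mem_BB_iff hL] at h3
    exact ha.2 _ (by omega) h3
  have haL' : a' ≤ L + (n - t₀) := by
    by_contra hcon
    push Not at hcon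
    have h2 := cp_sub_Dn hst ht₀ le_rfl
    have h3 := Dn_trans h1 h2
    rw [hcn, ← mem_BB_iff hL] at h3
    exact ha'.2 _ (by omega) h3
  refine ⟨L, hLa, hLa', by omega, ?_⟩
  -- the main claim at level `L`
  have main : 1 ≤ L → ∀ b b', Anc A q BB L x b → Anc A q BB L y b' → Ch A q BB L 12 b b' := by
    intro hL1 b b' hb hb'
    obtain ⟨r, hr, hr1, hr2, hr3⟩ := desc hA hgam hL n c hst hgeo (a := a)
      (by rw [hc0]; exact ha) L hLa ⟨t₀, ht₀, hct₀⟩
    obtain ⟨r', hr', hr1', hr2', hr3'⟩ := desc hA hgam hL n (fun t => c (n - t))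
      (by
        intro t ht
        have h2 := hst (n - (t + 1)) (by omega)
        have h3 : n - (t + 1) + 1 = n - t := by omega
        rw [h3] at h2
        exact St_symm h2)
      (by
        intro s t m hs ht h
        have := hgeo (n - t) (n - s) m (by omega) (by omega) (Dn_symm h)
        omega) (a := a')
      (by
        show Lev BB a' (c (n - 0))
        rw [Nat.sub_zero, hcn]; exact ha') L hLa'
      ⟨n - t₀, by omega, by
        show c (n - (n - t₀)) ∈ BB L
        have h2 : n - (n - t₀) = t₀ := by omega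
        rw [h2]; exact hct₀⟩
    have e1 : r ≤ t₀ := by
      by_contra hcon
      push Not at hcon
      exact hr2 t₀ hcon hct₀
    have e2 : r' ≤ n - t₀ := by
      by_contra hcon
      push Not at hcon
      have h2 := hr2' (n - t₀) hcon
      have h3 : n - (n - t₀) = t₀ := by omega
      simp only [h3] at h2
      exact h2 hct₀
    obtain ⟨l, rfl⟩ : ∃ l, L = l + 1 := ⟨L - 1, by omega⟩
    have e3 : r + (n - r' - r) = n - r' := by omega
    obtain ⟨_, hflat⟩ := flat hA hgam hL (n - r' - r) l c r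
      (fun t h2 h3 => hst t (by omega))
      (fun s t m h2 h3 h4 h5 => hgeo s t m h3 (by omega) h5)
      hr1 (by rw [e3]; exact hr1')
      (fun t h2 h3 => hLmin l (by omega) t (by omega))
    rw [e3] at hflat
    have h4 := hr3 b (by rw [hc0]; exact hb)
    have h5 := hr3' b' (by
      show Anc A q BB (l + 1) (c (n - 0)) b'
      rw [Nat.sub_zero, hcn]; exact hb')
    exact Ch_trans hL (Ch_trans hL h4 hflat) (Ch_symm hL h5)
  -- going down
  have down : ∀ d k, k + 1 + d = L → ∀ b b', Anc A q BB k x b → Anc A q BB k y b' →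
      Ch A q BB k 2 b b' := by
    intro d
    induction d with
    | zero =>
      intro k hk b b' hb hb'
      obtain ⟨b₁, h2, h3⟩ := Anc_next hL hb ha (by omega)
      obtain ⟨b₁', h2', h3'⟩ := Anc_next hL hb' ha' (by omega)
      have hk' : k + 1 = L := by omega
      rw [hk'] at h2 h2'
      have h4 := main (by omega) _ _ h2 h2'
      rw [← hk'] at h4
      exact contr hA hL h4 hb.1 hb'.1 h3 h3' (by omega)
    | succ d ih =>
      intro k hk b b' hb hb'
      obtain ⟨b₁, h2, h3⟩ := Anc_next hL hb ha (by omega)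
      obtain ⟨b₁', h2', h3'⟩ := Anc_next hL hb' ha' (by omega)
      have h4 := ih (k + 1) (by omega) _ _ h2 h2'
      exact contr hA hL h4 hb.1 hb'.1 h3 h3' (by omega)
  intro k hk b b' hb hb'
  exact down (L - (k + 1)) k (by omega) b b' hb hb'

end Crest.Agent.R199
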