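import Crest.Agent.R199.LayBasic

/-!
Row 199, piece C1: Greendlinger's lemma from the layers.

PROOF of `greend`. Prefix elements g_i = q (mk (w.take i)), i ≤ |w|. Every g_i is in some BB k
(mem_BB_iff / exists_lev); let k be least such that all g_i ∈ BB k (finitely many). k ≥ 1: otherwise
g_1 = q (mk [a]) ∈ BB 0 = {1}, contradiction to `letter`. k = k'+1: some g_j ∉ BB k'. Let i < j be the
largest index < j with g_i ∈ BB k' (g_0 = 1 ∈ BB 0 ⊆ BB k') and m > j the least index > j with
g_m ∈ BB k' (g_{|w|} = 1). Apply T7 to g = g_i and the factor w' = (w.drop i).take (m-i) (reduced as an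
infix, length m - i ≥ 2): its prefixes v of length t have g_i * q v = g_{i+t}. The prefix w₁ of w' is an
infix of w.
`short_ne`: a reduced nonempty word of length < gam - 12 is not trivial in G.
`seg_inj`: if Rd A x w y and q w = 1 then x = y: take w reduced of minimal length among words x → y
with.. (take a shortest word w₀ from x to y; it is reduced; q w₀ = q w = 1 by lay_val). If w₀ ≠ [] greend
gives an infix s of w₀, w₀ = a ++ s ++ b, |s| ≥ gam - 12 > 4, Rd A z s z', Rd A z p z', |p| ≤ 12. s is also read
at x·a; PC: z = x·a; so a ++ p ++ b reads x → y and is shorter. So w₀ = [], x = y.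
-/
set_option autoImplicit false

namespace Crest.Agent.R199

open FreeGroup (IsReduced invRev)

variable {T P G : Type} [Group G] {A : IG T P} {q : FreeGroup T →* G} {BB : ℕ → Set G} {gam : ℕ}

theorem exists_common_BB [Nonempty P] (hA : RG A gam) (hL : Lay A gam q BB) (f : ℕ → G) (n : ℕ) :
    ∃ k, ∀ i ≤ n, f i ∈ BB k := by
  induction n with
  | zero =>
    obtain ⟨a, ha⟩ := exists_lev hL hA (f 0)
    exact ⟨a, fun i hi => by rw [Nat.le_zero.1 hi]; exact ha.1⟩
  | succ n ih =>
    obtain ⟨k, hk⟩ := ih
    obtain ⟨a, ha⟩ := exists_lev hL hA (f (n + 1))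
    refine ⟨max k a, fun i hi => ?_⟩
    rcases Nat.lt_or_ge i (n + 1) with h | h
    · exact BB_mono hL (le_max_left k a) (hk i (by omega))
    · have : i = n + 1 := by omega
      subst this
      exact BB_mono hL (le_max_right k a) ha.1

theorem greend [Nonempty P] (hA : RG A gam) (hgam : 129 ≤ gam) (hL : Lay A gam q BB)
    (w : List (T × Bool)) (hw : IsReduced w) (hne : w ≠ []) (h1 : q (FreeGroup.mk w) = 1) :
    ∃ s, s <:+: w ∧ ∃ x y p, Rd A x s y ∧ Rd A x p y ∧ gam ≤ s.length + 12 ∧ p.length ≤ 12 := by
  classical
  set f : ℕ → G := fun i => qv q (w.take i) with hf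
  have hf0 : f 0 = 1 := by rw [hf]; simp only [List.take_zero]; exact qv_nil q
  have hfn : f w.length = 1 := by
    rw [hf]; simp only [List.take_length]; exact h1
  have hone : ∀ k, (1 : G) ∈ BB k := fun k =>
    BB_mono hL (Nat.zero_le k) (by rw [hL.zero]; rfl)
  have hex := exists_common_BB hA hL f w.length
  have hkspec := Nat.find_spec hex
  have hkmin := fun m (hm : m < Nat.find hex) => Nat.find_min hex hm
  generalize Nat.find hex = k at hkspec hkmin
  have hlen : 1 ≤ w.length := List.length_pos_iff.2 hne
  cases k with
  | zero =>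
    exfalso
    have h2 := hkspec 1 hlen
    rw [hL.zero] at h2
    cases w with
    | nil => exact hne rfl
    | cons a w' =>
      refine hL.letter a ?_
      have h3 : f 1 = q (FreeGroup.mk [a]) := by
        rw [hf]; simp [qv]
      rw [← h3]
      exact h2
  | succ k' =>
    have hk2 := hkmin k' (Nat.lt_succ_self k')
    push Not at hk2
    obtain ⟨j, hj, hjn⟩ := hk2
    -- the last index before `j` in `BB k'`
    have hi1 : f (Nat.findGreatest (fun i => f i ∈ BB k') j) ∈ BB k' :=
      Nat.findGreatest_spec (P := fun i => f i ∈ BB k') (Nat.zero_le j)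
        (by rw [hf0]; exact hone k')
    have hi2 : ∀ t, Nat.findGreatest (fun i => f i ∈ BB k') j < t → t ≤ j → f t ∉ BB k' :=
      fun t ht ht' => Nat.findGreatest_is_greatest (P := fun i => f i ∈ BB k') ht ht'
    have hi3 : Nat.findGreatest (fun i => f i ∈ BB k') j ≤ j := Nat.findGreatest_le j
    generalize Nat.findGreatest (fun i => f i ∈ BB k') j = i at hi1 hi2 hi3
    have hij : i < j := by
      rcases Nat.lt_or_ge i j with h | h
      · exact h
      · exfalso
        have : i = j := le_antisymm hi3 h
        subst this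
        exact hjn hi1
    have hjlt : j < w.length := by
      rcases Nat.lt_or_ge j w.length with h | h
      · exact h
      · exfalso
        have : j = w.length := le_antisymm hj h
        rw [this, hfn] at hjn
        exact hjn (hone k')
    have hexm : ∃ m, j < m ∧ f m ∈ BB k' := ⟨w.length, hjlt, by rw [hfn]; exact hone k'⟩
    have hm1 := Nat.find_spec hexm
    have hm2 := fun t (ht : t < Nat.find hexm) => Nat.find_min hexm ht
    have hm3 : Nat.find hexm ≤ w.length :=
      Nat.find_min' hexm ⟨hjlt, by rw [hfn]; exact hone k'⟩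
    generalize Nat.find hexm = m at hm1 hm2 hm3
    obtain ⟨hm1, hm1'⟩ := hm1
    have hout : ∀ t, i < t → t < m → f t ∉ BB k' := by
      intro t h3 h4 h5
      rcases Nat.lt_or_ge j t with h | h
      · exact hm2 t h4 ⟨h, h5⟩
      · exact hi2 t h3 h h5
    have hmul : ∀ t, f i * q (FreeGroup.mk ((w.drop i).take t)) = f (i + t) := by
      intro t
      rw [hf]
      simp only
      rw [List.take_add, qv_append]
      rfl
    have hpre : ∀ v, v <+: (w.drop i).take (m - i) →
        v.length ≤ m - i ∧ v = (w.drop i).take v.length := by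
      intro v hv
      have h2 := hv.length_le
      rw [List.length_take] at h2
      have h3 : v <+: w.drop i := hv.trans (List.take_prefix _ _)
      exact ⟨h2.trans (min_le_left _ _), List.prefix_iff_eq_take.1 h3⟩
    have hlw : ((w.drop i).take (m - i)).length = m - i := by
      rw [List.length_take, List.length_drop]
      omega
    have hred : IsReduced ((w.drop i).take (m - i)) :=
      hw.infix ((List.take_prefix _ _).isInfix.trans (List.drop_suffix _ _).isInfix)
    obtain ⟨w₁, hw₁, x, y, p, hx, hp, hl, hpl⟩ := hL.T7 k' (f i) ((w.drop i).take (m - i)) hred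
      (by rw [hlw]; omega) hi1
      (by rw [hmul]; rw [show i + (m - i) = m by omega]; exact hm1')
      (by
        intro v hv
        obtain ⟨h2, h3⟩ := hpre v hv
        rw [h3, hmul]
        exact hkspec _ (by omega))
      (by
        intro v hv hv0 hvw
        obtain ⟨h2, h3⟩ := hpre v hv
        have h4 : 0 < v.length := List.length_pos_iff.2 hv0
        have h5 : v.length ≠ m - i := by
          intro h6
          rw [h6] at h3
          exact hvw h3
        rw [h3, hmul]
        exact hout _ (by omega) (by omega))
    exact ⟨w₁, hw₁.isInfix.trans ((List.take_prefix _ _).isInfix.trans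
      (List.drop_suffix _ _).isInfix), x, y, p, hx, hp, hl, hpl⟩

theorem short_ne [Nonempty P] (hA : RG A gam) (hgam : 129 ≤ gam) (hL : Lay A gam q BB)
    (w : List (T × Bool)) (hw : IsReduced w) (hne : w ≠ []) (hlen : w.length + 12 < gam) :
    q (FreeGroup.mk w) ≠ 1 := by
  intro h1
  obtain ⟨s, hs, x, y, p, _, _, hl, _⟩ := greend hA hgam hL w hw hne h1
  have := hs.length_le
  omega

theorem seg_inj [Nonempty P] (hA : RG A gam) (hgam : 129 ≤ gam) (hL : Lay A gam q BB)
    {x y : P} {w : List (T × Bool)} (h : Rd A x w y) (h1 : q (FreeGroup.mk w) = 1) : x = y := by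
  have key : ∀ (n : ℕ) (w : List (T × Bool)), w.length ≤ n → Rd A x w y →
      q (FreeGroup.mk w) = 1 → x = y := by
    intro n
    induction n with
    | zero =>
      intro w hn hr _
      have hs : w = [] := List.length_eq_zero_iff.1 (Nat.le_zero.1 hn)
      subst hs
      exact hr
    | succ n ih =>
      intro w hn hr hq
      obtain ⟨w₀, hred, hl, hmk, hRed⟩ := exists_reduced w
      have hr₀ : Rd A x w₀ y := Rd_red hRed hr
      by_cases h0 : w₀ = []
      · subst h0
        exact hr₀
      · obtain ⟨s, ⟨a, b, hab⟩, z, z', p, hz, hp, hls, hlp⟩ :=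
          greend hA hgam hL w₀ hred h0 (by rw [hmk]; exact hq)
        have hr₁ := hr₀
        rw [← hab] at hr₁
        obtain ⟨z₂, h2, h3⟩ := Rd_append.1 hr₁
        obtain ⟨z₁, h4, h5⟩ := Rd_append.1 h2
        have hsr : IsReduced s := hred.infix ⟨a, b, hab⟩
        have hzz : z = z₁ := by
          by_contra hcon
          have := hA.PC z z₁ s z' z₂ hcon hsr hz h5
          omega
        subst hzz
        obtain rfl := Rd_det hz h5
        have hnew : Rd A x (a ++ p ++ b) y := Rd_trans (Rd_trans h4 hp) h3
        refine ih (a ++ p ++ b) ?_ hnew ?_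
        · have h6 := congrArg List.length hab
          simp only [List.length_append] at h6 ⊢
          omega
        · have h7 := lay_val hL hnew hr₀
          unfold qv at h7
          rw [h7, hmk]
          exact hq
  exact key w.length w le_rfl h h1

end Crest.Agent.R199
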