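import Crest.Agent.R199.AlgCell
import Crest.Agent.R199.Greend

/-!
Row 199, piece I5: one coefficient of the kernel element.

Put c₁ = π t₁ and g₁ = t₁ · j₁⁻¹ with j₁ = (o c₁).1.2 the label of the special half-edge.
PROOF. All values via q = QuotientGroup.mk' _ (gv A w = q (mk w)).
`coef_ne`: g₁ ≠ 1: t₁ ≠ j₁ (f0 t₁ ≠ 0, f0 j₁ = 0), so the word [(t₁,true),(j₁,false)] is reduced: `short_ne`.
`coef_eq`: t·gv w = g₁ with w from the leaf of c = π t to inl v.
* t = t₁: gv w = gv [(j₁,false)], and [(j₁,false)] reads leaf c₁ → inl (o c₁).1.1 (E_wv). The word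
 invRev [(j₁,false)] ++ w reads inl (o c₁).1.1 → inl v and has value 1: `seg_inj`.
* t ≠ t₁: let w be a shortest word from leaf c to inl v (same value, `val_eq`); it is reduced (exists_reduced), nonempty
 (leaf is an inr), its first letter is (j,false) with j = (o c).1.2 (E_wv, m (o c) = o c). j ≠ t (f0).
 So W := invRev w ++ [(t,false),(t₁,true),(j₁,false)] is reduced, nonempty, and q (mk W) = 1. `greend`:
 W = a ++ s ++ b, |s| ≥ gam - 12, Rd A z s z', Rd A z p z', |p| ≤ 12. Hence |b| < ... : s overlaps invRev w in s₁ with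
 |s₁| ≥ gam - 15 > 4: invRev w = a ++ s₁ ++ b', s = s₁ ++ s₂, |s₂| ≤ 3 (if s ends inside invRev w then s₂ = []; note |a|
 ≤ |w| because |s| > 3). s₁ is read at the place inl v·a of the path invRev w and also at z, so by PC
 z = that place; z₁ := z·s₁. The path p ++ invRev s₂ (length ≤ 15) also leads z → z₁. So
 a ++ p ++ invRev s₂ ++ b' reads inl v → leaf c and is shorter than invRev w (|s₁| ≥ gam-15 > 15),
 contradiction to minimality of w.
-/
set_option autoImplicit false

namespace Crest.Agent.R199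

variable {T C V : Type} [Fintype T] [Fintype V] [DecidableEq C] {g0 : ℕ}

theorem coef_ne (D : Datum T C V g0) {gam : ℕ} (hA : RG D.A gam) (hgam : 129 ≤ gam)
    {BB : ℕ → Set (Gp D.A)}
    (hL : Lay D.A gam (QuotientGroup.mk' (Subgroup.normalClosure (rels D.A))) BB) {t₁ : T}
    (ht₁ : D.f0 t₁ ≠ 0) :
    gv D.A [(t₁, true), ((D.o (D.π t₁)).1.2, false)] ≠ 1 := by
  haveI : Nonempty (V ⊕ Set (HE D.f)) := ⟨Sum.inr ∅⟩
  have hne : t₁ ≠ (D.o (D.π t₁)).1.2 := by
    intro h
    apply ht₁
    rw [h]
    exact D.f0_zero _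
  have hred : FreeGroup.IsReduced [(t₁, true), ((D.o (D.π t₁)).1.2, false)] := by
    unfold FreeGroup.IsReduced
    rw [List.isChain_cons_cons]
    exact ⟨fun h => absurd h hne, List.isChain_singleton _⟩
  exact short_ne hA hgam hL _ hred (by simp) (by simp only [List.length_cons, List.length_nil]; omega)

/-- shortest words -/
theorem exists_shortest {P : Type} {A : IG T P} {x y : P} {w : List (T × Bool)} (hw : Rd A x w y) :
    ∃ w₀, FreeGroup.IsReduced w₀ ∧ Rd A x w₀ y ∧ ∀ u, Rd A x u y → w₀.length ≤ u.length := by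
  classical
  have hex : ∃ n, ∃ u : List (T × Bool), u.length = n ∧ Rd A x u y := ⟨w.length, w, rfl, hw⟩
  obtain ⟨u, hu1, hu2⟩ := Nat.find_spec hex
  obtain ⟨u', h1, h2, _, h4⟩ := exists_reduced u
  refine ⟨u', h1, Rd_red h4 hu2, fun u'' hu'' => ?_⟩
  have h5 : Nat.find hex ≤ u''.length := Nat.find_min' hex ⟨u'', rfl, hu''⟩
  omega

/-- splitting an infix along a short tail -/
theorem infix_split {α : Type} {a s b u tail : List α} (h : a ++ s ++ b = u ++ tail)
    (h3 : tail.length ≤ 3) (hs : 3 < s.length) :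
    ∃ s₁ s₂ b', u = a ++ s₁ ++ b' ∧ s = s₁ ++ s₂ ∧ s₂.length ≤ 3 := by
  rcases List.append_eq_append_iff.1 h with ⟨c, h4, h5⟩ | ⟨c, h4, h5⟩
  · exact ⟨s, [], c, h4, by simp, by simp⟩
  · have hc : c.length ≤ 3 := by
      have := congrArg List.length h5
      rw [List.length_append] at this
      omega
    rcases List.append_eq_append_iff.1 h4 with ⟨d, h6, h7⟩ | ⟨d, h6, h7⟩
    · exact ⟨d, c, [], by rw [h6]; simp, h7, hc⟩
    · exfalso
      have := congrArg List.length h7
      rw [List.length_append] at this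
      omega

theorem coef_eq (D : Datum T C V g0) {gam : ℕ} (hA : RG D.A gam) (hgam : 129 ≤ gam)
    {BB : ℕ → Set (Gp D.A)}
    (hL : Lay D.A gam (QuotientGroup.mk' (Subgroup.normalClosure (rels D.A))) BB) {t t₁ : T}
    (ht : D.f0 t ≠ 0) (ht₁ : D.f0 t₁ ≠ 0) {v : V} {w : List (T × Bool)}
    (hw : Rd D.A (D.leaf (D.π t)) w (Sum.inl v))
    (he : gv D.A [(t, true)] * gv D.A w = gv D.A [(t₁, true), ((D.o (D.π t₁)).1.2, false)]) :
    t = t₁ ∧ v = (D.o (D.π t₁)).1.1 := by
  haveI : Nonempty (V ⊕ Set (HE D.f)) := ⟨Sum.inr ∅⟩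
  have hsplit : gv D.A [(t₁, true), ((D.o (D.π t₁)).1.2, false)] =
      gv D.A [(t₁, true)] * gv D.A [((D.o (D.π t₁)).1.2, false)] := by
    rw [← gv_append]; rfl
  have hfix : ∀ c, D.m (D.o c) = D.o c := fun c => (D.fix _).2 ⟨c, rfl⟩
  have hleaf : ∀ c, Rd D.A (D.leaf c) [((D.o c).1.2, false)] (Sum.inl (D.o c).1.1) := fun c =>
    Rd_single.2 (D.E_wv.2 (Or.inl ⟨rfl, rfl⟩))
  by_cases htt : t = t₁
  · subst htt
    refine ⟨rfl, ?_⟩
    rw [hsplit] at he
    have he' := mul_left_cancel he
    have h1 : Rd D.A (Sum.inl (D.o (D.π t)).1.1)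
        (FreeGroup.invRev [((D.o (D.π t)).1.2, false)] ++ w) (Sum.inl v) :=
      Rd_trans (Rd_inv (hleaf _)) hw
    have h2 : gv D.A (FreeGroup.invRev [((D.o (D.π t)).1.2, false)] ++ w) = 1 := by
      rw [gv_append, gv_invRev, he', inv_mul_cancel]
    have h3 := seg_inj hA hgam hL h1 h2
    exact (Sum.inl.inj h3).symm
  · exfalso
    obtain ⟨w₀, hred, hr₀, hmin⟩ := exists_shortest hw
    have hval : gv D.A w = gv D.A w₀ := val_eq hw hr₀
    -- first letter of w₀
    have hfirst : ∃ w', w₀ = ((D.o (D.π t)).1.2, false) :: w' := by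
      cases w₀ with
      | nil =>
        have h1 : D.leaf (D.π t) = Sum.inl v := hr₀
        unfold Datum.leaf Datum.wv at h1
        exact absurd h1 (by simp)
      | cons a w' =>
        obtain ⟨y, h1, h2⟩ := hr₀
        rcases D.E_wv.1 h1 with ⟨h3, _⟩ | ⟨h3, _⟩
        · exact ⟨w', by rw [h3]⟩
        · rw [hfix] at h3
          exact ⟨w', by rw [h3]⟩
    obtain ⟨w', hw'⟩ := hfirst
    have hjt : (D.o (D.π t)).1.2 ≠ t := by
      intro h
      apply ht
      rw [← h]
      exact D.f0_zero _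
    have hjt₁ : t₁ ≠ (D.o (D.π t₁)).1.2 := by
      intro h
      apply ht₁
      rw [h]
      exact D.f0_zero _
    set tail : List (T × Bool) := [(t, false), (t₁, true), ((D.o (D.π t₁)).1.2, false)] with htail
    have htred : FreeGroup.IsReduced tail := by
      rw [htail]
      unfold FreeGroup.IsReduced
      rw [List.isChain_cons_cons, List.isChain_cons_cons]
      exact ⟨fun h => absurd h htt, fun h => absurd h hjt₁, List.isChain_singleton _⟩
    have hWred : FreeGroup.IsReduced (FreeGroup.invRev w₀ ++ tail) := by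
      rw [isReduced_append_iff]
      refine ⟨isReduced_invRev hred, htred, ?_⟩
      intro a ha b hb hab
      have h1 : FreeGroup.invRev w₀ = FreeGroup.invRev w' ++ [((D.o (D.π t)).1.2, true)] := by
        rw [hw']; simp [FreeGroup.invRev]
      rw [h1] at ha
      simp only [List.getLast?_append, List.getLast?_singleton, Option.some_or,
        Option.mem_def, Option.some.injEq] at ha
      rw [htail] at hb
      simp only [List.head?_cons, Option.mem_def, Option.some.injEq] at hb
      rw [← ha, ← hb] at hab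
      exact absurd hab hjt
    have hWne : FreeGroup.invRev w₀ ++ tail ≠ [] := by
      rw [htail]; simp
    have hW1 : gv D.A (FreeGroup.invRev w₀ ++ tail) = 1 := by
      have h1 : tail = FreeGroup.invRev [(t, true)] ++
          [(t₁, true), ((D.o (D.π t₁)).1.2, false)] := by
        rw [htail]; simp [FreeGroup.invRev]
      rw [h1, gv_append, gv_append, gv_invRev, gv_invRev, ← he, hval]
      group
    obtain ⟨s, ⟨a, b, hab⟩, z, z', p, hz, hp, hls, hlp⟩ := greend hA hgam hL _ hWred hWne hW1
    obtain ⟨s₁, s₂, b', h1, h2, h3⟩ := infix_split hab (by rw [htail]; simp) (by omega)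
    have hu : Rd D.A (Sum.inl v) (FreeGroup.invRev w₀) (D.leaf (D.π t)) := Rd_inv hr₀
    rw [h1] at hu
    obtain ⟨z₂, h4, h5⟩ := Rd_append.1 hu
    obtain ⟨z₁, h6, h7⟩ := Rd_append.1 h4
    rw [h2] at hz
    obtain ⟨y₁, h8, h9⟩ := Rd_append.1 hz
    have hs₁red : FreeGroup.IsReduced s₁ := by
      have h10 := isReduced_invRev hred
      rw [h1] at h10
      exact isReduced_append_right (isReduced_append_left h10)
    have hlen : s.length = s₁.length + s₂.length := by rw [h2, List.length_append]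
    have hzz : z = z₁ := by
      by_contra hcon
      have := hA.PC z z₁ s₁ y₁ z₂ hcon hs₁red h8 h7
      omega
    subst hzz
    obtain rfl := Rd_det h8 h7
    have hnew : Rd D.A (Sum.inl v) (a ++ (p ++ FreeGroup.invRev s₂) ++ b') (D.leaf (D.π t)) :=
      Rd_trans (Rd_trans h6 (Rd_trans hp (Rd_inv h9))) h5
    have h10 := hmin _ (Rd_inv hnew)
    have h11 : w₀.length = a.length + s₁.length + b'.length := by
      rw [← FreeGroup.invRev_length (L₁ := w₀), h1, List.length_append, List.length_append]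
    rw [FreeGroup.invRev_length, List.length_append, List.length_append, List.length_append,
      FreeGroup.invRev_length] at h10
    omega

end Crest.Agent.R199
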