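import Crest.Agent.R199.ContrPath

/-!
Row 199, piece C4: contraction and horizontal steps.

PROOF of `path_ch`: reduce W (`exists_reduced`, `red_prefix`), apply T6 at k: W = w₁ ++ w₂; b, b*q w₁ in a
common cell touching BB k (b = b₁ * q v, Rd A x v y, Rd A y w₁ y', so b * q w₁ = b₁ * q (v ++ w₁)), similarly
b*q w₁ and b*q W. All three vertices have level k+1 (prefix vertices are in BB (k+1) \ BB k; BB_mono).
`contr`: l = 0: BB 0 = {1}. l = k+1: `contr_path` and `path_ch`.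
`hz`: p' = p * q w, Rd A x w y. If some vertex of the cell is in BB k (∃ v z, Rd A x v z, b := p * q v ∈
BB k) then CC k p p' with b, words invRev v and invRev v ++ w from z; Ch 1, Ch_mono. Otherwise T3 gives
w' : x → y inside BB (k+1), no prefix vertex in BB k (they are vertices of the cell); reduce it; T1: |w'| ≤ 8;
`path_ch` with 8 + 16 < gam.
-/
set_option autoImplicit false

namespace Crest.Agent.R199

open FreeGroup (IsReduced invRev)

variable {T P G : Type} [Group G] {A : IG T P} {q : FreeGroup T →* G} {BB : ℕ → Set G} {gam : ℕ}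

theorem lev_of_mem_aux [Nonempty P] (hL : Lay A gam q BB) {k : ℕ} {b : G}
    (h : b ∈ BB (k + 1) ∧ b ∉ BB k) : Lev BB (k + 1) b :=
  ⟨h.1, fun _ hj hmem => h.2 (BB_mono hL (Nat.lt_succ_iff.mp hj) hmem)⟩

theorem red_values_aux {k : ℕ} {b : G} {W W' : List (T × Bool)} (hR : FreeGroup.Red W W')
    (hW : ∀ u, u <+: W → b * qv q u ∈ BB (k + 1) ∧ b * qv q u ∉ BB k) :
    ∀ u, u <+: W' → b * qv q u ∈ BB (k + 1) ∧ b * qv q u ∉ BB k := by
  intro u hu
  obtain ⟨v, hv, hmk⟩ := red_prefix hR hu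
  have := hW v hv
  unfold qv at this ⊢
  rw [hmk] at this
  exact this

theorem path_ch [Nonempty P] (hA : RG A gam) (hL : Lay A gam q BB) {k : ℕ} {b : G}
    {W : List (T × Bool)} (hlen : W.length + 16 < gam)
    (hW : ∀ u, u <+: W → b * qv q u ∈ BB (k + 1) ∧ b * qv q u ∉ BB k) :
    Ch A q BB (k + 1) 2 b (b * qv q W) := by
  obtain ⟨W', hred, hlen', hmk, hRed⟩ := exists_reduced W
  have hW' := red_values_aux hRed hW
  have hval : qv q W' = qv q W := by unfold qv; rw [hmk]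
  obtain ⟨w₁, w₂, hWW, ⟨b₁, hb₁, x, v, y, y', h1, h2, h3⟩, ⟨b₂, hb₂, x₂, v₂, y₂, y₂', h4, h5, h6⟩⟩ :=
    hL.T6 k b W' hred (by omega) hW'
  change b = b₁ * qv q v at h2
  change b * qv q w₁ = b₂ * qv q v₂ at h5
  have l0 : Lev BB (k + 1) b := by
    have := hW' [] List.nil_prefix
    rw [qv_nil, mul_one] at this
    exact lev_of_mem_aux hL this
  have l1 : Lev BB (k + 1) (b * qv q w₁) :=
    lev_of_mem_aux hL (hW' w₁ ⟨w₂, hWW.symm⟩)
  have l2 : Lev BB (k + 1) (b * qv q W) := by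
    rw [← hval]
    exact lev_of_mem_aux hL (hW' W' List.prefix_rfl)
  have c1 : CC A q BB k b (b * qv q w₁) :=
    ⟨b₁, hb₁, x, v, y, v ++ w₁, y', h1, Rd_trans h1 h3, h2, by
      rw [qv_append, ← mul_assoc, ← h2]⟩
  have c2 : CC A q BB k (b * qv q w₁) (b * qv q W) :=
    ⟨b₂, hb₂, x₂, v₂, y₂, v₂ ++ w₂, y₂', h4, Rd_trans h4 h6, h5, by
      rw [qv_append, ← mul_assoc, ← h5, ← hval, hWW, qv_append, mul_assoc]⟩
  exact ⟨b * qv q w₁, ⟨b, ⟨rfl, l0⟩, c1, l1⟩, c2, l2⟩

theorem contr [Nonempty P] (hA : RG A gam) (hL : Lay A gam q BB) {l m : ℕ} {p p' b b' : G}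
    (h : Ch A q BB (l + 1) m p p') (hb : b ∈ BB l) (hb' : b' ∈ BB l)
    (hs : St A q b p) (hs' : St A q b' p') (hm : 8 * (m + 2) + 16 < gam) :
    Ch A q BB l 2 b b' := by
  cases l with
  | zero =>
    rw [hL.zero] at hb hb'
    exact ⟨hb, hb'⟩
  | succ k =>
    obtain ⟨W, h1, h2, h3⟩ := contr_path hA hL h hb hb' hs hs'
    rw [h2]
    exact path_ch hA hL (by omega) h3

theorem hz [Nonempty P] (hA : RG A gam) (hgam : 129 ≤ gam) (hL : Lay A gam q BB) {k : ℕ}
    {p p' : G} (h : Lev BB (k + 1) p) (h' : Lev BB (k + 1) p') (hs : St A q p p') :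
    Ch A q BB (k + 1) 2 p p' := by
  obtain ⟨x, w, y, hw, hp'⟩ := hs
  by_cases hex : ∃ v z, Rd A x v z ∧ p * qv q v ∈ BB k
  · obtain ⟨v, z, hv, hmem⟩ := hex
    have c1 : CC A q BB k p p' :=
      ⟨p * qv q v, hmem, z, invRev v, x, invRev v ++ w, y, Rd_inv hv, Rd_trans (Rd_inv hv) hw, by
        rw [qv_invRev]; group, by
        rw [qv_append, qv_invRev, hp']; group⟩
    have : Ch A q BB (k + 1) 1 p p' := ⟨p, ⟨rfl, h⟩, c1, h'⟩
    exact Ch_mono hL this (by norm_num)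
  · push Not at hex
    have hmem' : p * q (FreeGroup.mk w) ∈ BB (k + 1) := by
      have := h'.1
      rw [hp'] at this
      exact this
    obtain ⟨w', hw', hpre⟩ := hL.T3 (k + 1) p x w y h.1 hw hmem'
    have hvals : ∀ u, u <+: w' → p * qv q u ∈ BB (k + 1) ∧ p * qv q u ∉ BB k := by
      intro u hu
      obtain ⟨z, hz⟩ := Rd_prefix hw' hu
      exact ⟨hpre u hu, hex u z hz⟩
    obtain ⟨w'', hred, _, _, hRed⟩ := exists_reduced w'
    have hvals' := red_values_aux hRed hvals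
    have hw'' := Rd_red hRed hw'
    have hlen : w''.length ≤ 8 := by
      rcases hL.T1 k p x h.1 with ⟨v, z, hv, hvm⟩ | h1
      · exact absurd hvm (hex v z hv)
      · exact h1 w'' y hred hw'' (fun v hv => (hvals' v hv).1)
    have := path_ch hA hL (b := p) (W := w'') (by omega) hvals'
    rw [lay_val hL hw'' hw, ← hp'] at this
    exact this

end Crest.Agent.R199
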