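import Crest.Agent.R199.LayBasic

/-!
Row 199, piece C3: short letter paths between predecessors.

PROOF of `cell_path` (b, b*q w ∈ BB (k+1) in a common cell with an element b*q v ∉ BB (k+1)): T3 gives
w' reading x → y with all prefix vertices in BB (k+1). No vertex of the cell is in BB k: if Rd A x u z' and
b*q u ∈ BB k then b*q v = (b*q u) * q (invRev u ++ v) ∈ BB (k+1) (succ). Replace w' by a reduced word
(`exists_reduced` + `red_prefix`: prefix values of the reduced word are prefix values of w'). T1 at (b,x):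
the first alternative is excluded, so |w'| ≤ 8.
`red_prefix`: induction on `Red`; one step L₁++(x,b)::(x,!b)::L₂ → L₁++L₂: a prefix of L₁++L₂ is a
prefix of L₁ or L₁++u, u prefix of L₂; take L₁++(x,b)::(x,!b)::u.
`contr_path`: claim (K) by induction on m: for Ch (k+2) m p p', b ∈ BB (k+1), St b p, and every cell 𝒞'
containing p' and touching BB (k+1) (i.e. b'' ∈ BB (k+1), Rd A x'' w'' y'', p' = b'' * q w'') there is b* ∈
BB (k+1) in the cell 𝒞' (∃ v z, Rd A x'' v z, b* = b'' * q v) and a word W, |W| ≤ 8(m+1), b* = b * q W, all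
prefix vertices in BB (k+1) \ BB k.
 m = 0: p = p'. T2 for the cell of b containing p and 𝒞': b* in both; `cell_path` in the cell of b.
 m+1: Ch m p p'', CC (k+1) p'' p': a cell 𝒞 with p'', p' ∈ 𝒞 touching; induction for 𝒞: b₁* ∈ 𝒞. T2 at p' for 𝒞
 (based at b₁*) and 𝒞': b* in both; `cell_path` in 𝒞 from b₁* to b*; concatenate.
 Then apply (K) to 𝒞' = cell of b' containing p' and `cell_path` in 𝒞' from b* to b'.
(p ∉ BB (k+1) since Lev (k+2) p; b ∉ BB k since otherwise p ∈ BB (k+1).)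
-/
set_option autoImplicit false

namespace Crest.Agent.R199

open FreeGroup (IsReduced invRev)

variable {T P G : Type} [Group G] {A : IG T P} {q : FreeGroup T →* G} {BB : ℕ → Set G} {gam : ℕ}

theorem red_step_prefix {W W' v' : List (T × Bool)} (h : FreeGroup.Red.Step W W')
    (hv : v' <+: W') : ∃ v, v <+: W ∧ FreeGroup.mk v = FreeGroup.mk v' := by
  cases h with
  | @not L1 L2 x y =>
    obtain ⟨t, ht⟩ := hv
    rcases List.append_eq_append_iff.1 ht with ⟨a', h1, h2⟩ | ⟨c', h1, h2⟩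
    · refine ⟨v', ?_, rfl⟩
      rw [h1, List.append_assoc]
      exact List.prefix_append _ _
    · refine ⟨L1 ++ (x, y) :: (x, !y) :: c', ?_, ?_⟩
      · refine ⟨t, ?_⟩
        rw [h2]
        simp
      · rw [h1]
        exact Quot.sound FreeGroup.Red.Step.not

theorem red_prefix {W W' v' : List (T × Bool)} (h : FreeGroup.Red W W') (hv : v' <+: W') :
    ∃ v, v <+: W ∧ FreeGroup.mk v = FreeGroup.mk v' := by
  induction h generalizing v' with
  | refl => exact ⟨v', hv, rfl⟩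
  | tail _ hs ih =>
    obtain ⟨v1, h1, h2⟩ := red_step_prefix hs hv
    obtain ⟨v2, h3, h4⟩ := ih h1
    exact ⟨v2, h3, h4.trans h2⟩

theorem cell_path [Nonempty P] (hA : RG A gam) (hL : Lay A gam q BB) {k : ℕ} {b : G}
    {x y z : P} {w v : List (T × Bool)} (hb : b ∈ BB (k + 1)) (h1 : Rd A x w y)
    (hb' : b * qv q w ∈ BB (k + 1)) (h2 : Rd A x v z) (hp : b * qv q v ∉ BB (k + 1)) :
    ∃ W, IsReduced W ∧ W.length ≤ 8 ∧ Rd A x W y ∧
      ∀ u, u <+: W → b * qv q u ∈ BB (k + 1) ∧ b * qv q u ∉ BB k := by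
  obtain ⟨w', hw1, hw2⟩ := hL.T3 (k + 1) b x w y hb h1 hb'
  obtain ⟨W, hW1, _, _, hW2⟩ := exists_reduced w'
  have hWy : Rd A x W y := Rd_red hW2 hw1
  have hWb : ∀ u, u <+: W → b * qv q u ∈ BB (k + 1) := by
    intro u hu
    obtain ⟨u', hu1, hu2⟩ := red_prefix hW2 hu
    have := hw2 u' hu1
    unfold qv
    rw [← hu2]
    exact this
  have hnot : ∀ u z', Rd A x u z' → b * qv q u ∉ BB k := by
    intro u z' hu hbu
    apply hp
    refine (hL.succ k _).2 ⟨b * qv q u, hbu, z', invRev u ++ v, z, Rd_trans (Rd_inv hu) h2, ?_⟩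
    change b * qv q v = b * qv q u * qv q (invRev u ++ v)
    rw [qv_append, qv_invRev, mul_assoc, mul_inv_cancel_left]
  have hlen : W.length ≤ 8 := by
    rcases hL.T1 k b x hb with ⟨w1, y1, h3, h4⟩ | h3
    · exact absurd h4 (hnot w1 y1 h3)
    · exact h3 W y hW1 hWy hWb
  refine ⟨W, hW1, hlen, hWy, fun u hu => ⟨hWb u hu, ?_⟩⟩
  obtain ⟨z', hz'⟩ := Rd_prefix hWy hu
  exact hnot u z' hz'

/-- concatenation of paths -/
theorem path_concat {k : ℕ} {b : G} {W W' : List (T × Bool)}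
    (h : ∀ u, u <+: W → b * qv q u ∈ BB (k + 1) ∧ b * qv q u ∉ BB k)
    (h' : ∀ u, u <+: W' → b * qv q W * qv q u ∈ BB (k + 1) ∧ b * qv q W * qv q u ∉ BB k) :
    ∀ u, u <+: W ++ W' → b * qv q u ∈ BB (k + 1) ∧ b * qv q u ∉ BB k := by
  rintro u ⟨t, ht⟩
  rcases List.append_eq_append_iff.1 ht with ⟨a', h1, h2⟩ | ⟨c', h1, h2⟩
  · exact h u ⟨a', h1.symm⟩
  · have h3 := h' c' ⟨t, h2.symm⟩
    rw [h1, qv_append, ← mul_assoc]
    exact h3

theorem contr_key [Nonempty P] (hA : RG A gam) (hL : Lay A gam q BB) {k : ℕ} {b p : G}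
    (hb : b ∈ BB (k + 1)) (hs : St A q b p) (m : ℕ) : ∀ p' : G, Ch A q BB (k + 2) m p p' →
    ∀ (b'' : G) (x'' : P) (w'' : List (T × Bool)) (y'' : P), b'' ∈ BB (k + 1) →
      Rd A x'' w'' y'' → p' = b'' * qv q w'' →
      ∃ v z, Rd A x'' v z ∧ b'' * qv q v ∈ BB (k + 1) ∧ ∃ W : List (T × Bool),
        W.length ≤ 8 * (m + 1) ∧ b'' * qv q v = b * qv q W ∧
        ∀ u, u <+: W → b * qv q u ∈ BB (k + 1) ∧ b * qv q u ∉ BB k := by
  induction m with
  | zero =>
    rintro p' ⟨rfl, hlev⟩ b'' x'' w'' y'' hb'' hr hpe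
    obtain ⟨x, w, y, hw, hpw⟩ := hs
    have hnot : p ∉ BB (k + 1) := hlev.2 (k + 1) (Nat.lt_succ_self _)
    obtain ⟨v, z, v', z', hv, hv', he, hm⟩ := hL.T2 (k + 1) b b'' x w y x'' w'' y'' hb hb'' hw hr
      (hpw.symm.trans hpe) (by change b * qv q w ∉ _; rw [← hpw]; exact hnot)
    change b * qv q v = b'' * qv q v' at he
    change b * qv q v ∈ BB (k + 1) at hm
    obtain ⟨W, _, hW2, hW3, hW4⟩ := cell_path hA hL hb hv hm hw (by rw [← hpw]; exact hnot)
    refine ⟨v', z', hv', by rw [← he]; exact hm, W, by omega, ?_, hW4⟩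
    rw [← he, lay_val hL hv hW3]
  | succ m ih =>
    rintro p' ⟨p'', hch, ⟨c, hc, x1, w1, y1, w1', y1', hw1, hw1', hp1, hp2⟩, hlev⟩
      b'' x'' w'' y'' hb'' hr hpe
    obtain ⟨v, z, hv, hvm, W0, hW0, hW0e, hW0p⟩ := ih p'' hch c x1 w1 y1 hc hw1 hp1
    have hnot : p' ∉ BB (k + 1) := hlev.2 (k + 1) (Nat.lt_succ_self _)
    have hr1 : Rd A z (invRev v ++ w1') y1' := Rd_trans (Rd_inv hv) hw1'
    have hpe1 : p' = c * qv q v * qv q (invRev v ++ w1') := by
      rw [hp2, qv_append, qv_invRev, mul_assoc, mul_inv_cancel_left]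
    obtain ⟨v2, z2, v2', z2', hv2, hv2', he, hm⟩ := hL.T2 (k + 1) (c * qv q v) b'' z
      (invRev v ++ w1') y1' x'' w'' y'' hvm hb'' hr1 hr (hpe1.symm.trans hpe)
      (by change c * qv q v * qv q (invRev v ++ w1') ∉ _; rw [← hpe1]; exact hnot)
    change c * qv q v * qv q v2 = b'' * qv q v2' at he
    change c * qv q v * qv q v2 ∈ BB (k + 1) at hm
    obtain ⟨W, _, hW2, hW3, hW4⟩ := cell_path hA hL hvm hv2 hm hr1
      (by rw [← hpe1]; exact hnot)
    refine ⟨v2', z2', hv2', by rw [← he]; exact hm, W0 ++ W, ?_, ?_, ?_⟩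
    · rw [List.length_append]; omega
    · rw [← he, qv_append, ← mul_assoc, ← hW0e, lay_val hL hv2 hW3]
    · refine path_concat hW0p ?_
      rw [← hW0e]
      exact hW4

theorem contr_path [Nonempty P] (hA : RG A gam) (hL : Lay A gam q BB) {k m : ℕ} {p p' b b' : G}
    (h : Ch A q BB (k + 2) m p p') (hb : b ∈ BB (k + 1)) (hb' : b' ∈ BB (k + 1))
    (hs : St A q b p) (hs' : St A q b' p') :
    ∃ W : List (T × Bool), W.length ≤ 8 * (m + 2) ∧ b' = b * qv q W ∧
      ∀ u, u <+: W → b * qv q u ∈ BB (k + 1) ∧ b * qv q u ∉ BB k := by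
  obtain ⟨x', w', y', hw', hpw'⟩ := hs'
  obtain ⟨v, z, hv, hvm, W0, hW0, hW0e, hW0p⟩ :=
    contr_key hA hL hb hs m p' h b' x' w' y' hb' hw' hpw'
  have hnot : p' ∉ BB (k + 1) := (Ch_lev hL h).2.2 (k + 1) (Nat.lt_succ_self _)
  have hr1 : Rd A z (invRev v ++ w') y' := Rd_trans (Rd_inv hv) hw'
  have hpe1 : p' = b' * qv q v * qv q (invRev v ++ w') := by
    rw [hpw', qv_append, qv_invRev, mul_assoc, mul_inv_cancel_left]
  have hback : b' * qv q v * qv q (invRev v) = b' := by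
    rw [qv_invRev, mul_inv_cancel_right]
  obtain ⟨W, _, hW2, hW3, hW4⟩ := cell_path hA hL hvm (Rd_inv hv) (by rw [hback]; exact hb') hr1
    (by rw [← hpe1]; exact hnot)
  refine ⟨W0 ++ W, ?_, ?_, ?_⟩
  · rw [List.length_append]; omega
  · rw [qv_append, ← mul_assoc, ← hW0e, lay_val hL hW3 (Rd_inv hv), hback]
  · refine path_concat hW0p ?_
    rw [← hW0e]
    exact hW4

end Crest.Agent.R199
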