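import Crest.Agent.R199.Meet

/-!
Row 199, piece A5: COVER. A short reduced path of the new layer avoiding `ι B` is covered by at most
two new cells.

PROOF. Let w₁ be the longest prefix of W such that there are b,x,y,y₁ with At β b x y, Rd A y w₁ y₁
(the empty prefix works by `at_ex`). Let βm be the end of w₁ from β in Γ'; At βm b x y₁ (`at_of_rd`).
If w₁ = W take w₂ = []. Otherwise W = w₁ ++ W'; let w₂ be the longest prefix of W' such that
At βm b' x' y', Rd A y' w₂ y₂' for some b',x',y',y₂' (w₂ ≠ [] by `edge_at` for the next edge).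
If w₂ = W' we are done. Otherwise W' = w₂ ++ a'' :: W''; β' := end of w₂, At β' b' x' y₂', and by
`edge_at` there are b'',x'',y'' with At β' b'' x'' y'' and an A-edge y'' –a''→ (after `at_iff`, `E_iff`).
`meet` at βm: (b₁,x₁,x₁',s₁), s₁ reads x₁ → y₁ and x₁' → y'. If x₁ = x₁' then y₁ = y' (Rd_det), so
`Rd A y (w₁ ++ w₂)`: contradiction to the choice of w₁. So |s₁| ≤ 4.
`meet` at β': (b₂,x₂,x₂'',s₂), s₂ reads x₂ → y₂' and x₂'' → y''. If x₂ = x₂'' then y₂' = y'' and
w₂ ++ [a''] is readable from y': contradiction to the choice of w₂. So |s₂| ≤ 4.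
Middle cell: Cell (b',x')(b₁,x₁') and Cell (b',x')(b₂,x₂), so Cell (b₁,x₁')(b₂,x₂). G2 at (b₁,x₁'):
not Complete: otherwise Rd_Γ b₁ s₁ b₃, so `rd_iota` and Rd Γ' (ι b₁) s₁ βm give βm = ι b₃, but βm is
outside. So there is a reduced p, |p| ≤ 8, Rd_Γ b₁ p b₂, Rd A x₁' p x₂.
 (i) p ++ s₂ is reduced (junction: if the last letter e of p and the first letter e⁻¹ of s₂ cancel then
 reading [e⁻¹] from ι b₂ leads to ι of the previous vertex of p, contradicting Out for s₂).
 (ii) `cancel s₁ w₂`: s₁ = s₁' ++ c, w₂ = invRev c ++ w₂', IsReduced (s₁' ++ w₂'). s₁' ≠ []: else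
 reading invRev s₁ (prefix of w₂) from βm leads to ι b₁, but the path W is outside range ι.
 GI: both p ++ s₂ and s₁' ++ w₂' read x₁' → y₂' (Rd A y' w₂ y₂'); total length ≤ 8+4+4+|w₂| < gam.
 So p ++ s₂ = s₁' ++ w₂'.
 (iii) p = []: otherwise the first letter f of p is the first letter of s₁' hence of s₁, and reading
 [f] from ι b₁ stays in range ι (p is read in Γ): contradicts Out for s₁.
 So b₁ = b₂, x₁' = x₂, s₂ = s₁' ++ w₂'.
 (iv) if c ≠ []: from y₁ one can read invRev c in A (since Rd A x₁ (s₁' ++ c) y₁), so the first cell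
 reads w₁ ++ invRev c, a longer prefix of W: contradiction.
 (v) if c = []: s₂ = s₁ ++ w₂. From x₂'': z with Rd A x₂'' s₁ z, Rd A z w₂ y''. And At βm b'' x'' z:
 by at_iff/at_cell: At βm b₁ x₁' y' (at_cell), Rr b₁ x₁' y' b₁ x₂'' z via (b₁,x₁',x₂'',s₁), so
 At βm b₁ x₂'' z. Then w₂ ++ [a''] is readable from z: contradiction to the choice of w₂.
-/
set_option autoImplicit false

namespace Crest.Agent.R199

open FreeGroup (IsReduced invRev)

variable {T B B' P : Type} {A : IG T P} {Γ : IG T B} {Γ' : IG T B'} {ι : B → B'}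
  {At : B' → B → P → P → Prop} {gam : ℕ}

theorem exists_max_prefix {X : Type*} (W : List X) (Q : List X → Prop) (h0 : Q []) :
    ∃ w W', W = w ++ W' ∧ Q w ∧ ∀ v, v <+: W → Q v → v.length ≤ w.length := by
  classical
  have hspec := Nat.findGreatest_spec (P := fun n => Q (W.take n)) (Nat.zero_le W.length)
    (by simpa using h0)
  refine ⟨W.take (Nat.findGreatest (fun n => Q (W.take n)) W.length),
    W.drop (Nat.findGreatest (fun n => Q (W.take n)) W.length), (List.take_append_drop _ _).symm,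
    hspec, ?_⟩
  intro v hv hQ
  have h1 : v.length ≤ W.length := hv.length_le
  have h2 : v = W.take v.length := List.prefix_iff_eq_take.1 hv
  rw [List.length_take]
  refine le_min ?_ h1
  apply Nat.le_findGreatest h1
  rw [← h2]
  exact hQ

theorem cover (hA : RG A gam) (hgam : 129 ≤ gam) (hG : Good Γ A)
    (hP : IsPlus A Γ Γ' ι At) {β βn : B'} {W : List (T × Bool)} (hW : IsReduced W)
    (hlen : W.length + 16 < gam) (hR : Rd Γ' β W βn)
    (hout : ∀ v, v <+: W → ∀ β'', Rd Γ' β v β'' → β'' ∉ Set.range ι) :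
    ∃ w₁ w₂ βm, W = w₁ ++ w₂ ∧ Rd Γ' β w₁ βm ∧
      (∃ b x y y', At β b x y ∧ Rd A y w₁ y') ∧
      (∃ b x y y', At βm b x y ∧ Rd A y w₂ y') := by
  obtain ⟨w₁, W', rfl, ⟨b, x, y, y₁, hb, hy⟩, hmax1⟩ := exists_max_prefix W
    (fun w => ∃ b x y y', At β b x y ∧ Rd A y w y') (by
      obtain ⟨b, x, y, h⟩ := hP.at_ex β
      exact ⟨b, x, y, y, h, rfl⟩)
  obtain ⟨βm, hR1, hR2⟩ := Rd_append.1 hR
  obtain ⟨w₂, W'', rfl, ⟨b', x', y', y₂', hb', hy'⟩, hmax2⟩ := exists_max_prefix W'
    (fun w => ∃ b x y y', At βm b x y ∧ Rd A y w y') (by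
      obtain ⟨b, x, y, h⟩ := hP.at_ex βm
      exact ⟨b, x, y, y, h, rfl⟩)
  cases W'' with
  | nil => exact ⟨w₁, w₂, βm, by simp, hR1, ⟨b, x, y, y₁, hb, hy⟩, ⟨b', x', y', y₂', hb', hy'⟩⟩
  | cons a W'' =>
    exfalso
    obtain ⟨β', hR3, βe, hE, hR4⟩ := Rd_append.1 hR2
    -- `w₂ ≠ []`
    have hw2 : w₂ ≠ [] := by
      rintro rfl
      have hβ : βm = β' := hR3
      subst hβ
      obtain ⟨b0, x0, z0, z0', h1, -, h2⟩ := edge_at hP hE
      have := hmax2 [a] ⟨W'', rfl⟩ ⟨b0, x0, z0, z0', h1, Rd_single.2 h2⟩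
      simp at this
    have hβm : βm ∉ Set.range ι := hout w₁ ⟨w₂ ++ a :: W'', rfl⟩ βm hR1
    have hβ' : β' ∉ Set.range ι :=
      hout (w₁ ++ w₂) ⟨a :: W'', by simp⟩ β' (Rd_trans hR1 hR3)
    have hbm : At βm b x y₁ := at_of_rd hP hb hy hR1
    have hb2 : At β' b' x' y₂' := at_of_rd hP hb' hy' hR3
    obtain ⟨b'', x'', y'', y3, hb3, -, hE3⟩ := edge_at hP hE
    obtain ⟨b₁, x₁, x₁', s₁, hs₁, hs₁0, hc1, hc1', hr1, hr1', hO1, hRs1, hl1⟩ :=
      meet hA hP hbm hb' hβm
    obtain ⟨b₂, x₂, x₂'', s₂, hs₂, hs₂0, hc2, hc2', hr2, hr2', hO2, hRs2, hl2⟩ :=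
      meet hA hP hb2 hb3 hβ'
    -- first meeting: different placements
    have hne1 : x₁ ≠ x₁' := by
      rintro rfl
      obtain rfl := Rd_det hr1 hr1'
      have := hmax1 (w₁ ++ w₂) ⟨a :: W'', by simp⟩ ⟨b, x, y, y₂', hb, Rd_trans hy hy'⟩
      rw [List.length_append] at this
      have h3 : 0 < w₂.length := List.length_pos_iff.2 hw2
      omega
    have hne2 : x₂ ≠ x₂'' := by
      rintro rfl
      obtain rfl := Rd_det hr2 hr2'
      have := hmax2 (w₂ ++ [a]) ⟨W'', by simp⟩ ⟨b', x', y', y3, hb', Rd_trans hy' (Rd_single.2 hE3)⟩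
      simp at this
    have hl1' := hl1 hne1
    have hl2' := hl2 hne2
    -- the middle cell
    have hmid : Cell Γ A b₁ x₁' b₂ x₂ := (hc1'.symm).trans hc2
    have hsmall : ∀ w b' x', IsReduced w → Rd Γ b₁ w b' → Rd A x₁' w x' → w.length ≤ 8 := by
      rcases hG.G2 b₁ x₁' with h | h
      · exfalso
        obtain ⟨b3, h3⟩ := h s₁ y' hr1'
        have h4 := rd_iota hA hP h3
        have h5 := Rd_det h4 hRs1
        exact hβm ⟨b3, h5⟩
      · exact h
    obtain ⟨p, hp, hp1, hp2⟩ := hmid.reduced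
    have hpl := hsmall p b₂ x₂ hp hp1 hp2
    -- (i)
    have hps : IsReduced (p ++ s₂) := by
      rw [isReduced_append_iff]
      refine ⟨hp, hs₂, ?_⟩
      intro e he f hf hef
      by_contra hne
      have hfe : f = (e.1, !e.2) := by
        refine Prod.ext hef.symm ?_
        revert hne
        cases e.2 <;> cases f.2 <;> simp
      obtain ⟨p', rfl⟩ : ∃ p', p = p' ++ [e] := by
        obtain ⟨p', hp'⟩ := List.mem_getLast?_eq_getLast he
        exact ⟨p.dropLast, by
          rw [hp'] 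
          exact (List.dropLast_append_getLast _).symm⟩
      obtain ⟨b4, h4, h5⟩ := Rd_append.1 hp1
      have h6 : Γ.E b₂ f b4 := by
        rw [hfe]; exact Γ.symm _ _ _ (Rd_single.1 h5)
      have h7 := rd_iota hA hP (Rd_single.2 h6)
      obtain ⟨s', rfl⟩ : ∃ s', s₂ = f :: s' := by
        cases s₂ with
        | nil => exact absurd rfl hs₂0
        | cons f' s' =>
          simp only [List.head?_cons, Option.mem_def, Option.some.injEq] at hf
          subst hf
          exact ⟨s', rfl⟩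
      exact hO2 [f] ⟨s', rfl⟩ (by simp) _ h7 ⟨b4, rfl⟩
    -- (ii)
    have hw2r : IsReduced w₂ := by
      apply isReduced_append_left (w' := a :: W'')
      exact isReduced_append_right (w := w₁) hW
    obtain ⟨s₁', c, w₂', hs1eq, hw2eq, hred⟩ := cancel s₁ w₂ hs₁ hw2r
    have hs1'0 : s₁' ≠ [] := by
      rintro rfl
      have hcs : c = s₁ := by simpa using hs1eq.symm
      subst hcs
      have h1 : Rd Γ' β (w₁ ++ invRev c) (ι b₁) := Rd_trans hR1 (Rd_inv hRs1)
      refine hout (w₁ ++ invRev c) ⟨w₂' ++ a :: W'', ?_⟩ _ h1 ⟨b₁, rfl⟩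
      rw [hw2eq]; simp
    obtain ⟨z, hz1, hz2⟩ : ∃ z, Rd A x₁' s₁' z ∧ Rd A z c y' := by
      rw [hs1eq] at hr1'
      exact Rd_append.1 hr1'
    have hz3 : Rd A z w₂' y₂' := by
      rw [hw2eq] at hy'
      obtain ⟨z', h1, h2⟩ := Rd_append.1 hy'
      obtain rfl := Rd_det h1 (Rd_inv hz2)
      exact h2
    have hls : s₁.length = s₁'.length + c.length := by rw [hs1eq, List.length_append]
    have hlw : w₂.length = c.length + w₂'.length := by
      rw [hw2eq, List.length_append, FreeGroup.invRev_length]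
    have hWl : w₂.length ≤ (w₁ ++ (w₂ ++ a :: W'')).length := by
      simp only [List.length_append]; omega
    have heq : p ++ s₂ = s₁' ++ w₂' := by
      refine hA.GI x₁' y₂' _ _ hps hred (Rd_trans hp2 hr2) (Rd_trans hz1 hz3) ?_
      simp only [List.length_append]
      omega
    -- (iii)
    have hp0 : p = [] := by
      cases p with
      | nil => rfl
      | cons f p' =>
        exfalso
        cases s₁' with
        | nil => exact hs1'0 rfl
        | cons f' t =>
          simp only [List.cons_append, List.cons.injEq] at heq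
          obtain ⟨rfl, -⟩ := heq
          obtain ⟨b5, h5, -⟩ := hp1
          have h7 := rd_iota hA hP (Rd_single.2 h5)
          refine hO1 [f] ⟨t ++ c, ?_⟩ (by simp) _ h7 ⟨b5, rfl⟩
          rw [hs1eq]; simp
    subst hp0
    have hbb : b₁ = b₂ := hp1
    have hxx : x₁' = x₂ := hp2
    subst hbb hxx
    rw [List.nil_append] at heq
    by_cases hc0 : c = []
    · -- (v)
      subst hc0
      have e1 : s₁ = s₁' := by simpa using hs1eq
      have e2 : w₂ = w₂' := by simpa using hw2eq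
      subst e1 e2
      rw [heq] at hr2'
      obtain ⟨z', h1, h2⟩ := Rd_append.1 hr2'
      have h3 : At βm b₁ x₁' y' := at_cell hP hb' hc1'
      have h4 : At βm b₁ x₂'' z' := (hP.at_iff βm b₁ x₁' y' b₁ x₂'' z' h3).2
        ⟨b₁, x₁', x₂'', s₁, Cell.refl Γ A b₁ x₁', Cell.refl Γ A b₁ x₂'', hr1', h1⟩
      have := hmax2 (w₂ ++ [a]) ⟨W'', by simp⟩ ⟨b₁, x₂'', z', y3, h4, Rd_trans h2 (Rd_single.2 hE3)⟩
      simp at this
    · -- (iv)
      have h1 : ∃ z', Rd A y₁ (invRev c) z' := by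
        rw [hs1eq] at hr1
        obtain ⟨z', -, h2⟩ := Rd_append.1 hr1
        exact ⟨z', Rd_inv h2⟩
      obtain ⟨z', h1⟩ := h1
      have := hmax1 (w₁ ++ invRev c) ⟨w₂' ++ a :: W'', by rw [hw2eq]; simp⟩
        ⟨b, x, y, z', hb, Rd_trans hy h1⟩
      rw [List.length_append, FreeGroup.invRev_length] at this
      have h3 : 0 < c.length := List.length_pos_iff.2 hc0
      omega

end Crest.Agent.R199
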