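import Crest.Agent.R199.DmMain

/-! Row 199: part II, existence of the datum. -/
set_option autoImplicit false

namespace Crest.Agent.R199

theorem exists_datum (g0 : ℕ) : ∃ (T C V : Type) (_ : Fintype T) (_ : Fintype V)
    (_ : DecidableEq C), Nonempty (Datum T C V g0) := by
  obtain ⟨Γ⟩ := exists_geo g0
  exact ⟨Γ.C × Fin 3, Γ.C, Vx Γ, inferInstance, inferInstance, inferInstance, geo_datum Γ⟩

end Crest.Agent.R199
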