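import Crest.Agent.R199.Basic

/-!
Row 199, part I: the finite datum and its relator graph.

`HE f` : half-edges (v,t) with f v t ≠ 0.  `NBw m ν l` : non-backtracking walk of half-edges.
The positions (vertices) of the graph `D.A` are `V ⊕ Set (HE D.f)`; the W-vertex of a half-edge h is
`{h, m h}`; edges `inl v –(t,true)→ inr {h, m h}` for h = (v,t).
-/
set_option autoImplicit false

namespace Crest.Agent.R199

def HE {T V : Type} (f : V → T → ZMod 2) : Type := {h : V × T // f h.1 h.2 ≠ 0}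

/-- non-backtracking walk (a list of half-edges; m = partial matching involution, ν = vertex) -/
def NBw {H V : Type} (m : H → H) (ν : H → V) (l : List H) : Prop :=
  (∀ h ∈ l, m h ≠ h) ∧ l.IsChain (fun h h' => ν h' = ν (m h) ∧ h' ≠ m h)

/-- the walk is closed -/
def Clw {H V : Type} (m : H → H) (ν : H → V) (l : List H) : Prop :=
  ∀ h ∈ l.head?, ∀ h' ∈ l.getLast?, ν h = ν (m h')

structure Datum (T C V : Type) [Fintype T] [DecidableEq C] (g0 : ℕ) where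
  π : T → C
  X : Submodule (ZMod 2) (T → ZMod 2)
  sig : Function.Bijective (fun (f : X) (c : C) => ∑ t with π t = c, f.1 t)
  f : V → T → ZMod 2
  f_mem : ∀ v, f v ∈ X
  m : HE f → HE f
  inv : ∀ h, m (m h) = h
  o : C → HE f
  fix : ∀ h, m h = h ↔ ∃ c, h = o c
  o_cls : ∀ c, π (o c).1.2 = c
  cp : V → C
  cp_m : ∀ h, cp (m h).1.1 = cp h.1.1
  cp_o : ∀ c, cp (o c).1.1 = c
  cls : ∀ h, π (m h).1.2 = π h.1.2
  lab : ∀ h, m h ≠ h → (m h).1.2 ≠ h.1.2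
  lin : ∀ v v' t t', f v ≠ f v' → f v t ≠ 0 → f v' t ≠ 0 → f v t' ≠ 0 → f v' t' ≠ 0 → t = t'
  edge : ∀ h h', m h ≠ h → m h' ≠ h' → f h.1.1 = f h'.1.1 → h.1.2 = h'.1.2 →
    f (m h).1.1 = f (m h').1.1 → (m h).1.2 = (m h').1.2 → h = h'
  girth : ∀ l : List (HE f), l ≠ [] → NBw m (fun h => h.1.1) l → Clw m (fun h => h.1.1) l →
    g0 ≤ l.length
  f0 : T → ZMod 2
  f0_mem : f0 ∈ X
  f0_ne : f0 ≠ 0
  f0_zero : ∀ c, f0 (o c).1.2 = 0
  use : ∀ t, ∃ v, f v t ≠ 0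

variable {T C V : Type} [Fintype T] [DecidableEq C] {g0 : ℕ}

/-- the W-vertex of a half-edge -/
def Datum.wv (D : Datum T C V g0) (h : HE D.f) : V ⊕ Set (HE D.f) := Sum.inr {h, D.m h}

theorem Datum.wv_m (D : Datum T C V g0) (h : HE D.f) : D.wv (D.m h) = D.wv h := by
  unfold Datum.wv
  rw [D.inv, Set.pair_comm]

theorem Datum.wv_inj (D : Datum T C V g0) {h h' : HE D.f} (he : D.wv h = D.wv h') :
    h' = h ∨ h' = D.m h := by
  unfold Datum.wv at he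
  have h1 : ({h, D.m h} : Set (HE D.f)) = {h', D.m h'} := by simpa using he
  have h2 : h' ∈ ({h, D.m h} : Set (HE D.f)) := by rw [h1]; simp
  simpa using h2

/-- the relator graph of the datum -/
def Datum.A (D : Datum T C V g0) : IG T (V ⊕ Set (HE D.f)) where
  E x a y := ∃ h : HE D.f, (x = Sum.inl h.1.1 ∧ a = (h.1.2, true) ∧ y = D.wv h) ∨
    (x = D.wv h ∧ a = (h.1.2, false) ∧ y = Sum.inl h.1.1)
  symm := by
    rintro x a y ⟨h, ⟨h1, h2, h3⟩ | ⟨h1, h2, h3⟩⟩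
    · exact ⟨h, Or.inr ⟨h3, by rw [h2]; rfl, h1⟩⟩
    · exact ⟨h, Or.inl ⟨h3, by rw [h2]; rfl, h1⟩⟩
  det := by
    rintro x a y y' ⟨h, hh⟩ ⟨h', hh'⟩
    rcases hh with ⟨h1, h2, h3⟩ | ⟨h1, h2, h3⟩ <;> rcases hh' with ⟨h1', h2', h3'⟩ | ⟨h1', h2', h3'⟩
    · have e1 : h.1.1 = h'.1.1 := by rw [h1] at h1'; simpa using h1'
      have e2 : h.1.2 = h'.1.2 := by rw [h2] at h2'; simpa using h2'
      have : h = h' := Subtype.ext (Prod.ext e1 e2)
      rw [h3, h3', this]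
    · rw [h2] at h2'; simp at h2'
    · rw [h2] at h2'; simp at h2'
    · have e2 : h.1.2 = h'.1.2 := by rw [h2] at h2'; simpa using h2'
      rw [h1] at h1'
      rcases D.wv_inj h1' with e | e
      · rw [h3, h3', e]
      · by_cases hf : D.m h = h
        · rw [h3, h3', e, hf]
        · exfalso
          exact D.lab h hf (by rw [← e]; exact e2.symm)

/-- edges at a V-vertex -/
theorem Datum.E_inl (D : Datum T C V g0) {v : V} {a : T × Bool} {y : V ⊕ Set (HE D.f)} :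
    D.A.E (Sum.inl v) a y ↔ ∃ h : HE D.f, h.1.1 = v ∧ a = (h.1.2, true) ∧ y = D.wv h := by
  constructor
  · rintro ⟨h, ⟨h1, h2, h3⟩ | ⟨h1, h2, h3⟩⟩
    · exact ⟨h, by simpa using h1.symm, h2, h3⟩
    · simp [Datum.wv] at h1
  · rintro ⟨h, h1, h2, h3⟩
    exact ⟨h, Or.inl ⟨by rw [h1], h2, h3⟩⟩

/-- edges at a W-vertex -/
theorem Datum.E_inr (D : Datum T C V g0) {s : Set (HE D.f)} {a : T × Bool}
    {y : V ⊕ Set (HE D.f)} :
    D.A.E (Sum.inr s) a y ↔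
      ∃ h : HE D.f, Sum.inr s = D.wv h ∧ a = (h.1.2, false) ∧ y = Sum.inl h.1.1 := by
  constructor
  · rintro ⟨h, ⟨h1, h2, h3⟩ | ⟨h1, h2, h3⟩⟩
    · simp at h1
    · exact ⟨h, h1, h2, h3⟩
  · rintro ⟨h, h1, h2, h3⟩
    exact ⟨h, Or.inr ⟨h1, h2, h3⟩⟩

/-- edges at the W-vertex of a half-edge -/
theorem Datum.E_wv (D : Datum T C V g0) {h : HE D.f} {a : T × Bool} {y : V ⊕ Set (HE D.f)} :
    D.A.E (D.wv h) a y ↔ (a = (h.1.2, false) ∧ y = Sum.inl h.1.1) ∨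
      (a = ((D.m h).1.2, false) ∧ y = Sum.inl (D.m h).1.1) := by
  constructor
  · intro he
    obtain ⟨h', h1, h2, h3⟩ := D.E_inr.1 he
    rcases D.wv_inj (h := h) (h' := h') h1 with e | e
    · left; rw [← e]; exact ⟨h2, h3⟩
    · right; rw [← e]; exact ⟨h2, h3⟩
  · rintro (⟨h1, h2⟩ | ⟨h1, h2⟩)
    · exact ⟨h, Or.inr ⟨rfl, h1, h2⟩⟩
    · exact ⟨D.m h, Or.inr ⟨(D.wv_m h).symm, h1, h2⟩⟩

end Crest.Agent.R199
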