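import Crest.Agent.R199.DatumDefs

/-!
Row 199, piece I2: girth of the relator graph of a datum.

PROOF. `walk_of_word`: for w reduced, Rd A (inl v) w (inl v'): there is l : List HE with
w = l.flatMap (fun h => [(h.1.2,true), ((m h).1.2,false)]), NBw, head vertex v, last m-vertex v'
(l = [] → v = v'). Induction on |w|: w = a :: b :: w'': E_inl: h, a = (h.1.2,true), then E_wv: b = (h.1.2,false)
is excluded by reducedness, so b = ((m h).1.2,false), m h ≠ h, and continue from inl (m h).1.1; the next
half-edge h'' is ≠ m h by reducedness of b :: ...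
`closed_len`: w ≠ [] reduced, Rd A x w x ⇒ 2*g0 ≤ |w|.
 x = inl v: walk_of_word gives l ≠ [], closed, |w| = 2|l|.
 x = inr s: w = a :: w₁ ++ [b], a = (h.1.2,false), x = wv h, Rd A (inl h.1.1) w₁ (inl h₂.1.1), b = (h₂.1.2,true),
 x = wv h₂; h₂ = h or m h (`wv_inj`). If h₂ = h: w₁ ≠ [] (otherwise w is not reduced) and w₁ is closed at
 inl h.1.1. If h₂ = m h ≠ h: l₁ := walk of w₁, l := l₁ ++ [m h] is a closed NBw (m h ≠ m (last l₁) by
 reducedness of w₁ ++ [b]; ν head = h.1.1 = ν (m (m h))), so g0 ≤ |l₁| + 1, |w| = 2|l₁| + 2.
`girth_GI` (general): if every closed reduced nonempty word has length ≥ gam then GI: w ++ invRev w' reads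
x → x; reduce it (classical): length ≤ |w|+|w'| < gam, so reduce (w ++ invRev w') = [], so mk w = mk w',
`eq_of_mk_eq`.
-/
set_option autoImplicit false

namespace Crest.Agent.R199

open FreeGroup (IsReduced invRev)

variable {T C V P : Type} [Fintype T] [DecidableEq C] {g0 : ℕ}

theorem girth_GI {A : IG T P} {gam : ℕ}
    (hcl : ∀ x w, IsReduced w → w ≠ [] → Rd A x w x → gam ≤ w.length)
    (x y : P) (w w' : List (T × Bool)) (hw : IsReduced w) (hw' : IsReduced w')
    (h : Rd A x w y) (h' : Rd A x w' y) (hlen : w.length + w'.length < gam) : w = w' := by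
  classical
  have h1 : Rd A x (w ++ invRev w') x := Rd_trans h (Rd_inv h')
  obtain ⟨R, hR1, hR2, hR3, hR4⟩ := exists_reduced (w ++ invRev w')
  have h2 : Rd A x R x := Rd_red hR4 h1
  have hR0 : R = [] := by
    by_contra hne
    have h3 := hcl x R hR1 hne h2
    rw [List.length_append, FreeGroup.invRev_length] at hR2
    omega
  subst hR0
  refine eq_of_mk_eq hw hw' ?_
  have h4 : FreeGroup.mk w * (FreeGroup.mk w')⁻¹ = 1 := by
    rw [FreeGroup.inv_mk, FreeGroup.mul_mk, ← hR3]
    rfl
  exact mul_inv_eq_one.1 h4

theorem not_red_pair {t : T} {b : Bool} {w : List (T × Bool)} :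
    ¬ IsReduced ((t, b) :: (t, !b) :: w) := by
  intro h
  have h1 := (List.isChain_cons_cons.1 h).1 rfl
  cases b <;> simp at h1

theorem walk_of_word (D : Datum T C V g0) (n : ℕ) : ∀ (w : List (T × Bool)), w.length ≤ n →
    ∀ (v v' : V), IsReduced w → Rd D.A (Sum.inl v) w (Sum.inl v') →
    ∃ l : List (HE D.f), w = l.flatMap (fun h => [(h.1.2, true), ((D.m h).1.2, false)]) ∧
      NBw D.m (fun h => h.1.1) l ∧ (∀ h ∈ l.head?, h.1.1 = v) ∧
      (∀ h ∈ l.getLast?, (D.m h).1.1 = v') ∧ (l = [] → v = v') := by
  induction n with
  | zero =>
    intro w hw v v' _ h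
    obtain rfl := List.length_eq_zero_iff.1 (Nat.le_zero.1 hw)
    have h1 : (Sum.inl v : V ⊕ Set (HE D.f)) = Sum.inl v' := h
    have h2 : v = v' := by simpa using h1
    refine ⟨[], rfl, ⟨by simp, List.IsChain.nil⟩, by simp, by simp, fun _ => h2⟩
  | succ n ih =>
    intro w hw v v' hred h
    match w, hw, hred, h with
    | [], _, _, h =>
      have h1 : (Sum.inl v : V ⊕ Set (HE D.f)) = Sum.inl v' := h
      have h2 : v = v' := by simpa using h1
      exact ⟨[], rfl, ⟨by simp, List.IsChain.nil⟩, by simp, by simp, fun _ => h2⟩
    | [a], _, _, h =>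
      obtain ⟨h', _, _, h3⟩ := D.E_inl.1 (Rd_single.1 h)
      simp [Datum.wv] at h3
    | a :: b :: w'', hw, hred, h =>
      obtain ⟨c, h1, d, h2, h3⟩ := h
      obtain ⟨k, hk1, hk2, hk3⟩ := D.E_inl.1 h1
      subst hk3
      have hk : b = ((D.m k).1.2, false) ∧ d = Sum.inl (D.m k).1.1 ∧ D.m k ≠ k := by
        rcases D.E_wv.1 h2 with ⟨e1, e2⟩ | ⟨e1, e2⟩
        · exfalso
          rw [hk2, e1] at hred
          exact not_red_pair (b := true) hred
        · refine ⟨e1, e2, fun hmk => ?_⟩
          rw [hmk] at e1
          rw [hk2, e1] at hred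
          exact not_red_pair (b := true) hred
      obtain ⟨hb, hd, hmk⟩ := hk
      subst hd
      have hred' : IsReduced w'' := isReduced_append_right (w := [a, b]) hred
      obtain ⟨l, hl1, ⟨hl2, hl3⟩, hl4, hl5, hl6⟩ := ih w''
        (by simp only [List.length_cons] at hw; omega) _ v' hred' h3
      refine ⟨k :: l, ?_, ⟨?_, ?_⟩, ?_, ?_, ?_⟩
      · rw [List.flatMap_cons, ← hl1, hk2, hb]; rfl
      · intro h' hh'
        rcases List.mem_cons.1 hh' with rfl | hh'
        · exact hmk
        · exact hl2 h' hh'
      · rw [List.isChain_cons]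
        refine ⟨fun h' hh' => ⟨hl4 h' hh', ?_⟩, hl3⟩
        rintro rfl
        cases l with
        | nil => simp at hh'
        | cons h'' l =>
          simp only [List.head?_cons, Option.mem_def, Option.some.injEq] at hh'
          subst hh'
          rw [hl1, hb, List.flatMap_cons] at hred
          exact not_red_pair (b := false) (isReduced_append_right (w := [a]) hred)
      · intro h' hh'
        simp only [List.head?_cons, Option.mem_def, Option.some.injEq] at hh'
        subst hh'
        exact hk1
      · intro h' hh'
        cases l with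
        | nil =>
          simp only [List.getLast?_singleton, Option.mem_def, Option.some.injEq] at hh'
          subst hh'
          exact hl6 rfl
        | cons h'' l =>
          rw [List.getLast?_cons_cons] at hh'
          exact hl5 h' hh'
      · intro h'; cases h'

theorem flat_len (D : Datum T C V g0) (l : List (HE D.f)) :
    (l.flatMap (fun h => [(h.1.2, true), ((D.m h).1.2, false)])).length = 2 * l.length := by
  induction l with
  | nil => rfl
  | cons a l ih => rw [List.flatMap_cons, List.length_append, ih]; simp; ring

theorem closed_inl (D : Datum T C V g0) (v : V) (w : List (T × Bool))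
    (hw : IsReduced w) (hne : w ≠ []) (h : Rd D.A (Sum.inl v) w (Sum.inl v)) :
    2 * g0 ≤ w.length := by
  obtain ⟨l, hl1, hl2, hl4, hl5, _⟩ := walk_of_word D w.length w le_rfl v v hw h
  have hl : l ≠ [] := by rintro rfl; exact hne hl1
  have := D.girth l hl hl2 (fun k hk k' hk' => by
    show k.1.1 = (D.m k').1.1
    rw [hl4 k hk, hl5 k' hk'])
  rw [hl1, flat_len]
  omega

theorem closed_len (D : Datum T C V g0) (x : V ⊕ Set (HE D.f)) (w : List (T × Bool))
    (hw : IsReduced w) (hne : w ≠ []) (h : Rd D.A x w x) : 2 * g0 ≤ w.length := by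
  rcases x with v | s
  · exact closed_inl D v w hw hne h
  · cases w with
    | nil => exact absurd rfl hne
    | cons a w₁' =>
      obtain ⟨c, h1, h2⟩ := h
      obtain ⟨k, hk1, hk2, hk3⟩ := D.E_inr.1 h1
      subst hk3
      rcases List.eq_nil_or_concat' w₁' with rfl | ⟨w₁, b, rfl⟩
      · have : (Sum.inl k.1.1 : V ⊕ Set (HE D.f)) = Sum.inr s := h2
        simp at this
      · obtain ⟨z, h3, h4⟩ := Rd_append.1 h2
        have h5 := D.A.symm _ _ _ (Rd_single.1 h4)
        obtain ⟨k₂, hk1', hk2', hk3'⟩ := D.E_inr.1 h5
        subst hk3'
        have hb : b = (k₂.1.2, true) := by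
          have e1 := congrArg Prod.fst hk2'
          have e2 := congrArg Prod.snd hk2'
          simp only [Bool.not_eq_eq_eq_not, Bool.not_false] at e1 e2
          exact Prod.ext e1 e2
        have hw1 : IsReduced w₁ :=
          isReduced_append_left (isReduced_append_right (w := [a]) hw)
        have key : k₂ = k ∨ (k₂ = D.m k ∧ D.m k ≠ k) := by
          rcases D.wv_inj (hk1.symm.trans hk1') with e | e
          · exact Or.inl e
          · by_cases hf : D.m k = k
            · left; rw [e, hf]
            · exact Or.inr ⟨e, hf⟩
        rcases key with e | ⟨e, hf⟩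
        · subst e
          have hw1ne : w₁ ≠ [] := by
            rintro rfl
            rw [hk2, hb] at hw
            exact not_red_pair (b := false) hw
          have := closed_inl D _ w₁ hw1 hw1ne h3
          simp only [List.length_cons, List.length_append]
          omega
        · subst e
          obtain ⟨l, hl1, ⟨hl2, hl3⟩, hl4, hl5, hl6⟩ :=
            walk_of_word D w₁.length w₁ le_rfl _ _ hw1 h3
          have hg := D.girth (l ++ [D.m k]) (by simp) ⟨?_, ?_⟩ ?_
          · simp only [List.length_cons, List.length_append, List.length_nil] at hg ⊢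
            rw [hl1, flat_len]
            omega
          · intro h' hh'
            rcases List.mem_append.1 hh' with hh' | hh'
            · exact hl2 h' hh'
            · rw [List.mem_singleton] at hh'
              subst hh'
              rw [D.inv]
              exact fun e => hf e.symm
          · rw [List.isChain_append]
            refine ⟨hl3, List.isChain_singleton _, fun h' hh' h'' hh'' => ?_⟩
            simp only [List.head?_cons, Option.mem_def, Option.some.injEq] at hh''
            subst hh''
            refine ⟨(hl5 h' hh').symm, fun e => ?_⟩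
            obtain ⟨l', rfl⟩ : ∃ l', l = l' ++ [h'] := by
              obtain ⟨ys, hys⟩ := List.getLast?_eq_some_iff.1 hh'
              exact ⟨ys, hys⟩
            rw [hl1, hb, List.flatMap_append] at hw
            have hw' : IsReduced ((a :: (l'.flatMap (fun h => [(h.1.2, true), ((D.m h).1.2, false)])
              ++ [(h'.1.2, true)])) ++ ((((D.m h').1.2, false)) :: [((D.m k).1.2, true)])) := by
              convert hw using 1
              simp
            have hw'' := isReduced_append_right hw'
            rw [← e] at hw''
            exact not_red_pair (b := false) hw''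
          · intro h' hh' h'' hh''
            show h'.1.1 = (D.m h'').1.1
            rw [List.getLast?_concat, Option.mem_def, Option.some.injEq] at hh''
            subst hh''
            rw [D.inv]
            cases l with
            | nil =>
              simp only [List.nil_append, List.head?_cons, Option.mem_def, Option.some.injEq] at hh'
              subst hh'
              exact (hl6 rfl).symm
            | cons k' l =>
              simp only [List.cons_append, List.head?_cons, Option.mem_def, Option.some.injEq] at hh'
              subst hh'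
              exact hl4 _ rfl

end Crest.Agent.R199
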