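import Crest.Agent.R199.DatumDefs

/-!
Row 199, piece I1: pieces of the relator graph of a datum have length ≤ 4; every letter is used.

PROOF of `datum_PC`. `D.A` is bipartite: letters (t,true) lead from `inl` to `inr`, letters (t,false) from
`inr` to `inl` (`E_inl`, `E_inr`). Let x ≠ x', w reduced readable from both, x_i, x_i' the vertices
(x_i ≠ x_i' by `Rd_inj`-type argument: `D.A.det` and `D.A.symm`). Both have the same type (by the letter).
(V) interior V-vertex x_i = inl v, x_i' = inl v', letters before/after (t,false),(t',true), t ≠ t' by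
reducedness; f v t, f v' t, f v t', f v' t' ≠ 0; so f v = f v' by `lin`.
(W) interior W-vertex with letters (t,true), (l,false), l ≠ t: x_{i-1} = inl v, x_i = wv (v,t), x_{i+1} = inl (m (v,t)).1.1
with l = (m (v,t)).1.2 and m (v,t) ≠ (v,t) (since l ≠ t); similarly for x'. If f v = f v' and the codewords of
x_{i+1}, x'_{i+1} coincide then by `edge` (v,t) = (v',t), so x_{i-1} = x'_{i-1}: contradiction.
If |w| ≥ 5 there are two interior V-vertices x_i, x_{i+2} with a W-vertex between them: contradiction.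
(It is enough to treat |w| = 5 - take a prefix - and split in cases on the type of x: destructure the five
edges.)
-/
set_option autoImplicit false

namespace Crest.Agent.R199

open FreeGroup (IsReduced invRev)

variable {T C V : Type} [Fintype T] [DecidableEq C] {g0 : ℕ}

/-- type of the end points of an edge -/
theorem datum_E_true (D : Datum T C V g0) {p q : V ⊕ Set (HE D.f)} {a : T × Bool}
    (h : D.A.E p a q) (ha : a.2 = true) : ∃ v s, p = Sum.inl v ∧ q = Sum.inr s := by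
  obtain ⟨k, ⟨h1, h2, h3⟩ | ⟨h1, h2, h3⟩⟩ := h
  · exact ⟨_, _, h1, h3⟩
  · rw [h2] at ha; simp at ha

theorem datum_E_false (D : Datum T C V g0) {p q : V ⊕ Set (HE D.f)} {a : T × Bool}
    (h : D.A.E p a q) (ha : a.2 = false) : ∃ s v, p = Sum.inr s ∧ q = Sum.inl v := by
  obtain ⟨k, ⟨h1, h2, h3⟩ | ⟨h1, h2, h3⟩⟩ := h
  · rw [h2] at ha; simp at ha
  · exact ⟨_, _, h1, h3⟩

theorem datum_E_inl_sign (D : Datum T C V g0) {v : V} {q : V ⊕ Set (HE D.f)} {a : T × Bool}
    (h : D.A.E (Sum.inl v) a q) : a.2 = true ∧ D.f v a.1 ≠ 0 := by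
  obtain ⟨k, h1, h2, h3⟩ := D.E_inl.1 h
  refine ⟨by rw [h2], ?_⟩
  rw [h2, ← h1]
  exact k.2

/-- interior V-vertices of two different readings carry the same codeword -/
theorem datum_V (D : Datum T C V g0) {v v' : V} {p q p' q' : V ⊕ Set (HE D.f)} {a b : T × Bool}
    (hab : a.1 = b.1 → a.2 = b.2)
    (h1 : D.A.E p a (Sum.inl v)) (h2 : D.A.E (Sum.inl v) b q)
    (h1' : D.A.E p' a (Sum.inl v')) (h2' : D.A.E (Sum.inl v') b q') : D.f v = D.f v' := by
  by_contra hne
  have e1 := datum_E_inl_sign D (D.A.symm _ _ _ h1)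
  have e2 := datum_E_inl_sign D h2
  have e1' := datum_E_inl_sign D (D.A.symm _ _ _ h1')
  have e2' := datum_E_inl_sign D h2'
  have := D.lin v v' a.1 b.1 hne e1.2 e1'.2 e2.2 e2'.2
  have h3 := hab this
  rw [e2.1] at h3
  rw [h3] at e1
  simp at e1

/-- a reduced passage through a W-vertex -/
theorem datum_W (D : Datum T C V g0) {v v' : V} {s : V ⊕ Set (HE D.f)} {a b : T × Bool}
    (hab : a.1 = b.1 → a.2 = b.2)
    (h1 : D.A.E (Sum.inl v) a s) (h2 : D.A.E s b (Sum.inl v')) :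
    ∃ h : HE D.f, h.1.1 = v ∧ a = (h.1.2, true) ∧ D.m h ≠ h ∧ b = ((D.m h).1.2, false) ∧
      (D.m h).1.1 = v' := by
  obtain ⟨h, e1, e2, e3⟩ := D.E_inl.1 h1
  subst e3
  have hb : b ≠ (h.1.2, false) := by
    rintro rfl
    have := hab (by rw [e2])
    rw [e2] at this
    simp at this
  rcases D.E_wv.1 h2 with ⟨k1, k2⟩ | ⟨k1, k2⟩
  · exact absurd k1 hb
  · refine ⟨h, e1, e2, ?_, k1, ?_⟩
    · intro hm
      rw [hm] at k1
      exact hb k1
    · simpa using k2.symm

theorem datum_block (D : Datum T C V g0) {a b c d : T × Bool}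
    (hab : a.1 = b.1 → a.2 = b.2) (hbc : b.1 = c.1 → b.2 = c.2) (hcd : c.1 = d.1 → c.2 = d.2)
    {p s q p' s' q' : V ⊕ Set (HE D.f)} {v w v' w' : V}
    (h1 : D.A.E p a (Sum.inl v)) (h2 : D.A.E (Sum.inl v) b s) (h3 : D.A.E s c (Sum.inl w))
    (h4 : D.A.E (Sum.inl w) d q)
    (h1' : D.A.E p' a (Sum.inl v')) (h2' : D.A.E (Sum.inl v') b s')
    (h3' : D.A.E s' c (Sum.inl w')) (h4' : D.A.E (Sum.inl w') d q') : v = v' := by
  have e1 := datum_V D hab h1 h2 h1' h2'
  have e2 := datum_V D hcd h3 h4 h3' h4'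
  obtain ⟨h, k1, k2, k3, k4, k5⟩ := datum_W D hbc h2 h3
  obtain ⟨h', k1', k2', k3', k4', k5'⟩ := datum_W D hbc h2' h3'
  have hh : h = h' := by
    apply D.edge h h' k3 k3'
    · rw [k1, k1', e1]
    · have := k2.symm.trans k2'
      simpa using this
    · rw [k5, k5', e2]
    · have := k4.symm.trans k4'
      simpa using this
  rw [← k1, ← k1', hh]

theorem datum_PC (D : Datum T C V g0) (x x' : V ⊕ Set (HE D.f)) (w : List (T × Bool))
    (y y' : V ⊕ Set (HE D.f)) (hne : x ≠ x') (hw : IsReduced w) (h : Rd D.A x w y)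
    (h' : Rd D.A x' w y') : w.length ≤ 4 := by
  by_contra hlen
  obtain ⟨a, b, c, d, e, u, rfl⟩ : ∃ a b c d e u, w = a :: b :: c :: d :: e :: u := by
    match w, hlen with
    | a :: b :: c :: d :: e :: u, _ => exact ⟨a, b, c, d, e, u, rfl⟩
    | [], hl => simp at hl
    | [_], hl => simp at hl
    | [_, _], hl => simp at hl
    | [_, _, _], hl => simp at hl
    | [_, _, _, _], hl => simp at hl
  rw [FreeGroup.isReduced_cons_cons, FreeGroup.isReduced_cons_cons, FreeGroup.isReduced_cons_cons,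
    FreeGroup.isReduced_cons_cons] at hw
  obtain ⟨hab, hbc, hcd, hde, _⟩ := hw
  obtain ⟨x1, r1, x2, r2, x3, r3, x4, r4, x5, r5, _⟩ := h
  obtain ⟨x1', r1', x2', r2', x3', r3', x4', r4', x5', r5', _⟩ := h'
  have n1 : x1 ≠ x1' := by
    rintro rfl
    exact hne (D.A.det _ _ _ _ (D.A.symm _ _ _ r1) (D.A.symm _ _ _ r1'))
  have n2 : x2 ≠ x2' := by
    rintro rfl
    exact n1 (D.A.det _ _ _ _ (D.A.symm _ _ _ r2) (D.A.symm _ _ _ r2'))
  cases ha : a.2 with
  | true =>
    obtain ⟨v0, s1, rfl, rfl⟩ := datum_E_true D r1 ha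
    obtain ⟨v0', s1', rfl, rfl⟩ := datum_E_true D r1' ha
    have hb : b.2 = false := by
      cases hb : b.2 with
      | false => rfl
      | true => obtain ⟨_, _, h5, _⟩ := datum_E_true D r2 hb; simp at h5
    obtain ⟨_, v2, _, rfl⟩ := datum_E_false D r2 hb
    obtain ⟨_, v2', _, rfl⟩ := datum_E_false D r2' hb
    have hc := (datum_E_inl_sign D r3).1
    obtain ⟨_, s3, _, rfl⟩ := datum_E_true D r3 hc
    obtain ⟨_, s3', _, rfl⟩ := datum_E_true D r3' hc
    have hd : d.2 = false := by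
      cases hd : d.2 with
      | false => rfl
      | true => obtain ⟨_, _, h5, _⟩ := datum_E_true D r4 hd; simp at h5
    obtain ⟨_, v4, _, rfl⟩ := datum_E_false D r4 hd
    obtain ⟨_, v4', _, rfl⟩ := datum_E_false D r4' hd
    exact n2 (congrArg Sum.inl (datum_block D hbc hcd hde r2 r3 r4 r5 r2' r3' r4' r5'))
  | false =>
    obtain ⟨s0, v1, rfl, rfl⟩ := datum_E_false D r1 ha
    obtain ⟨s0', v1', rfl, rfl⟩ := datum_E_false D r1' ha
    have hb := (datum_E_inl_sign D r2).1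
    obtain ⟨_, s2, _, rfl⟩ := datum_E_true D r2 hb
    obtain ⟨_, s2', _, rfl⟩ := datum_E_true D r2' hb
    have hc : c.2 = false := by
      cases hc : c.2 with
      | false => rfl
      | true => obtain ⟨_, _, h5, _⟩ := datum_E_true D r3 hc; simp at h5
    obtain ⟨_, v3, _, rfl⟩ := datum_E_false D r3 hc
    obtain ⟨_, v3', _, rfl⟩ := datum_E_false D r3' hc
    exact n1 (congrArg Sum.inl (datum_block D hab hbc hcd r1 r2 r3 r4 r1' r2' r3' r4'))

theorem datum_US (D : Datum T C V g0) (a : T × Bool) : ∃ y y', D.A.E y a y' := by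
  obtain ⟨v, hv⟩ := D.use a.1
  have h0 : D.A.E (Sum.inl v) (a.1, true) (D.wv ⟨(v, a.1), hv⟩) :=
    ⟨⟨(v, a.1), hv⟩, Or.inl ⟨rfl, rfl, rfl⟩⟩
  rcases a with ⟨t, b⟩
  cases b with
  | true => exact ⟨_, _, h0⟩
  | false => exact ⟨_, _, D.A.symm _ _ _ h0⟩

end Crest.Agent.R199
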