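import Mathlib

/-!
Row 199 (S0303): a torsion-free word-hyperbolic group which is not residually finite.
Definitions for part III (graphical small cancellation by layering) - see `ideas` (row 199, helper36).

* `IG T B` : an inverse labelled graph on the vertex type `B` with letters `T × Bool`.
* `Rd Γ b w b'` : the word `w` reads from `b` to `b'`.
* `A : IG T P` is the (finite) relator graph, `RG A gam` its small cancellation hypotheses.
* `Cell`, `Complete`, `Good`, `Rr`, `IsPlus` : the layering construction.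
* `Lay` : the interface used by all the consequences (Greendlinger, torsion-free, hyperbolic).
-/
set_option autoImplicit false

namespace Crest.Agent.R199

open FreeGroup (IsReduced invRev)

/-- inverse labelled graph -/
structure IG (T B : Type) where
  E : B → T × Bool → B → Prop
  symm : ∀ b a b', E b a b' → E b' (a.1, !a.2) b
  det : ∀ b a b' b'', E b a b' → E b a b'' → b' = b''

variable {T B P : Type}

/-- `Rd Γ b w b'` : the word `w` can be read in `Γ` from `b` and ends in `b'`. -/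
def Rd (Γ : IG T B) : B → List (T × Bool) → B → Prop
  | b, [], b' => b = b'
  | b, a :: w, b' => ∃ c, Γ.E b a c ∧ Rd Γ c w b'

/-- small cancellation hypotheses on the relator graph: `GI` (girth), `PC` (pieces have length
at most 4), `US` (every letter is used). -/
structure RG (A : IG T P) (gam : ℕ) : Prop where
  GI : ∀ x y w w', IsReduced w → IsReduced w' → Rd A x w y → Rd A x w' y →
    w.length + w'.length < gam → w = w'
  PC : ∀ x x' w y y', x ≠ x' → IsReduced w → Rd A x w y → Rd A x' w y' → w.length ≤ 4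
  US : ∀ a, ∃ y y', A.E y a y'

/-- the placements `(b,x)` and `(b',x')` lie in the same cell of `B × A`. -/
def Cell (Γ : IG T B) (A : IG T P) (b : B) (x : P) (b' : B) (x' : P) : Prop :=
  ∃ w, Rd Γ b w b' ∧ Rd A x w x'

/-- the cell of `(b,x)` is complete: everything readable in `A` from `x` is readable from `b`. -/
def Complete (Γ : IG T B) (A : IG T P) (b : B) (x : P) : Prop :=
  ∀ w x', Rd A x w x' → ∃ b', Rd Γ b w b'

structure Good (Γ : IG T B) (A : IG T P) : Prop where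
  G1 : ∀ b b' x, Cell Γ A b x b' x → b = b'
  G2 : ∀ b x, Complete Γ A b x ∨
    ∀ w b' x', IsReduced w → Rd Γ b w b' → Rd A x w x' → w.length ≤ 8

/-- the gluing relation: vertex `y` of the cell of `(b,x)` = vertex `y'` of the cell of `(b',x')`. -/
def Rr (Γ : IG T B) (A : IG T P) (b : B) (x y : P) (b' : B) (x' y' : P) : Prop :=
  ∃ b₁ x₁ x₁' s, Cell Γ A b x b₁ x₁ ∧ Cell Γ A b' x' b₁ x₁' ∧ Rd A x₁ s y ∧ Rd A x₁' s y'

/-- `Γ'` (on `B'`) is the next layer over `Γ`: `At β b x y` means that `β` is the vertex `y` of the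
cell of `(b,x)`. -/
structure IsPlus {B' : Type} (A : IG T P) (Γ : IG T B) (Γ' : IG T B') (ι : B → B')
    (At : B' → B → P → P → Prop) : Prop where
  at_ex : ∀ β, ∃ b x y, At β b x y
  ex_at : ∀ b x w y, Rd A x w y → ∃ β, At β b x y
  at_iff : ∀ β b x y b' x' y', At β b x y → (At β b' x' y' ↔ Rr Γ A b x y b' x' y')
  at_uniq : ∀ β β' b x y, At β b x y → At β' b x y → β = β'
  iota_at : ∀ b x, At (ι b) b x x
  E_iff : ∀ β a β', Γ'.E β a β' ↔ ∃ b x y y', At β b x y ∧ At β' b x y' ∧ A.E y a y'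

/-- the tower of layers, starting with a point. -/
structure Tower (A : IG T P) where
  B : ℕ → Type
  Γ : ∀ k, IG T (B k)
  ι : ∀ k, B k → B (k + 1)
  At : ∀ k, B (k + 1) → B k → P → P → Prop
  b0 : B 0
  b0_uniq : ∀ b : B 0, b = b0
  no_edge : ∀ b a b', ¬ (Γ 0).E b a b'
  good : ∀ k, Good (Γ k) A
  plus : ∀ k, IsPlus A (Γ k) (Γ (k + 1)) (ι k) (At k)

/-- the relators : labels of closed paths of `A` -/
def rels (A : IG T P) : Set (FreeGroup T) := {g | ∃ x w, Rd A x w x ∧ g = FreeGroup.mk w}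

/-- the group defined by the relator graph `A` -/
abbrev Gp (A : IG T P) : Type := FreeGroup T ⧸ Subgroup.normalClosure (rels A)

/-- The interface with the layered group. `BB k` is the set of products of at most `k` segments. -/
structure Lay (A : IG T P) (gam : ℕ) {G : Type} [Group G] (q : FreeGroup T →* G)
    (BB : ℕ → Set G) : Prop where
  surj : Function.Surjective q
  rel : ∀ x w, Rd A x w x → q (FreeGroup.mk w) = 1
  zero : BB 0 = {1}
  succ : ∀ k h, h ∈ BB (k + 1) ↔
    ∃ g ∈ BB k, ∃ x w y, Rd A x w y ∧ h = g * q (FreeGroup.mk w)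
  letter : ∀ a, q (FreeGroup.mk [a]) ≠ 1
  T1 : ∀ k g x, g ∈ BB (k + 1) →
    (∃ w y, Rd A x w y ∧ g * q (FreeGroup.mk w) ∈ BB k) ∨
    ∀ w y, IsReduced w → Rd A x w y →
      (∀ v, v <+: w → g * q (FreeGroup.mk v) ∈ BB (k + 1)) → w.length ≤ 8
  T2 : ∀ k g g' x w y x' w' y', g ∈ BB k → g' ∈ BB k → Rd A x w y → Rd A x' w' y' →
    g * q (FreeGroup.mk w) = g' * q (FreeGroup.mk w') → g * q (FreeGroup.mk w) ∉ BB k →
    ∃ v z v' z', Rd A x v z ∧ Rd A x' v' z' ∧
      g * q (FreeGroup.mk v) = g' * q (FreeGroup.mk v') ∧ g * q (FreeGroup.mk v) ∈ BB k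
  T3 : ∀ k g x w y, g ∈ BB k → Rd A x w y → g * q (FreeGroup.mk w) ∈ BB k →
    ∃ w', Rd A x w' y ∧ ∀ v, v <+: w' → g * q (FreeGroup.mk v) ∈ BB k
  T6 : ∀ k g W, IsReduced W → W.length + 16 < gam →
    (∀ v, v <+: W → g * q (FreeGroup.mk v) ∈ BB (k + 1) ∧ g * q (FreeGroup.mk v) ∉ BB k) →
    ∃ w₁ w₂, W = w₁ ++ w₂ ∧
      (∃ b ∈ BB k, ∃ x v y y', Rd A x v y ∧ g = b * q (FreeGroup.mk v) ∧ Rd A y w₁ y') ∧
      (∃ b ∈ BB k, ∃ x v y y', Rd A x v y ∧
        g * q (FreeGroup.mk w₁) = b * q (FreeGroup.mk v) ∧ Rd A y w₂ y')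
  T7 : ∀ k g w, IsReduced w → 2 ≤ w.length → g ∈ BB k → g * q (FreeGroup.mk w) ∈ BB k →
    (∀ v, v <+: w → g * q (FreeGroup.mk v) ∈ BB (k + 1)) →
    (∀ v, v <+: w → v ≠ [] → v ≠ w → g * q (FreeGroup.mk v) ∉ BB k) →
    ∃ w₁, w₁ <+: w ∧ ∃ x y p, Rd A x w₁ y ∧ Rd A x p y ∧ gam ≤ w₁.length + 12 ∧ p.length ≤ 12

end Crest.Agent.R199
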