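import Crest.Agent.R199.Flat

/-!
Row 199, piece C6: descending along a geodesic.

PROOF of `desc` by induction on d = a - k (k = a - d).
d = 0: r = 0; Anc a (c 0) b: Dn (a'-a) b (c 0) with Lev a' (c 0), so a' = a, Dn 0: b = c 0; Ch a 0, Ch_mono
(for a = 0: Lev_zero).
Step: k < a, some c t ∈ BB k, t ≤ n. IH at k+1 (c t ∈ BB (k+1) by mono): r', Lev (k+1) (c r'), c t ∉ BB (k+1) for
t < r'. r := least index with c r ∈ BB k (Nat.find), r ≤ n. r > r' (c t ∉ BB k for t < r' and c r' ∉ BB k).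
c (r-1) ∉ BB k, c (r-1) ∈ BB (k+1) (St_BB, St_symm): level k+1. `flat` on [r', r-1] (k): Ch (k+1) 8.
For b with Anc k (c 0) b: `Anc_next`: b', Anc (k+1), St b b'. IH: Ch (k+1) 2 b' (c r'). So Ch (k+1) 10 b'
(c (r-1)); `contr` with l = k, m = 10 (8*12+16 < gam): Ch k 2 b (c r). Lev k (c r): c r ∈ BB k and if
c r ∈ BB j, j < k then c (r-1) ∈ BB (j+1) ⊆ BB k, contradiction.
-/
set_option autoImplicit false

namespace Crest.Agent.R199

variable {T P G : Type} [Group G] {A : IG T P} {q : FreeGroup T →* G} {BB : ℕ → Set G} {gam : ℕ}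

theorem desc [Nonempty P] (hA : RG A gam) (hgam : 129 ≤ gam) (hL : Lay A gam q BB) (n : ℕ)
    (c : ℕ → G) (hst : ∀ t, t < n → St A q (c t) (c (t + 1)))
    (hgeo : ∀ s t m, s ≤ t → t ≤ n → Dn A q m (c s) (c t) → t ≤ s + m)
    {a : ℕ} (ha : Lev BB a (c 0)) (k : ℕ) (hk : k ≤ a) (hex : ∃ t, t ≤ n ∧ c t ∈ BB k) :
    ∃ r, r ≤ n ∧ Lev BB k (c r) ∧ (∀ t, t < r → c t ∉ BB k) ∧
      ∀ b, Anc A q BB k (c 0) b → Ch A q BB k 2 b (c r) := by
  classical
  obtain ⟨d, hd⟩ : ∃ d, a = k + d := ⟨a - k, by omega⟩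
  induction d generalizing k with
  | zero =>
    have hka : k = a := by omega
    subst hka
    refine ⟨0, Nat.zero_le _, ha, fun t ht => absurd ht (Nat.not_lt_zero t), ?_⟩
    rintro b ⟨_, a', ha', _, hD⟩
    have h1 : a' = k := Lev_unique hL ha' ha
    subst h1
    rw [Nat.sub_self] at hD
    have hb : b = c 0 := hD
    subst hb
    cases a' with
    | zero =>
      have h2 := (Lev_zero hL).1 ha
      exact ⟨h2, h2⟩
    | succ l =>
      have h3 : Ch A q BB (l + 1) 0 (c 0) (c 0) := ⟨rfl, ha⟩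
      exact Ch_mono hL h3 (by omega)
  | succ d ih =>
    obtain ⟨t₀, ht₀, hct₀⟩ := hex
    obtain ⟨r', hr', hlev', hbef', hch'⟩ := ih (k + 1) (by omega)
      ⟨t₀, ht₀, BB_mono hL (Nat.le_succ k) hct₀⟩ (by omega)
    have hex' : ∃ t, c t ∈ BB k := ⟨t₀, hct₀⟩
    set r := Nat.find hex' with hr
    have hrk : c r ∈ BB k := Nat.find_spec hex'
    have hrmin : ∀ t, t < r → c t ∉ BB k := fun t ht => Nat.find_min hex' ht
    have hrn : r ≤ n := (Nat.find_min' hex' hct₀).trans ht₀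
    have hrr' : r' < r := by
      rcases lt_trichotomy r' r with h | h | h
      · exact h
      · exfalso
        rw [← h] at hrk
        exact hlev'.2 k (Nat.lt_succ_self k) hrk
      · exact absurd (BB_mono hL (Nat.le_succ k) hrk) (hbef' r h)
    obtain ⟨r₁, hr₁⟩ : ∃ r₁, r = r₁ + 1 := ⟨r - 1, by omega⟩
    have hs1 : St A q (c r₁) (c r) := by
      rw [hr₁]; exact hst r₁ (by omega)
    have hr1BB : c r₁ ∈ BB (k + 1) := St_BB hL hrk (St_symm hs1)
    have hr1n : c r₁ ∉ BB k := hrmin r₁ (by omega)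
    have hlev1 : Lev BB (k + 1) (c r₁) :=
      ⟨hr1BB, fun j hj h => hr1n (BB_mono hL (by omega) h)⟩
    have hflat := flat hA hgam hL (r₁ - r') k c r'
      (fun t _ h2 => hst t (by omega))
      (fun s t m _ h2 h3 => hgeo s t m h2 (by omega)) hlev'
      (by
        have h1 : r' + (r₁ - r') = r₁ := by omega
        rw [h1]; exact hlev1)
      (fun t _ h2 => hrmin t (by omega))
    have h1 : r' + (r₁ - r') = r₁ := by omega
    rw [h1] at hflat
    refine ⟨r, hrn, ⟨hrk, ?_⟩, hrmin, ?_⟩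
    · intro j hj hcj
      exact hr1n (BB_mono hL (by omega) (St_BB hL hcj (St_symm hs1)))
    · intro b hb
      obtain ⟨b', hb', hsb⟩ := Anc_next hL hb ha (by omega)
      have h2 := Ch_trans hL (hch' b' hb') hflat.2
      exact contr hA hL h2 hb.1 hrk hsb (St_symm hs1) (by omega)

end Crest.Agent.R199
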