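import Crest.Agent.R199.DmCount

/-!
Row 199, DatumMain piece D2: at most 3 kap + kap' + 3 exceptions per half-edge.

PROOF. h in component c ∉ S, L = h.L, class d = h.t.1. Case h regular (L ∈ R c): every exceptional h' is
 (i) extra: h'.L ∈ Ex c, h'.t = (d,i) for some i: at most 3 kap (card_line, deg_Ex); or
 (ii) regular with the same slope: at most one for each of the letters (d,i): at most 3 (par_R);
 a regular h' with different slope is ok: if c' ∈ S, k with M c' k ≠ k, k.L = L, (M c' k).L = h'.L then k.c = c' (fix),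
 (M c' k).c = c' (apply fix to M c' k, using inv), so L, h'.L are lines of component c' which are in R c, so by
 `disj` in R c'; `sep` (c ≠ c' since c ∉ S) gives equal slopes: contradiction.
Case h extra (L ∈ Ex c, so L ∉ R c' for all c' by disj): exceptions: (i) extra h': at most 3 kap; (ii) regular h': then
 stat holds (h extra, h' regular; disj), so there are c' ∈ S and k, M c' k ≠ k, k.L = L, k.t = h.t, (M c' k).L = h'.L,
 (M c' k).t = h'.t; k.c = c', L ∈ Ex c'; k is determined by c' (Hx.ext) and h' is determined by c' (Hx.ext, h'.c = c).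
 So h' ↦ c' is injective into {c' : L ∈ Ex c'}: at most kap' (mul_Ex).
-/
set_option autoImplicit false

namespace Crest.Agent.R199

open Finset

variable {g0 : ℕ} {Γ : Geo g0}

/-- h, h' may be matched in a new component, given the matchings M c' of the components c' ∈ S -/
def okk (S : Finset Γ.C) (M : Γ.C → Hx Γ → Hx Γ) (h h' : Hx Γ) : Prop :=
  stat h h' ∧ ∀ c' ∈ S, ∀ k, M c' k ≠ k → k.L = h.L → k.t = h.t → (M c' k).L = h'.L →
    (M c' k).t = h'.t → False

theorem okk_symm {S : Finset Γ.C} {M : Γ.C → Hx Γ → Hx Γ} (hM : ∀ c' ∈ S, GoodC Γ c' (M c'))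
    (h h' : Hx Γ) (ho : okk S M h h') : okk S M h' h := by
  obtain ⟨⟨h1, h2⟩, h3⟩ := ho
  refine ⟨⟨fun hh => h1 ⟨hh.2, hh.1⟩, fun a b => (h2 b a).symm⟩, ?_⟩
  intro c' hc' k hk e1 e2 e3 e4
  refine h3 c' hc' (M c' k) ?_ e3 e4 ?_ ?_
  · rw [(hM c' hc').inv]; exact fun e => hk e.symm
  · rw [(hM c' hc').inv]; exact e1
  · rw [(hM c' hc').inv]; exact e2

/-- comparison of a set of half-edges of component `c` with a finset of half-edges -/
theorem ncard_Hc_le (c : Γ.C) (A : Set (Hc Γ c)) (F : Finset (Hx Γ))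
    (h : ∀ h' ∈ A, h'.1 ∈ F) : A.ncard ≤ F.card := by
  rw [← Set.ncard_coe_finset F]
  exact Set.ncard_le_ncard_of_injOn (fun h' : Hc Γ c => h'.1) (fun a ha => h a ha)
    (fun a _ b _ hab => Subtype.ext hab) (Finset.finite_toSet F)

theorem ncard_cls_le (c d : Γ.C) (A : Set (Hc Γ c)) (s : Finset Γ.Lam)
    (hs : ∀ L ∈ s, L ∈ Γ.R c ∨ L ∈ Γ.Ex c) (n : ℕ)
    (hn : ∀ i : Fin 3, (s.filter fun L => (d, i) ∈ Γ.on L).card ≤ n)
    (h : ∀ h' ∈ A, h'.1.t.1 = d ∧ h'.1.L ∈ s) : A.ncard ≤ 3 * n := by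
  have h1 : A.ncard ≤ ((univ : Finset (Fin 3)).biUnion fun i =>
      univ.filter fun h : Hx Γ => h.c = c ∧ h.t = (d, i) ∧ h.L ∈ s).card := by
    refine ncard_Hc_le c A _ fun h' hh' => ?_
    obtain ⟨h2, h3⟩ := h h' hh'
    simp only [Finset.mem_biUnion, mem_univ, true_and, mem_filter]
    exact ⟨h'.1.t.2, h'.2.1, Prod.ext h2 rfl, h3⟩
  refine h1.trans (Finset.card_biUnion_le.trans ?_)
  have h4 : ∀ i ∈ (univ : Finset (Fin 3)),
      (univ.filter fun h : Hx Γ => h.c = c ∧ h.t = (d, i) ∧ h.L ∈ s).card ≤ n := by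
    intro i _
    rw [card_line c (d, i) s hs]
    exact hn i
  refine (Finset.sum_le_card_nsmul _ _ _ h4).trans ?_
  simp

theorem beta_cls (S : Finset Γ.C) (M : Γ.C → Hx Γ → Hx Γ) (hM : ∀ c' ∈ S, GoodC Γ c' (M c'))
    (c : Γ.C) (hc : c ∉ S) (h : Hc Γ c) :
    Set.ncard {h' : Hc Γ c | h'.1.t.1 = h.1.t.1 ∧ h'.1.t.2 ≠ h.1.t.2 ∧ ¬ okk S M h.1 h'.1} ≤
      3 * Γ.kap + Γ.kap' + 3 := by
  classical
  have hhc : h.1.c = c := h.2.1
  have hA1 : Set.ncard {h' : Hc Γ c | h'.1.t.1 = h.1.t.1 ∧ h'.1.L ∈ Γ.Ex c} ≤ 3 * Γ.kap :=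
    ncard_cls_le c h.1.t.1 _ (Γ.Ex c) (fun L hL => Or.inr hL) Γ.kap
      (fun i => Γ.deg_Ex c _) (fun h' hh' => hh')
  rcases h.1.mem' with hL | hL
  · rw [hhc] at hL
    have hA2 : Set.ncard {h' : Hc Γ c | h'.1.t.1 = h.1.t.1 ∧
        h'.1.L ∈ (Γ.R c).filter (fun L => Γ.slope L = Γ.slope h.1.L)} ≤ 3 * 1 :=
      ncard_cls_le c h.1.t.1 _ ((Γ.R c).filter (fun L => Γ.slope L = Γ.slope h.1.L))
        (fun L hL => Or.inl (Finset.mem_filter.1 hL).1) 1
        (fun i => by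
          refine le_trans (le_of_eq ?_) (Γ.par_R c (h.1.t.1, i) (Γ.slope h.1.L))
          congr 1
          ext L
          simp only [mem_filter]
          tauto) (fun h' hh' => hh')
    refine (Set.ncard_le_ncard (t := {h' : Hc Γ c | h'.1.t.1 = h.1.t.1 ∧ h'.1.L ∈ Γ.Ex c} ∪
      {h' : Hc Γ c | h'.1.t.1 = h.1.t.1 ∧
        h'.1.L ∈ (Γ.R c).filter (fun L => Γ.slope L = Γ.slope h.1.L)}) ?_
      (Set.toFinite _)).trans ((Set.ncard_union_le _ _).trans (by omega))
    rintro h' ⟨h1, h2, h3⟩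
    have hh'c : h'.1.c = c := h'.2.1
    rcases h'.1.mem' with hL' | hL'
    · rw [hh'c] at hL'
      right
      refine ⟨h1, Finset.mem_filter.2 ⟨hL', ?_⟩⟩
      by_contra hne
      apply h3
      refine ⟨⟨?_, fun _ _ => fun he => hne he.symm⟩, ?_⟩
      · rw [hhc, hh'c]
        rintro ⟨h4, _⟩
        exact Finset.disjoint_left.1 (Γ.disj c c) hL h4
      · intro c' hc' k hk e1 _ e3 _
        have hcc : c ≠ c' := by rintro rfl; exact hc hc'
        have hkc : k.c = c' := (((hM c' hc').fix k).1 hk).1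
        have hk' : M c' (M c' k) ≠ M c' k := by
          rw [(hM c' hc').inv]; exact fun e => hk e.symm
        have hMc : (M c' k).c = c' := (((hM c' hc').fix (M c' k)).1 hk').1
        have hR1 : h.1.L ∈ Γ.R c' := by
          rcases k.mem' with h5 | h5
          · rwa [hkc, e1] at h5
          · rw [hkc, e1] at h5
            exact absurd h5 (Finset.disjoint_left.1 (Γ.disj c c') hL)
        have hR2 : h'.1.L ∈ Γ.R c' := by
          rcases (M c' k).mem' with h5 | h5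
          · rwa [hMc, e3] at h5
          · rw [hMc, e3] at h5
            exact absurd h5 (Finset.disjoint_left.1 (Γ.disj c c') hL')
        exact hne (Γ.sep c c' hcc _ _ hL' hR2 hL hR1)
    · rw [hh'c] at hL'
      exact Or.inl ⟨h1, hL'⟩
  · rw [hhc] at hL
    have hnR : ∀ c', h.1.L ∉ Γ.R c' := fun c' h4 =>
      Finset.disjoint_left.1 (Γ.disj c' c) h4 hL
    set A2 : Set (Hc Γ c) := {h' : Hc Γ c | ∃ c' ∈ S, ∃ k, M c' k ≠ k ∧ k.L = h.1.L ∧
      k.t = h.1.t ∧ (M c' k).L = h'.1.L ∧ (M c' k).t = h'.1.t} with hA2def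
    have hA2 : A2.ncard ≤ Γ.kap' := by
      have hch : ∀ h' : Hc Γ c, h' ∈ A2 → ∃ c', c' ∈ S ∧ ∃ k, M c' k ≠ k ∧ k.L = h.1.L ∧
        k.t = h.1.t ∧ (M c' k).L = h'.1.L ∧ (M c' k).t = h'.1.t := fun h' hh' => hh'
      let f : Hc Γ c → Γ.C := fun h' => if hh : h' ∈ A2 then (hch h' hh).choose else c
      have hf : ∀ h' ∈ A2, f h' ∈ S ∧ ∃ k, M (f h') k ≠ k ∧ k.L = h.1.L ∧
          k.t = h.1.t ∧ (M (f h') k).L = h'.1.L ∧ (M (f h') k).t = h'.1.t := by
        intro h' hh'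
        have h5 : f h' = (hch h' hh').choose := dif_pos hh'
        rw [h5]
        exact (hch h' hh').choose_spec
      refine le_trans ?_ (Γ.mul_Ex h.1.L)
      rw [← Set.ncard_coe_finset]
      refine Set.ncard_le_ncard_of_injOn f ?_ ?_ (Finset.finite_toSet _)
      · intro h' hh'
        obtain ⟨h5, k, hk, e1, e2, e3, e4⟩ := hf h' hh'
        simp only [Finset.coe_filter, mem_univ, true_and, Set.mem_setOf_eq]
        have hkc : k.c = f h' := (((hM _ h5).fix k).1 hk).1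
        rcases k.mem' with h6 | h6
        · rw [e1] at h6
          exact absurd h6 (hnR _)
        · rwa [hkc, e1] at h6
      · intro a ha b hb hab
        obtain ⟨h5, k, hk, e1, e2, e3, e4⟩ := hf a ha
        obtain ⟨h5', k', hk', e1', e2', e3', e4'⟩ := hf b hb
        have hkc : k.c = f a := (((hM _ h5).fix k).1 hk).1
        have hkc' : k'.c = f b := (((hM _ h5').fix k').1 hk').1
        have hkk : k = k' := Hx.ext (by rw [hkc, hkc', hab]) (by rw [e1, e1']) (by rw [e2, e2'])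
        subst hkk
        apply Subtype.ext
        refine Hx.ext (a.2.1.trans b.2.1.symm) ?_ ?_
        · rw [← e3, ← e3', hab]
        · rw [← e4, ← e4', hab]
    refine (Set.ncard_le_ncard (t := {h' : Hc Γ c | h'.1.t.1 = h.1.t.1 ∧ h'.1.L ∈ Γ.Ex c} ∪ A2)
      ?_ (Set.toFinite _)).trans ((Set.ncard_union_le _ _).trans (by omega))
    rintro h' ⟨h1, h2, h3⟩
    have hh'c : h'.1.c = c := h'.2.1
    rcases h'.1.mem' with hL' | hL'
    · rw [hh'c] at hL'
      right
      rw [hA2def, Set.mem_setOf_eq]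
      by_contra hcon
      apply h3
      refine ⟨⟨?_, fun h4 _ => absurd h4 (hnR _)⟩, ?_⟩
      · rw [hh'c]
        rintro ⟨_, h4⟩
        exact Finset.disjoint_left.1 (Γ.disj c c) hL' h4
      · intro c' hc' k hk e1 e2 e3 e4
        exact hcon ⟨c', hc', k, hk, e1, e2, e3, e4⟩
    · rw [hh'c] at hL'
      exact Or.inl ⟨h1, hL'⟩

end Crest.Agent.R199
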