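import Crest.Agent.R199.DmDefs

/-!
Row 199, DatumMain piece D1: counting half-edges of a component.

PROOFS. `card_line`: bijection h ↦ h.L, inverse L ↦ Hx.mk c L t (Hx.ext).
`even_cls`: the number of h : Hx with h.c = c, h.t.1 = d is Σ_i (q + #{L ∈ Ex c : (d,i) ∈ on L}) (card_line for
R c and Ex c, disjoint by `disj`), which is ≡ Σ_i Σ_{L ∈ Ex c} ind (on L) (d,i) = [c = d] mod 2 (sum_Ex, q even).
Remove the special half-edge oo c, which has h.t.1 = c.
`large_cls`: #{cls = d, label j} ≤ q + kap (card_line, deg_R, deg_Ex); #{cls = d} ≥ 3q - 1; `num`.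
`deg_V`: h ↦ h.t injects into on v.2, card_on.
-/
set_option autoImplicit false

namespace Crest.Agent.R199

open Finset

variable {g0 : ℕ} {Γ : Geo g0}

theorem card_line (c : Γ.C) (t : Γ.C × Fin 3) (s : Finset Γ.Lam)
    (hs : ∀ L ∈ s, L ∈ Γ.R c ∨ L ∈ Γ.Ex c) :
    (univ.filter fun h : Hx Γ => h.c = c ∧ h.t = t ∧ h.L ∈ s).card =
      (s.filter fun L => t ∈ Γ.on L).card := by
  refine Finset.card_bij (fun h _ => h.L) ?_ ?_ ?_
  · intro h hh
    rw [mem_filter] at hh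
    obtain ⟨_, h1, h2, h3⟩ := hh
    rw [mem_filter]
    exact ⟨h3, h2 ▸ h.mem⟩
  · intro h hh h' hh' heq
    rw [mem_filter] at hh hh'
    exact Hx.ext (hh.2.1.trans hh'.2.1.symm) heq (hh.2.2.1.trans hh'.2.2.1.symm)
  · intro L hL
    rw [mem_filter] at hL
    refine ⟨Hx.mk c L t (hs L hL.1) hL.2, ?_, rfl⟩
    rw [mem_filter]
    exact ⟨mem_univ _, rfl, rfl, hL.1⟩

/-- number of half-edges of component c with letter t -/
theorem dm_card_pt (c : Γ.C) (t : Γ.C × Fin 3) :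
    (univ.filter fun h : Hx Γ => h.c = c ∧ h.t = t).card =
      Γ.q + ((Γ.Ex c).filter fun L => t ∈ Γ.on L).card := by
  have h1 := card_line (Γ := Γ) c t (Γ.R c) (fun L hL => Or.inl hL)
  have h2 := card_line (Γ := Γ) c t (Γ.Ex c) (fun L hL => Or.inr hL)
  rw [Γ.deg_R] at h1
  rw [← h1, ← h2, ← Finset.card_union_of_disjoint]
  · congr 1
    ext h
    simp only [mem_union, mem_filter, mem_univ, true_and]
    constructor
    · rintro ⟨h3, h4⟩
      have := h.mem'
      rw [h3] at this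
      rcases this with h5 | h5
      · exact Or.inl ⟨h3, h4, h5⟩
      · exact Or.inr ⟨h3, h4, h5⟩
    · rintro (⟨h3, h4, _⟩ | ⟨h3, h4, _⟩)
      · exact ⟨h3, h4⟩
      · exact ⟨h3, h4⟩
  · rw [Finset.disjoint_filter]
    rintro h _ ⟨_, _, h3⟩ ⟨_, _, h4⟩
    exact (Finset.disjoint_left.mp (Γ.disj c c)) h3 h4

theorem dm_card_cls (c d : Γ.C) :
    (univ.filter fun h : Hx Γ => h.c = c ∧ h.t.1 = d).card =
      ∑ i : Fin 3, (Γ.q + ((Γ.Ex c).filter fun L => (d, i) ∈ Γ.on L).card) := by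
  rw [Finset.card_eq_sum_card_fiberwise (f := fun h : Hx Γ => h.t.2) (t := univ)
    (fun _ _ => mem_univ _)]
  refine Finset.sum_congr rfl fun i _ => ?_
  rw [← dm_card_pt c (d, i), Finset.filter_filter]
  congr 1
  ext h
  simp only [mem_filter, mem_univ, true_and]
  constructor
  · rintro ⟨⟨h1, h2⟩, h3⟩
    exact ⟨h1, Prod.ext h2 h3⟩
  · rintro ⟨h1, h2⟩
    exact ⟨⟨h1, by rw [h2]⟩, by rw [h2]⟩

theorem dm_card_sub (c : Γ.C) (P : Hx Γ → Prop) [DecidablePred P] :
    (univ.filter fun h : Hc Γ c => P h.1).card =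
      (univ.filter fun h : Hx Γ => (h.c = c ∧ h ≠ oo Γ c) ∧ P h).card := by
  refine Finset.card_bij (fun h _ => h.1) ?_ ?_ ?_
  · intro h hh
    rw [mem_filter] at hh ⊢
    exact ⟨mem_univ _, h.2, hh.2⟩
  · intro h _ h' _ heq
    exact Subtype.ext heq
  · intro h hh
    rw [mem_filter] at hh
    exact ⟨⟨h, hh.2.1⟩, by rw [mem_filter]; exact ⟨mem_univ _, hh.2.2⟩, rfl⟩

theorem dm_card_Hc (c d : Γ.C) :
    (univ.filter fun h : Hc Γ c => h.1.t.1 = d).card + (if c = d then 1 else 0) =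
      (univ.filter fun h : Hx Γ => h.c = c ∧ h.t.1 = d).card := by
  rw [dm_card_sub c (fun h => h.t.1 = d)]
  by_cases hcd : c = d
  · rw [if_pos hcd]
    have h1 : (univ.filter fun h : Hx Γ => (h.c = c ∧ h ≠ oo Γ c) ∧ h.t.1 = d) =
        (univ.filter fun h : Hx Γ => h.c = c ∧ h.t.1 = d).erase (oo Γ c) := by
      ext h
      simp only [mem_filter, mem_univ, true_and, mem_erase]
      tauto
    rw [h1, Finset.card_erase_add_one]
    rw [mem_filter]
    exact ⟨mem_univ _, oo_c c, by rw [oo_t]; exact hcd⟩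
  · rw [if_neg hcd, add_zero]
    congr 1
    ext h
    simp only [mem_filter, mem_univ, true_and]
    constructor
    · rintro ⟨⟨h1, _⟩, h2⟩
      exact ⟨h1, h2⟩
    · rintro ⟨h1, h2⟩
      refine ⟨⟨h1, ?_⟩, h2⟩
      intro h3
      rw [h3, oo_t] at h2
      exact hcd h2

theorem even_cls (c d : Γ.C) : Even (univ.filter fun h : Hc Γ c => h.1.t.1 = d).card := by
  have h1 := dm_card_Hc c d
  rw [dm_card_cls] at h1
  have h2 := congrArg (Nat.cast : ℕ → ZMod 2) h1
  have hq : (Γ.q : ZMod 2) = 0 := (ZMod.natCast_eq_zero_iff_even).mpr Γ.q_even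
  have h3 : ((∑ i : Fin 3, (Γ.q + ((Γ.Ex c).filter fun L => (d, i) ∈ Γ.on L).card) : ℕ) : ZMod 2) =
      if c = d then 1 else 0 := by
    rw [← Γ.sum_Ex c d, Finset.sum_comm, Nat.cast_sum]
    refine Finset.sum_congr rfl fun i _ => ?_
    rw [Nat.cast_add, hq, zero_add, Finset.card_filter, Nat.cast_sum]
    refine Finset.sum_congr rfl fun L _ => ?_
    unfold ind
    split_ifs <;> simp
  rw [h3] at h2
  rw [← ZMod.natCast_eq_zero_iff_even]
  rw [Nat.cast_add, Nat.cast_ite, Nat.cast_one, Nat.cast_zero] at h2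
  exact add_eq_right.mp h2

theorem large_cls (c : Γ.C) (h : Hc Γ c) (j : Fin 3) :
    2 * (univ.filter fun h' : Hc Γ c => h'.1.t.1 = h.1.t.1 ∧ h'.1.t.2 = j).card +
      3 * (3 * Γ.kap + Γ.kap' + 3) + 5 * (Γ.Q + 1) ^ (g0 + 1) <
    (univ.filter fun h' : Hc Γ c => h'.1.t.1 = h.1.t.1).card := by
  set d := h.1.t.1 with hd
  have h1 := dm_card_Hc c d
  rw [dm_card_cls] at h1
  have h2 : 3 * Γ.q ≤ ∑ i : Fin 3, (Γ.q + ((Γ.Ex c).filter fun L => (d, i) ∈ Γ.on L).card) := by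
    calc 3 * Γ.q = ∑ _i : Fin 3, Γ.q := by simp
      _ ≤ _ := Finset.sum_le_sum fun i _ => Nat.le_add_right _ _
  have h3 : (univ.filter fun h' : Hc Γ c => h'.1.t.1 = d ∧ h'.1.t.2 = j).card ≤
      Γ.q + Γ.kap := by
    rw [dm_card_sub c (fun h => h.t.1 = d ∧ h.t.2 = j)]
    calc _ ≤ (univ.filter fun h : Hx Γ => h.c = c ∧ h.t = (d, j)).card := by
          refine Finset.card_le_card ?_
          intro h'
          simp only [mem_filter, mem_univ, true_and]
          rintro ⟨⟨h4, _⟩, h5, h6⟩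
          exact ⟨h4, Prod.ext h5 h6⟩
      _ = Γ.q + ((Γ.Ex c).filter fun L => (d, j) ∈ Γ.on L).card := dm_card_pt c (d, j)
      _ ≤ Γ.q + Γ.kap := Nat.add_le_add_left (Γ.deg_Ex c (d, j)) _
  have h4 := Γ.num
  have h5 : (if c = d then 1 else 0) ≤ 1 := by split_ifs <;> omega
  generalize (Γ.Q + 1) ^ (g0 + 1) = M at *
  omega

theorem deg_V (c : Γ.C) (v : Vx Γ) :
    (univ.filter fun h : Hc Γ c => nu h.1 = v).card ≤ Γ.Q := by
  refine le_trans ?_ (Γ.card_on v.1.2)
  refine Finset.card_le_card_of_injOn (fun h => h.1.t) ?_ ?_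
  · intro h hh
    have hh' : nu h.1 = v := by simpa using hh
    have := h.1.mem
    rw [← hh']
    exact this
  · intro h hh h' hh' heq
    have h1 : nu h.1 = v := by simpa using hh
    have h2 : nu h'.1 = v := by simpa using hh'
    have h3 : h.1.t = h'.1.t := heq
    apply Subtype.ext
    apply Subtype.ext
    exact Prod.ext (h1.trans h2.symm) h3

end Crest.Agent.R199
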