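import Crest.Agent.R199.Geo
import Crest.Agent.R199.DatumDefs

/-!
Row 199, DatumMain: from `Geo g0` to `Datum`, definitions.

`Vx Γ` : V-vertices (c, L) with L a line of component c.  `fx` : codewords.  `oo` : special half-edges.
`GoodC c m` : m is a good matching of the half-edges of component c (identity elsewhere).
-/
set_option autoImplicit false

namespace Crest.Agent.R199

open Finset

variable {g0 : ℕ}

/-- V-vertices -/
def Vx (Γ : Geo g0) : Type := {v : Γ.C × Γ.Lam // v.2 ∈ Γ.R v.1 ∨ v.2 ∈ Γ.Ex v.1}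

noncomputable instance (Γ : Geo g0) : Fintype (Vx Γ) := by
  classical
  unfold Vx; infer_instance

instance (Γ : Geo g0) : DecidableEq (Vx Γ) := by
  unfold Vx; infer_instance

/-- codeword of a V-vertex -/
def fx (Γ : Geo g0) : Vx Γ → Γ.C × Fin 3 → ZMod 2 := fun v => ind (Γ.on v.1.2)

/-- half-edges -/
abbrev Hx (Γ : Geo g0) : Type := HE (fx Γ)

noncomputable instance (Γ : Geo g0) : Fintype (Hx Γ) := by
  classical
  unfold Hx HE; infer_instance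

instance (Γ : Geo g0) : DecidableEq (Hx Γ) := by
  unfold Hx HE; infer_instance

variable {Γ : Geo g0}

/-- component, line and letter of a half-edge -/
def Hx.c (h : Hx Γ) : Γ.C := h.1.1.1.1
def Hx.L (h : Hx Γ) : Γ.Lam := h.1.1.1.2
def Hx.t (h : Hx Γ) : Γ.C × Fin 3 := h.1.2

theorem fx_ne {v : Vx Γ} {t : Γ.C × Fin 3} : fx Γ v t ≠ 0 ↔ t ∈ Γ.on v.1.2 := by
  unfold fx ind
  split_ifs with h <;> simp [h]

theorem Hx.mem (h : Hx Γ) : h.t ∈ Γ.on h.L := fx_ne.1 h.2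

theorem Hx.mem' (h : Hx Γ) : h.L ∈ Γ.R h.c ∨ h.L ∈ Γ.Ex h.c := h.1.1.2

/-- a half-edge is determined by component, line and letter -/
theorem Hx.ext {h h' : Hx Γ} (hc : h.c = h'.c) (hL : h.L = h'.L) (ht : h.t = h'.t) : h = h' :=
  Subtype.ext (Prod.ext (Subtype.ext (Prod.ext hc hL)) ht)

/-- constructor -/
def Hx.mk (c : Γ.C) (L : Γ.Lam) (t : Γ.C × Fin 3) (h : L ∈ Γ.R c ∨ L ∈ Γ.Ex c)
    (ht : t ∈ Γ.on L) : Hx Γ := ⟨(⟨(c, L), h⟩, t), fx_ne.2 ht⟩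

/-- a regular line of component c through (c, j c) -/
theorem exists_Lc (Γ : Geo g0) (c : Γ.C) : ∃ L, L ∈ Γ.R c ∧ (c, Γ.j c) ∈ Γ.on L := by
  have h := Γ.deg_R c (c, Γ.j c)
  have hq : 0 < Γ.q := lt_of_le_of_lt (Nat.zero_le _) Γ.num
  rw [← h, Finset.card_pos] at hq
  obtain ⟨L, hL⟩ := hq
  simp only [mem_filter] at hL
  exact ⟨L, hL.1, hL.2⟩

/-- the special half-edge of component c -/
noncomputable def oo (Γ : Geo g0) (c : Γ.C) : Hx Γ :=
  Hx.mk c (exists_Lc Γ c).choose (c, Γ.j c) (Or.inl (exists_Lc Γ c).choose_spec.1)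
    (exists_Lc Γ c).choose_spec.2

theorem oo_c (c : Γ.C) : (oo Γ c).c = c := rfl

theorem oo_t (c : Γ.C) : (oo Γ c).t = (c, Γ.j c) := rfl

theorem oo_R (c : Γ.C) : (oo Γ c).L ∈ Γ.R c := (exists_Lc Γ c).choose_spec.1

/-- static condition: not both lines extra, two regular lines have different slopes -/
def stat (h h' : Hx Γ) : Prop :=
  ¬ (h.L ∈ Γ.Ex h.c ∧ h'.L ∈ Γ.Ex h'.c) ∧
  (h.L ∈ Γ.R h.c → h'.L ∈ Γ.R h'.c → Γ.slope h.L ≠ Γ.slope h'.L)

/-- V-vertex -/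
def nu (h : Hx Γ) : Vx Γ := h.1.1

structure GoodC (Γ : Geo g0) (c : Γ.C) (m : Hx Γ → Hx Γ) : Prop where
  inv : ∀ h, m (m h) = h
  fix : ∀ h, m h ≠ h ↔ (h.c = c ∧ h ≠ oo Γ c)
  cls : ∀ h, m h ≠ h → (m h).t.1 = h.t.1
  lab : ∀ h, m h ≠ h → (m h).t ≠ h.t
  sta : ∀ h, m h ≠ h → stat h (m h)
  girth : ∀ l : List (Hx Γ), l ≠ [] → NBw m nu l → Clw m nu l → g0 ≤ l.length

/-- no edge type is used by both matchings -/
def Compat (m m' : Hx Γ → Hx Γ) : Prop :=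
  ∀ h h', m h ≠ h → m' h' ≠ h' → h.L = h'.L → h.t = h'.t → (m h).L = (m' h').L →
    (m h).t = (m' h').t → False

/-- half-edges of component c, without the special one -/
abbrev Hc (Γ : Geo g0) (c : Γ.C) : Type := {h : Hx Γ // h.c = c ∧ h ≠ oo Γ c}

end Crest.Agent.R199
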