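import Crest.Agent.R199.Geo

/-!
Row 199, part II, piece GNUM1 (helper12): numerics.

`Q = 2^(w N0)`, `k = g0 + 3`, `D = 3 k + 2`, `2^w ≥ D` (choose `w = D`).
* (1) `4 * (w N0) * (2^(wD) - 1)^N0 ≤ 2^(w N0 D)` for all large `N0`: `4 w N0 (1 - 2^(-wD))^N0 → 0`
  (`tendsto_self_mul_const_pow_of_lt_one`).
* (2) the last inequality for all large `N0`: with `Q = 2^(w N0)`, `w N0 ≤ Q`.. use e.g. `(Q+1) ≤ 2 Q`,
  `(w N0)^2 ≤ 4 Q`-type bounds or `Tendsto` statements; the right side is `Q^(g0+3)`, the left side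
  `O(Q log Q + Q^2 + (2Q)^(g0+1))`.
-/
set_option autoImplicit false

namespace Crest.Agent.R199

theorem exists_params (g0 : ℕ) : ∃ w N0 D : ℕ, D = 3 * (g0 + 3) + 2 ∧ D ≤ 2 ^ w ∧ 1 ≤ w ∧ 1 ≤ N0 ∧
    4 * ((w * N0) * (2 ^ (w * D) - 1) ^ N0) ≤ (2 ^ (w * N0)) ^ D ∧
    11 * ((2 ^ (w * N0) + 1) * (w * N0) * D) + 3 * (2 * D * (w * N0) + (2 ^ (w * N0)) ^ 2) + 20 +
      5 * (2 ^ (w * N0) + 1) ^ (g0 + 1) < (2 ^ (w * N0)) ^ (g0 + 3) := by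
  obtain ⟨D, hD⟩ : ∃ D : ℕ, D = 3 * (g0 + 3) + 2 := ⟨_, rfl⟩
  have hD1 : 1 ≤ D := by omega
  -- (1) holds for all large `N0`
  have h1 : ∃ N1 : ℕ, ∀ n : ℕ, N1 ≤ n →
      4 * ((D * n) * (2 ^ (D * D) - 1) ^ n) ≤ (2 ^ (D * n)) ^ D := by
    obtain ⟨B, hB⟩ : ∃ B : ℕ, B = 2 ^ (D * D) := ⟨_, rfl⟩
    have hB2 : 2 ≤ B := by
      rw [hB]
      calc 2 = 2 ^ 1 := by norm_num
        _ ≤ 2 ^ (D * D) := Nat.pow_le_pow_right (by norm_num) (by nlinarith)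
    have hBpos : (0 : ℝ) < (B : ℝ) := by
      have : (2 : ℝ) ≤ (B : ℝ) := by exact_mod_cast hB2
      linarith
    have hr0 : (0 : ℝ) ≤ ((B - 1 : ℕ) : ℝ) / (B : ℝ) := by positivity
    have hr1 : ((B - 1 : ℕ) : ℝ) / (B : ℝ) < 1 := by
      rw [div_lt_one hBpos]
      exact_mod_cast (by omega : B - 1 < B)
    have ht := tendsto_self_mul_const_pow_of_lt_one hr0 hr1
    have hDpos : (0 : ℝ) < 1 / (4 * (D : ℝ)) := by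
      have : (0 : ℝ) < (D : ℝ) := by exact_mod_cast hD1
      positivity
    have hev := ht.eventually (gt_mem_nhds hDpos)
    rw [Filter.eventually_atTop] at hev
    obtain ⟨N1, hN1⟩ := hev
    refine ⟨N1, fun n hn => ?_⟩
    have h2 := hN1 n hn
    have hDp : (0 : ℝ) < (D : ℝ) := by exact_mod_cast hD1
    have h3 : (4 : ℝ) * ((D * n) * ((B - 1 : ℕ) : ℝ) ^ n) ≤ (B : ℝ) ^ n := by
      rw [div_pow] at h2
      have hBn : (0 : ℝ) < (B : ℝ) ^ n := by positivity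
      have h4 : (n : ℝ) * (((B - 1 : ℕ) : ℝ) ^ n / (B : ℝ) ^ n) * (4 * (D : ℝ)) < 1 := by
        rwa [lt_div_iff₀ (by positivity)] at h2
      have h5 : (n : ℝ) * (((B - 1 : ℕ) : ℝ) ^ n / (B : ℝ) ^ n) * (4 * (D : ℝ))
          = (4 * ((D * n) * ((B - 1 : ℕ) : ℝ) ^ n)) / (B : ℝ) ^ n := by
        field_simp
      rw [h5, div_lt_one hBn] at h4
      exact h4.le
    have h6 : (2 ^ (D * n)) ^ D = B ^ n := by
      rw [hB, ← pow_mul, ← pow_mul]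
      congr 1
      ring
    rw [h6, ← hB]
    exact_mod_cast h3
  obtain ⟨N1, hN1⟩ := h1
  obtain ⟨K, hK⟩ : ∃ K : ℕ, K = 28 * D + 23 + 5 * 2 ^ (g0 + 1) := ⟨_, rfl⟩
  obtain ⟨N0, hN0⟩ : ∃ N0 : ℕ, N0 = N1 + K + 1 := ⟨_, rfl⟩
  refine ⟨D, N0, D, hD, Nat.lt_two_pow_self.le, hD1, by omega, hN1 N0 (by omega), ?_⟩
  obtain ⟨E, hE⟩ : ∃ E : ℕ, E = D * N0 := ⟨_, rfl⟩
  obtain ⟨Q, hQ⟩ : ∃ Q : ℕ, Q = 2 ^ (D * N0) := ⟨_, rfl⟩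
  rw [← hQ, ← hE]
  have hEN : N0 ≤ E := by rw [hE]; nlinarith
  have hEQ : E ≤ Q := by rw [hQ, ← hE]; exact Nat.lt_two_pow_self.le
  have hKQ : K < Q := by omega
  have hQ1 : 1 ≤ Q := by omega
  have hQ2 : Q ^ 2 ≤ Q ^ (g0 + 2) := Nat.pow_le_pow_right hQ1 (by omega)
  have hQ3 : Q ^ (g0 + 1) ≤ Q ^ (g0 + 2) := Nat.pow_le_pow_right hQ1 (by omega)
  have hQ4 : Q ≤ Q ^ 2 := by nlinarith
  have hA1 : 11 * ((Q + 1) * E * D) ≤ 22 * D * Q ^ (g0 + 2) := by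
    have h2 : (Q + 1) * E ≤ 2 * Q ^ 2 := by nlinarith
    calc 11 * ((Q + 1) * E * D) ≤ 11 * (2 * Q ^ 2 * D) := by
          exact Nat.mul_le_mul_left _ (Nat.mul_le_mul_right _ h2)
      _ = 22 * D * Q ^ 2 := by ring
      _ ≤ 22 * D * Q ^ (g0 + 2) := Nat.mul_le_mul_left _ hQ2
  have hA2 : 3 * (2 * D * E + Q ^ 2) ≤ (6 * D + 3) * Q ^ (g0 + 2) := by
    have h2 : 2 * D * E ≤ 2 * D * Q ^ 2 := Nat.mul_le_mul_left _ (hEQ.trans hQ4)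
    calc 3 * (2 * D * E + Q ^ 2) ≤ 3 * (2 * D * Q ^ 2 + Q ^ 2) := by omega
      _ = (6 * D + 3) * Q ^ 2 := by ring
      _ ≤ (6 * D + 3) * Q ^ (g0 + 2) := Nat.mul_le_mul_left _ hQ2
  have hA3 : 20 ≤ 20 * Q ^ (g0 + 2) := by
    have : 1 ≤ Q ^ (g0 + 2) := Nat.one_le_pow _ _ hQ1
    omega
  have hA4 : 5 * (Q + 1) ^ (g0 + 1) ≤ 5 * 2 ^ (g0 + 1) * Q ^ (g0 + 2) := by
    have h2 : (Q + 1) ^ (g0 + 1) ≤ (2 * Q) ^ (g0 + 1) := Nat.pow_le_pow_left (by omega) _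
    rw [mul_pow] at h2
    calc 5 * (Q + 1) ^ (g0 + 1) ≤ 5 * (2 ^ (g0 + 1) * Q ^ (g0 + 1)) := Nat.mul_le_mul_left _ h2
      _ = 5 * 2 ^ (g0 + 1) * Q ^ (g0 + 1) := by ring
      _ ≤ 5 * 2 ^ (g0 + 1) * Q ^ (g0 + 2) := Nat.mul_le_mul_left _ hQ3
  have hpos : 0 < Q ^ (g0 + 2) := by positivity
  calc 11 * ((Q + 1) * E * D) + 3 * (2 * D * E + Q ^ 2) + 20 + 5 * (Q + 1) ^ (g0 + 1)
      ≤ 22 * D * Q ^ (g0 + 2) + (6 * D + 3) * Q ^ (g0 + 2) + 20 * Q ^ (g0 + 2) +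
        5 * 2 ^ (g0 + 1) * Q ^ (g0 + 2) := by
        exact Nat.add_le_add (Nat.add_le_add (Nat.add_le_add hA1 hA2) hA3) hA4
    _ = K * Q ^ (g0 + 2) := by rw [hK]; ring
    _ < Q * Q ^ (g0 + 2) := Nat.mul_lt_mul_of_pos_right hKQ hpos
    _ = Q ^ (g0 + 3) := by ring

end Crest.Agent.R199
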