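import Crest.Agent.R199.Geo

/-!
Row 199, part II, piece GNUM2 (helper12): numerics.

`deg_bound` : `choose (r+Q) Q ≤ (r+Q)^Q ≤ (Q^D)^Q` (as `r ≤ Q^D/4`, `Q ≤ Q^D/2`), so
`2^m ≤ 2^(e D (Q+1))`.
`mult_bound` : with `N = Q^(2D-2)`: `2^m ≤ N (1 + r/N)^r`, `(1 + r/N)^r ≤ exp (r^2/N) ≤ exp (Q^2/16) ≤
2^(Q^2)` (real numbers, `Real.add_one_le_exp`), `N ≤ 2^(2De)`.
-/
set_option autoImplicit false

namespace Crest.Agent.R199

theorem deg_bound {Q e D r m : ℕ} (hQ : Q = 2 ^ e) (he : 1 ≤ e) (hD : 2 ≤ D) (hr : 4 * r ≤ Q ^ D)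
    (h : 2 ^ m ≤ Q ^ D * (r + Q).choose Q) : m ≤ (Q + 1) * e * D := by
  have hQ2 : 2 ≤ Q := by
    rw [hQ]
    calc 2 = 2 ^ 1 := by norm_num
      _ ≤ 2 ^ e := Nat.pow_le_pow_right (by norm_num) he
  have h2Q : 2 * Q ≤ Q ^ D := by
    calc 2 * Q ≤ Q * Q := Nat.mul_le_mul_right _ hQ2
      _ = Q ^ 2 := by ring
      _ ≤ Q ^ D := Nat.pow_le_pow_right (by omega) hD
  have hsum : r + Q ≤ Q ^ D := by omega
  have hch : (r + Q).choose Q ≤ (Q ^ D) ^ Q :=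
    (Nat.choose_le_pow _ _).trans (Nat.pow_le_pow_left hsum Q)
  have h1 : 2 ^ m ≤ 2 ^ ((Q + 1) * e * D) := by
    calc 2 ^ m ≤ Q ^ D * (r + Q).choose Q := h
      _ ≤ Q ^ D * (Q ^ D) ^ Q := Nat.mul_le_mul_left _ hch
      _ = (Q ^ D) ^ (Q + 1) := by rw [pow_succ]; ring
      _ = 2 ^ ((Q + 1) * e * D) := by
          conv_lhs => rw [hQ]
          rw [← pow_mul, ← pow_mul]
          congr 1
          rw [← hQ]
          ring
  exact (Nat.pow_le_pow_iff_right (by norm_num)).1 h1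

theorem mult_bound {Q e D r m : ℕ} (hQ : Q = 2 ^ e) (he : 1 ≤ e) (hD : 2 ≤ D) (hr : 4 * r ≤ Q ^ D)
    (h : 2 ^ m * (Q ^ (2 * D - 2)) ^ r ≤ Q ^ (2 * D - 2) * (Q ^ (2 * D - 2) + r) ^ r) :
    m ≤ 2 * D * e + Q ^ 2 := by
  set N : ℕ := Q ^ (2 * D - 2) with hN
  have hQ2 : 2 ≤ Q := by
    rw [hQ]
    calc 2 = 2 ^ 1 := by norm_num
      _ ≤ 2 ^ e := Nat.pow_le_pow_right (by norm_num) he
  have hNpos : 0 < N := by rw [hN]; positivity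
  have hNR : (0 : ℝ) < N := by exact_mod_cast hNpos
  -- r^2 ≤ N Q^2 / 16
  have hr2 : 16 * r ^ 2 ≤ N * Q ^ 2 := by
    calc 16 * r ^ 2 = (4 * r) ^ 2 := by ring
      _ ≤ (Q ^ D) ^ 2 := Nat.pow_le_pow_left hr 2
      _ = Q ^ (2 * D) := by rw [← pow_mul]; congr 1; ring
      _ = N * Q ^ 2 := by
          rw [hN, ← pow_add]; congr 1; omega
  have hr2R : (16 : ℝ) * (r : ℝ) ^ 2 ≤ N * (Q : ℝ) ^ 2 := by exact_mod_cast hr2
  have hR : (2 : ℝ) ^ m * (N : ℝ) ^ r ≤ N * ((N : ℝ) + r) ^ r := by exact_mod_cast h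
  have hfac : ((N : ℝ) + r) ^ r = (N : ℝ) ^ r * (1 + (r : ℝ) / N) ^ r := by
    rw [← mul_pow]; congr 1; field_simp
  have h1 : (2 : ℝ) ^ m ≤ N * (1 + (r : ℝ) / N) ^ r := by
    have hp : (0 : ℝ) < (N : ℝ) ^ r := by positivity
    rw [hfac] at hR
    have : (2 : ℝ) ^ m * (N : ℝ) ^ r ≤ (N * (1 + (r : ℝ) / N) ^ r) * (N : ℝ) ^ r := by
      calc _ ≤ _ := hR
        _ = _ := by ring
    exact le_of_mul_le_mul_right this hp
  have h2 : (1 + (r : ℝ) / N) ^ r ≤ Real.exp ((Q : ℝ) ^ 2 / 16) := by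
    have h3 : 1 + (r : ℝ) / N ≤ Real.exp ((r : ℝ) / N) := by
      have := Real.add_one_le_exp ((r : ℝ) / N)
      linarith
    calc (1 + (r : ℝ) / N) ^ r ≤ (Real.exp ((r : ℝ) / N)) ^ r :=
          pow_le_pow_left₀ (by positivity) h3 r
      _ = Real.exp ((r : ℝ) * ((r : ℝ) / N)) := by rw [← Real.exp_nat_mul]
      _ ≤ Real.exp ((Q : ℝ) ^ 2 / 16) := by
          apply Real.exp_le_exp.2
          rw [← mul_div_assoc, div_le_div_iff₀ hNR (by norm_num)]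
          nlinarith [hr2R]
  have h4 : Real.exp ((Q : ℝ) ^ 2 / 16) ≤ (2 : ℝ) ^ (Q ^ 2) := by
    have h5 : (2 : ℝ) ^ (Q ^ 2) = Real.exp (Real.log 2 * ((Q ^ 2 : ℕ) : ℝ)) := by
      rw [mul_comm, Real.exp_nat_mul, Real.exp_log (by norm_num)]
    rw [h5]
    apply Real.exp_le_exp.2
    have h6 : (0.69 : ℝ) < Real.log 2 := by
      have := Real.log_two_gt_d9
      linarith
    push_cast
    nlinarith [sq_nonneg (Q : ℝ)]
  have h7 : (N : ℝ) ≤ (2 : ℝ) ^ (2 * D * e) := by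
    have : N ≤ 2 ^ (2 * D * e) := by
      rw [hN, hQ, ← pow_mul]
      apply Nat.pow_le_pow_right (by norm_num)
      calc e * (2 * D - 2) ≤ e * (2 * D) := Nat.mul_le_mul_left _ (by omega)
        _ = 2 * D * e := by ring
    exact_mod_cast this
  have h8 : (2 : ℝ) ^ m ≤ (2 : ℝ) ^ (2 * D * e + Q ^ 2) := by
    calc (2 : ℝ) ^ m ≤ N * (1 + (r : ℝ) / N) ^ r := h1
      _ ≤ (2 : ℝ) ^ (2 * D * e) * (2 : ℝ) ^ (Q ^ 2) := by
          apply mul_le_mul h7 (h2.trans h4) (by positivity) (by positivity)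
      _ = _ := by rw [← pow_add]
  exact (pow_le_pow_iff_right₀ (by norm_num)).1 h8

end Crest.Agent.R199
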