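import Crest.Agent.R199.Geo

/-!
Row 199, part II, piece RANK2 (helper12): the moments whose exponents have a common zero window of
binary digits vanish on affine lines `z ↦ (α i * z + β i)`.

Proof. `t := w * (N0 - 1 - j)`. `(∑ z, ∏ i, l_i z ^ v_i) ^ (2^t) = ∑ z, ∏ i, l_i z ^ (2^t * v_i)`
(`sum_pow_char_pow`), and since `t + w * (j+1) = w * N0` and `x ^ card F = x`,
`x ^ (2^t * (a + 2^(w*(j+1)) * b)) = x ^ (2^t * a + b)`.  The exponents `m i = 2^t * a i + b i` satisfy
`m i + 1 ≤ 2^(w*(N0-1))`, so the polynomial `∏ i (C (α i) * X + C (β i)) ^ m i` has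
`natDegree ≤ card σ * (2^(w*(N0-1)) - 1) < card F - 1` (because `2 ≤ card σ ≤ 2^w`), and
`∑ z, z ^ k = 0` for `k < card F - 1` (`FiniteField.sum_pow_lt_card_sub_one`).
-/
set_option autoImplicit false

namespace Crest.Agent.R199

open Finset

open Polynomial in
/-- sum over a finite field of the values of a polynomial of degree `< card F - 1` -/
theorem sum_eval_eq_zero_of_natDegree_lt {F : Type} [Field F] [Fintype F]
    (P : F[X]) (hP : P.natDegree < Fintype.card F - 1) : ∑ z : F, P.eval z = 0 := by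
  have h1 : ∀ z : F, P.eval z = ∑ k ∈ Finset.range (P.natDegree + 1), P.coeff k * z ^ k := fun z =>
    Polynomial.eval_eq_sum_range z
  simp_rw [h1]
  rw [Finset.sum_comm]
  refine Finset.sum_eq_zero fun k hk => ?_
  rw [← Finset.mul_sum, FiniteField.sum_pow_lt_card_sub_one, mul_zero]
  have := Finset.mem_range.mp hk
  omega

open Polynomial in
theorem moment_zero {F σ : Type} [Field F] [Fintype F] [DecidableEq F] [CharP F 2]
    [Fintype σ] [DecidableEq σ] (w N0 : ℕ) (hF : Fintype.card F = 2 ^ (w * N0))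
    (h2 : 2 ≤ Fintype.card σ) (hw : Fintype.card σ ≤ 2 ^ w) (α β : σ → F) (v : σ → ℕ)
    (j : ℕ) (hj : j < N0) (a b : σ → ℕ) (ha : ∀ i, a i < 2 ^ (w * j))
    (hb : ∀ i, b i < 2 ^ (w * (N0 - 1 - j))) (hv : ∀ i, v i = a i + 2 ^ (w * (j + 1)) * b i) :
    ∑ z : F, ∏ i, (α i * z + β i) ^ v i = 0 := by
  obtain ⟨M, hM⟩ : ∃ M, N0 = M + 1 + j := ⟨N0 - 1 - j, by omega⟩
  have hMj : N0 - 1 - j = M := by omega
  rw [hMj] at hb
  set t := w * M with ht
  have htot : t + w * (j + 1) = w * N0 := by rw [ht, hM]; ring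
  -- the Frobenius
  have : Fact (Nat.Prime 2) := ⟨Nat.prime_two⟩
  have hfrob : (∑ z : F, ∏ i, (α i * z + β i) ^ v i) ^ (2 ^ t)
      = ∑ z : F, ∏ i, (α i * z + β i) ^ (2 ^ t * a i + b i) := by
    rw [sum_pow_char_pow]
    refine Finset.sum_congr rfl fun z _ => ?_
    rw [← Finset.prod_pow]
    refine Finset.prod_congr rfl fun i _ => ?_
    rw [← pow_mul, hv i]
    have hq : (α i * z + β i) ^ (2 ^ t * 2 ^ (w * (j + 1))) = α i * z + β i := by
      rw [← pow_add, htot, ← hF, FiniteField.pow_card]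
    calc (α i * z + β i) ^ ((a i + 2 ^ (w * (j + 1)) * b i) * 2 ^ t)
        = (α i * z + β i) ^ (2 ^ t * a i + (2 ^ t * 2 ^ (w * (j + 1))) * b i) := by
          congr 1; ring
      _ = (α i * z + β i) ^ (2 ^ t * a i) * ((α i * z + β i) ^ (2 ^ t * 2 ^ (w * (j + 1)))) ^ b i := by
          rw [pow_add, pow_mul (α i * z + β i) (2 ^ t * 2 ^ (w * (j + 1))) (b i)]
      _ = (α i * z + β i) ^ (2 ^ t * a i + b i) := by
          rw [hq, ← pow_add]
  -- the polynomial
  set P : F[X] := ∏ i, (C (α i) * X + C (β i)) ^ (2 ^ t * a i + b i) with hPdef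
  have hev : ∀ z : F, P.eval z = ∏ i, (α i * z + β i) ^ (2 ^ t * a i + b i) := by
    intro z
    rw [hPdef, Polynomial.eval_prod]
    refine Finset.prod_congr rfl fun i _ => ?_
    simp
  have hm : ∀ i, 2 ^ t * a i + b i ≤ 2 ^ (w * (M + j)) - 1 := by
    intro i
    have h1 : 2 ^ t * a i + b i < 2 ^ t * (a i + 1) := by
      rw [mul_add, mul_one]
      exact Nat.add_lt_add_left (hb i) _
    have h2 : 2 ^ t * (a i + 1) ≤ 2 ^ t * 2 ^ (w * j) := Nat.mul_le_mul_left _ (ha i)
    have h3 : (2:ℕ) ^ t * 2 ^ (w * j) = 2 ^ (w * (M + j)) := by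
      rw [← pow_add, ht]; congr 1; ring
    omega
  have hdeg : P.natDegree ≤ Fintype.card σ * (2 ^ (w * (M + j)) - 1) := by
    rw [hPdef]
    refine (Polynomial.natDegree_prod_le _ _).trans ?_
    calc ∑ i : σ, ((C (α i) * X + C (β i)) ^ (2 ^ t * a i + b i)).natDegree
        ≤ ∑ _i : σ, (2 ^ (w * (M + j)) - 1) := by
          refine Finset.sum_le_sum fun i _ => ?_
          refine (Polynomial.natDegree_pow_le).trans ?_
          calc (2 ^ t * a i + b i) * (C (α i) * X + C (β i)).natDegree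
              ≤ (2 ^ t * a i + b i) * 1 := Nat.mul_le_mul_left _ (Polynomial.natDegree_linear_le)
            _ ≤ _ := by rw [mul_one]; exact hm i
      _ = Fintype.card σ * (2 ^ (w * (M + j)) - 1) := by
          rw [Finset.sum_const, Finset.card_univ, smul_eq_mul]
  have hlt : P.natDegree < Fintype.card F - 1 := by
    refine lt_of_le_of_lt hdeg ?_
    rw [hF]
    have hN : w * N0 = w + w * (M + j) := by rw [hM]; ring
    rw [hN, pow_add]
    have hpos : 1 ≤ 2 ^ (w * (M + j)) := Nat.one_le_two_pow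
    have hle : Fintype.card σ * 2 ^ (w * (M + j)) ≤ 2 ^ w * 2 ^ (w * (M + j)) :=
      Nat.mul_le_mul_right _ hw
    have hge : Fintype.card σ ≤ Fintype.card σ * 2 ^ (w * (M + j)) := Nat.le_mul_of_pos_right _ hpos
    rw [Nat.mul_sub, mul_one]
    omega
  have hzero := sum_eval_eq_zero_of_natDegree_lt P hlt
  simp_rw [hev] at hzero
  rw [hzero] at hfrob
  exact pow_eq_zero_iff (by positivity) |>.mp hfrob

end Crest.Agent.R199
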