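import Crest.Agent.R199.Rank1

/-!
Row 199, part II, piece RANK3 (helper12): counting the non-vanishing moments.

`ev x : ℕ` = the number with digits `x : Fin N0 → Fin (2^w)` in base `2^w`.

`digits_window` : if the digit number `j` of `x` is `0` then `ev x = a + 2^(w*(j+1)) * b` with
`a < 2^(w*j)`, `b < 2^(w*(N0-1-j))`.

`rank_le_of_moments` : if all elements of the subspace `X'` have vanishing moments for the exponents
`i ↦ ev (x i)` for all `x : σ → Fin N0 → Fin (2^w)` with a common zero window, then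
`dim X' ≤ (w * N0) * (2^(w * card σ) - 1)^N0`.
Proof: the `F₂`-linear map `X' → (G → F)`, `G = Fin N0 → {y : σ → Fin (2^w) // y ≠ 0}`,
`f ↦ (x ↦ ∑ p, f p • ∏ i, p i ^ ev (fun j => (x j).1 i))` is injective by `moments_inj` (every
`v < card F = (2^w)^N0` is `ev x` for some `x`, `ev_surj`); `card G = (2^(w * card σ) - 1)^N0` and
`finrank (ZMod 2) F = w * N0` (`Module.card_eq_pow_finrank`, `ZMod.card`).
-/
set_option autoImplicit false

namespace Crest.Agent.R199

open Finset

/-- the number with digits `x` in base `2^w` -/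
def ev {w N0 : ℕ} (x : Fin N0 → Fin (2 ^ w)) : ℕ := ∑ j : Fin N0, (x j : ℕ) * (2 ^ w) ^ (j : ℕ)

private theorem ev_eq {w N0 : ℕ} (x : Fin N0 → Fin (2 ^ w)) :
    ev x = (finFunctionFinEquiv x : ℕ) := by
  rw [finFunctionFinEquiv_apply]; rfl

theorem ev_lt {w N0 : ℕ} (x : Fin N0 → Fin (2 ^ w)) : ev x < 2 ^ (w * N0) := by
  rw [ev_eq, pow_mul]
  exact (finFunctionFinEquiv x).2

theorem ev_surj {w N0 : ℕ} (v : ℕ) (hv : v < 2 ^ (w * N0)) :
    ∃ x : Fin N0 → Fin (2 ^ w), ev x = v := by
  refine ⟨finFunctionFinEquiv.symm ⟨v, by rwa [pow_mul] at hv⟩, ?_⟩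
  rw [ev_eq, Equiv.apply_symm_apply]

private theorem sum_lt_pow (B : ℕ) (hB : 0 < B) (n : ℕ) (g : ℕ → ℕ) (hg : ∀ i, g i < B) :
    ∑ i ∈ Finset.range n, g i * B ^ i < B ^ n := by
  induction n with
  | zero => simp
  | succ n ih =>
    rw [Finset.sum_range_succ]
    have h1 : g n * B ^ n ≤ (B - 1) * B ^ n := Nat.mul_le_mul_right _ (by have := hg n; omega)
    have h2 : B ^ (n + 1) = (B - 1) * B ^ n + B ^ n := by
      obtain ⟨b, rfl⟩ : ∃ b, B = b + 1 := ⟨B - 1, by omega⟩
      simp only [Nat.add_sub_cancel]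
      ring
    rw [h2]
    omega

theorem digits_window {w N0 : ℕ} (x : Fin N0 → Fin (2 ^ w)) (j : Fin N0) (hj : (x j : ℕ) = 0) :
    ∃ a b, a < 2 ^ (w * (j : ℕ)) ∧ b < 2 ^ (w * (N0 - 1 - (j : ℕ))) ∧
      ev x = a + 2 ^ (w * ((j : ℕ) + 1)) * b := by
  classical
  have hBpos : 0 < 2 ^ w := by positivity
  let f : ℕ → ℕ := fun i => if h : i < N0 then (x ⟨i, h⟩ : ℕ) else 0
  have hflt : ∀ i, f i < 2 ^ w := by
    intro i
    by_cases h : i < N0
    · simp only [f, h, dif_pos]; exact (x ⟨i, h⟩).2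
    · simp only [f, h, dif_neg, not_false_eq_true]; exact hBpos
  have hev : ev x = ∑ i ∈ Finset.range N0, f i * (2 ^ w) ^ i := by
    unfold ev
    rw [Finset.sum_range]
    refine Finset.sum_congr rfl fun i _ => ?_
    simp only [f, i.2, dif_pos]
  have hjN := j.2
  have hN : N0 = ((j : ℕ) + 1) + (N0 - 1 - (j : ℕ)) := by omega
  have hfj : f j = 0 := by
    simp only [f, hjN, dif_pos]; exact hj
  refine ⟨∑ i ∈ Finset.range j, f i * (2 ^ w) ^ i,
    ∑ i ∈ Finset.range (N0 - 1 - (j : ℕ)), f ((j : ℕ) + 1 + i) * (2 ^ w) ^ i, ?_, ?_, ?_⟩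
  · rw [pow_mul]
    exact sum_lt_pow (2 ^ w) hBpos _ (fun i => f i) (fun i => hflt i)
  · rw [pow_mul]
    exact sum_lt_pow (2 ^ w) hBpos _ (fun i => f ((j : ℕ) + 1 + i)) (fun i => hflt _)
  · rw [hev, pow_mul]
    have e1 : ∑ i ∈ Finset.range N0, f i * (2 ^ w) ^ i =
        ∑ i ∈ Finset.range (((j : ℕ) + 1) + (N0 - 1 - (j : ℕ))), f i * (2 ^ w) ^ i := by
      rw [← hN]
    rw [e1, Finset.sum_range_add, Finset.sum_range_succ, hfj, zero_mul, add_zero]
    congr 1
    rw [Finset.mul_sum]
    refine Finset.sum_congr rfl fun i _ => ?_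
    rw [pow_add]; ring

theorem rank_le_of_moments {F σ : Type} [Field F] [Fintype F] [DecidableEq F]
    [Algebra (ZMod 2) F] [Fintype σ] [DecidableEq σ] (w N0 : ℕ)
    (hF : Fintype.card F = 2 ^ (w * N0))
    (X' : Submodule (ZMod 2) ((σ → F) → ZMod 2))
    (h : ∀ f ∈ X', ∀ x : σ → Fin N0 → Fin (2 ^ w), (∃ j, ∀ i, (x i j : ℕ) = 0) →
      ∑ p : σ → F, f p • (∏ i, p i ^ ev (x i)) = 0) :
    Module.finrank (ZMod 2) X' ≤ (w * N0) * (2 ^ (w * Fintype.card σ) - 1) ^ N0 := by
  classical
  -- the exponents without a common zero window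
  let y0 : σ → Fin (2 ^ w) := fun _ => ⟨0, by positivity⟩
  let G := Fin N0 → {y : σ → Fin (2 ^ w) // y ≠ y0}
  let mon : G → (σ → F) → F := fun x p => ∏ i, p i ^ ev (fun j => (x j).1 i)
  let L : X' →ₗ[ZMod 2] (G → F) :=
    { toFun := fun f x => ∑ p : σ → F, (f.1 p) • mon x p
      map_add' := by
        intro f g
        funext x
        simp only [Submodule.coe_add, Pi.add_apply, add_smul, Finset.sum_add_distrib]
      map_smul' := by
        intro r f
        funext x
        simp only [Submodule.coe_smul, Pi.smul_apply, smul_eq_mul, mul_smul, RingHom.id_apply,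
          Finset.smul_sum] }
  have hinj : Function.Injective L := by
    rw [injective_iff_map_eq_zero]
    intro f hf
    apply Subtype.ext
    show f.1 = 0
    apply moments_inj
    intro v hv
    have hex : ∀ i, ∃ x : Fin N0 → Fin (2 ^ w), ev x = v i := by
      intro i
      apply ev_surj
      rw [← hF]; exact hv i
    choose x hx using hex
    by_cases hwin : ∃ j, ∀ i, (x i j : ℕ) = 0
    · have := h f.1 f.2 x hwin
      rw [← this]
      refine Finset.sum_congr rfl fun p _ => ?_
      simp only [hx]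
    · push Not at hwin
      let X : G := fun j => ⟨fun i => x i j, by
        intro he
        obtain ⟨i, hi⟩ := hwin j
        apply hi
        have := congrFun he i
        simp only [y0] at this
        rw [this]⟩
      have h2 := congrFun hf X
      have h3 : ∑ p : σ → F, (f.1 p) • mon X p = 0 := h2
      rw [← h3]
      refine Finset.sum_congr rfl fun p _ => ?_
      congr 1
      refine Finset.prod_congr rfl fun i _ => ?_
      rw [← hx i]
  have hfinF : Module.Finite (ZMod 2) F := Module.Finite.of_finite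
  have h1 : Module.finrank (ZMod 2) X' ≤ Module.finrank (ZMod 2) (G → F) :=
    LinearMap.finrank_le_finrank_of_injective hinj
  have h2 : Module.finrank (ZMod 2) (G → F) = Fintype.card G * Module.finrank (ZMod 2) F := by
    rw [Module.finrank_pi_fintype]
    simp [Finset.sum_const, Finset.card_univ]
  have h3 : Module.finrank (ZMod 2) F = w * N0 := by
    have h4 := Module.card_eq_pow_finrank (K := ZMod 2) (V := F)
    rw [hF, ZMod.card] at h4
    exact (Nat.pow_right_injective (le_refl 2) h4).symm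
  have h4 : Fintype.card G = (2 ^ (w * Fintype.card σ) - 1) ^ N0 := by
    have h5 : Fintype.card {y : σ → Fin (2 ^ w) // y ≠ y0} = 2 ^ (w * Fintype.card σ) - 1 := by
      have h6 := Fintype.card_subtype_compl (fun y : σ → Fin (2 ^ w) => y = y0)
      rw [Fintype.card_subtype_eq] at h6
      rw [show Fintype.card {y : σ → Fin (2 ^ w) // y ≠ y0} =
        Fintype.card (σ → Fin (2 ^ w)) - 1 from h6]
      rw [Fintype.card_fun, Fintype.card_fin, ← pow_mul]
    show Fintype.card (Fin N0 → {y : σ → Fin (2 ^ w) // y ≠ y0}) = _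
    rw [Fintype.card_fun, Fintype.card_fin, h5]
  rw [h2, h3, h4] at h1
  rw [mul_comm]
  exact h1

end Crest.Agent.R199
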