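import Crest.Agent.R199.FqIdent
import Crest.Agent.R199.Rank2
import Crest.Agent.R199.Rank3

/-!
Row 199, part II, piece RANK4 (helper12): the rank bound for the code `XJ F W` of the transversal
lines of `W × F`, `dim W + 1 = D`.

Proof. Choose a basis `bW : Basis (Fin d) F W` (`d = finrank F W`), let `σ = Option (Fin d)` and
`e : W × F ≃ (σ → F)` the coordinates (`some i ↦ bW.repr p.1 i`, `none ↦ p.2`). Let `X'` be the image
of `XJ F W` under `f ↦ f ∘ e.symm` (`LinearMap.funLeft`, injective, so the same finrank:
`LinearEquiv.finrank_eq` for `LinearEquiv.funCongrLeft` restricted, or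
`Submodule.finrank_map_subtype_eq`/`LinearEquiv.submoduleMap`). By `Submodule.span_induction` it is
enough to check the moments of the generators `ind (tl α β)`:
`∑ p, ind (tl α β) (e.symm p) • ∏ i, p i ^ v i = ∑ z : F, ∏ i, (α' i * z + β' i) ^ v i` where
`α' (some i) = bW.repr α i`, `β' (some i) = bW.repr β i`, `α' none = 1`, `β' none = 0`; this vanishes
by `moment_zero` and `digits_window`. Conclude with `rank_le_of_moments`.
-/
set_option autoImplicit false
set_option linter.unusedSectionVars false

namespace Crest.Agent.R199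

open Finset

theorem finrank_funLeft {A B : Type} (e : B ≃ A) (X : Submodule (ZMod 2) (A → ZMod 2)) :
    Module.finrank (ZMod 2) (X.map (LinearMap.funLeft (ZMod 2) (ZMod 2) e)) =
      Module.finrank (ZMod 2) X := by
  have h : Function.Injective (LinearMap.funLeft (ZMod 2) (ZMod 2) e) :=
    LinearMap.funLeft_injective_of_surjective _ _ _ e.surjective
  exact (LinearEquiv.finrank_eq (Submodule.equivMapOfInjective _ h X)).symm

theorem rank_XJ {F W : Type} [Field F] [Fintype F] [DecidableEq F] [CharP F 2]
    [AddCommGroup W] [Module F W] [Fintype W] [DecidableEq W]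
    (w N0 D : ℕ) (hF : Fintype.card F = 2 ^ (w * N0)) (hD : Module.finrank F W + 1 = D)
    (h2 : 2 ≤ D) (hw : D ≤ 2 ^ w) :
    Module.finrank (ZMod 2) (XJ F W) ≤ (w * N0) * (2 ^ (w * D) - 1) ^ N0 := by
  classical
  let _ : Algebra (ZMod 2) F := ZMod.algebra F 2
  have _ : Module.Finite F W := Module.Finite.of_finite
  let bW : Module.Basis (Fin (Module.finrank F W)) F W := Module.finBasis F W
  let e : W × F ≃ (Option (Fin (Module.finrank F W)) → F) :=
    { toFun := fun p o => o.elim p.2 (fun i => bW.equivFun p.1 i)
      invFun := fun f => (bW.equivFun.symm (fun i => f (some i)), f none)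
      left_inv := by
        intro p
        refine Prod.ext ?_ rfl
        change bW.equivFun.symm (fun i => bW.equivFun p.1 i) = p.1
        exact bW.equivFun.symm_apply_apply p.1
      right_inv := by
        intro f
        funext o
        rcases o with _ | i
        · rfl
        · change bW.equivFun (bW.equivFun.symm (fun i => f (some i))) i = f (some i)
          rw [LinearEquiv.apply_symm_apply] }
  have hc : Fintype.card (Option (Fin (Module.finrank F W))) = D := by
    rw [Fintype.card_option, Fintype.card_fin]; exact hD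
  rw [← finrank_funLeft e.symm (XJ F W), ← hc]
  refine rank_le_of_moments w N0 hF _ ?_
  intro f' hf' x hx
  obtain ⟨j, hj⟩ := hx
  obtain ⟨f, hf, rfl⟩ := Submodule.mem_map.1 hf'
  -- transport the sum to `W × F`
  have htr : ∀ g : W × F → ZMod 2,
      ∑ p : Option (Fin (Module.finrank F W)) → F,
        LinearMap.funLeft (ZMod 2) (ZMod 2) e.symm g p • (∏ i, p i ^ ev (x i)) =
      ∑ q : W × F, g q • (∏ i, e q i ^ ev (x i)) := by
    intro g
    rw [← Equiv.sum_comp e]
    refine Finset.sum_congr rfl fun q _ => ?_
    have : LinearMap.funLeft (ZMod 2) (ZMod 2) e.symm g (e q) = g q := by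
      change g (e.symm (e q)) = g q
      rw [Equiv.symm_apply_apply]
    rw [this]
  rw [htr]
  -- windows
  have hwin : ∀ i, ∃ a b, a < 2 ^ (w * (j : ℕ)) ∧ b < 2 ^ (w * (N0 - 1 - (j : ℕ))) ∧
      ev (x i) = a + 2 ^ (w * ((j : ℕ) + 1)) * b := fun i => digits_window (x i) j (hj i)
  choose a b ha hb hv using hwin
  clear hf'
  unfold XJ at hf
  induction hf using Submodule.span_induction with
  | mem g hg =>
    obtain ⟨⟨α, β⟩, rfl⟩ := hg
    have h1 : ∑ q : W × F, ind (tl (F := F) α β) q • (∏ i, e q i ^ ev (x i)) =
        ∑ q ∈ tl (F := F) α β, ∏ i, e q i ^ ev (x i) := by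
      rw [← Finset.sum_filter_add_sum_filter_not Finset.univ (fun q => q ∈ tl (F := F) α β)]
      rw [Finset.sum_eq_zero (s := Finset.univ.filter fun q => ¬ q ∈ tl (F := F) α β), add_zero]
      · refine Finset.sum_congr (by ext; simp) fun q hq => ?_
        have : q ∈ tl (F := F) α β := by simpa using hq
        simp only [ind, if_pos this, one_smul]
      · intro q hq
        have : q ∉ tl (F := F) α β := by simpa using hq
        simp only [ind, if_neg this, zero_smul]
    change ∑ q : W × F, ind (tl (F := F) α β) q • (∏ i, e q i ^ ev (x i)) = 0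
    rw [h1]
    have h2' : tl (F := F) α β =
        univ.map ⟨fun z : F => (z • α + β, z), fun z z' h => (Prod.ext_iff.1 h).2⟩ := by
      ext p
      simp only [mem_tl, mem_map, mem_univ, true_and, Function.Embedding.coeFn_mk]
      constructor
      · intro h; exact ⟨p.2, Prod.ext h.symm rfl⟩
      · rintro ⟨z, rfl⟩; rfl
    rw [h2', Finset.sum_map]
    have h3 := moment_zero (F := F) (σ := Option (Fin (Module.finrank F W))) w N0 hF
      (by rw [hc]; exact h2) (by rw [hc]; exact hw)
      (fun o => o.elim 1 (fun i => bW.equivFun α i)) (fun o => o.elim 0 (fun i => bW.equivFun β i))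
      (fun i => ev (x i)) j j.2 a b ha hb hv
    rw [← h3]
    refine Finset.sum_congr rfl fun z _ => Finset.prod_congr rfl fun o _ => ?_
    congr 1
    rcases o with _ | i
    · change z = 1 * z + 0
      ring
    · change bW.equivFun (z • α + β) i = bW.equivFun α i * z + bW.equivFun β i
      rw [map_add, map_smul, Pi.add_apply, Pi.smul_apply, smul_eq_mul, mul_comm]
  | zero => simp
  | add g g' _ _ hg hg' =>
    simp only [Pi.add_apply, add_smul, Finset.sum_add_distrib]
    rw [hg, hg', add_zero]
  | smul c g _ hg =>
    simp only [Pi.smul_apply, smul_assoc]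
    rw [← Finset.smul_sum, hg, smul_zero]

end Crest.Agent.R199
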