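import Crest.Agent.R199.Geo

/-!
Row 199, part II, piece SLOPES (helper12): many sets of slopes with pairwise intersections `≤ 1`.

Proof. Let `E = GaloisField 2 (e*k)` (`GaloisField.card`), `|M| = |E|^3` gives a bijection
`E × E × E ≃ M` (`Fintype.equivOfCardEq`), and `|C| ≤ |E|^4` an injection `C → E × E × E × E`
(`Function.Embedding.nonempty_of_card_le`), `c ↦ (m₁, m₂, n₁, n₂)`. Let `S c` be the image of
`{(s, s m₁ + n₁, s m₂ + n₂) : s ∈ E}`; two different graphs of affine maps share at most one point.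
-/
set_option autoImplicit false

namespace Crest.Agent.R199

open Finset

theorem slopes {M C : Type} [Fintype M] [DecidableEq M] [Fintype C] [DecidableEq C] (e k : ℕ)
    (hek : 1 ≤ e * k) (hM : Fintype.card M = (2 ^ (e * k)) ^ 3)
    (hC : Fintype.card C ≤ (2 ^ (e * k)) ^ 4) :
    ∃ S : C → Finset M, (∀ c, (S c).card = 2 ^ (e * k)) ∧
      ∀ c c', c ≠ c' → (S c ∩ S c').card ≤ 1 := by
  classical
  let E := GaloisField 2 (e * k)
  letI : Fintype E := Fintype.ofFinite E
  have hE : Fintype.card E = 2 ^ (e * k) := by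
    rw [← Nat.card_eq_fintype_card]
    exact GaloisField.card 2 (e * k) (by omega)
  have h3 : Fintype.card (E × E × E) = Fintype.card M := by
    rw [hM, Fintype.card_prod, Fintype.card_prod, hE]; ring
  have h4 : Fintype.card C ≤ Fintype.card (E × E × E × E) := by
    rw [Fintype.card_prod, Fintype.card_prod, Fintype.card_prod, hE]
    calc Fintype.card C ≤ (2 ^ (e * k)) ^ 4 := hC
      _ = _ := by ring
  let φ : E × E × E ≃ M := Fintype.equivOfCardEq h3
  obtain ⟨ψ⟩ := Function.Embedding.nonempty_of_card_le h4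
  let g : C → E → M := fun c s =>
    φ (s, s * (ψ c).1 + (ψ c).2.2.1, s * (ψ c).2.1 + (ψ c).2.2.2)
  have hg : ∀ c, Function.Injective (g c) := by
    intro c s t h
    exact (Prod.ext_iff.1 (φ.injective h)).1
  refine ⟨fun c => univ.image (g c), fun c => ?_, fun c c' hcc' => ?_⟩
  · rw [card_image_of_injective _ (hg c), card_univ, hE]
  · rw [card_le_one]
    intro a ha b hb
    obtain ⟨ha1, ha2⟩ := mem_inter.1 ha
    obtain ⟨hb1, hb2⟩ := mem_inter.1 hb
    obtain ⟨s, -, rfl⟩ := mem_image.1 ha1
    obtain ⟨s', -, hs'⟩ := mem_image.1 ha2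
    obtain ⟨t, -, rfl⟩ := mem_image.1 hb1
    obtain ⟨t', -, ht'⟩ := mem_image.1 hb2
    have h1 := φ.injective hs'
    have h2 := φ.injective ht'
    simp only [Prod.mk.injEq] at h1 h2
    obtain ⟨rfl, h11, h12⟩ := h1
    obtain ⟨rfl, h21, h22⟩ := h2
    by_contra hne
    have hst : s' - t' ≠ 0 := by
      intro h
      apply hne
      rw [sub_eq_zero.1 h]
    have e1 : (ψ c').1 = (ψ c).1 := by
      have : (s' - t') * ((ψ c').1 - (ψ c).1) = 0 := by linear_combination h11 - h21
      rcases mul_eq_zero.1 this with h | h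
      · exact absurd h hst
      · exact sub_eq_zero.1 h
    have e2 : (ψ c').2.1 = (ψ c).2.1 := by
      have : (s' - t') * ((ψ c').2.1 - (ψ c).2.1) = 0 := by linear_combination h12 - h22
      rcases mul_eq_zero.1 this with h | h
      · exact absurd h hst
      · exact sub_eq_zero.1 h
    have e3 : (ψ c').2.2.1 = (ψ c).2.2.1 := by
      rw [e1] at h11
      exact add_left_cancel h11
    have e4 : (ψ c').2.2.2 = (ψ c).2.2.2 := by
      rw [e2] at h12
      exact add_left_cancel h12
    exact hcc' (ψ.injective (Prod.ext e1.symm (Prod.ext e2.symm (Prod.ext e3.symm e4.symm))))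

end Crest.Agent.R199
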