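import Crest.Agent.R199.Geo

/-!
Row 199, part II: spread basis and translates (module of helper79).

`Xi` a finite (additive, commutative) group acting on the points `J`, lines indexed by `Xi`,
`pts (s + t) = s • pts t`; every point is on `N Q / n` lines.
-/
set_option autoImplicit false
set_option linter.unusedSectionVars false

namespace Crest.Agent.R199

open Finset

section spread

variable {J Xi : Type} [Fintype J] [DecidableEq J] [Fintype Xi] [DecidableEq Xi] [AddCommGroup Xi]

/-- translation keeps linear independence -/
theorem spread_li_iff {ι : Type} (act : Xi → Equiv.Perm J) (pts : Xi → Finset J)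
    (hact : ∀ s t p, act s p ∈ pts (s + t) ↔ p ∈ pts t) (b : ι → Xi) (s : Xi) :
    LinearIndependent (ZMod 2) (fun i => ind (pts (s + b i))) ↔
      LinearIndependent (ZMod 2) (fun i => ind (pts (b i))) := by
  have h : (fun i => ind (pts (b i))) =
      (LinearEquiv.funCongrLeft (ZMod 2) (ZMod 2) (act s)) ∘ (fun i => ind (pts (s + b i))) := by
    funext i p
    simp only [Function.comp_apply, LinearEquiv.funCongrLeft_apply, LinearMap.funLeft_apply, ind,
      hact]
  rw [h]
  exact (LinearMap.linearIndependent_iff
    (LinearEquiv.funCongrLeft (ZMod 2) (ZMod 2) (act s)).toLinearMap (LinearEquiv.ker _)).symm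

/-- a linearly independent family has few members in a small subspace -/
theorem spread_few {ι : Type} [Fintype ι] (v : ι → J → ZMod 2)
    (hv : LinearIndependent (ZMod 2) v) (Y : Submodule (ZMod 2) (J → ZMod 2))
    [DecidablePred fun i => v i ∉ Y] :
    Fintype.card ι - Module.finrank (ZMod 2) Y ≤ (univ.filter fun i => v i ∉ Y).card := by
  classical
  have h1 : (univ.filter fun i => v i ∈ Y).card ≤ Module.finrank (ZMod 2) Y := by
    have h2 : LinearIndependent (ZMod 2)
        (fun i : (univ.filter fun i => v i ∈ Y) => (⟨v i.1, (Finset.mem_filter.1 i.2).2⟩ : Y)) := by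
      apply LinearIndependent.of_comp Y.subtype
      exact hv.comp _ Subtype.val_injective
    have h3 := h2.fintype_card_le_finrank
    rwa [Fintype.card_coe] at h3
  have h4 := Finset.card_filter_add_card_filter_not (s := (univ : Finset ι)) (fun i => v i ∈ Y)
  rw [Finset.card_univ] at h4
  have h5 : (univ.filter fun i => v i ∉ Y).card = (univ.filter fun i => ¬ (v i ∈ Y)).card := by
    congr
  omega

/-- density of the lines outside a proper subspace -/
theorem spread_density (act : Xi → Equiv.Perm J) (pts : Xi → Finset J)
    (hact : ∀ s t p, act s p ∈ pts (s + t) ↔ p ∈ pts t) (r : ℕ)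
    (hr : Module.finrank (ZMod 2) (Submodule.span (ZMod 2) (Set.range fun s => ind (pts s))) = r)
    (Y : Submodule (ZMod 2) (J → ZMod 2)) [DecidablePred fun s => ind (pts s) ∉ Y] :
    Fintype.card Xi * (r - Module.finrank (ZMod 2) Y) ≤
      r * (univ.filter fun s => ind (pts s) ∉ Y).card := by
  classical
  obtain ⟨b, hb⟩ : ∃ b : Fin r → Xi, LinearIndependent (ZMod 2) (fun i => ind (pts (b i))) := by
    subst hr
    obtain ⟨f, hf, -, hli⟩ := Submodule.exists_fun_fin_finrank_span_eq (ZMod 2)
      (Set.range fun s => ind (pts s))
    choose b hb using hf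
    refine ⟨b, ?_⟩
    have : (fun i => ind (pts (b i))) = f := by
      funext i
      exact hb i
    rw [this]
    exact hli
  have h1 : ∀ s : Xi, r - Module.finrank (ZMod 2) Y ≤
      (univ.filter fun i : Fin r => ind (pts (s + b i)) ∉ Y).card := by
    intro s
    have := spread_few (fun i => ind (pts (s + b i))) ((spread_li_iff act pts hact b s).2 hb) Y
    simpa using this
  have h2 : ∑ s : Xi, (univ.filter fun i : Fin r => ind (pts (s + b i)) ∉ Y).card =
      r * (univ.filter fun s => ind (pts s) ∉ Y).card := by
    simp only [Finset.card_filter]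
    rw [Finset.sum_comm]
    have h3 : ∀ i : Fin r, ∑ s : Xi, (if ind (pts (s + b i)) ∉ Y then 1 else 0) =
        ∑ s : Xi, (if ind (pts s) ∉ Y then 1 else 0) := by
      intro i
      exact Equiv.sum_comp (Equiv.addRight (b i))
        (fun s => if ind (pts s) ∉ Y then 1 else 0)
    rw [Finset.sum_congr rfl (fun i _ => h3 i)]
    simp
  rw [← h2]
  calc Fintype.card Xi * (r - Module.finrank (ZMod 2) Y)
      = ∑ _s : Xi, (r - Module.finrank (ZMod 2) Y) := by simp
    _ ≤ _ := Finset.sum_le_sum fun s _ => h1 s

/-- the potential of a set of lines -/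
def sphi (pts : Xi → Finset J) (B : Finset Xi) : ℕ :=
  ∑ p : J, 2 ^ (B.filter fun s => p ∈ pts s).card

theorem sphi_insert (pts : Xi → Finset J) (B : Finset Xi) (s : Xi) (hs : s ∉ B) :
    sphi pts (insert s B) = sphi pts B +
      ∑ p ∈ pts s, 2 ^ (B.filter fun s => p ∈ pts s).card := by
  classical
  unfold sphi
  have h : ∀ p : J, 2 ^ ((insert s B).filter fun s => p ∈ pts s).card =
      2 ^ (B.filter fun s => p ∈ pts s).card +
        (if p ∈ pts s then 2 ^ (B.filter fun s => p ∈ pts s).card else 0) := by
    intro p
    rw [Finset.filter_insert]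
    split_ifs with hp
    · rw [Finset.card_insert_of_notMem (by simp [hs]), pow_succ]
      ring
    · simp
  rw [Finset.sum_congr rfl (fun p _ => h p), Finset.sum_add_distrib]
  congr 1
  rw [← Finset.sum_filter]
  congr 1
  ext p
  simp

theorem spread_weight (pts : Xi → Finset J) (Q : ℕ)
    (hthr : ∀ p : J, (univ.filter fun s => p ∈ pts s).card * Fintype.card J = Fintype.card Xi * Q)
    (B : Finset Xi) :
    Fintype.card J * ∑ s : Xi, ∑ p ∈ pts s, 2 ^ (B.filter fun s => p ∈ pts s).card =
      Fintype.card Xi * Q * sphi pts B := by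
  classical
  have h1 : ∑ s : Xi, ∑ p ∈ pts s, 2 ^ (B.filter fun s => p ∈ pts s).card =
      ∑ p : J, (univ.filter fun s => p ∈ pts s).card * 2 ^ (B.filter fun s => p ∈ pts s).card := by
    have h2 : ∀ s : Xi, ∑ p ∈ pts s, 2 ^ (B.filter fun s => p ∈ pts s).card =
        ∑ p : J, if p ∈ pts s then 2 ^ (B.filter fun s => p ∈ pts s).card else 0 := by
      intro s
      rw [← Finset.sum_filter]
      congr 1
      ext p
      simp
    rw [Finset.sum_congr rfl (fun s _ => h2 s), Finset.sum_comm]
    refine Finset.sum_congr rfl fun p _ => ?_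
    rw [← Finset.sum_filter, Finset.sum_const, smul_eq_mul]
  rw [h1, Finset.mul_sum, sphi, Finset.mul_sum]
  refine Finset.sum_congr rfl fun p _ => ?_
  rw [← hthr p]
  ring

/-- greedy choice of the spread basis -/
theorem spread_greedy (act : Xi → Equiv.Perm J) (pts : Xi → Finset J) (Q : ℕ)
    (hact : ∀ s t p, act s p ∈ pts (s + t) ↔ p ∈ pts t)
    (hthr : ∀ p : J, (univ.filter fun s => p ∈ pts s).card * Fintype.card J = Fintype.card Xi * Q)
    (r : ℕ)
    (hr : Module.finrank (ZMod 2) (Submodule.span (ZMod 2) (Set.range fun s => ind (pts s))) = r)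
    (hrJ : r ≤ Fintype.card J) (i : ℕ) (hi : i ≤ r) :
    ∃ B : Finset Xi, B.card = i ∧
      LinearIndepOn (ZMod 2) (fun s => ind (pts s)) (B : Set Xi) ∧
      sphi pts B * r.descFactorial i ≤ Fintype.card J * (r + Q).descFactorial i := by
  classical
  induction i with
  | zero =>
    refine ⟨∅, rfl, by simp, ?_⟩
    simp [sphi]
  | succ i ih =>
    obtain ⟨B, hBc, hBl, hBs⟩ := ih (by omega)
    set Y : Submodule (ZMod 2) (J → ZMod 2) :=
      Submodule.span (ZMod 2) ((fun s => ind (pts s)) '' (B : Set Xi)) with hY
    have hYd : Module.finrank (ZMod 2) Y = i := by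
      rw [hY, Set.image_eq_range]
      have := finrank_span_eq_card (R := ZMod 2) hBl
      simpa [hBc] using this
    have hden := spread_density act pts hact r hr Y
    rw [hYd] at hden
    set Cd := univ.filter fun s => ind (pts s) ∉ Y with hCd
    have hN : 0 < Fintype.card Xi := Fintype.card_pos
    have hJ : 0 < Fintype.card J := by omega
    have hCne : Cd.Nonempty := by
      rw [← Finset.card_pos]
      by_contra h0
      have h0' : Cd.card = 0 := by omega
      rw [h0', mul_zero] at hden
      have : 0 < Fintype.card Xi * (r - i) := Nat.mul_pos hN (by omega)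
      omega
    set wt : Xi → ℕ := fun s => ∑ p ∈ pts s, 2 ^ (B.filter fun s => p ∈ pts s).card with hwt
    obtain ⟨s, hs, hmin⟩ := Finset.exists_min_image Cd wt hCne
    have hsY : ind (pts s) ∉ Y := (Finset.mem_filter.1 hs).2
    have hsB : s ∉ B := by
      intro h
      exact hsY (Submodule.subset_span ⟨s, h, rfl⟩)
    have hle : Cd.card * wt s ≤ ∑ s : Xi, wt s := by
      calc Cd.card * wt s = ∑ _t ∈ Cd, wt s := by simp
        _ ≤ ∑ t ∈ Cd, wt t := Finset.sum_le_sum fun t ht => hmin t ht
        _ ≤ ∑ t : Xi, wt t := Finset.sum_le_sum_of_subset (Finset.subset_univ _)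
    have hw := spread_weight pts Q hthr B
    have hkey : (r - i) * wt s ≤ Q * sphi pts B := by
      have h1 : Fintype.card J * Fintype.card Xi * ((r - i) * wt s) ≤
          Fintype.card J * Fintype.card Xi * (Q * sphi pts B) := by
        calc Fintype.card J * Fintype.card Xi * ((r - i) * wt s)
            = Fintype.card J * ((Fintype.card Xi * (r - i)) * wt s) := by ring
          _ ≤ Fintype.card J * ((r * Cd.card) * wt s) := by gcongr
          _ = r * (Fintype.card J * (Cd.card * wt s)) := by ring
          _ ≤ r * (Fintype.card J * ∑ s : Xi, wt s) := by gcongr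
          _ = r * (Fintype.card Xi * Q * sphi pts B) := by rw [hw]
          _ ≤ Fintype.card J * (Fintype.card Xi * Q * sphi pts B) := by gcongr
          _ = _ := by ring
      exact Nat.le_of_mul_le_mul_left h1 (Nat.mul_pos hJ hN)
    refine ⟨insert s B, by rw [Finset.card_insert_of_notMem hsB, hBc], ?_, ?_⟩
    · rw [Finset.coe_insert]
      exact hBl.insert hsY
    · rw [sphi_insert pts B s hsB, Nat.descFactorial_succ, Nat.descFactorial_succ]
      have h2 : r + Q - i = (r - i) + Q := by omega
      rw [h2]
      calc (sphi pts B + wt s) * ((r - i) * r.descFactorial i)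
          = ((r - i) * sphi pts B + (r - i) * wt s) * r.descFactorial i := by ring
        _ ≤ ((r - i) * sphi pts B + Q * sphi pts B) * r.descFactorial i := by gcongr
        _ = ((r - i) + Q) * (sphi pts B * r.descFactorial i) := by ring
        _ ≤ ((r - i) + Q) * (Fintype.card J * (r + Q).descFactorial i) := by gcongr
        _ = _ := by ring

/-- greedy choice of the translates -/
theorem spread_translates {C : Type} [Fintype C] [DecidableEq C] (B : Finset Xi) (A : Finset C) :
    ∃ xi : C → Xi,
      (∑ L : Xi, 2 ^ (A.filter fun c => L - xi c ∈ B).card) * Fintype.card Xi ^ A.card ≤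
        Fintype.card Xi * (Fintype.card Xi + B.card) ^ A.card := by
  classical
  induction A using Finset.induction_on with
  | empty => exact ⟨fun _ => 0, by simp⟩
  | insert c A hc ih =>
    obtain ⟨xi, hxi⟩ := ih
    set m : Xi → ℕ := fun L => 2 ^ (A.filter fun c => L - xi c ∈ B).card with hm
    have hsum : ∑ x : Xi, ∑ L : Xi, (if L - x ∈ B then m L else 0) = B.card * ∑ L : Xi, m L := by
      rw [Finset.sum_comm, Finset.mul_sum]
      refine Finset.sum_congr rfl fun L _ => ?_
      rw [← Finset.sum_filter, Finset.sum_const, smul_eq_mul]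
      congr 1
      refine Finset.card_bij (fun x _ => L - x) ?_ ?_ ?_
      · intro x hx
        exact (Finset.mem_filter.1 hx).2
      · intro x _ y _ h
        exact sub_right_injective h
      · intro t ht
        exact ⟨L - t, by simpa using ht, by simp⟩
    obtain ⟨x, -, hmin⟩ := Finset.exists_min_image (univ : Finset Xi)
      (fun x => ∑ L : Xi, (if L - x ∈ B then m L else 0)) ⟨0, Finset.mem_univ _⟩
    have hle : Fintype.card Xi * (∑ L : Xi, (if L - x ∈ B then m L else 0)) ≤
        B.card * ∑ L : Xi, m L := by
      rw [← hsum]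
      calc Fintype.card Xi * (∑ L : Xi, (if L - x ∈ B then m L else 0))
          = ∑ _y : Xi, (∑ L : Xi, (if L - x ∈ B then m L else 0)) := by simp
        _ ≤ _ := Finset.sum_le_sum fun y _ => hmin y (Finset.mem_univ _)
    refine ⟨Function.update xi c x, ?_⟩
    have h1 : ∀ L : Xi, 2 ^ ((insert c A).filter fun d => L - Function.update xi c x d ∈ B).card =
        m L + (if L - x ∈ B then m L else 0) := by
      intro L
      have h2 : (A.filter fun d => L - Function.update xi c x d ∈ B) =
          (A.filter fun d => L - xi d ∈ B) := by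
        apply Finset.filter_congr
        intro d hd
        rw [Function.update_of_ne]
        rintro rfl
        exact hc hd
      rw [Finset.filter_insert, h2, Function.update_self]
      split_ifs with hx
      · rw [Finset.card_insert_of_notMem (by simp [hc]), pow_succ]
        simp only [hm]
        ring
      · simp [hm]
    rw [Finset.sum_congr rfl (fun L _ => h1 L), Finset.sum_add_distrib,
      Finset.card_insert_of_notMem hc, pow_succ, pow_succ]
    calc (∑ L : Xi, m L + ∑ L : Xi, (if L - x ∈ B then m L else 0)) *
          (Fintype.card Xi ^ A.card * Fintype.card Xi)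
        = (Fintype.card Xi * ∑ L : Xi, m L +
            Fintype.card Xi * ∑ L : Xi, (if L - x ∈ B then m L else 0)) *
              Fintype.card Xi ^ A.card := by ring
      _ ≤ (Fintype.card Xi * ∑ L : Xi, m L + B.card * ∑ L : Xi, m L) *
            Fintype.card Xi ^ A.card := by gcongr
      _ = (Fintype.card Xi + B.card) * ((∑ L : Xi, m L) * Fintype.card Xi ^ A.card) := by ring
      _ ≤ (Fintype.card Xi + B.card) *
            (Fintype.card Xi * (Fintype.card Xi + B.card) ^ A.card) := by gcongr
      _ = _ := by ring

end spread

/-- For every `c : C` (`card C = r = dim X`) a set `E c` of lines which spans the code, such that every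
point is on few lines of `E c` and every line is in few of the sets `E c`. -/
theorem spread_main {J Xi C : Type} [Fintype J] [DecidableEq J] [Fintype Xi] [DecidableEq Xi]
    [Fintype C] [DecidableEq C] [AddCommGroup Xi]
    (act : Xi → Equiv.Perm J) (pts : Xi → Finset J) (Q : ℕ)
    (hcard : ∀ s, (pts s).card = Q)
    (hact : ∀ s t p, act s p ∈ pts (s + t) ↔ p ∈ pts t)
    (hthr : ∀ p : J, (univ.filter fun s => p ∈ pts s).card * Fintype.card J = Fintype.card Xi * Q)
    (r : ℕ)
    (hr : Module.finrank (ZMod 2) (Submodule.span (ZMod 2) (Set.range fun s => ind (pts s))) = r)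
    (hrJ : r ≤ Fintype.card J) (hC : Fintype.card C = r) :
    ∃ E : C → Finset Xi,
      (∀ c p, 2 ^ ((E c).filter fun s => p ∈ pts s).card ≤ Fintype.card J * (r + Q).choose Q) ∧
      (∀ s, 2 ^ (univ.filter fun c => s ∈ E c).card * Fintype.card Xi ^ r ≤
        Fintype.card Xi * (Fintype.card Xi + r) ^ r) ∧
      (∀ c, ∀ f ∈ Submodule.span (ZMod 2) (Set.range fun s => ind (pts s)),
        ∃ S ⊆ E c, f = ∑ s ∈ S, ind (pts s)) := by
  classical
  obtain ⟨B, hBc, hBl, hBs⟩ := spread_greedy act pts Q hact hthr r hr hrJ r le_rfl
  obtain ⟨xi, hxi⟩ := spread_translates (C := C) B univ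
  rw [Finset.card_univ, hC, hBc] at hxi
  have hB2 : sphi pts B ≤ Fintype.card J * (r + Q).choose Q := by
    rw [Nat.descFactorial_self, Nat.descFactorial_eq_factorial_mul_choose,
      Nat.choose_symm_add] at hBs
    have : r.factorial * sphi pts B ≤ r.factorial * (Fintype.card J * (r + Q).choose Q) := by
      calc _ = sphi pts B * r.factorial := by ring
        _ ≤ _ := hBs
        _ = _ := by ring
    exact Nat.le_of_mul_le_mul_left this (Nat.factorial_pos r)
  have hmem : ∀ c s, s ∈ B.image (fun t => xi c + t) ↔ s - xi c ∈ B := by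
    intro c s
    rw [Finset.mem_image]
    constructor
    · rintro ⟨t, ht, rfl⟩
      simpa using ht
    · intro h
      exact ⟨s - xi c, h, by abel⟩
  have hinj : ∀ c, Function.Injective (fun t => xi c + t) := fun c => add_right_injective _
  refine ⟨fun c => B.image (fun t => xi c + t), ?_, ?_, ?_⟩
  · intro c p
    refine le_trans ?_ hB2
    have h1 : ((B.image (fun t => xi c + t)).filter fun s => p ∈ pts s).card =
        (B.filter fun s => (act (xi c)).symm p ∈ pts s).card := by
      rw [Finset.filter_image, Finset.card_image_of_injective _ (hinj c)]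
      congr 1
      apply Finset.filter_congr
      intro t _
      have := hact (xi c) t ((act (xi c)).symm p)
      rw [Equiv.apply_symm_apply] at this
      exact this
    rw [h1]
    unfold sphi
    exact Finset.single_le_sum (f := fun p => 2 ^ (B.filter fun s => p ∈ pts s).card)
      (fun _ _ => Nat.zero_le _) (Finset.mem_univ ((act (xi c)).symm p))
  · intro s
    refine le_trans ?_ hxi
    have h1 : (univ.filter fun c => s ∈ B.image (fun t => xi c + t)) =
        (univ.filter fun c => s - xi c ∈ B) := by
      apply Finset.filter_congr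
      intro c _
      exact hmem c s
    rw [h1]
    apply Nat.mul_le_mul_right
    exact Finset.single_le_sum (f := fun L => 2 ^ (univ.filter fun c => L - xi c ∈ B).card)
      (fun _ _ => Nat.zero_le _) (Finset.mem_univ s)
  · intro c f hf
    set E := B.image (fun t => xi c + t) with hE
    have hli : LinearIndependent (ZMod 2) (fun i : B => ind (pts (xi c + i.1))) :=
      (spread_li_iff act pts hact (fun i : B => i.1) (xi c)).2 hBl
    have hspan : Submodule.span (ZMod 2) (Set.range fun i : B => ind (pts (xi c + i.1))) =
        Submodule.span (ZMod 2) (Set.range fun s => ind (pts s)) := by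
      apply Submodule.eq_of_le_of_finrank_eq
      · apply Submodule.span_mono
        rintro _ ⟨i, rfl⟩
        exact ⟨_, rfl⟩
      · rw [finrank_span_eq_card hli, hr]
        simpa using hBc
    rw [← hspan] at hf
    obtain ⟨a, ha⟩ := (Submodule.mem_span_range_iff_exists_fun (ZMod 2)).1 hf
    refine ⟨(univ.filter fun i : B => a i ≠ 0).image (fun i => xi c + i.1), ?_, ?_⟩
    · intro s hs
      rw [Finset.mem_image] at hs
      obtain ⟨i, -, rfl⟩ := hs
      exact Finset.mem_image_of_mem _ i.2
    · rw [Finset.sum_image, Finset.sum_filter, ← ha]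
      · refine Finset.sum_congr rfl fun i _ => ?_
        split_ifs with h
        · have : a i = 1 := by
            have := Fin.eq_one_of_ne_zero (a i) h
            exact this
          rw [this, one_smul]
        · rw [not_not] at h
          rw [h, zero_smul]
      · intro i _ j _ h
        exact Subtype.ext (hinj c h)

end Crest.Agent.R199
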