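import Crest.Agent.R199.FqIdent
import Crest.Agent.R199.Rank4
import Crest.Agent.R199.ClassesB
import Crest.Agent.R199.Slopes
import Crest.Agent.R199.GeoNumA
import Crest.Agent.R199.GeoNumB
import Crest.Agent.R199.Spread

/-! Row 199, part II: existence of the finite geometry (assembly, helper12). -/
set_option autoImplicit false
set_option linter.unusedSectionVars false

namespace Crest.Agent.R199

open Finset

theorem ind_ne_zero_iff {α : Type} [DecidableEq α] (s : Finset α) (t : α) :
    ind s t ≠ 0 ↔ t ∈ s := by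
  unfold ind
  split_ifs with h <;> simp [h]

theorem ind_inj {α : Type} [DecidableEq α] {s s' : Finset α} (h : ind s = ind s') : s = s' := by
  ext t
  rw [← ind_ne_zero_iff, ← ind_ne_zero_iff, h]

/-- a line containing no class -/
theorem exists_L0 {J Xi C : Type} [DecidableEq J] [Fintype Xi] [Fintype C]
    (pts : Xi → Finset J)
    (huni : ∀ s s' x x', x ≠ x' → x ∈ pts s → x' ∈ pts s → x ∈ pts s' → x' ∈ pts s' → s = s')
    (p : C × Fin 3 → J) (hp : Function.Injective p) (hcard : Fintype.card C < Fintype.card Xi) :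
    ∃ s, ∀ c, ∃ i, p (c, i) ∉ pts s := by
  by_contra hcon
  push Not at hcon
  choose c hc using hcon
  have hinj : Function.Injective c := by
    intro s s' h
    have h0 := hc s 0
    have h1 := hc s 1
    have h0' := hc s' 0
    have h1' := hc s' 1
    rw [← h] at h0' h1'
    refine huni s s' _ _ ?_ h0 h1 h0' h1'
    intro he
    have := hp he
    simp at this
  exact absurd (Fintype.card_le_of_injective c hinj) (not_le.2 hcard)

section main

variable {F M : Type} [Field F] [Fintype F] [DecidableEq F] [CharP F 2]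
  [AddCommGroup M] [Module F M] [Fintype M] [DecidableEq M]

theorem geo_of (g0 w N0 D : ℕ) (hF : Fintype.card F = 2 ^ (w * N0))
    (hM : Module.finrank F M = 3 * (g0 + 3)) (hD : D = 3 * (g0 + 3) + 2) (hDw : D ≤ 2 ^ w)
    (hw : 1 ≤ w) (hN0 : 1 ≤ N0)
    (hrank : 4 * ((w * N0) * (2 ^ (w * D) - 1) ^ N0) ≤ (2 ^ (w * N0)) ^ D)
    (hnum : 11 * ((2 ^ (w * N0) + 1) * (w * N0) * D) + 3 * (2 * D * (w * N0) + (2 ^ (w * N0)) ^ 2) + 20 +
      5 * (2 ^ (w * N0) + 1) ^ (g0 + 1) < (2 ^ (w * N0)) ^ (g0 + 3)) : Nonempty (Geo g0) := by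
  classical
  set e := w * N0 with he
  have he1 : 1 ≤ e := Nat.mul_pos hw hN0
  set Q := 2 ^ e with hQ
  have hQ2 : 2 ≤ Q := by
    calc 2 = 2 ^ 1 := rfl
      _ ≤ 2 ^ e := Nat.pow_le_pow_right (by norm_num) he1
  have hcM : Fintype.card M = Q ^ (3 * (g0 + 3)) := by
    rw [Module.card_eq_pow_finrank (K := F) (V := M), hF, hM]
  have hcW : Fintype.card (F × M) = Q ^ (D - 1) := by
    rw [Fintype.card_prod, hF, hcM, ← pow_succ', hD]
    congr 1
  have hcJ : Fintype.card ((F × M) × F) = Q ^ D := by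
    rw [Fintype.card_prod, hcW, hF, ← pow_succ]
    congr 1
    omega
  have hcXi : Fintype.card ((F × M) × (F × M)) = Q ^ (2 * D - 2) := by
    rw [Fintype.card_prod, hcW, ← pow_add]
    congr 1
    omega
  -- the code
  set X := XJ F (F × M) with hX
  obtain ⟨r, hr⟩ : ∃ r, Module.finrank (ZMod 2) X = r := ⟨_, rfl⟩
  have hfin : Module.finrank F (F × M) + 1 = D := by
    rw [Module.finrank_prod, Module.finrank_self, hM, hD]
    ring
  have hrD : 4 * r ≤ Q ^ D := by
    have h1 := rank_XJ (F := F) (W := F × M) w N0 D hF hfin (by omega) hDw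
    rw [← hX, hr] at h1
    calc 4 * r ≤ 4 * (w * N0 * (2 ^ (w * D) - 1) ^ N0) := Nat.mul_le_mul_left _ h1
      _ ≤ _ := hrank
  have hQD : 1 ≤ Q ^ D := Nat.one_le_pow _ _ (by omega)
  have h3r : 3 * r + 1 ≤ Fintype.card ((F × M) × F) := by
    rw [hcJ]
    rcases Nat.eq_zero_or_pos r with h | h
    · subst h; omega
    · omega
  obtain ⟨p, pinj, pbij⟩ := classes X r hr h3r
  -- slopes
  have hek : 1 ≤ e * (g0 + 3) := Nat.mul_pos he1 (by omega)
  have hrQ : r ≤ Q ^ D := by omega
  obtain ⟨S, Scard, Sinter⟩ := slopes (M := M) (C := Fin r) e (g0 + 3) hek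
    (by rw [hcM, hQ, ← pow_mul, ← pow_mul]; congr 1; ring)
    (by
      rw [Fintype.card_fin]
      calc r ≤ Q ^ D := hrQ
        _ ≤ Q ^ ((g0 + 3) * 4) := Nat.pow_le_pow_right (by omega) (by omega)
        _ = (2 ^ (e * (g0 + 3))) ^ 4 := by rw [hQ, ← pow_mul, ← pow_mul]; congr 1; ring)
  -- spread sets of transversal lines
  obtain ⟨E, E1, E2, E3⟩ := spread_main (C := Fin r) (act (F := F) (W := F × M))
    (fun s => tl (F := F) s.1 s.2) Q (fun s => by rw [card_tl, hF])
    (fun s t x => act_mem_tl s t x)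
    (fun x => by
      rw [card_tl_through, hcW, hcJ, hcXi, ← pow_add, ← pow_succ]
      congr 1
      omega)
    r hr (by rw [hcJ]; exact hrQ) (Fintype.card_fin r)
  -- extra lines
  have hg : ∀ c : Fin r, ∃ g : X, ∀ d, ∑ i : Fin 3, (g : (F × M) × F → ZMod 2) (p (d, i)) =
      if c = d then 1 else 0 := by
    intro c
    obtain ⟨g, hg⟩ := pbij.2 (fun d => if c = d then 1 else 0)
    exact ⟨g, fun d => congrFun hg d⟩
  choose g hg using hg
  have hEx : ∀ c, ∃ T ⊆ E c, (g c : (F × M) × F → ZMod 2) = ∑ s ∈ T, ind (tl (F := F) s.1 s.2) :=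
    fun c => E3 c (g c) (g c).2
  choose T hTE hT using hEx
  -- active points
  set on : Line F M → Finset (Fin r × Fin 3) := fun L => univ.filter fun t => p t ∈ pts L with hon
  have hind : ∀ L, ind (on L) = ind (pts L) ∘ p := by
    intro L
    funext t
    simp [ind, hon]
  have hmemon : ∀ L t, t ∈ on L ↔ p t ∈ pts L := fun L t => by simp [hon]
  have hsumX : ∀ f f' : (F × M) × F → ZMod 2, f ∈ X → f' ∈ X → f ∘ p = f' ∘ p → f = f' := by
    intro f f' hf hf' h
    have := pbij.1 (a₁ := ⟨f, hf⟩) (a₂ := ⟨f', hf'⟩) (by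
      funext c
      refine Finset.sum_congr rfl fun i _ => ?_
      exact congrFun h (c, i))
    exact congrArg Subtype.val this
  have hinj : Function.Injective on := by
    intro L L' h
    by_contra hne
    have h1 : ind (pts L) = ind (pts L') := by
      refine hsumX _ _ (pts_mem_XJ L) (pts_mem_XJ L') ?_
      rw [← hind, ← hind, h]
    have h2 := ind_inj h1
    have h3 : 1 < (pts L).card := by rw [card_pts, hF]; omega
    obtain ⟨a, ha, b, hb, hab⟩ := Finset.one_lt_card.1 h3
    exact hab (pts_inter hne ha hb (h2 ▸ ha) (h2 ▸ hb))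
  -- L0
  obtain ⟨s0, hs0⟩ := exists_L0 (Xi := (F × M) × (F × M)) (fun s => tl (F := F) s.1 s.2)
    (fun s s' x x' hne h1 h2 h3 h4 => by
      obtain ⟨h5, h6⟩ := tl_unique hne h1 h2 h3 h4
      exact Prod.ext h5 h6) p pinj
    (by
      rw [Fintype.card_fin, hcXi]
      have : Q ^ D ≤ Q ^ (2 * D - 2) := Nat.pow_le_pow_right (by omega) (by omega)
      omega)
  choose j hj using hs0
  refine ⟨{
    C := Fin r
    Lam := Line F M
    S := M
    on := on
    X := X.map (LinearMap.funLeft (ZMod 2) (ZMod 2) p)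
    mem := fun L => ⟨ind (pts L), pts_mem_XJ L, by rw [hind]; rfl⟩
    bij := ?_
    inj := hinj
    lin := ?_
    Q := Q
    card_on := ?_
    slope := Sum.elim (fun _ => 0) (fun abz => abz.1)
    R := fun c => ((S c) ×ˢ (univ : Finset (M × F))).map ⟨Sum.inr, Sum.inr_injective⟩
    Ex := fun c => (T c).map ⟨Sum.inl, Sum.inl_injective⟩
    disj := ?_
    q := 2 ^ (e * (g0 + 3))
    q_even := ?_
    deg_R := ?_
    par_R := ?_
    sep := ?_
    kap := (Q + 1) * e * D
    kap' := 2 * D * e + Q ^ 2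
    deg_Ex := ?_
    mul_Ex := ?_
    sum_Ex := ?_
    f0 := ind (on (Sum.inl s0))
    f0_mem := ⟨ind (pts (Sum.inl s0)), pts_mem_XJ _, by rw [hind]; rfl⟩
    f0_ne := ?_
    j := j
    f0_j := ?_
    num := ?_ }⟩
  · -- bij
    constructor
    · rintro ⟨f, f', hf', rfl⟩ ⟨h, h', hh', rfl⟩ heq
      have : f' = h' := by
        have := pbij.1 (a₁ := ⟨f', hf'⟩) (a₂ := ⟨h', hh'⟩) heq
        exact congrArg Subtype.val this
      subst this
      rfl
    · intro y
      obtain ⟨f, hf⟩ := pbij.2 y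
      exact ⟨⟨_, f, f.2, rfl⟩, hf⟩
  · -- lin
    intro L L' hne
    rw [Finset.card_le_one]
    intro t ht t' ht'
    rw [mem_inter, hmemon, hmemon] at ht ht'
    exact pinj (pts_inter hne ht.1 ht'.1 ht.2 ht'.2)
  · -- card_on
    intro L
    have h1 : (on L).card ≤ (pts L).card :=
      Finset.card_le_card_of_injOn p (fun t ht => (hmemon L t).1 ht) (fun t _ t' _ h => pinj h)
    rw [card_pts, hF] at h1
    exact h1
  · -- disj
    intro c c'
    rw [Finset.disjoint_left]
    intro L hL hL'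
    rw [mem_map] at hL hL'
    obtain ⟨a, _, ha⟩ := hL
    obtain ⟨b, _, hb⟩ := hL'
    rw [← hb] at ha
    exact absurd ha (by simp)
  · -- q even
    exact (Nat.even_pow.2 ⟨even_two, by omega⟩)
  · -- deg_R
    intro c t
    rw [← Scard c]
    have : (((S c) ×ˢ (univ : Finset (M × F))).map ⟨Sum.inr, Sum.inr_injective⟩).filter
        (fun L : Line F M => t ∈ on L) =
        (S c).map ⟨fun a => Sum.inr (a, (p t).1.2 - (p t).1.1 • a, (p t).2), fun a a' h => by
          simp only [Sum.inr.injEq, Prod.mk.injEq] at h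
          exact h.1⟩ := by
      ext L
      simp only [mem_filter, mem_map, mem_product, mem_univ, and_true, Function.Embedding.coeFn_mk,
        hmemon]
      constructor
      · rintro ⟨⟨⟨a, b, z⟩, ha, rfl⟩, hL⟩
        have h := (rl_through a (p t) b z).1 hL
        exact ⟨a, ha, by rw [h.1, h.2]⟩
      · rintro ⟨a, ha, rfl⟩
        exact ⟨⟨_, ha, rfl⟩, (rl_through a (p t) _ _).2 ⟨rfl, rfl⟩⟩
    rw [this, card_map]
  · -- par_R
    intro c t s
    rw [Finset.card_le_one]
    intro L hL L' hL'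
    simp only [mem_filter, mem_map, mem_product, mem_univ, and_true, Function.Embedding.coeFn_mk,
      hmemon] at hL hL'
    obtain ⟨⟨⟨a, b, z⟩, ha, rfl⟩, hL, hs⟩ := hL
    obtain ⟨⟨⟨a', b', z'⟩, ha', rfl⟩, hL', hs'⟩ := hL'
    have h := (rl_through a (p t) b z).1 hL
    have h' := (rl_through a' (p t) b' z').1 hL'
    have e1 : a = s := hs
    have e2 : a' = s := hs'
    rw [h.1, h.2, h'.1, h'.2, e1, e2]
  · -- sep
    intro c c' hne L L' h1 h2 h3 h4
    simp only [mem_map, mem_product, mem_univ, and_true, Function.Embedding.coeFn_mk] at h1 h2 h3 h4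
    obtain ⟨a, ha, rfl⟩ := h1
    obtain ⟨a', ha', rfl⟩ := h3
    obtain ⟨b, hb, hb'⟩ := h2
    obtain ⟨b', hb2, hb2'⟩ := h4
    obtain rfl := Sum.inr_injective hb'
    obtain rfl := Sum.inr_injective hb2'
    exact Finset.card_le_one.1 (Sinter c c' hne) _ (mem_inter.2 ⟨ha, hb⟩) _ (mem_inter.2 ⟨ha', hb2⟩)
  · -- deg_Ex
    intro c t
    refine deg_bound hQ he1 (by omega) hrD (m := _) (le_trans ?_ (le_of_le_of_eq (E1 c (p t)) ?_))
    · refine Nat.pow_le_pow_right (by norm_num) ?_
      rw [Finset.filter_map, Finset.card_map]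
      refine Finset.card_le_card fun s hs => ?_
      rw [mem_filter] at hs ⊢
      exact ⟨hTE c hs.1, (hmemon _ _).1 hs.2⟩
    · rw [hcJ]
  · -- mul_Ex
    intro L
    rcases L with s | abz
    · have h := E2 s
      rw [hcXi] at h
      refine mult_bound hQ he1 (by omega) hrD (le_trans (Nat.mul_le_mul_right _ ?_) h)
      refine Nat.pow_le_pow_right (by norm_num) (Finset.card_le_card fun c hc => ?_)
      rw [mem_filter] at hc ⊢
      refine ⟨mem_univ _, ?_⟩
      obtain ⟨s', hs', heq⟩ := mem_map.1 hc.2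
      obtain rfl := Sum.inl_injective heq
      exact hTE c hs'
    · have : (univ.filter fun c : Fin r => (Sum.inr abz : Line F M) ∈
          (T c).map ⟨Sum.inl, Sum.inl_injective⟩) = ∅ := by
        ext c
        simp
      rw [this]
      simp
  · -- sum_Ex
    intro c d
    rw [Finset.sum_map]
    rw [Finset.sum_comm]
    rw [← hg c d]
    refine Finset.sum_congr rfl fun i _ => ?_
    rw [hT c, Finset.sum_apply]
    refine Finset.sum_congr rfl fun s _ => ?_
    exact congrFun (hind (Sum.inl s)) (d, i)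
  · -- f0_ne
    intro h0
    have h1 : ind (pts (Sum.inl s0 : Line F M)) = 0 := by
      refine hsumX _ _ (pts_mem_XJ _) (Submodule.zero_mem _) ?_
      rw [← hind, h0]
      rfl
    have h3 : 0 < (pts (Sum.inl s0 : Line F M)).card := by rw [card_pts, hF]; omega
    obtain ⟨x, hx⟩ := Finset.card_pos.1 h3
    exact (ind_ne_zero_iff _ x).2 hx (congrFun h1 x)
  · -- f0_j
    intro c
    have : (c, j c) ∉ on (Sum.inl s0) := by
      rw [hmemon]
      exact hj c
    simp [ind, this]
  · -- num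
    rw [pow_mul]
    exact hnum

end main

theorem exists_geo (g0 : ℕ) : Nonempty (Geo g0) := by
  classical
  obtain ⟨w, N0, D, hD, hDw, hw, hN0, hrank, hnum⟩ := exists_params g0
  have he : w * N0 ≠ 0 := (Nat.mul_pos hw hN0).ne'
  haveI : Fact (Nat.Prime 2) := ⟨Nat.prime_two⟩
  letI : Fintype (GaloisField 2 (w * N0)) := Fintype.ofFinite _
  have hF : Fintype.card (GaloisField 2 (w * N0)) = 2 ^ (w * N0) := by
    rw [← Nat.card_eq_fintype_card, GaloisField.card 2 _ he]
  haveI : CharP (GaloisField 2 (w * N0)) 2 := inferInstance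
  exact geo_of (F := GaloisField 2 (w * N0)) (M := Fin (3 * (g0 + 3)) → GaloisField 2 (w * N0))
    g0 w N0 D hF (by simp) hD hDw hw hN0 hrank hnum

end Crest.Agent.R199
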