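import Crest.Agent.R199.DmStep
import Crest.Agent.R199.GeoMain

/-! Row 199, DatumMain: assembly of the datum from the geometry. -/
set_option autoImplicit false

namespace Crest.Agent.R199

open Finset

variable {g0 : ℕ} {Γ : Geo g0}

section

variable {M : Γ.C → Hx Γ → Hx Γ} (hM : ∀ c, GoodC Γ c (M c))

/-- the total matching -/
def mm (M : Γ.C → Hx Γ → Hx Γ) (h : Hx Γ) : Hx Γ := M h.c h

include hM

theorem goodC_c {c : Γ.C} {h : Hx Γ} (hh : M c h ≠ h) : (M c h).c = c ∧ h.c = c := by
  have h1 := (hM c).fix (M c h)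
  rw [(hM c).inv] at h1
  exact ⟨(h1.1 (fun e => hh e.symm)).1, (((hM c).fix h).1 hh).1⟩

theorem mm_c (h : Hx Γ) : (mm M h).c = h.c := by
  unfold mm
  by_cases hh : M h.c h = h
  · rw [hh]
  · exact (goodC_c hM hh).1

theorem mm_inv (h : Hx Γ) : mm M (mm M h) = h := by
  have h1 := mm_c hM h
  unfold mm at h1 ⊢
  rw [h1, (hM h.c).inv]

theorem mm_fix (h : Hx Γ) : mm M h = h ↔ ∃ c, h = oo Γ c := by
  have h1 := (hM h.c).fix h
  unfold mm
  constructor
  · intro he
    by_contra hcon
    push Not at hcon
    exact h1.2 ⟨rfl, hcon _⟩ he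
  · rintro ⟨c, hc⟩
    by_contra hcon
    have h2 := (h1.1 hcon).2
    apply h2
    have h3 : h.c = c := by rw [hc]; rfl
    rw [h3]; exact hc

theorem mm_girth (l : List (Hx Γ)) (hne : l ≠ []) (hn : NBw (mm M) nu l)
    (hc : Clw (mm M) nu l) : g0 ≤ l.length := by
  obtain ⟨a, l', rfl⟩ := List.exists_cons_of_ne_nil hne
  -- all elements have the component of `a`
  have hall : ∀ (l : List (Hx Γ)) (a : Hx Γ),
      (a :: l).IsChain (fun h h' => nu h' = nu (mm M h) ∧ h' ≠ mm M h) →
      ∀ h ∈ a :: l, h.c = a.c := by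
    intro l
    induction l with
    | nil => intro a _ h hh; simp at hh; rw [hh]
    | cons b l ih =>
      intro a hch h hh
      rw [List.isChain_cons_cons] at hch
      have hb : b.c = a.c := by
        have h1 : b.c = (mm M a).c := by
          have := hch.1.1
          unfold nu at this
          unfold Hx.c
          rw [this]
        rw [h1, mm_c hM]
      rcases List.mem_cons.1 hh with e | e
      · rw [e]
      · rw [ih b hch.2 h e, hb]
  have hall' := hall l' a hn.2
  have hmm : ∀ h ∈ a :: l', mm M h = M a.c h := by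
    intro h hh
    unfold mm
    rw [hall' h hh]
  apply (hM a.c).girth (a :: l') hne
  · refine ⟨fun h hh => by rw [← hmm h hh]; exact hn.1 h hh, ?_⟩
    have h2 := hn.2
    -- replace mm by M a.c along the chain
    have key : ∀ (l : List (Hx Γ)), (∀ h ∈ l, mm M h = M a.c h) →
        l.IsChain (fun h h' => nu h' = nu (mm M h) ∧ h' ≠ mm M h) →
        l.IsChain (fun h h' => nu h' = nu (M a.c h) ∧ h' ≠ M a.c h) := by
      intro l
      induction l with
      | nil => intro _ _; exact List.isChain_nil
      | cons x l ih =>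
        intro h1 h2
        cases l with
        | nil => exact List.isChain_singleton _
        | cons y l =>
          rw [List.isChain_cons_cons] at h2 ⊢
          refine ⟨?_, ih (fun h hh => h1 h (List.mem_cons_of_mem _ hh)) h2.2⟩
          rw [← h1 x (by simp)]
          exact h2.1
    exact key _ hmm h2
  · intro h hh h' hh'
    rw [← hmm h' (List.mem_of_getLast? hh')]
    exact hc h hh h' hh'

end

theorem ind_eq {α : Type} [DecidableEq α] {s s' : Finset α} (h : ind s = ind s') : s = s' :=
  ind_inj h

theorem fx_eq {v v' : Vx Γ} (h : fx Γ v = fx Γ v') : v.1.2 = v'.1.2 := by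
  unfold fx at h
  exact Γ.inj (ind_inj h)

theorem geo_datum (Γ : Geo g0) : Nonempty (Datum (Γ.C × Fin 3) Γ.C (Vx Γ) g0) := by
  obtain ⟨M, hM, hcomp⟩ := dm_family Γ
  refine ⟨{ π := Prod.fst
            X := Γ.X
            sig := ?_
            f := fx Γ
            f_mem := fun v => Γ.mem _
            m := mm M
            inv := mm_inv hM
            o := oo Γ
            fix := mm_fix hM
            o_cls := fun c => rfl
            cp := fun v => v.1.1
            cp_m := fun h => mm_c hM h
            cp_o := fun c => rfl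
            cls := ?_
            lab := ?_
            lin := ?_
            edge := ?_
            girth := fun l h1 h2 h3 => mm_girth hM l h1 h2 h3
            f0 := Γ.f0
            f0_mem := Γ.f0_mem
            f0_ne := Γ.f0_ne
            f0_zero := fun c => Γ.f0_j c
            use := ?_ }⟩
  · have : (fun (f : Γ.X) (c : Γ.C) => ∑ t with t.1 = c, f.1 t) =
        fun (f : Γ.X) (c : Γ.C) => ∑ i : Fin 3, (f : Γ.C × Fin 3 → ZMod 2) (c, i) := by
      funext f c
      symm
      apply Finset.sum_bij (fun i _ => (c, i))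
      · intro i _; simp
      · intro i _ i' _ h; simpa using h
      · rintro ⟨c', i⟩ h
        simp only [mem_filter, mem_univ, true_and] at h
        exact ⟨i, mem_univ _, by rw [← h]⟩
      · intro i _; rfl
    rw [this]
    exact Γ.bij
  · intro (h : Hx Γ)
    by_cases hh : mm M h = h
    · rw [hh]
    · exact (hM h.c).cls h hh
  · intro (h : Hx Γ) hh
    exact (hM h.c).lab h hh
  · intro v v' t t' hne h1 h2 h3 h4
    rw [fx_ne] at h1 h2 h3 h4
    have hL : v.1.2 ≠ v'.1.2 := fun e => hne (by unfold fx; rw [e])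
    have hcard := Γ.lin _ _ hL
    rw [Finset.card_le_one] at hcard
    exact hcard t (mem_inter.2 ⟨h1, h2⟩) t' (mem_inter.2 ⟨h3, h4⟩)
  · intro (h : Hx Γ) (h' : Hx Γ) hh hh' e1 e2 e3 e4
    have L1 : h.L = h'.L := fx_eq e1
    have L2 : (mm M h).L = (mm M h').L := fx_eq e3
    by_cases hc : h.c = h'.c
    · exact Hx.ext hc L1 e2
    · exact (hcomp _ _ hc h h' hh hh' L1 e2 L2 e4).elim
  · intro t
    have h := Γ.deg_R t.1 t
    have hq : 0 < Γ.q := lt_of_le_of_lt (Nat.zero_le _) Γ.num
    rw [← h, Finset.card_pos] at hq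
    obtain ⟨L, hL⟩ := hq
    simp only [mem_filter] at hL
    exact ⟨⟨(t.1, L), Or.inl hL.1⟩, fx_ne.2 hL.2⟩

end Crest.Agent.R199
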