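import Crest.Agent.R199.MatchDefs

/-!
Row 199, pieces MT_EVEN (`exists_second`) and MT_COUNT (`exists_pair`) of the matching lemma (helper12).

`exists_second`: the non-fixed half-edges of a class are paired by the fixed-point-free involution `m`,
so their number is even (`Finset.card_involution`-type argument / `Finset.sum_involution` in `ZMod 2`), the class is even, so the number
of fixed half-edges of the class is even; it is positive, so there is a second one.

`exists_pair`: let `κ = cls h1`, `HK` the class, `j1 = lab h1`, `j2 = lab h2`. If no `a` as claimed exists,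
then `HK` is contained in the union of
 `{lab = j1}`,  `{lab ≠ j1, ¬ ok h1 ·}` (`≤ β`),  `{x | Near (ν h1) (ν x)}` (`≤ B`)
   -- (these three contain all fixed half-edges of the class, by `hnone`),
 `m '' {lab = j2}`,  `m '' {lab ≠ j2, ¬ ok h2 ·}` (`≤ β`), `{x | Near (ν h2) (ν x)}`,
 `m '' {x | Near (ν h1) (ν x)}`, `m '' {x | Near (ν h2) (ν x)}`,
so `|HK| ≤ N_{j1} + N_{j2} + 2 β + 4 B`, contradicting `hlarge` for `j1` and `j2` (add them).
-/
set_option autoImplicit false

namespace Crest.Agent.R199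

open Finset

variable {H V K Lb : Type} [Fintype H] [DecidableEq H] [DecidableEq K] [DecidableEq Lb]

theorem exists_second (m : H → H) (hm : ∀ h, m (m h) = h) (cls : H → K)
    (hc : ∀ h, m h ≠ h → cls (m h) = cls h)
    (heven : ∀ κ, Even (univ.filter fun h => cls h = κ).card) (h1 : H) (f1 : m h1 = h1) :
    ∃ h2, h2 ≠ h1 ∧ m h2 = h2 ∧ cls h2 = cls h1 := by
  classical
  set F : Finset H := univ.filter fun h => cls h = cls h1 with hF
  have hmoved : Even (F.filter fun h => m h ≠ h).card := by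
    have h1 : ∑ _x ∈ F.filter (fun h => m h ≠ h), (1 : ZMod 2) = 0 := by
      refine Finset.sum_involution (fun a _ => m a) ?_ ?_ ?_ ?_
      · intro a _
        decide
      · intro a ha _
        exact (mem_filter.1 ha).2
      · intro a ha
        rw [mem_filter, hF, mem_filter] at ha ⊢
        refine ⟨⟨mem_univ _, (hc a ha.2).trans ha.1.2⟩, ?_⟩
        rw [hm]
        exact ha.2.symm
      · intro a _
        exact hm a
    rw [Finset.sum_const, nsmul_eq_mul, mul_one] at h1
    rw [← Nat.not_odd_iff_even, ← ZMod.natCast_ne_zero_iff_odd, not_not]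
    exact h1
  have hsum := Finset.card_filter_add_card_filter_not (s := F) (fun h => m h ≠ h)
  have hfix : Even (F.filter fun h => ¬ m h ≠ h).card := by
    have h2 := heven (cls h1)
    rw [← hF, ← hsum, Nat.even_add] at h2
    exact h2.1 hmoved
  have hmem : h1 ∈ F.filter fun h => ¬ m h ≠ h := by
    rw [mem_filter, hF, mem_filter]
    exact ⟨⟨mem_univ _, rfl⟩, not_not.2 f1⟩
  have hone : 1 < (F.filter fun h => ¬ m h ≠ h).card := by
    have h3 : 0 < (F.filter fun h => ¬ m h ≠ h).card := card_pos.2 ⟨h1, hmem⟩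
    obtain ⟨k, hk⟩ := hfix
    omega
  obtain ⟨h2, hh2, hne⟩ := exists_mem_ne hone h1
  rw [mem_filter, hF, mem_filter] at hh2
  exact ⟨h2, hne, not_not.1 hh2.2, hh2.1.2⟩

theorem exists_pair (m : H → H) (hm : ∀ h, m (m h) = h) (ν : H → V) (cls : H → K) (lab : H → Lb)
    (ok : H → H → Prop) (hc : ∀ h, m h ≠ h → cls (m h) = cls h) (g0 β B : ℕ)
    (hβ : ∀ h, Set.ncard {h' | cls h' = cls h ∧ lab h' ≠ lab h ∧ ¬ ok h h'} ≤ β)
    (hball : ∀ v, Set.ncard {x : H | Near m ν g0 v (ν x)} ≤ B)
    (hlarge : ∀ h j, 2 * (univ.filter fun h' => cls h' = cls h ∧ lab h' = j).card + 3 * β +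
      5 * B < (univ.filter fun h' => cls h' = cls h).card)
    (h1 h2 : H) (f1 : m h1 = h1) (f2 : m h2 = h2) (hcl : cls h2 = cls h1)
    (hnone : ∀ h', cls h' = cls h1 → m h' = h' → lab h' ≠ lab h1 → ok h1 h' →
      Near m ν g0 (ν h1) (ν h')) :
    ∃ a, cls a = cls h1 ∧ m a ≠ a ∧ lab a ≠ lab h1 ∧ ok h1 a ∧ lab (m a) ≠ lab h2 ∧ ok h2 (m a) ∧
      ¬ Near m ν g0 (ν h1) (ν a) ∧ ¬ Near m ν g0 (ν h1) (ν (m a)) ∧
      ¬ Near m ν g0 (ν h2) (ν a) ∧ ¬ Near m ν g0 (ν h2) (ν (m a)) := by
  classical
  by_contra hcon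
  push Not at hcon
  set F : Finset H := univ.filter fun h' => cls h' = cls h1 with hF
  set N1 : Finset H := univ.filter fun h' => cls h' = cls h1 ∧ lab h' = lab h1 with hN1
  set N2 : Finset H := univ.filter fun h' => cls h' = cls h1 ∧ lab h' = lab h2 with hN2
  set O1 : Finset H := univ.filter fun h' => cls h' = cls h1 ∧ lab h' ≠ lab h1 ∧ ¬ ok h1 h'
    with hO1
  set O2 : Finset H := univ.filter fun h' => cls h' = cls h2 ∧ lab h' ≠ lab h2 ∧ ¬ ok h2 h'
    with hO2
  set B1 : Finset H := univ.filter fun x => Near m ν g0 (ν h1) (ν x) with hB1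
  set B2 : Finset H := univ.filter fun x => Near m ν g0 (ν h2) (ν x) with hB2
  have hO1c : O1.card ≤ β := by
    have h := hβ h1
    rw [← Set.ncard_coe_finset, hO1]
    simpa using h
  have hO2c : O2.card ≤ β := by
    have h := hβ h2
    rw [← Set.ncard_coe_finset, hO2]
    simpa using h
  have hB1c : B1.card ≤ B := by
    have h := hball (ν h1)
    rw [← Set.ncard_coe_finset, hB1]
    simpa using h
  have hB2c : B2.card ≤ B := by
    have h := hball (ν h2)
    rw [← Set.ncard_coe_finset, hB2]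
    simpa using h
  have hsub : F ⊆ ((N1 ∪ O1) ∪ (B1 ∪ B2)) ∪
      ((N2.image m ∪ O2.image m) ∪ (B1.image m ∪ B2.image m)) := by
    intro x hx
    have hxc : cls x = cls h1 := (mem_filter.1 hx).2
    have himg : ∀ S : Finset H, m x ∈ S → x ∈ S.image m := fun S hS =>
      mem_image.2 ⟨m x, hS, hm x⟩
    simp only [mem_union]
    by_cases hmx : m x = x
    · by_cases hl : lab x = lab h1
      · exact Or.inl (Or.inl (Or.inl (mem_filter.2 ⟨mem_univ _, hxc, hl⟩)))
      · by_cases ho : ok h1 x
        · exact Or.inl (Or.inr (Or.inl (mem_filter.2 ⟨mem_univ _, hnone x hxc hmx hl ho⟩)))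
        · exact Or.inl (Or.inl (Or.inr (mem_filter.2 ⟨mem_univ _, hxc, hl, ho⟩)))
    · have hmc : cls (m x) = cls h1 := (hc x hmx).trans hxc
      by_cases hl : lab x = lab h1
      · exact Or.inl (Or.inl (Or.inl (mem_filter.2 ⟨mem_univ _, hxc, hl⟩)))
      by_cases ho : ok h1 x
      swap
      · exact Or.inl (Or.inl (Or.inr (mem_filter.2 ⟨mem_univ _, hxc, hl, ho⟩)))
      by_cases hl2 : lab (m x) = lab h2
      · exact Or.inr (Or.inl (Or.inl (himg _ (mem_filter.2 ⟨mem_univ _, hmc, hl2⟩))))
      by_cases ho2 : ok h2 (m x)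
      swap
      · exact Or.inr (Or.inl (Or.inr (himg _ (mem_filter.2
          ⟨mem_univ _, hmc.trans hcl.symm, hl2, ho2⟩))))
      by_cases n1 : Near m ν g0 (ν h1) (ν x)
      · exact Or.inl (Or.inr (Or.inl (mem_filter.2 ⟨mem_univ _, n1⟩)))
      by_cases n2 : Near m ν g0 (ν h1) (ν (m x))
      · exact Or.inr (Or.inr (Or.inl (himg _ (mem_filter.2 ⟨mem_univ _, n2⟩))))
      by_cases n3 : Near m ν g0 (ν h2) (ν x)
      · exact Or.inl (Or.inr (Or.inr (mem_filter.2 ⟨mem_univ _, n3⟩)))
      exact Or.inr (Or.inr (Or.inr (himg _ (mem_filter.2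
        ⟨mem_univ _, hcon x hxc hmx hl ho hl2 ho2 n1 n2 n3⟩))))
  have hcard : F.card ≤ ((N1.card + O1.card) + (B1.card + B2.card)) +
      ((N2.card + O2.card) + (B1.card + B2.card)) := by
    refine (card_le_card hsub).trans ((card_union_le _ _).trans (add_le_add
      ((card_union_le _ _).trans (add_le_add (card_union_le _ _) (card_union_le _ _)))
      ((card_union_le _ _).trans (add_le_add
        ((card_union_le _ _).trans (add_le_add card_image_le card_image_le))
        ((card_union_le _ _).trans (add_le_add card_image_le card_image_le))))))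
  have hl1 := hlarge h1 (lab h1)
  have hl2 := hlarge h1 (lab h2)
  rw [← hF, ← hN1] at hl1
  rw [← hF, ← hN2] at hl2
  omega

end Crest.Agent.R199
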