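import Crest.Agent.R199.MatchDefs

/-!
Row 199, piece MT_CYC (helper12): to bound the girth it is enough to look at cyclically non-backtracking
closed walks.
-/
set_option autoImplicit false

namespace Crest.Agent.R199

variable {H V : Type}

theorem mtcyc_list (m : H → H) (ν : H → V) (l : List H) (hl : l ≠ []) (hNB : NBw m ν l)
    (hC : Clw m ν l) (hne : l.head hl ≠ m (l.getLast hl)) :
    ∃ c, Cyc m ν l.length c := by
  have hpos : 0 < l.length := List.length_pos_iff.mpr hl
  have hlt : ∀ i, i % l.length < l.length := fun i => Nat.mod_lt _ hpos
  have key : ∀ i, (∃ h : i % l.length + 1 < l.length,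
      l[(i + 1) % l.length]'(hlt _) = l[i % l.length + 1]'h) ∨
      (l[(i + 1) % l.length]'(hlt _) = l.head hl ∧ l[i % l.length]'(hlt _) = l.getLast hl) := by
    intro i
    by_cases h : i % l.length + 1 < l.length
    · left
      refine ⟨h, ?_⟩
      have : (i + 1) % l.length = i % l.length + 1 := by
        rw [Nat.add_mod, Nat.mod_eq_of_lt (by omega : 1 < l.length), Nat.mod_eq_of_lt h]
      simp only [this]
    · right
      have h1 : i % l.length = l.length - 1 := by
        have := hlt i
        omega
      have h2 : (i + 1) % l.length = 0 := by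
        have h3 : i + 1 = l.length * (i / l.length) + l.length := by
          have := Nat.div_add_mod i l.length
          omega
        rw [h3]
        simp
      constructor
      · simp only [h2]
        rw [List.head_eq_getElem]
      · simp only [h1]
        rw [List.getLast_eq_getElem]
  have hchain := List.isChain_iff_getElem.mp hNB.2
  have hclose : ν (l.head hl) = ν (m (l.getLast hl)) :=
    hC _ (List.head?_eq_some_head hl ▸ rfl) _ (List.getLast?_eq_some_getLast hl ▸ rfl)
  refine ⟨fun i => l[i % l.length]'(hlt i), ⟨?_, ?_, ?_, ?_⟩⟩
  · intro i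
    simp
  · intro i
    exact hNB.1 _ (List.getElem_mem _)
  · intro i
    rcases key i with ⟨h, h1⟩ | ⟨h1, h2⟩
    · simp only [h1]
      exact (hchain _ h).1
    · simp only [h1, h2]
      exact hclose
  · intro i
    rcases key i with ⟨h, h1⟩ | ⟨h1, h2⟩
    · simp only [h1]
      exact (hchain _ h).2
    · simp only [h1, h2]
      exact hne

theorem girth_of_cyc (m : H → H) (hm : ∀ h, m (m h) = h) (ν : H → V) (g0 : ℕ)
    (h : ∀ n c, 0 < n → Cyc m ν n c → g0 ≤ n) : Girth m ν g0 := by
  suffices H : ∀ k, ∀ l : List H, l.length = k → l ≠ [] → NBw m ν l → Clw m ν l → g0 ≤ l.length from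
    fun l => H l.length l rfl
  intro k
  induction k using Nat.strong_induction_on with
  | _ k ih =>
    intro l hlk hl hNB hC
    by_cases hne : l.head hl = m (l.getLast hl)
    · -- strip both ends
      obtain ⟨x, t, rfl⟩ : ∃ x t, l = x :: t := List.exists_cons_of_ne_nil hl
      rcases List.eq_nil_or_concat t with rfl | ⟨t', y, ht⟩
      · exfalso
        simp only [List.head_cons, List.getLast_singleton] at hne
        exact hNB.1 x (by simp) hne.symm
      · rw [List.concat_eq_append] at ht
        subst ht
        have hxy : x = m y := by simpa using hne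
        have hmx : m x = y := by rw [hxy, hm]
        have ht' : t' ≠ [] := by
          rintro rfl
          have h2 := hNB.2
          simp only [List.nil_append, List.isChain_cons_cons] at h2
          exact h2.1.2 hmx.symm
        have hNB' : NBw m ν t' := by
          refine ⟨fun a ha => hNB.1 a (by simp [ha]), ?_⟩
          have h2 := hNB.2
          have h3 : (t' ++ [y]).IsChain (fun h h' => ν h' = ν (m h) ∧ h' ≠ m h) := h2.tail
          exact h3.left_of_append
        have hC' : Clw m ν t' := by
          intro a ha b hb
          obtain ⟨t1, rfl⟩ : ∃ t1, t' = a :: t1 := by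
            cases t' with
            | nil => simp at ha
            | cons c t1 => simp at ha; exact ⟨t1, by rw [ha]⟩
          have h2 := hNB.2
          have h3 : ν a = ν (m x) := by
            simp only [List.cons_append, List.isChain_cons_cons] at h2
            exact h2.1.1
          have h4 : ν y = ν (m b) := by
            have h5 : ((a :: t1) ++ [y]).IsChain (fun h h' => ν h' = ν (m h) ∧ h' ≠ m h) := h2.tail
            rw [List.isChain_append] at h5
            exact (h5.2.2 b hb y (by simp)).1
          rw [h3, hmx, h4]
        have := ih t'.length (by rw [← hlk]; simp) t' rfl ht' hNB' hC'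
        simp only [List.length_cons, List.length_append, List.length_nil]
        omega
    · obtain ⟨c, hc⟩ := mtcyc_list m ν l hl hNB hC hne
      exact h _ c (List.length_pos_iff.mpr hl) hc

/-- conversely a cyclic walk gives a closed list -/
theorem cyc_of_girth (m : H → H) (ν : H → V) (g0 : ℕ) (h : Girth m ν g0) (n : ℕ) (c : ℕ → H)
    (hn : 0 < n) (hc : Cyc m ν n c) : g0 ≤ n := by
  have hl : (List.range n).map c ≠ [] := by
    intro h0
    have := congrArg List.length h0
    simp at this
    omega
  have h1 := h ((List.range n).map c) hl ?_ ?_
  · simpa using h1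
  · refine ⟨?_, ?_⟩
    · intro a ha
      simp only [List.mem_map, List.mem_range] at ha
      obtain ⟨i, _, rfl⟩ := ha
      exact hc.mv i
    · rw [List.isChain_iff_getElem]
      intro i hi
      simp only [List.getElem_map, List.getElem_range]
      exact ⟨hc.nu i, hc.nb i⟩
  · intro a ha b hb
    have ha' : a = c 0 := by
      obtain ⟨k, rfl⟩ : ∃ k, n = k + 1 := ⟨n - 1, by omega⟩
      rw [List.range_succ_eq_map] at ha
      simp at ha
      exact ha.symm
    have hb' : b = c (n - 1) := by
      obtain ⟨k, rfl⟩ : ∃ k, n = k + 1 := ⟨n - 1, by omega⟩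
      rw [List.range_succ] at hb
      simp at hb
      simpa using hb.symm
    rw [ha', hb']
    have h2 := hc.nu (n - 1)
    have h3 := hc.per 0
    rw [Nat.sub_add_cancel (by omega)] at h2
    rw [Nat.zero_add] at h3
    rw [← h3]
    exact h2

end Crest.Agent.R199
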