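import Crest.Agent.R199.MatchDefs

/-!
Row 199, piece MT_SEG (helper12): segments of a cyclic walk of `m'` between two new half-edges are
walks for `m` (`m' = m` outside the set `N` of new half-edges).

All statements: `seg c i j = [c (i+1), ..., c (j-1)]`, none of them in `N`; induction on `j - i` /
`List.isChain_iff_get`-type lemmas, or induction with `List.range'_succ`.
-/
set_option autoImplicit false

namespace Crest.Agent.R199

variable {H V : Type}

theorem seg_nil (c : ℕ → H) (i : ℕ) : seg c i (i + 1) = [] := by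
  simp [seg]

theorem seg_cons (c : ℕ → H) (i j : ℕ) (h : i + 1 < j) :
    seg c i j = c (i + 1) :: seg c (i + 1) j := by
  unfold seg
  obtain ⟨k, rfl⟩ : ∃ k, j = i + k + 2 := ⟨j - i - 2, by omega⟩
  have e1 : i + k + 2 - i - 1 = k + 1 := by omega
  have e2 : i + k + 2 - (i + 1) - 1 = k := by omega
  rw [e1, e2, List.range'_succ, List.map_cons]

theorem seg_head (c : ℕ → H) (i j : ℕ) (hij : i < j) (y : H) (hy : y ∈ (seg c i j).head?) :
    y = c (i + 1) ∧ i + 1 < j := by
  rcases Nat.lt_or_ge (i + 1) j with h | h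
  · rw [seg_cons c i j h] at hy
    simp at hy
    exact ⟨hy.symm, h⟩
  · have : j = i + 1 := by omega
    subst this
    rw [seg_nil] at hy
    simp at hy

theorem seg_last (c : ℕ → H) : ∀ (k i j : ℕ), j = i + k + 1 → ∀ y ∈ (seg c i j).getLast?,
    y = c (j - 1) ∧ i + 1 < j := by
  intro k
  induction k with
  | zero =>
    intro i j hj y hy
    subst hj
    rw [seg_nil] at hy
    simp at hy
  | succ k ih =>
    intro i j hj y hy
    have h : i + 1 < j := by omega
    refine ⟨?_, h⟩
    rw [seg_cons c i j h] at hy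
    rcases Nat.eq_zero_or_pos k with h0 | h0
    · have : j = i + 1 + 1 := by omega
      subst this
      rw [seg_nil] at hy
      simp at hy
      rw [← hy]
      congr 1
    · have h' : i + 1 + 1 < j := by omega
      have := ih (i + 1) j (by omega) y (by
        rw [seg_cons c (i + 1) j h'] at hy ⊢
        rwa [List.getLast?_cons_cons] at hy)
      exact this.1

theorem seg_mem (c : ℕ → H) (i j : ℕ) (x : H) (hx : x ∈ seg c i j) : ∃ t, i < t ∧ t < j ∧ x = c t := by
  unfold seg at hx
  rw [List.mem_map] at hx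
  obtain ⟨t, ht, rfl⟩ := hx
  rw [List.mem_range'] at ht
  obtain ⟨s, hs, rfl⟩ := ht
  exact ⟨_, by omega, by omega, rfl⟩

theorem seg_Wk (m m' : H → H) (ν : H → V) (N : Set H) (hN : ∀ x, x ∉ N → m' x = m x) (n : ℕ)
    (c : ℕ → H) (hc : Cyc m' ν n c) (i j : ℕ) (hij : i < j) (hseg : ∀ t, i < t → t < j → c t ∉ N) :
    Wk m ν (ν (m' (c i))) (seg c i j) (ν (c j)) := by
  obtain ⟨k, hk⟩ : ∃ k, j = i + k + 1 := ⟨j - i - 1, by omega⟩
  induction k generalizing i with
  | zero =>
    subst hk
    rw [seg_nil]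
    exact (hc.nu i).symm
  | succ k ih =>
    have h : i + 1 < j := by omega
    rw [seg_cons c i j h]
    have h1 : m' (c (i + 1)) = m (c (i + 1)) := hN _ (hseg (i + 1) (by omega) h)
    refine ⟨hc.nu i, ?_, ?_⟩
    · rw [← h1]
      exact hc.mv _
    · rw [← h1]
      exact ih (i + 1) h (fun t ht1 ht2 => hseg t (by omega) ht2) (by omega)

theorem seg_NBw (m m' : H → H) (ν : H → V) (N : Set H) (hN : ∀ x, x ∉ N → m' x = m x) (n : ℕ)
    (c : ℕ → H) (hc : Cyc m' ν n c) (i j : ℕ) (hij : i < j) (hseg : ∀ t, i < t → t < j → c t ∉ N) :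
    NBw m ν (seg c i j) := by
  refine ⟨?_, ?_⟩
  · intro x hx
    obtain ⟨t, h1, h2, rfl⟩ := seg_mem c i j x hx
    rw [← hN _ (hseg t h1 h2)]
    exact hc.mv _
  · obtain ⟨k, hk⟩ : ∃ k, j = i + k + 1 := ⟨j - i - 1, by omega⟩
    induction k generalizing i with
    | zero =>
      subst hk
      rw [seg_nil]
      exact List.isChain_nil
    | succ k ih =>
      have h : i + 1 < j := by omega
      rw [seg_cons c i j h, List.isChain_cons]
      refine ⟨?_, ih (i + 1) h (fun t ht1 ht2 => hseg t (by omega) ht2) (by omega)⟩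
      intro y hy
      obtain ⟨rfl, h2⟩ := seg_head c (i + 1) j h y hy
      rw [← hN _ (hseg (i + 1) (by omega) h)]
      exact ⟨hc.nu _, hc.nb _⟩

/-- if the segment starts and ends at the same vertex it is closed -/
theorem seg_Clw (m m' : H → H) (ν : H → V) (N : Set H) (hN : ∀ x, x ∉ N → m' x = m x) (n : ℕ)
    (c : ℕ → H) (hc : Cyc m' ν n c) (i j : ℕ) (hij : i < j) (hseg : ∀ t, i < t → t < j → c t ∉ N)
    (he : ν (c j) = ν (m' (c i))) : Clw m ν (seg c i j) := by
  intro x hx y hy
  obtain ⟨rfl, h2⟩ := seg_head c i j hij x hx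
  obtain ⟨rfl, -⟩ := seg_last c (j - i - 1) i j (by omega) y hy
  rw [← hN _ (hseg (j - 1) (by omega) (by omega)), ← hc.nu (j - 1), hc.nu i, ← he]
  congr 2
  omega

/-- the segment closed up by the old edge `c j` -/
theorem seg_snoc (m m' : H → H) (hm : ∀ h, m (m h) = h) (ν : H → V) (N : Set H)
    (hN : ∀ x, x ∉ N → m' x = m x) (n : ℕ)
    (c : ℕ → H) (hc : Cyc m' ν n c) (i j : ℕ) (hij : i < j) (hseg : ∀ t, i < t → t < j → c t ∉ N)
    (h1 : m (c j) ≠ c j) (h2 : m (c j) ∈ N) (h3 : ν (m (c j)) = ν (m' (c i))) :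
    NBw m ν (seg c i j ++ [c j]) ∧ Clw m ν (seg c i j ++ [c j]) := by
  have hnb := seg_NBw m m' ν N hN n c hc i j hij hseg
  refine ⟨⟨?_, ?_⟩, ?_⟩
  · intro x hx
    rw [List.mem_append] at hx
    rcases hx with hx | hx
    · exact hnb.1 x hx
    · rw [List.mem_singleton] at hx
      subst hx
      exact h1
  · rw [List.isChain_append]
    refine ⟨hnb.2, List.isChain_singleton _, ?_⟩
    intro x hx y hy
    obtain ⟨rfl, h4⟩ := seg_last c (j - i - 1) i j (by omega) x hx
    simp at hy
    subst hy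
    have e : j - 1 + 1 = j := by omega
    rw [← hN _ (hseg (j - 1) (by omega) (by omega))]
    have a1 := hc.nu (j - 1)
    have a2 := hc.nb (j - 1)
    rw [e] at a1 a2
    exact ⟨a1, a2⟩
  · intro x hx y hy
    rw [List.getLast?_concat] at hy
    simp at hy
    subst hy
    have hx' : x = c (i + 1) := by
      rcases Nat.lt_or_ge (i + 1) j with h | h
      · rw [seg_cons c i j h] at hx
        simp at hx
        exact hx.symm
      · have : j = i + 1 := by omega
        subst this
        rw [seg_nil] at hx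
        simp at hx
        exact hx.symm
    rw [hx', hc.nu i, h3]

/-- the first new half-edge after the index `i` -/
theorem next_new {n : ℕ} (N : Set H) (c : ℕ → H) (hn : 0 < n) (hper : ∀ i, c (i + n) = c i) (i : ℕ)
    (hi : c i ∈ N) : ∃ j, i < j ∧ j ≤ i + n ∧ c j ∈ N ∧ ∀ t, i < t → t < j → c t ∉ N := by
  classical
  have hex : ∃ j, i < j ∧ c j ∈ N := ⟨i + n, by omega, by rw [hper]; exact hi⟩
  refine ⟨Nat.find hex, (Nat.find_spec hex).1, ?_, (Nat.find_spec hex).2, ?_⟩
  · exact Nat.find_min' hex ⟨by omega, by rw [hper]; exact hi⟩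
  · intro t h1 h2 h3
    exact Nat.find_min hex h2 ⟨h1, h3⟩

end Crest.Agent.R199
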