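import Crest.Agent.R199.MatchWalk
import Crest.Agent.R199.MatchCyc
import Crest.Agent.R199.MatchSeg

/-!
Row 199, piece MT_SWITCH (helper12): replacing the edge `{a, b}` by the edges `{h1, a}`, `{h2, b}` keeps
the girth if `h1, h2` are unmatched and far from `a` and `b`.

Proof. `m' = switchE m h1 h2 a b`, an involution. `girth_of_cyc`: let `c` be a cyclic walk of `m'` of
length `n`, suppose `n < g0`. `N = {h1, h2, a, b}`; `m' = m` outside `N`. If no `c i` is in `N` then `c`
is `Cyc m ν n`: contradiction by `cyc_of_girth`. Otherwise some `c i ∈ N`. We may assume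
`c i ∈ {h1, h2}` : if `c i ∈ {a, b}` then `m' (c i) ∈ {h1, h2}` and for the next new index `j`
(`next_new`) `seg_Wk` is a walk of length `≤ n - 1 < g0` from `ν h1` or `ν h2` to `ν (c j)`, so by `far`
`c j ∈ {h1, h2}`; replace `i` by `j`.
So let `c i = h1` (`m' (c i) = a`; the case `h2` is symmetric), `j` the next new index. By `seg_Wk`
(a walk of length `≤ n - 1` from `ν a` to `ν (c j)`) and `far`, `c j ∈ {a, b}`. If `c j = a = m' (c i)`:
`j ≠ i + 1` by `nb`, so the segment is nonempty, and closed non-backtracking for `m` (`seg_NBw`,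
`seg_Clw`), of length `< g0`: contradiction. If `c j = b`: `seg_snoc` (`m b = a ∈ N`) gives a closed
non-backtracking walk of `m` of length `j - i ≤ n < g0`: contradiction.
-/
set_option autoImplicit false

namespace Crest.Agent.R199

variable {H V : Type} [DecidableEq H]

theorem girth_switch (m : H → H) (hm : ∀ h, m (m h) = h) (ν : H → V) (g0 : ℕ) (hg : Girth m ν g0)
    (h1 h2 a b : H) (hne : h1 ≠ h2) (f1 : m h1 = h1) (f2 : m h2 = h2) (hab : m a = b) (hne' : a ≠ b)
    (far1a : ¬ Near m ν g0 (ν h1) (ν a)) (far1b : ¬ Near m ν g0 (ν h1) (ν b))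
    (far2a : ¬ Near m ν g0 (ν h2) (ν a)) (far2b : ¬ Near m ν g0 (ν h2) (ν b)) :
    Girth (switchE m h1 h2 a b) ν g0 := by
  have mb : m b = a := by rw [← hab, hm]
  have h1a : h1 ≠ a := by rintro rfl; exact hne' (f1.symm.trans hab)
  have h1b : h1 ≠ b := by rintro rfl; exact hne' (mb.symm.trans f1)
  have h2a : h2 ≠ a := by rintro rfl; exact hne' (f2.symm.trans hab)
  have h2b : h2 ≠ b := by rintro rfl; exact hne' (mb.symm.trans f2)
  set m' := switchE m h1 h2 a b with hm'
  have e1 : m' h1 = a := by simp [hm', switchE]
  have e2 : m' a = h1 := by simp [hm', switchE, h1a.symm]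
  have e3 : m' h2 = b := by simp [hm', switchE, hne.symm, h2a]
  have e4 : m' b = h2 := by simp [hm', switchE, h1b.symm, h2b.symm, hne'.symm]
  set N : Set H := {x | x = h1 ∨ x = h2 ∨ x = a ∨ x = b} with hNdef
  have hN : ∀ x, x ∉ N → m' x = m x := by
    intro x hx
    simp only [hNdef, Set.mem_setOf_eq, not_or] at hx
    obtain ⟨x1, x2, x3, x4⟩ := hx
    simp [hm', switchE, x1, x2, x3, x4]
  have hNm : ∀ x, x ∉ N → m x ∉ N := by
    intro x hx hmx
    apply hx
    simp only [hNdef, Set.mem_setOf_eq] at hmx ⊢
    rcases hmx with h | h | h | h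
    · left; rw [← hm x, h, f1]
    · right; left; rw [← hm x, h, f2]
    · right; right; right; rw [← hm x, h, hab]
    · right; right; left; rw [← hm x, h, mb]
  have hinv : ∀ x, m' (m' x) = x := by
    intro x
    by_cases hx : x ∈ N
    · simp only [hNdef, Set.mem_setOf_eq] at hx
      rcases hx with rfl | rfl | rfl | rfl
      · rw [e1, e2]
      · rw [e3, e4]
      · rw [e2, e1]
      · rw [e4, e3]
    · rw [hN x hx, hN _ (hNm x hx), hm]
  refine girth_of_cyc m' hinv ν g0 ?_
  intro n c hn hc
  by_contra hlt
  rw [not_le] at hlt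
  -- step along the next new half-edge
  have step : ∀ i, c i ∈ N → ∃ j, i < j ∧ j ≤ i + n ∧ c j ∈ N ∧ (∀ t, i < t → t < j → c t ∉ N) ∧
      Near m ν g0 (ν (m' (c i))) (ν (c j)) := by
    intro i hi
    obtain ⟨j, hij, hjn, hj, hseg⟩ := next_new N c hn hc.per i hi
    refine ⟨j, hij, hjn, hj, hseg, seg c i j, ?_, seg_Wk m m' ν N hN n c hc i j hij hseg⟩
    rw [seg_length]; omega
  by_cases hex : ∃ i, c i ∈ N
  · -- there is an index with `c i ∈ {h1, h2}`
    have hex2 : ∃ i, c i = h1 ∨ c i = h2 := by
      obtain ⟨i, hi⟩ := hex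
      by_cases hi12 : c i = h1 ∨ c i = h2
      · exact ⟨i, hi12⟩
      · obtain ⟨j, hij, hjn, hj, hseg, hnear⟩ := step i hi
        refine ⟨j, ?_⟩
        simp only [hNdef, Set.mem_setOf_eq] at hi hj
        have hcj : ¬ (c j = a ∨ c j = b) := by
          rintro (h | h)
          · rw [h] at hnear
            rcases hi with h' | h' | h' | h'
            · exact hi12 (Or.inl h')
            · exact hi12 (Or.inr h')
            · rw [h', e2] at hnear; exact far1a hnear
            · rw [h', e4] at hnear; exact far2a hnear
          · rw [h] at hnear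
            rcases hi with h' | h' | h' | h'
            · exact hi12 (Or.inl h')
            · exact hi12 (Or.inr h')
            · rw [h', e2] at hnear; exact far1b hnear
            · rw [h', e4] at hnear; exact far2b hnear
        tauto
    obtain ⟨i, hi12⟩ := hex2
    have hiN : c i ∈ N := by
      simp only [hNdef, Set.mem_setOf_eq]; tauto
    obtain ⟨j, hij, hjn, hj, hseg, hnear⟩ := step i hiN
    have hp : m' (c i) = a ∨ m' (c i) = b := by
      rcases hi12 with h | h
      · left; rw [h, e1]
      · right; rw [h, e3]
    have hcj : c j = a ∨ c j = b := by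
      have hcj : ¬ (c j = h1 ∨ c j = h2) := by
        have hnear' := Near_symm m hm ν g0 _ _ hnear
        rintro (h | h)
        · rw [h] at hnear'
          rcases hp with h' | h'
          · rw [h'] at hnear'; exact far1a hnear'
          · rw [h'] at hnear'; exact far1b hnear'
        · rw [h] at hnear'
          rcases hp with h' | h'
          · rw [h'] at hnear'; exact far2a hnear'
          · rw [h'] at hnear'; exact far2b hnear'
      simp only [hNdef, Set.mem_setOf_eq] at hj
      tauto
    by_cases hcp : c j = m' (c i)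
    · have hji : j ≠ i + 1 := by
        rintro rfl
        exact hc.nb i hcp
      have hne0 : seg c i j ≠ [] := by
        intro h
        have := seg_length c i j
        rw [h] at this
        simp at this
        omega
      have hle := hg _ hne0 (seg_NBw m m' ν N hN n c hc i j hij hseg)
        (seg_Clw m m' ν N hN n c hc i j hij hseg (by rw [hcp]))
      rw [seg_length] at hle
      omega
    · have hmc : m (c j) = m' (c i) := by
        rcases hcj with h | h <;> rcases hp with h' | h'
        · exact absurd (h.trans h'.symm) hcp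
        · rw [h, h', hab]
        · rw [h, h', mb]
        · exact absurd (h.trans h'.symm) hcp
      have hs := seg_snoc m m' hm ν N hN n c hc i j hij hseg
        (by rw [hmc]; exact fun h => hcp h.symm)
        (by rw [hmc]; simp only [hNdef, Set.mem_setOf_eq]; tauto)
        (by rw [hmc])
      have hle := hg _ (by simp) hs.1 hs.2
      rw [List.length_append, seg_length, List.length_singleton] at hle
      omega
  · rw [not_exists] at hex
    have hc' : Cyc m ν n c := by
      refine ⟨hc.per, fun i => ?_, fun i => ?_, fun i => ?_⟩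
      · rw [← hN _ (hex i)]; exact hc.mv i
      · rw [← hN _ (hex i)]; exact hc.nu i
      · rw [← hN _ (hex i)]; exact hc.nb i
    exact absurd (cyc_of_girth m ν g0 hg n c hn hc') (by omega)

end Crest.Agent.R199
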