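import Crest.Agent.R199.MatchAdd
import Crest.Agent.R199.MatchSwitch
import Crest.Agent.R199.MatchCount

/-!
Row 199, part II: the matching lemma (helper12). `m h = h` means "unmatched".
-/
set_option autoImplicit false

namespace Crest.Agent.R199

open Finset

/-- good partial matchings -/
structure Pm {H V K Lb : Type} (ν : H → V) (cls : H → K) (lab : H → Lb) (ok : H → H → Prop)
    (g0 : ℕ) (m : H → H) : Prop where
  inv : ∀ h, m (m h) = h
  cls' : ∀ h, m h ≠ h → cls (m h) = cls h
  lab' : ∀ h, m h ≠ h → lab (m h) ≠ lab h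
  ok' : ∀ h, m h ≠ h → ok h (m h)
  girth : Girth m ν g0

section

variable {H V K Lb : Type} [DecidableEq H]

theorem addE_inv (m : H → H) (hm : ∀ h, m (m h) = h) (h1 h2 : H) (f1 : m h1 = h1)
    (f2 : m h2 = h2) (x : H) : addE m h1 h2 (addE m h1 h2 x) = x := by
  unfold addE
  by_cases e1 : x = h1
  · subst e1
    by_cases e : h2 = x <;> simp [e]
  · by_cases e2 : x = h2
    · subst e2; simp [e1]
    · have e3 : m x ≠ h1 := fun h => e1 (by rw [← hm x, h, f1])
      have e4 : m x ≠ h2 := fun h => e2 (by rw [← hm x, h, f2])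
      simp [e1, e2, e3, e4, hm]

theorem switchE_inv (m : H → H) (hm : ∀ h, m (m h) = h) (h1 h2 a : H) (hne : h1 ≠ h2)
    (f1 : m h1 = h1) (f2 : m h2 = h2) (ha : m a ≠ a) (x : H) :
    switchE m h1 h2 a (m a) (switchE m h1 h2 a (m a) x) = x := by
  have n1 : a ≠ h1 := fun h => ha (by rw [h, f1])
  have n2 : a ≠ h2 := fun h => ha (by rw [h, f2])
  have n3 : m a ≠ h1 := fun h => by have := hm a; rw [h, f1] at this; exact n1 this.symm
  have n4 : m a ≠ h2 := fun h => by have := hm a; rw [h, f2] at this; exact n2 this.symm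
  have n0 : h2 ≠ h1 := hne.symm
  unfold switchE
  by_cases e1 : x = h1
  · subst e1; simp [n1]
  · by_cases e2 : x = a
    · subst e2; simp [n1]
    · by_cases e3 : x = h2
      · subst e3; simp [e1, e2, n3, ha, n4]
      · by_cases e4 : x = m a
        · subst e4; simp [n3, ha, n4, n0, n2.symm]
        · have k1 : m x ≠ h1 := fun h => e1 (by rw [← hm x, h, f1])
          have k2 : m x ≠ h2 := fun h => e3 (by rw [← hm x, h, f2])
          have k3 : m x ≠ a := fun h => e4 (by rw [← h, hm])
          have k4 : m x ≠ m a := fun h => e2 (by rw [← hm x, h, hm])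
          simp [e1, e2, e3, e4, k1, k2, k3, k4, hm]

theorem improve_add {ν : H → V} {cls : H → K} {lab : H → Lb} {ok : H → H → Prop} {g0 : ℕ}
    (hsym : ∀ h h', ok h h' → ok h' h) {m : H → H} (hp : Pm ν cls lab ok g0 m) {h1 h2 : H}
    (f1 : m h1 = h1) (f2 : m h2 = h2) (hc : cls h2 = cls h1) (hl : lab h2 ≠ lab h1)
    (hok : ok h1 h2) (far : ¬ Near m ν g0 (ν h1) (ν h2)) :
    Pm ν cls lab ok g0 (addE m h1 h2) := by
  have hne : h1 ≠ h2 := fun h => hl (by rw [h])
  refine ⟨addE_inv m hp.inv h1 h2 f1 f2, ?_, ?_, ?_,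
    girth_add m hp.inv ν g0 hp.girth h1 h2 hne f1 f2 far⟩
  · intro x hx
    unfold addE at hx ⊢
    by_cases e1 : x = h1
    · subst e1; simpa using hc
    · by_cases e2 : x = h2
      · subst e2; simpa [e1] using hc.symm
      · simp only [e1, e2, if_false] at hx ⊢; exact hp.cls' x hx
  · intro x hx
    unfold addE at hx ⊢
    by_cases e1 : x = h1
    · subst e1; simpa using hl
    · by_cases e2 : x = h2
      · subst e2; simpa [e1] using hl.symm
      · simp only [e1, e2, if_false] at hx ⊢; exact hp.lab' x hx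
  · intro x hx
    unfold addE at hx ⊢
    by_cases e1 : x = h1
    · subst e1; simpa using hok
    · by_cases e2 : x = h2
      · subst e2; simpa [e1] using hsym _ _ hok
      · simp only [e1, e2, if_false] at hx ⊢; exact hp.ok' x hx

theorem improve_switch {ν : H → V} {cls : H → K} {lab : H → Lb} {ok : H → H → Prop} {g0 : ℕ}
    (hsym : ∀ h h', ok h h' → ok h' h) {m : H → H} (hp : Pm ν cls lab ok g0 m) {h1 h2 a : H}
    (hne : h1 ≠ h2) (f1 : m h1 = h1) (f2 : m h2 = h2) (hc2 : cls h2 = cls h1)
    (ha : m a ≠ a) (hca : cls a = cls h1) (hla : lab a ≠ lab h1) (hoka : ok h1 a)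
    (hlb : lab (m a) ≠ lab h2) (hokb : ok h2 (m a))
    (far1a : ¬ Near m ν g0 (ν h1) (ν a)) (far1b : ¬ Near m ν g0 (ν h1) (ν (m a)))
    (far2a : ¬ Near m ν g0 (ν h2) (ν a)) (far2b : ¬ Near m ν g0 (ν h2) (ν (m a))) :
    Pm ν cls lab ok g0 (switchE m h1 h2 a (m a)) := by
  have n1 : a ≠ h1 := fun h => ha (by rw [h, f1])
  have n2 : a ≠ h2 := fun h => ha (by rw [h, f2])
  have n3 : m a ≠ h1 := fun h => by have := hp.inv a; rw [h, f1] at this; exact n1 this.symm
  have n4 : m a ≠ h2 := fun h => by have := hp.inv a; rw [h, f2] at this; exact n2 this.symm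
  have hcb : cls (m a) = cls h2 := by rw [hp.cls' a ha, hca, hc2]
  refine ⟨switchE_inv m hp.inv h1 h2 a hne f1 f2 ha, ?_, ?_, ?_,
    girth_switch m hp.inv ν g0 hp.girth h1 h2 a (m a) hne f1 f2 rfl (Ne.symm ha)
      far1a far1b far2a far2b⟩
  · intro x hx
    unfold switchE at hx ⊢
    by_cases e1 : x = h1
    · subst e1; simpa using hca
    · by_cases e2 : x = a
      · subst e2; simpa [e1] using hca.symm
      · by_cases e3 : x = h2
        · subst e3; simpa [e1, e2] using hcb
        · by_cases e4 : x = m a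
          · subst e4; simpa [e1, e2, e3] using hcb.symm
          · simp only [e1, e2, e3, e4, if_false] at hx ⊢; exact hp.cls' x hx
  · intro x hx
    unfold switchE at hx ⊢
    by_cases e1 : x = h1
    · subst e1; simpa using hla
    · by_cases e2 : x = a
      · subst e2; simpa [e1] using hla.symm
      · by_cases e3 : x = h2
        · subst e3; simpa [e1, e2] using hlb
        · by_cases e4 : x = m a
          · subst e4; simpa [e1, e2, e3] using hlb.symm
          · simp only [e1, e2, e3, e4, if_false] at hx ⊢; exact hp.lab' x hx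
  · intro x hx
    unfold switchE at hx ⊢
    by_cases e1 : x = h1
    · subst e1; simpa using hoka
    · by_cases e2 : x = a
      · subst e2; simpa [e1] using hsym _ _ hoka
      · by_cases e3 : x = h2
        · subst e3; simpa [e1, e2] using hokb
        · by_cases e4 : x = m a
          · subst e4; simpa [e1, e2, e3] using hsym _ _ hokb
          · simp only [e1, e2, e3, e4, if_false] at hx ⊢; exact hp.ok' x hx

end

theorem matching {H V K Lb : Type} [Fintype H] [DecidableEq H] [DecidableEq V] [DecidableEq K]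
    [DecidableEq Lb] (ν : H → V) (cls : H → K) (lab : H → Lb) (ok : H → H → Prop)
    (hsym : ∀ h h', ok h h' → ok h' h) (g0 Δ β : ℕ)
    (hΔ : ∀ v, (univ.filter fun h => ν h = v).card ≤ Δ)
    (hβ : ∀ h, Set.ncard {h' | cls h' = cls h ∧ lab h' ≠ lab h ∧ ¬ ok h h'} ≤ β)
    (heven : ∀ κ, Even (univ.filter fun h => cls h = κ).card)
    (hlarge : ∀ h j, 2 * (univ.filter fun h' => cls h' = cls h ∧ lab h' = j).card + 3 * β +
      5 * (Δ + 1) ^ (g0 + 1) < (univ.filter fun h' => cls h' = cls h).card) :
    ∃ m : H → H, (∀ h, m (m h) = h) ∧ (∀ h, m h ≠ h) ∧ (∀ h, cls (m h) = cls h) ∧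
      (∀ h, lab (m h) ≠ lab h) ∧ (∀ h, ok h (m h)) ∧
      (∀ l : List H, l ≠ [] → NBw m ν l → Clw m ν l → g0 ≤ l.length) := by
  classical
  -- a partial matching with the least number of unmatched half-edges
  have hex : ∃ n, ∃ m : H → H, Pm ν cls lab ok g0 m ∧ (univ.filter fun h => m h = h).card = n := by
    refine ⟨_, id, ⟨fun _ => rfl, fun h hh => absurd rfl hh, fun h hh => absurd rfl hh,
      fun h hh => absurd rfl hh, ?_⟩, rfl⟩
    intro l hl hn _
    obtain ⟨x, hx⟩ := List.exists_mem_of_ne_nil l hl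
    exact absurd rfl (hn.1 x hx)
  obtain ⟨m, hp, hmin⟩ := Nat.find_spec hex
  have hmin' : ∀ m' : H → H, Pm ν cls lab ok g0 m' →
      (univ.filter fun h => m h = h).card ≤ (univ.filter fun h => m' h = h).card := by
    intro m' hp'
    rw [hmin]
    exact Nat.find_min' hex ⟨m', hp', rfl⟩
  have hball : ∀ v, Set.ncard {x : H | Near m ν g0 v (ν x)} ≤ (Δ + 1) ^ (g0 + 1) := fun v =>
    le_trans (Nat.le_succ _) (ball_card m ν Δ hΔ g0 v)
  have hfix : ∀ h, m h ≠ h := by
    intro h1 f1
    obtain ⟨h2, hne, f2, hc2⟩ := exists_second m hp.inv cls hp.cls' heven h1 f1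
    by_cases hA : ∃ h', cls h' = cls h1 ∧ m h' = h' ∧ lab h' ≠ lab h1 ∧ ok h1 h' ∧
        ¬ Near m ν g0 (ν h1) (ν h')
    · obtain ⟨h', c1, c2, c3, c4, c5⟩ := hA
      have hp' := improve_add hsym hp f1 c2 c1 c3 c4 c5
      refine absurd (hmin' _ hp') (not_le.2 (Finset.card_lt_card ?_))
      have hne' : h1 ≠ h' := fun h => c3 (by rw [h])
      refine ⟨?_, ?_⟩
      · intro x hx
        simp only [mem_filter, mem_univ, true_and] at hx ⊢
        unfold addE at hx
        by_cases e1 : x = h1
        · rw [e1]; exact f1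
        · by_cases e2 : x = h'
          · rw [e2]; exact c2
          · simpa [e1, e2] using hx
      · intro hsub
        have h3 := hsub (mem_filter.2 ⟨mem_univ _, f1⟩)
        simp only [mem_filter, mem_univ, true_and] at h3
        unfold addE at h3
        simp at h3
        exact hne' h3.symm
    · have hnone : ∀ h', cls h' = cls h1 → m h' = h' → lab h' ≠ lab h1 → ok h1 h' →
          Near m ν g0 (ν h1) (ν h') := by
        intro h' c1 c2 c3 c4
        by_contra c5
        exact hA ⟨h', c1, c2, c3, c4, c5⟩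
      obtain ⟨a, a1, a2, a3, a4, a5, a6, a7, a8, a9, a10⟩ := exists_pair m hp.inv ν cls lab ok
        hp.cls' g0 β _ hβ hball hlarge h1 h2 f1 f2 hc2 hnone
      have hp' := improve_switch hsym hp hne.symm f1 f2 hc2 a2 a1 a3 a4 a5 a6 a7 a8 a9 a10
      refine absurd (hmin' _ hp') (not_le.2 (Finset.card_lt_card ?_))
      have n1 : a ≠ h1 := fun h => a2 (by rw [h, f1])
      refine ⟨?_, ?_⟩
      · intro x hx
        simp only [mem_filter, mem_univ, true_and] at hx ⊢
        unfold switchE at hx
        by_cases e1 : x = h1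
        · rw [e1]; exact f1
        · by_cases e2 : x = a
          · subst e2; simp [e1] at hx; exact absurd hx.symm n1
          · by_cases e3 : x = h2
            · rw [e3]; exact f2
            · by_cases e4 : x = m a
              · subst e4
                simp [e1, e2, e3] at hx
                exact absurd hx.symm e3
              · simpa [e1, e2, e3, e4] using hx
      · intro hsub
        have h3 := hsub (mem_filter.2 ⟨mem_univ _, f1⟩)
        simp only [mem_filter, mem_univ, true_and] at h3
        unfold switchE at h3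
        simp at h3
        exact n1 h3
  exact ⟨m, hp.inv, hfix, fun h => hp.cls' h (hfix h), fun h => hp.lab' h (hfix h),
    fun h => hp.ok' h (hfix h), hp.girth⟩

end Crest.Agent.R199
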