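import Crest.Agent.R199.DmBeta
import Crest.Agent.R199.MatchMain

/-!
Row 199, DatumMain piece D3: one component after the other.

PROOF of `dm_step`: apply `matching` to H := Hc Γ c, ν h := nu h.1, cls h := h.1.t.1, lab h := h.1.t.2, ok h h' :=
okk S M h.1 h'.1, Δ := Γ.Q, β := 3 kap + kap' + 3 (deg_V, beta_cls, even_cls, large_cls, okk_symm). From
m₀ : Hc → Hc define m h := if hh : h.c = c ∧ h ≠ oo Γ c then (m₀ ⟨h,hh⟩).1 else h. GoodC: inv, fix clear;
lab: classes equal and t.2 different; sta: ok.1; girth: a walk for m consists of elements h with m h ≠ h, i.e.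
of elements of Hc; lift the list (List.pmap / attach or `List.map` of a section) to a walk for m₀ with the
same length. Compat (M c') m: M c' h₁ ≠ h₁, m h₂ ≠ h₂ with equal types: ok.2 for h₂, m h₂ applied to c', k = h₁.
`dm_family`: Finset induction on S: ∃ M, (∀ c ∈ S, GoodC Γ c (M c)) ∧ (∀ c ∈ S, ∀ c' ∈ S, c ≠ c' → Compat (M c) (M c'));
step with `Function.update M c m` (Compat is symmetric). Take S = univ.
-/
set_option autoImplicit false

namespace Crest.Agent.R199

open Finset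

variable {g0 : ℕ} {Γ : Geo g0}

theorem Compat.symm {m m' : Hx Γ → Hx Γ} (h : Compat m m') : Compat m' m := by
  intro a b ha hb e1 e2 e3 e4
  exact h b a hb ha e1.symm e2.symm e3.symm e4.symm

theorem dm_step (S : Finset Γ.C) (M : Γ.C → Hx Γ → Hx Γ) (hM : ∀ c' ∈ S, GoodC Γ c' (M c'))
    (c : Γ.C) (hc : c ∉ S) : ∃ m, GoodC Γ c m ∧ ∀ c' ∈ S, Compat (M c') m := by
  obtain ⟨m₀, minv, mne, mcls, mlab, mok, mgirth⟩ := matching (H := Hc Γ c) (V := Vx Γ)
    (K := Γ.C) (Lb := Fin 3) (fun h => nu h.1) (fun h => h.1.t.1) (fun h => h.1.t.2)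
    (fun h h' => okk S M h.1 h'.1) (fun h h' ho => okk_symm hM h.1 h'.1 ho) g0 Γ.Q
    (3 * Γ.kap + Γ.kap' + 3) (fun v => deg_V c v) (fun h => beta_cls S M hM c hc h)
    (fun d => even_cls c d) (fun h j => large_cls c h j)
  classical
  let m : Hx Γ → Hx Γ := fun h => if hh : h.c = c ∧ h ≠ oo Γ c then (m₀ ⟨h, hh⟩).1 else h
  have m_in : ∀ x : Hc Γ c, m x.1 = (m₀ x).1 := by
    intro x
    show (if hh : x.1.c = c ∧ x.1 ≠ oo Γ c then (m₀ ⟨x.1, hh⟩).1 else x.1) = _
    rw [dif_pos x.2]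
  have m_out : ∀ h : Hx Γ, ¬ (h.c = c ∧ h ≠ oo Γ c) → m h = h := by
    intro h hh
    show (if hh : h.c = c ∧ h ≠ oo Γ c then (m₀ ⟨h, hh⟩).1 else h) = _
    rw [dif_neg hh]
  have m_ne : ∀ x : Hc Γ c, m x.1 ≠ x.1 := by
    intro x hx
    rw [m_in] at hx
    exact mne x (Subtype.ext hx)
  have m_fix : ∀ h, m h ≠ h ↔ (h.c = c ∧ h ≠ oo Γ c) := by
    intro h
    constructor
    · intro h1
      by_contra h2
      exact h1 (m_out h h2)
    · intro h1
      exact m_ne ⟨h, h1⟩
  refine ⟨m, ⟨?_, m_fix, ?_, ?_, ?_, ?_⟩, ?_⟩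
  · intro h
    by_cases hh : h.c = c ∧ h ≠ oo Γ c
    · have e : m h = (m₀ ⟨h, hh⟩).1 := m_in ⟨h, hh⟩
      rw [e, m_in, minv]
    · rw [m_out h hh, m_out h hh]
  · intro h h1
    have hh := (m_fix h).1 h1
    have e : m h = (m₀ ⟨h, hh⟩).1 := m_in ⟨h, hh⟩
    rw [e]
    exact mcls ⟨h, hh⟩
  · intro h h1
    have hh := (m_fix h).1 h1
    have e : m h = (m₀ ⟨h, hh⟩).1 := m_in ⟨h, hh⟩
    rw [e]
    intro h2
    exact mlab ⟨h, hh⟩ (congrArg Prod.snd h2)
  · intro h h1
    have hh := (m_fix h).1 h1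
    have e : m h = (m₀ ⟨h, hh⟩).1 := m_in ⟨h, hh⟩
    rw [e]
    exact (mok ⟨h, hh⟩).1
  · intro l hl hnb hcl
    have hmem : ∀ h ∈ l, h.c = c ∧ h ≠ oo Γ c := fun h hh => (m_fix h).1 (hnb.1 h hh)
    obtain ⟨l', rfl⟩ : ∃ l' : List (Hc Γ c), l'.map Subtype.val = l := by
      lift l to List (Hc Γ c) using hmem
      exact ⟨l, rfl⟩
    rw [List.length_map]
    apply mgirth l'
    · rintro rfl
      exact hl rfl
    · refine ⟨fun x _ => mne x, ?_⟩
      have h2 := hnb.2
      rw [List.isChain_map] at h2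
      refine h2.imp ?_
      intro a b hab
      rw [m_in] at hab
      exact ⟨hab.1, fun e => hab.2 (congrArg Subtype.val e)⟩
    · intro x hx y hy
      have h1 := hcl x.1 (by rw [List.head?_map, Option.mem_map]; exact ⟨x, hx, rfl⟩)
        y.1 (by rw [List.getLast?_map, Option.mem_map]; exact ⟨y, hy, rfl⟩)
      rw [m_in] at h1
      exact h1
  · intro c' hc' h h' h1 h2 e1 e2 e3 e4
    have hh := (m_fix h').1 h2
    have e : m h' = (m₀ ⟨h', hh⟩).1 := m_in ⟨h', hh⟩
    rw [e] at e3 e4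
    exact (mok ⟨h', hh⟩).2 c' hc' h h1 e1 e2 e3 e4

theorem dm_family (Γ : Geo g0) : ∃ M : Γ.C → Hx Γ → Hx Γ, (∀ c, GoodC Γ c (M c)) ∧
    ∀ c c', c ≠ c' → Compat (M c) (M c') := by
  classical
  have key : ∀ S : Finset Γ.C, ∃ M : Γ.C → Hx Γ → Hx Γ, (∀ c ∈ S, GoodC Γ c (M c)) ∧
      ∀ c ∈ S, ∀ c' ∈ S, c ≠ c' → Compat (M c) (M c') := by
    intro S
    induction S using Finset.induction_on with
    | empty => exact ⟨fun _ => id, by simp, by simp⟩
    | insert c S hc ih =>
      obtain ⟨M, h1, h2⟩ := ih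
      obtain ⟨m, h3, h4⟩ := dm_step S M h1 c hc
      have hne : ∀ c' ∈ S, c' ≠ c := fun c' hc' e => hc (e ▸ hc')
      refine ⟨Function.update M c m, ?_, ?_⟩
      · intro c' hc'
        rw [Finset.mem_insert] at hc'
        rcases hc' with rfl | hc'
        · rw [Function.update_self]
          exact h3
        · rw [Function.update_of_ne (hne c' hc')]
          exact h1 c' hc'
      · intro a ha b hb hab
        rw [Finset.mem_insert] at ha hb
        rcases ha with rfl | ha <;> rcases hb with rfl | hb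
        · exact absurd rfl hab
        · rw [Function.update_self, Function.update_of_ne (hne b hb)]
          exact (h4 b hb).symm
        · rw [Function.update_self, Function.update_of_ne (hne a ha)]
          exact h4 a ha
        · rw [Function.update_of_ne (hne a ha), Function.update_of_ne (hne b hb)]
          exact h2 a ha b hb hab
  obtain ⟨M, h1, h2⟩ := key Finset.univ
  exact ⟨M, fun c => h1 c (Finset.mem_univ _),
    fun c c' h => h2 c (Finset.mem_univ _) c' (Finset.mem_univ _) h⟩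

end Crest.Agent.R199
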