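import Crest.Agent.R199.Meet

/-!
Row 199, piece A7: EXCURSION. A reduced path from `ι B` to `ι B` with all intermediate vertices
outside `ι B` contains a long piece of a relator.

PROOF. Let w₁ be the longest prefix of w such that Rd A x w₁ y₁ for some x,y₁. w₁ ≠ []: the first
edge is in Γ' (E_iff). Let βm be the end of w₁ from ι b in Γ'; At (ι b) b x x, so At βm b x y₁.
Note G2 at (b,x): `Complete` is impossible since the first letter a of w (a prefix of w₁) is
readable from x, it would be readable in Γ from b, so the first vertex would be in range ι (rd_iota).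
* w₁ = w: βm = ι b'. `at_iota`: Cell (b,x)(b',y₁): reduced p, |p| ≤ 8, Rd_Γ b p b', Rd A x p y₁.
  If |w| + 8 < gam, GI: p = w; then the first vertex is in range ι, contradiction. So gam ≤ |w₁|+8.
* w₁ ≠ w: βm ∉ range ι. Next letter a', `edge_at`/`at_iff`: At βm b' x' y', A.E y' a' _. `meet`:
  (b₁,x₁,x₁',s). x₁ = x₁' would give y₁ = y' and w₁ ++ [a'] readable from x. So |s| ≤ 4.
  Cell (b,x)(b₁,x₁): reduced p, |p| ≤ 8. p ++ s reads x → y₁, it is reduced (Out, as in `cover`).
  If |w₁| + 12 < gam: GI: w₁ = p ++ s. p ≠ [] is impossible (its first letter is the first letter of w,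
  readable in Γ). So p = [], b₁ = b, x₁ = x, w₁ = s; then x₁' reads s = w₁ and then a' : x := x₁'
  contradicts the choice of w₁. So gam ≤ |w₁| + 12 and p ++ s has length ≤ 12.
-/
set_option autoImplicit false

namespace Crest.Agent.R199

open FreeGroup (IsReduced invRev)

variable {T B B' P : Type} {A : IG T P} {Γ : IG T B} {Γ' : IG T B'} {ι : B → B'}
  {At : B' → B → P → P → Prop} {gam : ℕ}

/-- a maximal prefix with a given property -/
theorem exc_max_prefix {α : Type} (w : List α) (p : List α → Prop) (v₀ : List α)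
    (hv₀ : v₀ <+: w) (h0 : p v₀) :
    ∃ w₁, w₁ <+: w ∧ p w₁ ∧ v₀.length ≤ w₁.length ∧
      ∀ v, v <+: w → p v → v.length ≤ w₁.length := by
  classical
  let q : ℕ → Prop := fun n => ∃ v, v <+: w ∧ p v ∧ v.length = n
  have hq : q v₀.length := ⟨v₀, hv₀, h0, rfl⟩
  have hb : v₀.length ≤ w.length := hv₀.length_le
  have h1 : q (Nat.findGreatest q w.length) := Nat.findGreatest_spec hb hq
  obtain ⟨w₁, h2, h3, h4⟩ := h1
  refine ⟨w₁, h2, h3, ?_, ?_⟩
  · rw [h4]; exact Nat.le_findGreatest hb hq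
  · intro v hv hpv
    rw [h4]
    exact Nat.le_findGreatest hv.length_le ⟨v, hv, hpv, rfl⟩

theorem excursion (hA : RG A gam) (hgam : 129 ≤ gam) (hG : Good Γ A)
    (hP : IsPlus A Γ Γ' ι At) {b b' : B} {w : List (T × Bool)} (hw : IsReduced w)
    (hlen : 2 ≤ w.length) (hR : Rd Γ' (ι b) w (ι b'))
    (hout : ∀ v, v <+: w → v ≠ [] → v ≠ w → ∀ β, Rd Γ' (ι b) v β → β ∉ Set.range ι) :
    ∃ w₁, w₁ <+: w ∧ ∃ x y p, Rd A x w₁ y ∧ Rd A x p y ∧ gam ≤ w₁.length + 12 ∧
      p.length ≤ 12 := by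
  -- first letter
  obtain ⟨a, w', rfl⟩ : ∃ a w', w = a :: w' := by
    cases w with
    | nil => simp at hlen
    | cons a w' => exact ⟨a, w', rfl⟩
  have hane : [a] ≠ a :: w' := by
    rintro h
    rw [← h] at hlen
    simp at hlen
  -- the first letter is not readable in `Γ` from `b`
  have hno : ∀ c, ¬ Γ.E b a c := by
    intro c hc
    have h1 : Rd Γ' (ι b) [a] (ι c) := rd_iota hA hP (Rd_single.2 hc)
    exact hout [a] ⟨w', rfl⟩ (by simp) hane _ h1 ⟨c, rfl⟩
  obtain ⟨x0, y0, hxy0⟩ := hA.US a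
  obtain ⟨w₁, hw₁, ⟨x, y₁, hx⟩, hl1, hmax⟩ := exc_max_prefix (a :: w')
    (fun v => ∃ x y, Rd A x v y) [a] ⟨w', rfl⟩ ⟨x0, y0, Rd_single.2 hxy0⟩
  -- `w₁` starts with `a`
  obtain ⟨u₁, rfl⟩ : ∃ u₁, w₁ = a :: u₁ := by
    cases w₁ with
    | nil => simp at hl1
    | cons c u₁ =>
      obtain ⟨t, ht⟩ := hw₁
      simp only [List.cons_append, List.cons.injEq] at ht
      exact ⟨u₁, by rw [ht.1]⟩
  have hG2 : ∀ v b₂ x₂, IsReduced v → Rd Γ b v b₂ → Rd A x v x₂ → v.length ≤ 8 := by
    rcases hG.G2 b x with h | h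
    · exfalso
      obtain ⟨d, hd⟩ := Rd_prefix hx (v := [a]) ⟨u₁, rfl⟩
      obtain ⟨c, hc⟩ := h _ _ hd
      exact hno c (Rd_single.1 hc)
    · exact h
  have hw₁red : IsReduced (a :: u₁) := hw.infix hw₁.isInfix
  obtain ⟨βm, hβm⟩ := Rd_prefix hR hw₁
  have hAt : At βm b x y₁ := at_of_rd hP (hP.iota_at b x) hx hβm
  by_cases hcase : a :: u₁ = a :: w'
  · -- the whole path is in one cell
    rw [hcase] at hβm hx
    obtain rfl := Rd_det hβm hR
    obtain ⟨p, hp1, hp2, hp3⟩ := ((at_iota hP).1 hAt).reduced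
    have hp4 := hG2 p _ _ hp1 hp2 hp3
    refine ⟨a :: w', List.prefix_rfl, x, y₁, p, hx, hp3, ?_, by omega⟩
    by_contra hcon
    push Not at hcon
    have := hA.GI x y₁ (a :: w') p hw hp1 hx hp3 (by omega)
    rw [← this] at hp2
    obtain ⟨c, hc, _⟩ := hp2
    exact hno c hc
  · obtain ⟨W, hW⟩ := hw₁
    obtain ⟨a', W', rfl⟩ : ∃ a' W', W = a' :: W' := by
      cases W with
      | nil => simp at hW; exact absurd (by rw [hW]) hcase
      | cons a' W' => exact ⟨a', W', rfl⟩
    have hnot : ∀ x y, ¬ Rd A x ((a :: u₁) ++ [a']) y := by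
      intro x y h
      have := hmax ((a :: u₁) ++ [a']) ⟨W', by rw [← hW]; simp⟩ ⟨x, y, h⟩
      simp at this
    have hβm' : βm ∉ Set.range ι := hout (a :: u₁) ⟨_, hW⟩ (by simp) hcase _ hβm
    rw [← hW] at hR
    obtain ⟨βm2, hR1, hR2⟩ := Rd_append.1 hR
    obtain rfl := Rd_det hR1 hβm
    obtain ⟨β'', hE, _⟩ := hR2
    obtain ⟨b₂, x', y', y'', hAt', hAt'', hEA⟩ := edge_at hP hE
    obtain ⟨b₁, x₁, x₁', s, hs1, hs2, hc1, hc2, hs3, hs4, hOut, hs5, hs6⟩ :=
      meet hA hP hAt hAt' hβm'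
    have hxne : x₁ ≠ x₁' := by
      rintro rfl
      obtain rfl := Rd_det hs3 hs4
      exact hnot x y'' (Rd_trans hx (Rd_single.2 hEA))
    have hs7 := hs6 hxne
    obtain ⟨p, hp1, hp2, hp3⟩ := hc1.reduced
    have hp4 := hG2 p _ _ hp1 hp2 hp3
    have hps : IsReduced (p ++ s) := by
      rw [isReduced_append_iff]
      refine ⟨hp1, hs1, ?_⟩
      intro e he f hf hef
      by_contra hne
      obtain ⟨p', rfl⟩ : ∃ p', p = p' ++ [e] := by
        rw [Option.mem_def, List.getLast?_eq_some_iff] at he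
        exact he
      obtain ⟨s', rfl⟩ : ∃ s', s = f :: s' := by
        cases s with
        | nil => simp at hf
        | cons f' s' =>
          simp only [List.head?_cons, Option.mem_def, Option.some.injEq] at hf
          exact ⟨s', by rw [hf]⟩
      have hfe : f = (e.1, !e.2) := by
        refine Prod.ext hef.symm ?_
        revert hne; cases e.2 <;> cases f.2 <;> simp
      obtain ⟨c, _, hc⟩ := Rd_append.1 hp2
      have h1 := Γ.symm _ _ _ (Rd_single.1 hc)
      rw [← hfe] at h1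
      have h2 : Rd Γ' (ι b₁) [f] (ι c) := rd_iota hA hP (Rd_single.2 h1)
      exact hOut [f] ⟨s', rfl⟩ (by simp) _ h2 ⟨c, rfl⟩
    refine ⟨a :: u₁, ⟨_, hW⟩, x, y₁, p ++ s, hx, Rd_trans hp3 hs3, ?_, ?_⟩
    · by_contra hcon
      push Not at hcon
      have hEq := hA.GI x y₁ (a :: u₁) (p ++ s) hw₁red hps hx (Rd_trans hp3 hs3)
        (by simp only [List.length_append]; omega)
      cases p with
      | nil =>
        simp only [List.nil_append] at hEq
        rw [← hEq] at hs4
        exact hnot x₁' y'' (Rd_trans hs4 (Rd_single.2 hEA))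
      | cons e p' =>
        simp only [List.cons_append, List.cons.injEq] at hEq
        obtain ⟨c, hc, _⟩ := hp2
        rw [← hEq.1] at hc
        exact hno c hc
    · simp only [List.length_append]; omega

end Crest.Agent.R199
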