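import Crest.Agent.R199.LayBasic
import Crest.Prelude.Def_WordHyperbolic

/-!
Row 199, piece C7a: the word length of the segment generating set.

PROOF. `exists_S`: for every pair (x,y) connected in A the value qv w (Rd A x w y) is unique (`lay_val`); the
set of all values is the image of the finite set P × P (or finite as a range of a function on a subtype).
`wl`: wordLength S (g⁻¹ h): a list of length m with all entries in S or inverse in S and product g⁻¹ h gives
Dn m g h (each entry s or s⁻¹ ∈ S gives St g' (g' * s); use St_symm/invRev) and conversely. The set in the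
definition is nonempty because exists_lev gives a chain from 1 to g⁻¹ h. So wordLength = least n with
Dn n g h.
-/
set_option autoImplicit false

namespace Crest.Agent.R199

variable {T P G : Type} [Group G] {A : IG T P} {q : FreeGroup T →* G} {BB : ℕ → Set G} {gam : ℕ}

theorem exists_S [Finite P] (hL : Lay A gam q BB) :
    ∃ S : Finset G, ∀ g, g ∈ S ↔ ∃ x w y, Rd A x w y ∧ g = qv q w := by
  let Q := {p : P × P // ∃ w, Rd A p.1 w p.2}
  have hfin : (Set.range fun p : Q => qv q p.2.choose).Finite := Set.finite_range _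
  refine ⟨hfin.toFinset, fun g => ?_⟩
  rw [Set.Finite.mem_toFinset]
  constructor
  · rintro ⟨p, rfl⟩
    exact ⟨p.1.1, p.2.choose, p.1.2, p.2.choose_spec, rfl⟩
  · rintro ⟨x, w, y, hw, rfl⟩
    refine ⟨⟨(x, y), ⟨w, hw⟩⟩, ?_⟩
    exact lay_val hL (Exists.choose_spec (⟨w, hw⟩ : ∃ w, Rd A x w y)) hw

theorem St_of_mem_or {S : Finset G} (hS : ∀ g, g ∈ S ↔ ∃ x w y, Rd A x w y ∧ g = qv q w)
    {g s : G} (h : s ∈ S ∨ s⁻¹ ∈ S) : St A q g (g * s) := by
  rcases h with h | h
  · obtain ⟨x, w, y, hw, he⟩ := (hS s).1 h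
    exact ⟨x, w, y, hw, by rw [he]⟩
  · obtain ⟨x, w, y, hw, he⟩ := (hS s⁻¹).1 h
    refine St_symm ⟨x, w, y, hw, ?_⟩
    rw [← he, mul_inv_cancel_right]

theorem mem_of_St {S : Finset G} (hS : ∀ g, g ∈ S ↔ ∃ x w y, Rd A x w y ∧ g = qv q w)
    {g h : G} (hs : St A q g h) : g⁻¹ * h ∈ S := by
  obtain ⟨x, w, y, hw, he⟩ := hs
  exact (hS _).2 ⟨x, w, y, hw, by rw [he, inv_mul_cancel_left]⟩

theorem Dn_of_list {S : Finset G} (hS : ∀ g, g ∈ S ↔ ∃ x w y, Rd A x w y ∧ g = qv q w)
    (l : List G) : ∀ g : G, (∀ x ∈ l, x ∈ (S : Set G) ∨ x⁻¹ ∈ (S : Set G)) →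
      Dn A q l.length g (g * l.prod) := by
  induction l with
  | nil => intro g _; simp [Dn]
  | cons x t ih =>
    intro g hx
    have h1 : Dn A q 1 g (g * x) := ⟨g, rfl, St_of_mem_or hS (by
      have := hx x (List.mem_cons_self ..)
      simpa only [Finset.mem_coe] using this)⟩
    have h2 := ih (g * x) (fun y hy => hx y (List.mem_cons_of_mem _ hy))
    have h3 := Dn_trans h1 h2
    rw [List.prod_cons, List.length_cons, ← mul_assoc, add_comm]
    exact h3

theorem list_of_Dn {S : Finset G} (hS : ∀ g, g ∈ S ↔ ∃ x w y, Rd A x w y ∧ g = qv q w)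
    (m : ℕ) : ∀ g h : G, Dn A q m g h →
      ∃ l : List G, l.length = m ∧ (∀ x ∈ l, x ∈ (S : Set G) ∨ x⁻¹ ∈ (S : Set G)) ∧
        l.prod = g⁻¹ * h := by
  induction m with
  | zero =>
    intro g h hD
    change g = h at hD
    subst hD
    exact ⟨[], rfl, by simp, by simp⟩
  | succ m ih =>
    rintro g h ⟨g', h1, h2⟩
    obtain ⟨l, hl, hl2, hl3⟩ := ih g g' h1
    refine ⟨l ++ [g'⁻¹ * h], by simp [hl], ?_, ?_⟩
    · intro x hx
      rw [List.mem_append, List.mem_singleton] at hx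
      rcases hx with hx | rfl
      · exact hl2 x hx
      · exact Or.inl (Finset.mem_coe.2 (mem_of_St hS h2))
    · rw [List.prod_append, hl3, List.prod_singleton, mul_assoc, mul_inv_cancel_left]

theorem wl [Nonempty P] (hA : RG A gam) (hL : Lay A gam q BB) (S : Finset G)
    (hS : ∀ g, g ∈ S ↔ ∃ x w y, Rd A x w y ∧ g = qv q w) (g h : G) :
    Dn A q (Crest.GroupTheory.wordLength (S : Set G) (g⁻¹ * h)) g h ∧
    ∀ m, Dn A q m g h → Crest.GroupTheory.wordLength (S : Set G) (g⁻¹ * h) ≤ m := by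
  have hne : {n : ℕ | ∃ l : List G, l.length = n ∧
      (∀ x ∈ l, x ∈ (S : Set G) ∨ x⁻¹ ∈ (S : Set G)) ∧ l.prod = g⁻¹ * h}.Nonempty := by
    obtain ⟨a, ha, -⟩ := exists_lev hL hA (g⁻¹ * h)
    have h1 := (mem_BB_iff hL).1 ha
    obtain ⟨l, hl, hl2, hl3⟩ := list_of_Dn hS a _ _ h1
    exact ⟨a, l, hl, hl2, by rw [hl3]; simp⟩
  constructor
  · obtain ⟨l, hl, hl2, hl3⟩ := Nat.sInf_mem hne
    have h1 := Dn_of_list hS l g hl2
    rw [hl3, hl, mul_inv_cancel_left] at h1
    exact h1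
  · intro m hm
    exact Nat.sInf_le (list_of_Dn hS m _ _ hm)

end Crest.Agent.R199
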