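import Crest.Agent.R199.ClosePair
import Crest.Agent.R199.WordLen

/-!
Row 199, piece C7b: hyperbolicity.

PROOF. `lay_hyperbolic`: S from exists_S, closure = ⊤ (q surjective; every letter is read on an edge of A, US).
δ = 3. 4-point: by left invariance (`wordDist` only depends on g⁻¹ h; replace x,y,z by w⁻¹x, …) assume
w = 1. d(1,x) = level a of x (mem_BB_iff). `close_pair` for (x,y), (y,z): L₁, L₂. (x|y)_1 = (a+b-d(x,y))/2 ≤ L₁,
(y|z)_1 ≤ L₂. L := min L₁ L₂. If L = 0: min - 3 ≤ -3 ≤ 0 ≤ (x|z)_1 (triangle inequality, Dn_trans).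
If L = k+1: ancestors b, b', b'' of x, y, z at level k (Anc_exists): Ch k 2 b b', Ch k 2 b' b'', so Dn 4 b b''
(Ch_Dn), d(x,z) ≤ (a-k) + 4 + (c-k), so (x|z)_1 ≥ k - 2 = L - 3.
-/
set_option autoImplicit false

namespace Crest.Agent.R199

variable {T P G : Type} [Group G] {A : IG T P} {q : FreeGroup T →* G} {BB : ℕ → Set G} {gam : ℕ}

theorem four_key [Nonempty P] (hA : RG A gam) (hgam : 129 ≤ gam)
    (hL : Lay A gam q BB) {x y z : G} {a b c dxy dyz dxz : ℕ} (ha : Lev BB a x)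
    (hb : Lev BB b y) (hc : Lev BB c z) (h1 : Dn A q dxy x y)
    (h1m : ∀ m, Dn A q m x y → dxy ≤ m) (h2 : Dn A q dyz y z)
    (h2m : ∀ m, Dn A q m y z → dyz ≤ m) (h3m : ∀ m, Dn A q m x z → dxz ≤ m) :
    min (((a : ℝ) + b - dxy) / 2) (((b : ℝ) + c - dyz) / 2) - 3 ≤ ((a : ℝ) + c - dxz) / 2 := by
  obtain ⟨L₁, hL1a, hL1b, hL1, hanc1⟩ := close_pair hA hgam hL h1 h1m ha hb
  obtain ⟨L₂, hL2b, hL2c, hL2, hanc2⟩ := close_pair hA hgam hL h2 h2m hb hc
  have main : dxz + 2 * min L₁ L₂ ≤ a + c + 6 := by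
    rcases Nat.eq_zero_or_pos (min L₁ L₂) with h0 | hpos
    · have hx : Dn A q a 1 x := (mem_BB_iff hL).1 ha.1
      have hz : Dn A q c 1 z := (mem_BB_iff hL).1 hc.1
      have := h3m _ (Dn_trans (Dn_symm hx) hz)
      omega
    · obtain ⟨k, hk⟩ := Nat.exists_eq_succ_of_ne_zero hpos.ne'
      have hk1 : k + 1 ≤ L₁ := by
        have := min_le_left L₁ L₂
        omega
      have hk2 : k + 1 ≤ L₂ := by
        have := min_le_right L₁ L₂
        omega
      obtain ⟨b₁, hb₁⟩ := Anc_exists hL ha (k := k) (by omega)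
      obtain ⟨b₂, hb₂⟩ := Anc_exists hL hb (k := k) (by omega)
      obtain ⟨b₃, hb₃⟩ := Anc_exists hL hc (k := k) (by omega)
      have hch := Ch_trans hL (hanc1 k hk1 b₁ b₂ hb₁ hb₂) (hanc2 k hk2 b₂ b₃ hb₂ hb₃)
      have hdn := Ch_Dn hL hch
      obtain ⟨_, a', ha', hka', hdx⟩ := hb₁
      obtain ⟨_, c', hc', hkc', hdz⟩ := hb₃
      obtain rfl := Lev_unique hL ha ha'
      obtain rfl := Lev_unique hL hc hc'
      have := h3m _ (Dn_trans (Dn_trans (Dn_symm hdx) hdn) hdz)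
      omega
  have main' : (dxz : ℝ) + 2 * min (L₁ : ℝ) L₂ ≤ a + c + 6 := by exact_mod_cast main
  have e1 : ((a : ℝ) + b - dxy) / 2 ≤ L₁ := by
    have : (a : ℝ) + b ≤ dxy + 2 * L₁ := by exact_mod_cast hL1
    linarith
  have e2 : ((b : ℝ) + c - dyz) / 2 ≤ L₂ := by
    have : (b : ℝ) + c ≤ dyz + 2 * L₂ := by exact_mod_cast hL2
    linarith
  have e3 := min_le_min e1 e2
  linarith

theorem lay_closure (hA : RG A gam) (hL : Lay A gam q BB) (S : Finset G)
    (hS : ∀ g, g ∈ S ↔ ∃ x w y, Rd A x w y ∧ g = qv q w) :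
    Subgroup.closure (S : Set G) = ⊤ := by
  rw [eq_top_iff]
  intro g _
  obtain ⟨f, rfl⟩ := hL.surj g
  have hof : ∀ t : T, q (FreeGroup.of t) ∈ Subgroup.closure (S : Set G) := by
    intro t
    obtain ⟨y, y', hy⟩ := hA.US (t, true)
    exact Subgroup.subset_closure (Finset.mem_coe.2
      ((hS _).2 ⟨y, [(t, true)], y', Rd_single.2 hy, rfl⟩))
  induction f using FreeGroup.induction_on with
  | C1 => rw [map_one]; exact Subgroup.one_mem _
  | of t => exact hof t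
  | inv_of t _ => rw [map_inv]; exact Subgroup.inv_mem _ (hof t)
  | mul x y hx hy => rw [map_mul]; exact Subgroup.mul_mem _ (hx trivial) (hy trivial)

theorem lay_hyperbolic [Nonempty P] [Finite P] (hA : RG A gam) (hgam : 129 ≤ gam)
    (hL : Lay A gam q BB) : Crest.GroupTheory.IsHyperbolicGroup G := by
  obtain ⟨S, hS⟩ := exists_S hL
  refine ⟨S, lay_closure hA hL S hS, 3, by norm_num, ?_⟩
  intro w x y z
  -- the distance to `w` is the level of `w⁻¹ x`
  have hlev : ∀ x : G, Lev BB (Crest.GroupTheory.wordLength (S : Set G) (x⁻¹ * w)) (w⁻¹ * x) := by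
    intro x
    obtain ⟨h1, h2⟩ := wl hA hL S hS x w
    have e : w⁻¹ * w = 1 := inv_mul_cancel w
    refine ⟨(mem_BB_iff hL).2 ?_, fun k hk hmem => ?_⟩
    · have := Dn_mul w⁻¹ (Dn_symm h1)
      rwa [e] at this
    · have h3 := (mem_BB_iff hL).1 hmem
      have h4 := Dn_mul w (Dn_symm h3)
      rw [mul_inv_cancel_left, mul_one] at h4
      exact absurd (h2 k h4) (not_le.2 hk)
  -- distances are left invariant
  have hdist : ∀ x y : G, Dn A q (Crest.GroupTheory.wordLength (S : Set G) (x⁻¹ * y))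
      (w⁻¹ * x) (w⁻¹ * y) ∧ ∀ m, Dn A q m (w⁻¹ * x) (w⁻¹ * y) →
        Crest.GroupTheory.wordLength (S : Set G) (x⁻¹ * y) ≤ m := by
    intro x y
    obtain ⟨h1, h2⟩ := wl hA hL S hS x y
    refine ⟨Dn_mul w⁻¹ h1, fun m hm => h2 m ?_⟩
    have := Dn_mul w hm
    rwa [mul_inv_cancel_left, mul_inv_cancel_left] at this
  have key := four_key hA hgam hL (hlev x) (hlev y) (hlev z) (hdist x y).1 (hdist x y).2
    (hdist y z).1 (hdist y z).2 (hdist x z).2
  simpa only [Crest.GroupTheory.gromovProduct, Crest.GroupTheory.wordDist] using key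

end Crest.Agent.R199
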