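import Crest.Agent.R199.Cover

/-!
Row 199, piece A6: the next layer is again good.

PROOF. `plus_dichotomy`: suppose (β,z) is not touching (no b,x with At β b x z). Claim: for every
v, β₁, z₁ with Rd Γ' β v β₁, Rd A z v z₁: β₁ ∉ range ι. (If β₁ = ι b then At β₁ b z₁ z₁ (iota_at); read
back invRev v: `at_of_rd` gives At β b z₁ z: touching.) Let w be reduced, Rd Γ' β w β', Rd A z w z'.
If |w| ≥ 9 let w̃ = w.take 9, reduced, 9 + 16 < gam; by `cover` w̃ = w₁ ++ w₂ with At β b x y,
Rd A y w₁ _, where y ≠ z (not touching); also Rd A z w₁ _; PC: |w₁| ≤ 4. At βm b' x' y', Rd A y' w₂ _,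
zm := end of w₁ from z, y' ≠ zm (otherwise At βm b' x' zm, reading back w₁: At β b' x' z), PC: |w₂| ≤ 4.
Contradiction 9 ≤ 8.
`good_plus`: G2: touching placements are complete (`rd_at`); otherwise plus_dichotomy.
G1: Cell (β,z)(β',z) by reduced w. Touching: At β b x z and `at_of_rd` : At β' b x z, at_uniq.
Not touching: |w| ≤ 8 and w, [] both read z → z: GI gives w = [], β = β'.
-/
set_option autoImplicit false

namespace Crest.Agent.R199

open FreeGroup (IsReduced invRev)

variable {T B B' P : Type} {A : IG T P} {Γ : IG T B} {Γ' : IG T B'} {ι : B → B'}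
  {At : B' → B → P → P → Prop} {gam : ℕ}

theorem not_iota_of_not_touch (hP : IsPlus A Γ Γ' ι At) {β : B'} {z : P}
    (ht : ¬ ∃ b x, At β b x z) {v : List (T × Bool)} {β₁ : B'} {z₁ : P}
    (h1 : Rd Γ' β v β₁) (h2 : Rd A z v z₁) : β₁ ∉ Set.range ι := by
  rintro ⟨b, rfl⟩
  exact ht ⟨b, z₁, at_of_rd hP (hP.iota_at b z₁) (Rd_inv h2) (Rd_inv h1)⟩

theorem plus_dichotomy (hA : RG A gam) (hgam : 129 ≤ gam) (hG : Good Γ A)
    (hP : IsPlus A Γ Γ' ι At) (β : B') (z : P) :
    (∃ b x, At β b x z) ∨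
    ∀ w β' z', IsReduced w → Rd Γ' β w β' → Rd A z w z' → w.length ≤ 8 := by
  by_cases ht : ∃ b x, At β b x z
  · exact Or.inl ht
  · refine Or.inr ?_
    intro w β' z' hw h1 h2
    by_contra hcon
    push Not at hcon
    have hpre : w.take 9 <+: w := List.take_prefix 9 w
    have hlen : (w.take 9).length = 9 := by
      rw [List.length_take]; omega
    obtain ⟨β'', h3⟩ := Rd_prefix h1 hpre
    obtain ⟨z'', h4⟩ := Rd_prefix h2 hpre
    have hWr : IsReduced (w.take 9) := hw.infix hpre.isInfix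
    obtain ⟨w₁, w₂, βm, hW, h5, ⟨b, x, y, y', h6, h7⟩, ⟨b', x', y2, y2', h8, h9⟩⟩ :=
      cover hA hgam hG hP (β := β) (βn := β'') hWr (by omega) h3 (by
        intro v hv β₁ hβ₁
        obtain ⟨z₁, hz₁⟩ := Rd_prefix h4 hv
        exact not_iota_of_not_touch hP ht hβ₁ hz₁)
    rw [hW] at hWr h4
    obtain ⟨zm, h10, h11⟩ := Rd_append.1 h4
    have hyz : y ≠ z := by
      rintro rfl
      exact ht ⟨b, x, h6⟩
    have h12 := hA.PC y z w₁ y' zm hyz (isReduced_append_left hWr) h7 h10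
    have hyz2 : y2 ≠ zm := by
      rintro rfl
      exact ht ⟨b', x', at_of_rd hP h8 (Rd_inv h10) (Rd_inv h5)⟩
    have h13 := hA.PC y2 zm w₂ y2' z'' hyz2 (isReduced_append_right hWr) h9 h11
    have h14 := congrArg List.length hW
    rw [hlen, List.length_append] at h14
    omega

theorem good_plus (hA : RG A gam) (hgam : 129 ≤ gam) (hG : Good Γ A)
    (hP : IsPlus A Γ Γ' ι At) : Good Γ' A := by
  constructor
  · intro β β' z hc
    obtain ⟨w, hw, h1, h2⟩ := hc.reduced
    rcases plus_dichotomy hA hgam hG hP β z with ⟨b, x, h⟩ | h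
    · exact hP.at_uniq _ _ _ _ _ h (at_of_rd hP h h2 h1)
    · have h3 := h w β' z hw h1 h2
      have h4 := hA.GI z z w [] hw (by simp [FreeGroup.IsReduced]) h2 rfl (by simp; omega)
      rw [h4] at h1
      exact h1
  · intro β z
    rcases plus_dichotomy hA hgam hG hP β z with ⟨b, x, h⟩ | h
    · left
      intro w z' hw
      obtain ⟨β', _, h1⟩ := rd_at hP h hw
      exact ⟨β', h1⟩
    · exact Or.inr h

end Crest.Agent.R199
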