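import Crest.Agent.R199.Rep
import Crest.Agent.R199.GoodPlus

/-!
Row 199, piece B6: properties T1, T2, T3 of the interface `Lay` for `BB k = range (θ k)`.

PROOFS. Write Γ k etc.; `hP := Tw.plus k`, Good (Γ k) = Tw.good k.
* T3: g = θ k b, θ k b * gv w = θ k b'. At (ι b) b x x; `rd_at`: β with At β b x y; θ (k+1) β =
  θ k b * gv w = θ (k+1) (ι b'), so β = ι b' (inj), `at_iota`: Cell (b,x)(b',y) by some w': Rd (Γ k) b w' b',
  Rd A x w' y; `rep_rd` gives the prefixes.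
* T1: g = θ (k+1) β. `plus_dichotomy` at (β,x): if At β b z x: z connected to x (at_conn): v reads
  z → x; θ (k+1) β = θ k b * gv v, so g * gv (invRev v) = θ k b ∈ BB k, Rd A x (invRev v) z.
  Otherwise use `rep_rd` at level k+1 (the end g * gv w is θ (k+1) of something since w is a prefix of
  itself).
* T2: g = θ k b, g' = θ k b'. At β b x y and At β' b' x' y' (ex_at), θ values equal, so β = β'.
  `at_iff`: Rr b x y b' x' y': b₁,x₁,x₁',s; Cell (b,x)(b₁,x₁) by v, Cell (b',x')(b₁,x₁') by v'. `rep_rd`: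
  θ k b₁ = g * gv v = g' * gv v'.
-/
set_option autoImplicit false

namespace Crest.Agent.R199

open FreeGroup (IsReduced invRev)

variable {T P : Type} {A : IG T P} {Tw : Tower A} {θ : ∀ k, Tw.B k → Gp A} {gam : ℕ}

theorem lay_T1 [Nonempty P] (hA : RG A gam) (hgam : 129 ≤ gam) (h : Rep Tw θ) (k : ℕ) (g : Gp A)
    (x : P) (hg : g ∈ Set.range (θ (k + 1))) :
    (∃ w y, Rd A x w y ∧ g * gv A w ∈ Set.range (θ k)) ∨
    ∀ w y, IsReduced w → Rd A x w y →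
      (∀ v, v <+: w → g * gv A v ∈ Set.range (θ (k + 1))) → w.length ≤ 8 := by
  obtain ⟨β, rfl⟩ := hg
  rcases plus_dichotomy hA hgam (Tw.good k) (Tw.plus k) β x with ⟨b, z, hb⟩ | hd
  · left
    obtain ⟨v, hv⟩ := at_conn (Tw.plus k) hb
    refine ⟨invRev v, z, Rd_inv hv, b, ?_⟩
    have h1 := h.at_val k β b z x v hb hv
    have h2 : gv A v * gv A (invRev v) = 1 := by
      have h3 := val_eq (Rd_trans hv (Rd_inv hv)) (Rd_refl (Γ := A) z)
      rw [gv_append] at h3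
      exact h3.trans gv_nil
    rw [h1, mul_assoc, h2, mul_one]
  · right
    intro w y hw hr hp
    obtain ⟨β', hβ'⟩ := hp w (List.prefix_refl w)
    exact hd w β' y hw ((rep_rd h).2 ⟨hβ', hp⟩) hr

theorem lay_T2 [Nonempty P] (hA : RG A gam) (hgam : 129 ≤ gam) (h : Rep Tw θ) (k : ℕ)
    (g g' : Gp A) (x : P) (w : List (T × Bool)) (y x' : P) (w' : List (T × Bool)) (y' : P)
    (hg : g ∈ Set.range (θ k)) (hg' : g' ∈ Set.range (θ k)) (h1 : Rd A x w y)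
    (h2 : Rd A x' w' y') (he : g * gv A w = g' * gv A w') (hn : g * gv A w ∉ Set.range (θ k)) :
    ∃ v z v' z', Rd A x v z ∧ Rd A x' v' z' ∧ g * gv A v = g' * gv A v' ∧
      g * gv A v ∈ Set.range (θ k) := by
  obtain ⟨b, rfl⟩ := hg
  obtain ⟨b', rfl⟩ := hg'
  obtain ⟨β, hβ⟩ := (Tw.plus k).ex_at b x w y h1
  obtain ⟨β', hβ'⟩ := (Tw.plus k).ex_at b' x' w' y' h2
  have e1 := h.at_val k β b x y w hβ h1
  have e2 := h.at_val k β' b' x' y' w' hβ' h2
  have e3 : β = β' := h.inj (k + 1) (e1.trans (he.trans e2.symm))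
  subst e3
  obtain ⟨b₁, x₁, x₁', s, ⟨v, c1, c2⟩, ⟨v', c3, c4⟩, _, _⟩ :=
    ((Tw.plus k).at_iff β b x y b' x' y' hβ).1 hβ'
  have f1 := ((rep_rd h).1 c1).1
  have f2 := ((rep_rd h).1 c3).1
  exact ⟨v, x₁, v', x₁', c2, c4, f1.symm.trans f2, b₁, f1⟩

theorem lay_T3 [Nonempty P] (hA : RG A gam) (hgam : 129 ≤ gam) (h : Rep Tw θ) (k : ℕ) (g : Gp A)
    (x : P) (w : List (T × Bool)) (y : P) (hg : g ∈ Set.range (θ k)) (h1 : Rd A x w y)
    (h2 : g * gv A w ∈ Set.range (θ k)) :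
    ∃ w', Rd A x w' y ∧ ∀ v, v <+: w' → g * gv A v ∈ Set.range (θ k) := by
  obtain ⟨b, rfl⟩ := hg
  obtain ⟨b', hb'⟩ := h2
  obtain ⟨β, hβ, _⟩ := rd_at (Tw.plus k) ((Tw.plus k).iota_at b x) h1
  have e1 := h.at_val k β b x y w hβ h1
  have e2 : β = Tw.ι k b' := h.inj (k + 1) (e1.trans (hb'.symm.trans (h.iota k b').symm))
  subst e2
  obtain ⟨w', c1, c2⟩ := (at_iota (Tw.plus k)).1 hβ
  exact ⟨w', c2, ((rep_rd h).1 c1).2⟩

end Crest.Agent.R199
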