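import Crest.Agent.R199.PlusEx
import Crest.Agent.R199.GoodPlus

/-!
Row 199, piece B1: existence of the tower of layers.

PROOF. Level 0: `Unit` without edges (E := fun _ _ _ => False). Good: G1 trivial (Unit), G2: right
alternative, a readable word is [] (a nonempty one needs an edge). Recursion on k with the bundled type
`Σ' (B : Type) (Γ : IG T B), Good Γ A` and `Classical.choice` from `exists_plus`, `good_plus`.
(Define `next : Lyr → Lyr` and `seq : ℕ → Lyr := Nat.rec l0 (fun _ => next)`, so that
`seq (k+1) = next (seq k)` definitionally, and read off `ι`, `At` from the choice.)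
-/
set_option autoImplicit false

namespace Crest.Agent.R199

variable {T P : Type}

/-- bundled good layer -/
structure Lyr (A : IG T P) where
  B : Type
  Γ : IG T B
  good : Good Γ A

/-- the bottom layer: one point, no edges -/
def lyr0 (A : IG T P) : Lyr A where
  B := Unit
  Γ := { E := fun _ _ _ => False, symm := fun _ _ _ h => h.elim, det := fun _ _ _ _ h => h.elim }
  good :=
    { G1 := fun _ _ _ _ => rfl
      G2 := fun b x => by
        right
        intro w b' x' _ h _
        cases w with
        | nil => simp
        | cons a w =>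
          obtain ⟨c, h1, _⟩ := h
          exact h1.elim }

theorem exists_next [Nonempty P] {A : IG T P} {gam : ℕ} (hA : RG A gam) (hgam : 129 ≤ gam)
    (L : Lyr A) : ∃ (L' : Lyr A) (ι : L.B → L'.B) (At : L'.B → L.B → P → P → Prop),
      IsPlus A L.Γ L'.Γ ι At := by
  obtain ⟨B', Γ', ι, At, h⟩ := exists_plus hA hgam L.good
  exact ⟨⟨B', Γ', good_plus hA hgam L.good h⟩, ι, At, h⟩

/-- the sequence of layers -/
noncomputable def lyrSeq [Nonempty P] {A : IG T P} {gam : ℕ} (hA : RG A gam) (hgam : 129 ≤ gam) :
    ℕ → Lyr A
  | 0 => lyr0 A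
  | k + 1 => Classical.choose (exists_next hA hgam (lyrSeq hA hgam k))

theorem exists_tower [Nonempty P] {A : IG T P} {gam : ℕ} (hA : RG A gam) (hgam : 129 ≤ gam) :
    Nonempty (Tower A) := by
  have hspec : ∀ k, ∃ (ι : (lyrSeq hA hgam k).B → (lyrSeq hA hgam (k + 1)).B)
      (At : (lyrSeq hA hgam (k + 1)).B → (lyrSeq hA hgam k).B → P → P → Prop),
      IsPlus A (lyrSeq hA hgam k).Γ (lyrSeq hA hgam (k + 1)).Γ ι At := fun k =>
    Classical.choose_spec (exists_next hA hgam (lyrSeq hA hgam k))
  choose ι At h using hspec
  exact ⟨{ B := fun k => (lyrSeq hA hgam k).B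
           Γ := fun k => (lyrSeq hA hgam k).Γ
           ι := ι
           At := At
           b0 := ()
           b0_uniq := fun _ => rfl
           no_edge := fun _ _ _ hE => hE
           good := fun k => (lyrSeq hA hgam k).good
           plus := h }⟩

end Crest.Agent.R199
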