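import Crest.Agent.R199.Rep
import Crest.Agent.R199.Cover
import Crest.Agent.R199.Excursion
import Crest.Agent.R199.LayA
import Crest.Agent.R199.TowerEx

/-!
Row 199, piece B7: T6, T7 and the final assembly `exists_lay` of the interface.

PROOFS. T6: g = θ (k+1) β (prefix []); `rep_rd` at level k+1 turns the hypothesis into
Rd (Γ (k+1)) β W βn; vertices of prefixes outside range ι: if β'' = ι b then θ β'' = θ k b ∈ BB k.
`cover`: At β b x y: b' := θ k b, a word v reads x → y (at_conn), g = θ k b * gv v (at_val). Similarly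
for βm, θ (k+1) βm = g * gv w₁ (`rep_rd`).
T7: g = θ k b = θ (k+1) (ι b), g * gv w = θ k b' = θ (k+1) (ι b'), `rep_rd` at level k+1, `excursion`.
exists_lay: BB k := range (θ k); q := QuotientGroup.mk' _ ; surj clear; rel: `val_eq` with [];
zero: Tw.b0_uniq; succ: rep_succ; letter: if gv [a] = 1 then θ 0 b0 = θ 0 b0 * gv [a], so an edge in
Γ 0 by `edge`: contradiction to Tw.no_edge. Note `gv A w = QuotientGroup.mk' _ (FreeGroup.mk w)` by rfl.
-/
set_option autoImplicit false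

namespace Crest.Agent.R199

open FreeGroup (IsReduced invRev)

variable {T P : Type} {A : IG T P} {Tw : Tower A} {θ : ∀ k, Tw.B k → Gp A} {gam : ℕ}

theorem layB_rd (h : Rep Tw θ) {k : ℕ} {b : Tw.B k} {g : Gp A} (hb : θ k b = g)
    {W : List (T × Bool)} (hp : ∀ v, v <+: W → g * gv A v ∈ Set.range (θ k)) :
    ∃ b', Rd (Tw.Γ k) b W b' ∧ θ k b' = g * gv A W := by
  obtain ⟨b', hb'⟩ := hp W List.prefix_rfl
  exact ⟨b', (rep_rd h).2 ⟨by rw [hb', hb], by rw [hb]; exact hp⟩, hb'⟩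

theorem lay_T6 [Nonempty P] (hA : RG A gam) (hgam : 129 ≤ gam) (h : Rep Tw θ) (k : ℕ) (g : Gp A)
    (W : List (T × Bool)) (hW : IsReduced W) (hlen : W.length + 16 < gam)
    (hp : ∀ v, v <+: W → g * gv A v ∈ Set.range (θ (k + 1)) ∧ g * gv A v ∉ Set.range (θ k)) :
    ∃ w₁ w₂, W = w₁ ++ w₂ ∧
      (∃ b ∈ Set.range (θ k), ∃ x v y y', Rd A x v y ∧ g = b * gv A v ∧ Rd A y w₁ y') ∧
      (∃ b ∈ Set.range (θ k), ∃ x v y y', Rd A x v y ∧
        g * gv A w₁ = b * gv A v ∧ Rd A y w₂ y') := by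
  obtain ⟨β, hβ⟩ := (hp [] List.nil_prefix).1
  rw [gv_nil, mul_one] at hβ
  obtain ⟨βn, hR, _⟩ := layB_rd h hβ fun v hv => (hp v hv).1
  obtain ⟨w₁, w₂, βm, rfl, hR1, ⟨b, x, y, y', h1, h2⟩, ⟨b', x', z, z', h3, h4⟩⟩ :=
    cover hA hgam (Tw.good k) (Tw.plus k) hW hlen hR (by
      rintro v hv β'' hR' ⟨b, rfl⟩
      have h1 := ((rep_rd h).1 hR').1
      rw [h.iota, hβ] at h1
      exact (hp v hv).2 ⟨b, h1⟩)
  obtain ⟨v, hv⟩ := at_conn (Tw.plus k) h1
  obtain ⟨v', hv'⟩ := at_conn (Tw.plus k) h3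
  have e1 := h.at_val k β b x y v h1 hv
  have e2 := h.at_val k βm b' x' z v' h3 hv'
  have e3 := ((rep_rd h).1 hR1).1
  rw [hβ] at e1 e3
  exact ⟨w₁, w₂, rfl, ⟨_, ⟨b, rfl⟩, x, v, y, y', hv, e1, h2⟩,
    ⟨_, ⟨b', rfl⟩, x', v', z, z', hv', by rw [← e3, e2], h4⟩⟩

theorem lay_T7 [Nonempty P] (hA : RG A gam) (hgam : 129 ≤ gam) (h : Rep Tw θ) (k : ℕ) (g : Gp A)
    (w : List (T × Bool)) (hw : IsReduced w) (hlen : 2 ≤ w.length)
    (hg : g ∈ Set.range (θ k)) (hgw : g * gv A w ∈ Set.range (θ k))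
    (hp : ∀ v, v <+: w → g * gv A v ∈ Set.range (θ (k + 1)))
    (hout : ∀ v, v <+: w → v ≠ [] → v ≠ w → g * gv A v ∉ Set.range (θ k)) :
    ∃ w₁, w₁ <+: w ∧ ∃ x y p, Rd A x w₁ y ∧ Rd A x p y ∧ gam ≤ w₁.length + 12 ∧
      p.length ≤ 12 := by
  obtain ⟨b, hb⟩ := hg
  obtain ⟨b', hb'⟩ := hgw
  have hβ : θ (k + 1) (Tw.ι k b) = g := by rw [h.iota, hb]
  obtain ⟨βn, hR, hn⟩ := layB_rd h hβ hp
  have hβn : βn = Tw.ι k b' := h.inj (k + 1) (by rw [h.iota, hn, hb'])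
  subst hβn
  refine excursion hA hgam (Tw.good k) (Tw.plus k) hw hlen hR ?_
  rintro v hv hv0 hvw β hR' ⟨c, rfl⟩
  have h1 := ((rep_rd h).1 hR').1
  rw [h.iota, hβ] at h1
  exact hout v hv hv0 hvw ⟨c, h1⟩

theorem exists_lay [Nonempty P] (hA : RG A gam) (hgam : 129 ≤ gam) :
    ∃ BB : ℕ → Set (Gp A), Lay A gam (QuotientGroup.mk' (Subgroup.normalClosure (rels A))) BB := by
  obtain ⟨Tw⟩ := exists_tower hA hgam
  obtain ⟨θ, h⟩ := exists_rep hA hgam Tw
  refine ⟨fun k => Set.range (θ k), ?_⟩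
  exact
    { surj := QuotientGroup.mk'_surjective _
      rel := fun x w hw => (val_eq hw (Rd_refl x)).trans gv_nil
      zero := by
        ext g
        constructor
        · rintro ⟨b, rfl⟩
          rw [Tw.b0_uniq b, h.zero]; rfl
        · rintro rfl
          exact ⟨Tw.b0, h.zero⟩
      succ := fun k g => by
        constructor
        · intro hg
          obtain ⟨b, x, w, y, h1, h2⟩ := (rep_succ h).1 hg
          exact ⟨θ k b, ⟨b, rfl⟩, x, w, y, h1, h2⟩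
        · rintro ⟨_, ⟨b, rfl⟩, x, w, y, h1, h2⟩
          exact (rep_succ h).2 ⟨b, x, w, y, h1, h2⟩
      letter := fun a ha => by
        have h1 : gv A [a] = 1 := ha
        exact Tw.no_edge Tw.b0 a Tw.b0 ((h.edge 0 _ _ _).2 (by rw [h1, mul_one]))
      T1 := fun k g x hg => lay_T1 hA hgam h k g x hg
      T2 := fun k g g' x w y x' w' y' hg hg' h1 h2 he hn =>
        lay_T2 hA hgam h k g g' x w y x' w' y' hg hg' h1 h2 he hn
      T3 := fun k g x w y hg h1 h2 => lay_T3 hA hgam h k g x w y hg h1 h2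
      T6 := fun k g W hW hlen hp => lay_T6 hA hgam h k g W hW hlen hp
      T7 := fun k g w hw hlen hg hgw hp hout => lay_T7 hA hgam h k g w hw hlen hg hgw hp hout }

end Crest.Agent.R199
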