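import Mathlib

/-!
Row 199, piece I3: in a residually finite group finitely many elements are separated by a finite
quotient.

PROOF. For each pair g ≠ h in E take a finite index normal subgroup H_{g,h} not containing g⁻¹ h; let N be
the intersection of these finitely many (finite index, normal); Γ := G ⧸ N. (Or: the product of the
finite quotients.) N is e.g. the normal core of a finite intersection.
-/
set_option autoImplicit false

namespace Crest.Agent.R199

theorem rf_sep {G : Type} [Group G] (h : Group.ResiduallyFinite G) (E : Finset G) :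
    ∃ (Γ : Type) (_ : Group Γ) (_ : Finite Γ) (φ : G →* Γ), Set.InjOn φ (E : Set G) := by
  classical
  have hex : ∀ p : {p : E × E // p.1 ≠ p.2}, ∃ H : FiniteIndexNormalSubgroup G,
      ((p.1.1 : G) : G ⧸ H.toSubgroup) ≠ ((p.1.2 : G) : G ⧸ H.toSubgroup) := by
    intro p
    refine Group.exists_finiteIndexNormalSubgroup_of_residuallyFinite _ _ ?_
    intro h0
    exact p.2 (Subtype.ext h0)
  choose H hH using hex
  have hn : ∀ p, (H p).toSubgroup.Normal := fun p => (H p).isNormal'
  have hf : ∀ p, (H p).toSubgroup.FiniteIndex := fun p => (H p).isFiniteIndex'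
  have hfin : ∀ p, Finite (G ⧸ (H p).toSubgroup) := fun p => inferInstance
  refine ⟨∀ p : {p : E × E // p.1 ≠ p.2}, G ⧸ (H p).toSubgroup, inferInstance, inferInstance,
    MonoidHom.pi fun p => QuotientGroup.mk' (H p).toSubgroup, ?_⟩
  intro x hx y hy hxy
  by_contra hne
  have hne' : (⟨x, hx⟩ : E) ≠ ⟨y, hy⟩ := fun h0 => hne (congrArg Subtype.val h0)
  have h1 := congrFun hxy ⟨(⟨x, hx⟩, ⟨y, hy⟩), hne'⟩
  exact hH ⟨(⟨x, hx⟩, ⟨y, hy⟩), hne'⟩ h1

end Crest.Agent.R199
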