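import Crest.Agent.R199.Coef
import Crest.Agent.R199.RFSep

/-!
Row 199, piece I6: the group of a datum is not residually finite.

PROOF. Let Γ be a finite group, φ : Gp D.A →* Γ, and write τ t := φ (gv [(t,true)]). Define the F₂-linear map
b : (Γ → X) → (Γ → C → ZMod 2), b F γ c := Σ_{π t = c} (F (γ * (τ t)⁻¹)).1 t.
Surjective (`b_surj`): for F = left translate γ ↦ Acell φ c (γ₀⁻¹ * γ) (values in X: sums of f v ∈ X) one gets
b F = δ_{(γ₀,c)} by `cell_identity`; these span (finite sums).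
Since X ≃ (C → ZMod 2) (`D.sig`), the finite types Γ → X and Γ → C → ZMod 2 have the same cardinality, so b is
injective (`Function.Injective` ↔ `Surjective` for finite types of equal cardinality; C is finite because
C → ZMod 2 ≃ X is finite, or because `o` is injective into the finite HE).
Kernel element F₀ γ := [γ = 1] f0 + Σ_{t, f0 t ≠ 0} Acell φ (π t) ((τ t)⁻¹ * γ). b F₀ = 0:
b(first) γ c = Σ_{π t = c}[γ = τ t] f0 t, b(second) γ c = Σ_{f0 t ≠ 0} [γ = τ t ∧ c = π t] (cell_identity with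
γ' = (τ t)⁻¹ * γ). So F₀ = 0.
`not_rf`: suppose residually finite. Pick t₁ with f0 t₁ ≠ 0 (f0_ne), c₁ := π t₁, g₁ := gv [(t₁,true),(j₁,false)].
E := {1, g₁} ∪ {gv [(t,true)] * uv D (π t) v : t, v} finite; `rf_sep` gives φ injective on E. Evaluate F₀ = 0 at
φ g₁: [φ g₁ = 1] = 0 by `coef_ne`; in the second sum the terms with φ (uv (π t) v) = (τ t)⁻¹ * φ g₁, v ∈ Vc (π t), are
those with gv [(t,true)] * uv (π t) v = g₁, i.e. (coef_eq, uv_spec) t = t₁, v = (o c₁).1.1, and this term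
occurs ((o c₁).1.1 ∈ Vc c₁ by the path [(j₁,false)], value g₁). So f ((o c₁).1.1) = 0 as a function, but
f (o c₁).1.1 (o c₁).1.2 ≠ 0. Contradiction.
-/
set_option autoImplicit false

namespace Crest.Agent.R199

open Classical

variable {T C V : Type} [Fintype T] [Fintype V] [DecidableEq C] {g0 : ℕ}

theorem Acell_mem (D : Datum T C V g0) {Γ : Type} [Group Γ] (φ : Gp D.A →* Γ) (c : C) (γ : Γ) :
    Acell D φ c γ ∈ D.X := by
  have h : Acell D φ c γ = ∑ v ∈ Vc D c, if φ (uv D c v) = γ then D.f v else 0 := by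
    funext t
    rw [Acell, Finset.sum_apply]
    refine Finset.sum_congr rfl fun v _ => ?_
    split_ifs <;> rfl
  rw [h]
  refine Submodule.sum_mem _ fun v _ => ?_
  split_ifs
  · exact D.f_mem v
  · exact D.X.zero_mem

/-- the boundary map -/
noncomputable def bdry (D : Datum T C V g0) {Γ : Type} [Group Γ] (φ : Gp D.A →* Γ) :
    (Γ → D.X) →ₗ[ZMod 2] (Γ → C → ZMod 2) where
  toFun F := fun γ c => ∑ t with D.π t = c, (F (γ * (φ (gv D.A [(t, true)]))⁻¹)).1 t
  map_add' F G := by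
    funext γ c
    simp only [Pi.add_apply, Submodule.coe_add, Finset.sum_add_distrib]
  map_smul' a F := by
    funext γ c
    simp only [Pi.smul_apply, Submodule.coe_smul, Finset.smul_sum, RingHom.id_apply]

theorem C_finite (D : Datum T C V g0) : Finite C := by
  have : Function.Injective D.o := by
    intro c c' h
    rw [← D.o_cls c, h, D.o_cls c']
  have : Function.Injective fun c => (D.o c).1 := fun c c' h => this (Subtype.ext h)
  exact Finite.of_injective _ this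

theorem bdry_surj (D : Datum T C V g0) {Γ : Type} [Group Γ] [Finite Γ] (φ : Gp D.A →* Γ) :
    Function.Surjective (bdry D φ) := by
  have := C_finite D
  have := Fintype.ofFinite Γ
  have := Fintype.ofFinite C
  intro G
  refine ⟨∑ γ₀, ∑ c, G γ₀ c • fun γ => ⟨Acell D φ c (γ₀⁻¹ * γ), Acell_mem D φ c _⟩, ?_⟩
  rw [map_sum]
  funext γ c'
  rw [Finset.sum_apply, Finset.sum_apply]
  have h : ∀ γ₀ : Γ, (bdry D φ (∑ c, G γ₀ c • fun γ => (⟨Acell D φ c (γ₀⁻¹ * γ),
      Acell_mem D φ c _⟩ : D.X))) γ c' = if γ₀ = γ then G γ₀ c' else 0 := by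
    intro γ₀
    rw [map_sum, Finset.sum_apply, Finset.sum_apply]
    have h1 : ∀ c : C, (bdry D φ (G γ₀ c • fun γ => (⟨Acell D φ c (γ₀⁻¹ * γ),
      Acell_mem D φ c _⟩ : D.X))) γ c' = G γ₀ c * (if γ₀⁻¹ * γ = 1 ∧ c' = c then 1 else 0) := by
      intro c
      rw [map_smul, Pi.smul_apply, Pi.smul_apply, smul_eq_mul, ← cell_identity D φ c c' (γ₀⁻¹ * γ)]
      simp only [mul_assoc]
      rfl
    rw [Finset.sum_congr rfl fun c _ => h1 c, Finset.sum_eq_single c']
    · by_cases hg : γ₀ = γ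
      · subst hg; simp
      · have : ¬ (γ₀⁻¹ * γ = 1) := fun h => hg (inv_mul_eq_one.1 h)
        simp [hg, this]
    · intro c _ hc
      rw [if_neg (fun h => hc h.2.symm), mul_zero]
    · intro h; exact absurd (Finset.mem_univ _) h
  rw [Finset.sum_congr rfl fun γ₀ _ => h γ₀, Finset.sum_ite_eq' Finset.univ γ,
    if_pos (Finset.mem_univ _)]

theorem bdry_inj (D : Datum T C V g0) {Γ : Type} [Group Γ] [Finite Γ] (φ : Gp D.A →* Γ) :
    Function.Injective (bdry D φ) := by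
  have e : D.X ≃ (C → ZMod 2) := Equiv.ofBijective _ D.sig
  have e2 : (Γ → D.X) ≃ (Γ → C → ZMod 2) := Equiv.arrowCongr (Equiv.refl Γ) e
  have : Finite (Γ → D.X) := inferInstance
  exact (Finite.injective_iff_surjective_of_equiv e2).2 (bdry_surj D φ)

/-- for every finite quotient the kernel element vanishes -/
theorem kernel_zero (D : Datum T C V g0) {Γ : Type} [Group Γ] [Finite Γ] (φ : Gp D.A →* Γ)
    (γ : Γ) (s : T) :
    (if γ = 1 then D.f0 s else 0) + ∑ t with D.f0 t ≠ 0,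
      Acell D φ (D.π t) ((φ (gv D.A [(t, true)]))⁻¹ * γ) s = 0 := by
  set F₀ : Γ → D.X := (fun γ => if γ = 1 then ⟨D.f0, D.f0_mem⟩ else 0) +
    ∑ t with D.f0 t ≠ 0, fun γ => ⟨Acell D φ (D.π t) ((φ (gv D.A [(t, true)]))⁻¹ * γ),
      Acell_mem D φ _ _⟩ with hF₀
  have h0 : bdry D φ F₀ = 0 := by
    rw [hF₀, map_add, map_sum]
    funext γ c
    rw [Pi.add_apply, Pi.add_apply, Finset.sum_apply, Finset.sum_apply]
    have h1 : (bdry D φ fun γ => if γ = 1 then (⟨D.f0, D.f0_mem⟩ : D.X) else 0) γ c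
        = ∑ t with D.f0 t ≠ 0, if (φ (gv D.A [(t, true)]))⁻¹ * γ = 1 ∧ c = D.π t then 1 else 0 := by
      change ∑ t with D.π t = c, (if γ * (φ (gv D.A [(t, true)]))⁻¹ = 1 then
        (⟨D.f0, D.f0_mem⟩ : D.X) else 0).1 t = _
      rw [Finset.sum_filter, Finset.sum_filter]
      refine Finset.sum_congr rfl fun t _ => ?_
      have h2 : γ * (φ (gv D.A [(t, true)]))⁻¹ = 1 ↔ (φ (gv D.A [(t, true)]))⁻¹ * γ = 1 := by
        rw [mul_inv_eq_one, inv_mul_eq_one]
        exact eq_comm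
      have e : (c = D.π t) ↔ (D.π t = c) := eq_comm
      simp only [e]
      have h3 : ∀ x : ZMod 2, x ≠ 0 → x = 1 := by decide
      by_cases hc : D.π t = c <;> by_cases hg : (φ (gv D.A [(t, true)]))⁻¹ * γ = 1 <;>
        by_cases hf : D.f0 t ≠ 0
      · simp [hc, hg, h2.2 hg, h3 _ hf]
      · have hf' := not_not.1 hf
        simp [hc, hg, h2.2 hg, hf']
      · have : ¬ (γ * (φ (gv D.A [(t, true)]))⁻¹ = 1) := fun h => hg (h2.1 h)
        simp [hc, hg, this]
      · have : ¬ (γ * (φ (gv D.A [(t, true)]))⁻¹ = 1) := fun h => hg (h2.1 h)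
        simp [hc, hg, this]
      · simp [hc]
      · simp [hc]
      · simp [hc]
      · simp [hc]
    have h2 : ∀ t, (bdry D φ fun γ => (⟨Acell D φ (D.π t) ((φ (gv D.A [(t, true)]))⁻¹ * γ),
      Acell_mem D φ _ _⟩ : D.X)) γ c =
        if (φ (gv D.A [(t, true)]))⁻¹ * γ = 1 ∧ c = D.π t then 1 else 0 := by
      intro t
      rw [← cell_identity D φ (D.π t) c]
      simp only [mul_assoc]
      rfl
    rw [h1, Finset.sum_congr rfl fun t _ => h2 t]
    exact CharTwo.add_self_eq_zero _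
  have h1 : F₀ = 0 := bdry_inj D φ (h0.trans (map_zero _).symm)
  have h2 : (F₀ γ).1 s = 0 := by rw [h1]; rfl
  have h3 : (F₀ γ).1 s = (if γ = 1 then D.f0 s else 0) + ∑ t with D.f0 t ≠ 0,
      Acell D φ (D.π t) ((φ (gv D.A [(t, true)]))⁻¹ * γ) s := by
    rw [hF₀, Pi.add_apply, Finset.sum_apply, Submodule.coe_add, Pi.add_apply]
    congr 1
    · by_cases hg : γ = 1
      · rw [if_pos hg, if_pos hg]
      · rw [if_neg hg, if_neg hg]; rfl
    · rw [AddSubmonoidClass.coe_finsetSum, Finset.sum_apply]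
  exact h3.symm.trans h2

theorem not_rf (D : Datum T C V g0) {gam : ℕ} (hA : RG D.A gam) (hgam : 129 ≤ gam)
    {BB : ℕ → Set (Gp D.A)}
    (hL : Lay D.A gam (QuotientGroup.mk' (Subgroup.normalClosure (rels D.A))) BB) :
    ¬ Group.ResiduallyFinite (Gp D.A) := by
  intro hrf
  obtain ⟨t₁, ht₁⟩ := Function.ne_iff.1 D.f0_ne
  have ht₁' : D.f0 t₁ ≠ 0 := ht₁
  set c₁ := D.π t₁ with hc₁
  set g₁ := gv D.A [(t₁, true), ((D.o c₁).1.2, false)] with hg₁
  set E : Finset (Gp D.A) := insert 1 (insert g₁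
    (Finset.univ.image fun p : T × V => gv D.A [(p.1, true)] * uv D (D.π p.1) p.2)) with hE
  obtain ⟨Γ, _, _, φ, hφ⟩ := rf_sep hrf E
  have hE1 : (1 : Gp D.A) ∈ (E : Set (Gp D.A)) := by simp [hE]
  have hEg : g₁ ∈ (E : Set (Gp D.A)) := by simp [hE]
  have hEt : ∀ t v, gv D.A [(t, true)] * uv D (D.π t) v ∈ (E : Set (Gp D.A)) := by
    intro t v
    rw [hE, Finset.mem_coe]
    refine Finset.mem_insert_of_mem (Finset.mem_insert_of_mem (Finset.mem_image.2
      ⟨(t, v), Finset.mem_univ _, rfl⟩))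
  have hk := kernel_zero D φ (φ g₁) (D.o c₁).1.2
  have h1 : φ g₁ ≠ 1 := by
    intro h
    have : g₁ = 1 := hφ hEg hE1 (by rw [h, map_one])
    exact coef_ne D hA hgam hL ht₁' this
  rw [if_neg h1, zero_add] at hk
  -- the path to the first vertex
  have hpath : Rd D.A (D.leaf c₁) [((D.o c₁).1.2, false)] (Sum.inl (D.o c₁).1.1) :=
    Rd_single.2 (D.E_wv.2 (Or.inl ⟨rfl, rfl⟩))
  have huv := uv_spec D hpath
  have hV : (D.o c₁).1.1 ∈ Vc D c₁ := Finset.mem_filter.2 ⟨Finset.mem_univ _, _, hpath⟩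
  have hcond : ∀ t v, v ∈ Vc D (D.π t) → D.f0 t ≠ 0 →
      (φ (uv D (D.π t) v) = (φ (gv D.A [(t, true)]))⁻¹ * φ g₁ ↔
        (t = t₁ ∧ v = (D.o c₁).1.1)) := by
    intro t v hv ht
    constructor
    · intro h
      have h2 : φ (gv D.A [(t, true)] * uv D (D.π t) v) = φ g₁ := by
        rw [map_mul, h, mul_inv_cancel_left]
      have h3 := hφ (hEt t v) hEg h2
      obtain ⟨w, hw⟩ := (Finset.mem_filter.1 hv).2
      rw [uv_spec D hw] at h3
      exact coef_eq D hA hgam hL ht ht₁' hw h3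
    · rintro ⟨rfl, rfl⟩
      rw [← hc₁, huv, eq_inv_mul_iff_mul_eq, ← map_mul, ← gv_append]
      rfl
  have hsum : ∑ t with D.f0 t ≠ 0,
      Acell D φ (D.π t) ((φ (gv D.A [(t, true)]))⁻¹ * φ g₁) (D.o c₁).1.2
      = D.f (D.o c₁).1.1 (D.o c₁).1.2 := by
    rw [Finset.sum_eq_single t₁]
    · rw [Acell, Finset.sum_eq_single (D.o c₁).1.1]
      · rw [if_pos]
        exact (hcond t₁ _ hV ht₁').2 ⟨rfl, rfl⟩
      · intro v hv hne
        rw [if_neg]
        exact fun h => hne ((hcond t₁ v hv ht₁').1 h).2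
      · intro h; exact absurd hV h
    · intro t ht hne
      rw [Acell]
      refine Finset.sum_eq_zero fun v hv => ?_
      rw [if_neg]
      exact fun h => hne ((hcond t v hv (Finset.mem_filter.1 ht).2).1 h).1
    · intro h
      exact (h (Finset.mem_filter.2 ⟨Finset.mem_univ _, ht₁'⟩)).elim
  rw [hsum] at hk
  exact (D.o c₁).2 hk

end Crest.Agent.R199
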