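import Crest.Agent.R199.Greend

/-!
Row 199, piece C2: the group is torsion-free.

PROOF. Suppose g ≠ 1, g^m = 1, m ≥ 1. Let l be the least length of a word w such that q (mk w) is
conjugate to g (`Nat.find`; q surjective), w such a word. w is reduced (`exists_reduced` would shorten)
and cyclically reduced (`FreeGroup.IsCyclicallyReduced`: if w = a :: u ++ [a⁻¹] then u represents a
conjugate and is shorter), w ≠ []. W := (List.replicate m w).flatten is reduced
(`IsCyclicallyReduced.flatten_replicate`), nonempty, q (mk W) = q (mk w)^m = 1. `greend`: an infix s of W,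
x·s = y, |s| ≥ gam-12, x·p = y, |p| ≤ 12.
W is l-periodic: W[i] = w[i % l]. Every infix of W of length ≤ l is, up to cyclic rotation, a factor of w:
if W = a ++ s' ++ b, |s'| ≤ l then with u := the factor of W^2 (or of w^(m+1)) of length l starting where s'
starts (a rotation of w: u = w.rotate i, i = |a| % l), u = s' ++ u', q (mk u) is conjugate to q (mk w).
 Case |s| ≥ l+5: s = s₀ ++ s₁ with |s₀| = l, and s₁ is a prefix of s (periodicity), |s₁| ≥ 5. x₁ := x·s₀.
 s₁ is read from x and from x₁: PC gives x = x₁, so Rd A x s₀ x, q (mk s₀) = 1 (Lay.rel), but s₀ is a rotation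
 of w, so q (mk w) is conjugate to 1 = 1: g = 1, contradiction.
 Case |s| ≤ l+4: let s' := s.take l (or s' = s if |s| ≤ l), |s'| ≥ gam-16, s = s' ++ s'' with |s''| ≤ 4. From x to
 x·s' there is the path p ++ invRev s'' of length ≤ 16. u = s' ++ u' rotation of w; q (mk u) =
 q (mk (p ++ invRev s'' ++ u')), of length ≤ 16 + l - |s'| < l: contradiction to minimality (gam > 32).
-/
set_option autoImplicit false

namespace Crest.Agent.R199

open FreeGroup (IsReduced invRev)

variable {T P G : Type} [Group G] {A : IG T P} {q : FreeGroup T →* G} {BB : ℕ → Set G} {gam : ℕ}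

/-- rotating a periodic word -/
private theorem rotate_aux (w : List (T × Bool)) (n : ℕ) :
    ∀ a t : List (T × Bool), a ++ t = (List.replicate n w).flatten →
    ∃ (u : List (T × Bool)) (N : ℕ) (b c : List (T × Bool)), u.length = w.length ∧
      t ++ b = (List.replicate N u).flatten ∧
      FreeGroup.mk u = (FreeGroup.mk c)⁻¹ * FreeGroup.mk w * FreeGroup.mk c := by
  induction n with
  | zero =>
    intro a t h
    have h' : a ++ t = [] := by simpa using h
    have ht : t = [] := (List.append_eq_nil_iff.1 h').2
    refine ⟨w, 0, [], [], rfl, by simp [ht], ?_⟩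
    have : (FreeGroup.mk ([] : List (T × Bool))) = 1 := rfl
    rw [this]; simp
  | succ n ih =>
    intro a t h
    rw [List.replicate_succ, List.flatten_cons] at h
    rcases List.append_eq_append_iff.1 h with ⟨a', h1, h2⟩ | ⟨c', h1, h2⟩
    · refine ⟨a' ++ a, n + 1, a, a, by rw [h1]; simp [Nat.add_comm], ?_, ?_⟩
      · rw [h2, h1]
        clear h h1 h2 ih
        have key : ∀ m : ℕ, (List.replicate m (a ++ a')).flatten ++ a =
            a ++ (List.replicate m (a' ++ a)).flatten := by
          intro m
          induction m with
          | zero => simp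
          | succ m ihm =>
            rw [List.replicate_succ, List.flatten_cons, List.append_assoc, ihm,
              List.replicate_succ, List.flatten_cons]
            simp [List.append_assoc]
        rw [List.append_assoc, key, List.replicate_succ, List.flatten_cons, List.append_assoc]
      · rw [h1, ← FreeGroup.mul_mk, ← FreeGroup.mul_mk]
        group
    · exact ih c' t h2.symm

private theorem flatten_val (q : FreeGroup T →* G) (w : List (T × Bool)) (n : ℕ) :
    qv q (List.replicate n w).flatten = (qv q w) ^ n := by
  induction n with
  | zero => simp [qv_nil]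
  | succ n ih => rw [List.replicate_succ, List.flatten_cons, qv_append, ih, pow_succ']

theorem lay_torsion_free [Nonempty P] (hA : RG A gam) (hgam : 129 ≤ gam) (hL : Lay A gam q BB)
    (g : G) (hg : IsOfFinOrder g) : g = 1 := by
  classical
  by_contra hne
  obtain ⟨n, hn, hgn⟩ := isOfFinOrder_iff_pow_eq_one.1 hg
  -- lengths of words representing conjugates of `g`
  have hex : ∃ l : ℕ, ∃ w : List (T × Bool), w.length = l ∧ ∃ c : G, qv q w = c * g * c⁻¹ := by
    obtain ⟨f, hf⟩ := hL.surj g
    refine ⟨_, f.toWord, rfl, 1, ?_⟩
    unfold qv
    rw [FreeGroup.mk_toWord, hf]; simp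
  obtain ⟨w0, hw0l, c0, hc0⟩ := Nat.find_spec hex
  have hmin : ∀ v : List (T × Bool), (∃ c : G, qv q v = c * g * c⁻¹) →
      Nat.find hex ≤ v.length := by
    intro v hv
    exact Nat.find_min' hex ⟨v, rfl, hv⟩
  set l := Nat.find hex with hl
  clear_value l
  obtain ⟨w, hwred, hwlen, hwmk, _⟩ := exists_reduced w0
  have hc : qv q w = c0 * g * c0⁻¹ := by
    rw [← hc0]; unfold qv; rw [hwmk]
  have hwl : w.length = l := le_antisymm (by omega) (hmin w ⟨c0, hc⟩)
  have hwne : w ≠ [] := by
    rintro rfl
    rw [qv_nil] at hc
    apply hne
    have : c0 * g = c0 := by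
      have := congrArg (· * c0) hc
      simpa using this.symm
    simpa using this
  have hcyc : FreeGroup.IsCyclicallyReduced w := by
    refine ⟨hwred, ?_⟩
    intro a ha b hb hab
    by_contra hne2
    cases w with
    | nil => exact hwne rfl
    | cons b' w' =>
      simp only [List.head?_cons, Option.mem_def, Option.some.injEq] at hb
      subst hb
      rcases List.eq_nil_or_concat' w' with rfl | ⟨u, a', rfl⟩
      · simp only [List.getLast?_singleton, Option.mem_def, Option.some.injEq] at ha
        subst ha
        exact hne2 rfl
      · have ha' : a' = a := by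
          rw [← List.cons_append, List.getLast?_append] at ha
          simpa using ha
        subst ha'
        have ha2 : a' = (b'.1, !b'.2) := by
          refine Prod.ext hab ?_
          revert hne2; cases a'.2 <;> cases b'.2 <;> simp
        have hlen := hmin u ?_
        · simp only [List.length_cons, List.length_append, List.length_nil] at hwl
          omega
        · have hinv : [a'] = invRev [b'] := by
            rw [ha2]; simp [FreeGroup.invRev]
          have e : b' :: (u ++ [a']) = [b'] ++ (u ++ invRev [b']) := by
            rw [← hinv]; rfl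
          rw [e, qv_append, qv_append, qv_invRev] at hc
          refine ⟨(qv q [b'])⁻¹ * c0, ?_⟩
          have : qv q u = (qv q [b'])⁻¹ * (qv q [b'] * (qv q u * (qv q [b'])⁻¹)) * qv q [b'] := by
            group
          rw [this, hc]; group
  set W := (List.replicate n w).flatten with hW
  have hWred : IsReduced W := (hcyc.flatten_replicate n).isReduced
  have hWne : W ≠ [] := by
    obtain ⟨m, rfl⟩ : ∃ m, n = m + 1 := ⟨n - 1, by omega⟩
    rw [hW, List.replicate_succ, List.flatten_cons]
    simp [hwne]
  have hWval : q (FreeGroup.mk W) = 1 := by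
    have := flatten_val q w n
    rw [← hW] at this
    unfold qv at this
    rw [this]
    have h2 : q (FreeGroup.mk w) = c0 * g * c0⁻¹ := hc
    rw [h2, conj_pow, hgn]; simp
  obtain ⟨s, hsW, x, y, p, hxs, hxp, hs12, hp12⟩ := greend hA hgam hL W hWred hWne hWval
  have hsred : IsReduced s := hWred.infix hsW
  obtain ⟨a, b, hab⟩ := hsW
  obtain ⟨u, N, b', c, hul, hub, huc⟩ := rotate_aux w n a (s ++ b) (by
    rw [← List.append_assoc, hab])
  have huq : ∃ c : G, qv q u = c * g * c⁻¹ := by
    refine ⟨(q (FreeGroup.mk c))⁻¹ * c0, ?_⟩
    unfold qv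
    rw [huc, map_mul, map_mul, map_inv]
    have h2 : q (FreeGroup.mk w) = c0 * g * c0⁻¹ := hc
    rw [h2]; group
  have hspre : s <+: (List.replicate N u).flatten := ⟨b ++ b', by
    rw [← hub]; simp [List.append_assoc]⟩
  have hN : N ≠ 0 := by
    rintro rfl
    have : s = [] := by
      have := hspre.length_le
      simp at this
      exact this
    rw [this] at hs12
    simp at hs12
    omega
  obtain ⟨M, rfl⟩ : ∃ M, N = M + 1 := ⟨N - 1, by omega⟩
  have hupre : u <+: (List.replicate (M + 1) u).flatten := by
    rw [List.replicate_succ, List.flatten_cons]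
    exact List.prefix_append _ _
  rcases Nat.lt_or_ge s.length (l + 5) with hlt | hge
  · -- short case
    set s' := s.take l with hs'
    set s'' := s.drop l with hs''
    have hss : s = s' ++ s'' := (List.take_append_drop l s).symm
    have hs'l : s'.length ≤ l := by rw [hs', List.length_take]; omega
    have hs''l : s''.length ≤ 4 := by rw [hs'', List.length_drop]; omega
    have hs'ge : s.length = s'.length + s''.length := by rw [← List.length_append, ← hss]
    have hs'pre : s' <+: u := by
      refine List.prefix_of_prefix_length_le ((List.take_prefix l s).trans hspre) hupre ?_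
      rw [hul, hwl]; exact hs'l
    obtain ⟨u', hu'⟩ := hs'pre
    rw [hss] at hxs
    obtain ⟨z, hz1, hz2⟩ := Rd_append.1 hxs
    have hpath : Rd A x (p ++ invRev s'') z := Rd_trans hxp (Rd_inv hz2)
    have hval := lay_val hL hz1 hpath
    have hlen := hmin (p ++ invRev s'' ++ u') (by
      obtain ⟨c1, hc1⟩ := huq
      refine ⟨c1, ?_⟩
      rw [← hc1, qv_append, ← hval, ← qv_append, hu'])
    rw [List.length_append, List.length_append, FreeGroup.invRev_length] at hlen
    have hu'l : s'.length + u'.length = l := by
      rw [← List.length_append, hu', hul, hwl]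
    omega
  · -- long case
    have husl : u <+: s := List.prefix_of_prefix_length_le hupre hspre (by rw [hul, hwl]; omega)
    obtain ⟨s₁, hs₁⟩ := husl
    have hs₁len : 5 ≤ s₁.length := by
      have : u.length + s₁.length = s.length := by rw [← List.length_append, hs₁]
      rw [hul, hwl] at this
      omega
    have hs₁pre : s₁ <+: (List.replicate M u).flatten := by
      have h1 : u ++ s₁ <+: u ++ (List.replicate M u).flatten := by
        rw [hs₁, ← List.flatten_cons, ← List.replicate_succ]; exact hspre
      exact (List.prefix_append_right_inj u).1 h1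
    have hMpre : (List.replicate M u).flatten <+: (List.replicate (M + 1) u).flatten := by
      rw [List.replicate_succ', List.flatten_append]
      exact List.prefix_append _ _
    have hs₁s : s₁ <+: s := by
      refine List.prefix_of_prefix_length_le (hs₁pre.trans hMpre) hspre ?_
      have : u.length + s₁.length = s.length := by rw [← List.length_append, hs₁]
      omega
    obtain ⟨z', hz'⟩ := Rd_prefix hxs hs₁s
    rw [← hs₁] at hxs
    obtain ⟨x₁, hx1, hx2⟩ := Rd_append.1 hxs
    have hxx : x = x₁ := by
      by_contra hxne
      have h4 := hA.PC x x₁ s₁ z' y hxne (isReduced_append_right (hs₁ ▸ hsred)) hz' hx2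
      omega
    rw [← hxx] at hx1
    have h1 := hL.rel x u hx1
    obtain ⟨c1, hc1⟩ := huq
    unfold qv at hc1
    rw [h1] at hc1
    apply hne
    have : c1 * g = c1 := by
      have := congrArg (· * c1) hc1
      simpa using this.symm
    simpa using this

end Crest.Agent.R199
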