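import Crest.Agent.R199.Datum
import Crest.Agent.R199.DatumPC
import Crest.Agent.R199.DatumGI
import Crest.Agent.R199.NotRF
import Crest.Agent.R199.LayB
import Crest.Agent.R199.TorsFree
import Crest.Agent.R199.FourPt

/-! Row 199: final assembly of S0303. -/
set_option autoImplicit false

namespace Crest.Agent.R199

theorem datum_RG {T C V : Type} [Fintype T] [DecidableEq C] {g0 : ℕ} (D : Datum T C V g0) :
    RG D.A (2 * g0) where
  GI := girth_GI (closed_len D)
  PC := fun x x' w y y' hne hw h h' => datum_PC D x x' w y y' hne hw h h'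
  US := datum_US D

theorem main : ∃ (G : Type) (_ : Group G),
    (∀ g : G, IsOfFinOrder g → g = 1) ∧ Crest.GroupTheory.IsHyperbolicGroup G ∧
      ¬ Group.ResiduallyFinite G := by
  obtain ⟨T, C, V, _, _, _, ⟨D⟩⟩ := exists_datum 65
  have hRG := datum_RG D
  have hg : 129 ≤ 2 * 65 := by norm_num
  obtain ⟨t, ht⟩ : ∃ t, D.f0 t ≠ 0 := by
    by_contra hcon
    push Not at hcon
    exact D.f0_ne (funext hcon)
  haveI : Nonempty (V ⊕ Set (HE D.f)) := ⟨Sum.inr ∅⟩
  haveI : Finite (HE D.f) := by unfold HE; infer_instance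
  haveI : Finite (V ⊕ Set (HE D.f)) := inferInstance
  obtain ⟨BB, hL⟩ := exists_lay hRG hg
  exact ⟨Gp D.A, inferInstance, fun g hg' => lay_torsion_free hRG hg hL g hg',
    lay_hyperbolic hRG hg hL, not_rf D hRG hg hL⟩

end Crest.Agent.R199
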