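import Crest.Agent.R199.Contr

/-!
Row 199, piece C5: a geodesic with ends of level k+1 which stays at levels ≥ k+1 is short.

PROOF. Strong induction on n (for all k, c, i). n = 0: Ch 0, mono. 
(a) Suppose s < t are consecutive visits to level k+1 in [i,i+n] (Lev (k+1) (c s), Lev (k+1) (c t), no visit
strictly between), t - s < ... Then Ch (k+1) 2 (c s) (c t), hence Dn 2, so t ≤ s+2 (geodesic). Proof: t = s+1:
`hz`. Otherwise c (s+1) ∉ BB k, not of level k+1 so ∉ BB (k+1) [if it is in BB (k+1) and not in BB k then it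
has level k+1]; c (s+1) ∈ BB (k+2) by St_BB: level k+2; the same for c (t-1) (St_symm). Between s+1 and t-1
all c ∉ BB (k+1). Induction hypothesis with k+1, i' = s+1, n' = t-1-(s+1) < n: Ch (k+2) 8 (c (s+1)) (c (t-1));
`contr` with l = k+1, m = 8: 8*10+16 = 96 < gam.
(b) For every t in [i,i+n] with Lev (k+1) (c t): Ch (k+1) (2(t-i)) (c i) (c t): strong induction on t with
the previous visit s, Ch 2(s-i) and Ch 2, 2(s-i)+2 ≤ 2(t-i).
(c) If n ≥ 5: t := the least visit ≥ i+5 (exists: i+n). The previous visit s ≤ i+4, t ≤ s+2 ≤ i+6. So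
Ch (k+1) 12 (c i) (c t). Predecessors b, b' of c i, c t (`exists_pred`, level k): `contr` with m = 12:
8*14+16 = 128 < gam: Ch k 2 b b', so Dn 2 b b' (Ch_Dn), Dn 4 (c i) (c t), t ≤ i+4: contradiction.
So n ≤ 4 and (b) with t = i+n, Ch_mono to 8.
-/
set_option autoImplicit false

namespace Crest.Agent.R199

variable {T P G : Type} [Group G] {A : IG T P} {q : FreeGroup T →* G} {BB : ℕ → Set G} {gam : ℕ}

/-- previous visit -/
theorem prev_visit (X : ℕ → Prop) (i t : ℕ) (hit : i < t) (hi : X i) :
    ∃ s, i ≤ s ∧ s < t ∧ X s ∧ ∀ u, s < u → u < t → ¬ X u := by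
  classical
  have h := Nat.findGreatest_spec (P := fun s => i ≤ s ∧ X s) (n := t - 1) (m := i) (by omega)
    ⟨le_rfl, hi⟩
  have hle := Nat.findGreatest_le (P := fun s => i ≤ s ∧ X s) (t - 1)
  refine ⟨Nat.findGreatest (fun s => i ≤ s ∧ X s) (t - 1), h.1, by omega, h.2, ?_⟩
  intro u hu hut hX
  have hnot := Nat.findGreatest_is_greatest (P := fun s => i ≤ s ∧ X s) (n := t - 1) hu (by omega)
  exact hnot ⟨by omega, hX⟩

theorem flat [Nonempty P] (hA : RG A gam) (hgam : 129 ≤ gam) (hL : Lay A gam q BB) (n k : ℕ)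
    (c : ℕ → G) (i : ℕ) (hst : ∀ t, i ≤ t → t < i + n → St A q (c t) (c (t + 1)))
    (hgeo : ∀ s t m, i ≤ s → s ≤ t → t ≤ i + n → Dn A q m (c s) (c t) → t ≤ s + m)
    (h1 : Lev BB (k + 1) (c i)) (h2 : Lev BB (k + 1) (c (i + n)))
    (hout : ∀ t, i ≤ t → t ≤ i + n → c t ∉ BB k) :
    n ≤ 4 ∧ Ch A q BB (k + 1) 8 (c i) (c (i + n)) := by
  induction n using Nat.strong_induction_on generalizing k c i with
  | _ n IH =>
    have hlev : ∀ (l : ℕ) (g : G), g ∈ BB (l + 1) → g ∉ BB l → Lev BB (l + 1) g := by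
      intro l g hg hng
      refine ⟨hg, fun k' hk' hc => hng (BB_mono hL (by omega) hc)⟩
    -- (a)
    have hA1 : ∀ s t, i ≤ s → s < t → t ≤ i + n → c s ∈ BB (k + 1) → c t ∈ BB (k + 1) →
        (∀ u, s < u → u < t → c u ∉ BB (k + 1)) →
        Ch A q BB (k + 1) 2 (c s) (c t) ∧ t ≤ s + 2 := by
      intro s t his hst' hti hcs hct hno
      rcases Nat.lt_or_ge (s + 1) t with hlt | hge
      · have hs1 : c (s + 1) ∈ BB (k + 2) := St_BB hL hcs (hst s his (by omega))
        have hstep : St A q (c (t - 1)) (c t) := by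
          have := hst (t - 1) (by omega) (by omega)
          rwa [show t - 1 + 1 = t by omega] at this
        have ht1 : c (t - 1) ∈ BB (k + 2) := St_BB hL hct (St_symm hstep)
        have hL1 : Lev BB (k + 1 + 1) (c (s + 1)) :=
          hlev (k + 1) _ hs1 (hno (s + 1) (by omega) hlt)
        have hL2 : Lev BB (k + 1 + 1) (c (t - 1)) :=
          hlev (k + 1) _ ht1 (hno (t - 1) (by omega) (by omega))
        have heq : s + 1 + (t - 1 - (s + 1)) = t - 1 := by omega
        have hIH := IH (t - 1 - (s + 1)) (by omega) (k + 1) c (s + 1)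
          (fun u hu hu' => hst u (by omega) (by omega))
          (fun a b m ha hab hb hD => hgeo a b m (by omega) hab (by omega) hD)
          hL1 (by rw [heq]; exact hL2)
          (fun u hu hu' => hno u (by omega) (by omega))
        rw [heq] at hIH
        have hch : Ch A q BB (k + 1) 2 (c s) (c t) :=
          contr hA hL hIH.2 hcs hct (hst s his (by omega)) (St_symm hstep) (by omega)
        exact ⟨hch, hgeo s t 2 his (by omega) hti (Ch_Dn hL hch)⟩
      · have hts : t = s + 1 := by omega
        subst hts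
        refine ⟨hz hA hgam hL (hlev k _ hcs (hout s his (by omega)))
          (hlev k _ hct (hout _ (by omega) hti)) (hst s his (by omega)), by omega⟩
    -- (b)
    have hB : ∀ t, i ≤ t → t ≤ i + n → c t ∈ BB (k + 1) →
        Ch A q BB (k + 1) (2 * (t - i)) (c i) (c t) := by
      intro t
      induction t using Nat.strong_induction_on with
      | _ t IHt =>
        intro hit htn hct
        rcases Nat.eq_or_lt_of_le hit with h | h
        · subst h
          rw [Nat.sub_self, Nat.mul_zero]
          exact ⟨rfl, h1⟩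
        · obtain ⟨s, his, hst', hcs, hno⟩ :=
            prev_visit (fun t => c t ∈ BB (k + 1)) i t h h1.1
          have hs := IHt s hst' his (by omega) hcs
          have ha := (hA1 s t his hst' htn hcs hct hno).1
          exact Ch_mono hL (Ch_trans hL hs ha) (by omega)
    have hn4 : n ≤ 4 := by
      by_contra hcon
      have hex : ∃ t, i + 5 ≤ t ∧ t ≤ i + n ∧ c t ∈ BB (k + 1) := ⟨i + n, by omega, le_rfl, h2.1⟩
      classical
      obtain ⟨ht5, htn, hct⟩ := Nat.find_spec hex
      have hmin : ∀ u, u < Nat.find hex → ¬ (i + 5 ≤ u ∧ u ≤ i + n ∧ c u ∈ BB (k + 1)) :=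
        fun u hu => Nat.find_min hex hu
      generalize Nat.find hex = t at ht5 htn hct hmin
      obtain ⟨s, his, hst', hcs, hno⟩ :=
        prev_visit (fun t => c t ∈ BB (k + 1)) i t (by omega) h1.1
      have hs4 : s ≤ i + 4 := by
        by_contra hs
        exact hmin s hst' ⟨by omega, by omega, hcs⟩
      have hts := (hA1 s t his hst' htn hcs hct hno).2
      have hch : Ch A q BB (k + 1) 12 (c i) (c t) :=
        Ch_mono hL (hB t (by omega) htn hct) (by omega)
      obtain ⟨b, hb, hsb⟩ := exists_pred hL h1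
      obtain ⟨b', hb', hsb'⟩ := exists_pred hL (Ch_lev hL hch).2
      have hcc := contr hA hL hch hb.1 hb'.1 hsb hsb' (by omega)
      have hD2 := Ch_Dn hL hcc
      have hDa : Dn A q 1 (c i) b := ⟨c i, rfl, St_symm hsb⟩
      have hDb : Dn A q 1 b' (c t) := ⟨b', rfl, hsb'⟩
      have hD4 := Dn_trans (Dn_trans hDa hD2) hDb
      have := hgeo i t _ le_rfl (by omega) htn hD4
      omega
    refine ⟨hn4, Ch_mono hL (hB (i + n) (by omega) le_rfl h2.1) (by omega)⟩

end Crest.Agent.R199
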