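import Crest.Agent.R199.FqLines

/-!
Row 199, part II (helper12): in characteristic 2 the regular lines are in the code spanned by the
transversal lines:  `rl a b z0 = ∑_μ {x = μ (z - z0) + μ², y = a x + b}`.
-/
set_option autoImplicit false
set_option linter.unusedSectionVars false
set_option linter.unusedDecidableInType false

namespace Crest.Agent.R199

open Finset

variable {F M : Type} [Field F] [Fintype F] [DecidableEq F]
  [AddCommGroup M] [Module F M] [Fintype M] [DecidableEq M]

theorem ident [CharP F 2] (a b : M) (z0 : F) :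
    ind (rl a b z0) =
      ∑ μ : F, ind (tl (F := F) (W := F × M) (μ, μ • a) (μ ^ 2 + μ * z0, (μ ^ 2 + μ * z0) • a + b)) := by
  funext p
  obtain ⟨⟨x, y⟩, z⟩ := p
  rw [Finset.sum_apply]
  have hmem : ∀ μ : F, ind (tl (F := F) (W := F × M) (μ, μ • a)
      (μ ^ 2 + μ * z0, (μ ^ 2 + μ * z0) • a + b)) ((x, y), z) =
      if (x = z * μ + (μ ^ 2 + μ * z0) ∧ y = x • a + b) then (1 : ZMod 2) else 0 := by
    intro μ
    unfold ind
    refine if_congr ?_ rfl rfl
    rw [mem_tl]
    simp only [Prod.smul_mk, Prod.mk_add_mk, Prod.mk.injEq, smul_eq_mul]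
    constructor
    · rintro ⟨h1, h2⟩
      refine ⟨h1, ?_⟩
      rw [h2, h1]
      module
    · rintro ⟨h1, h2⟩
      refine ⟨h1, ?_⟩
      rw [h2, h1]
      module
  simp only [hmem]
  by_cases hy : y = x • a + b
  · simp only [hy, and_true]
    by_cases hz : z = z0
    · subst hz
      have h1 : ind (rl a b z) ((x, x • a + b), z) = 1 := by simp [ind]
      rw [h1]
      obtain ⟨μ, hμ⟩ : ∃ μ : F, μ ^ 2 = x := by
        have := (frobenius_inj F 2)
        have hs : Function.Surjective (frobenius F 2) := Finite.surjective_of_injective this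
        obtain ⟨μ, hμ⟩ := hs x
        exact ⟨μ, by simpa [frobenius_def] using hμ⟩
      rw [Finset.sum_eq_single μ]
      · rw [if_pos]
        rw [← hμ]
        have : z * μ + (μ ^ 2 + μ * z) = μ ^ 2 + (z * μ + z * μ) := by ring
        rw [this, CharTwo.add_self_eq_zero, add_zero]
      · intro ν _ hν
        rw [if_neg]
        intro h
        apply hν
        have h2 : z * ν + (ν ^ 2 + ν * z) = ν ^ 2 + (z * ν + z * ν) := by ring
        rw [h2, CharTwo.add_self_eq_zero, add_zero] at h
        rw [h] at hμ
        have h3 : frobenius F 2 μ = frobenius F 2 ν := by simpa [frobenius_def] using hμ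
        exact (frobenius_inj F 2 h3).symm
      · intro h; exact absurd (mem_univ _) h
    · have h1 : ind (rl a b z0) ((x, x • a + b), z) = 0 := by simp [ind, hz]
      rw [h1]
      symm
      refine Finset.sum_involution (fun μ _ => μ + (z + z0)) ?_ ?_ (fun _ _ => mem_univ _) ?_
      · intro μ _
        have h2 : z * (μ + (z + z0)) + ((μ + (z + z0)) ^ 2 + (μ + (z + z0)) * z0) =
            z * μ + (μ ^ 2 + μ * z0) := by
          have h2' : z * (μ + (z + z0)) + ((μ + (z + z0)) ^ 2 + (μ + (z + z0)) * z0) =
            z * μ + (μ ^ 2 + μ * z0) + ((μ * z + μ * z) + (μ * z0 + μ * z0) + (z * z + z * z)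
              + (z * z0 + z * z0) + (z * z0 + z * z0) + (z0 * z0 + z0 * z0)) := by ring
          rw [h2']
          simp only [CharTwo.add_self_eq_zero, add_zero]
        rw [h2]
        split_ifs
        · decide
        · simp
      · intro μ _ _ h
        apply hz
        have h3 : z + z0 = 0 := by simpa using h
        have := eq_neg_of_add_eq_zero_left h3
        rw [this, CharTwo.neg_eq]
      · intro μ _
        have : μ + (z + z0) + (z + z0) = μ + ((z + z0) + (z + z0)) := by ring
        rw [this, CharTwo.add_self_eq_zero, add_zero]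
  · simp only [hy, and_false, if_false, sum_const_zero]
    simp [ind, hy]

theorem pts_mem_XJ [CharP F 2] (L : Line F M) : ind (pts L) ∈ XJ F (F × M) := by
  rcases L with ⟨α, β⟩ | ⟨a, b, z0⟩
  · exact tl_mem_XJ α β
  · change ind (rl a b z0) ∈ _
    rw [ident]
    exact Submodule.sum_mem _ fun μ _ => tl_mem_XJ _ _

end Crest.Agent.R199
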