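import Crest.Agent.R199.Geo

/-!
Row 199, part II, algebra over `F = F_Q` (helper12): lines of `J = W × F`, `W = F × M`.

`tl α β` = transversal line `{(z • α + β, z) : z ∈ F}` (here `W` is any finite `F`-module).
`rl a b z0` = regular line `{((x, x • a + b), z0) : x ∈ F}`.
-/
set_option autoImplicit false
set_option linter.unusedSectionVars false
set_option linter.unusedDecidableInType false

namespace Crest.Agent.R199

open Finset

section general

variable {F W : Type} [Field F] [Fintype F] [DecidableEq F]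
  [AddCommGroup W] [Module F W] [Fintype W] [DecidableEq W]

/-- transversal line -/
def tl (α β : W) : Finset (W × F) := univ.filter fun p => p.1 = p.2 • α + β

@[simp] theorem mem_tl {α β : W} {p : W × F} : p ∈ tl (F := F) α β ↔ p.1 = p.2 • α + β := by
  simp [tl]

theorem card_tl (α β : W) : (tl (F := F) α β).card = Fintype.card F := by
  have : tl (F := F) α β = univ.map ⟨fun z : F => (z • α + β, z), fun z z' h => (Prod.ext_iff.1 h).2⟩ := by
    ext p
    simp only [mem_tl, mem_map, mem_univ, true_and, Function.Embedding.coeFn_mk]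
    constructor
    · intro h; exact ⟨p.2, Prod.ext h.symm rfl⟩
    · rintro ⟨z, rfl⟩; rfl
  rw [this, card_map, card_univ]

/-- two transversal lines with two common points are equal -/
theorem tl_unique {α β α' β' : W} {p p' : W × F} (hne : p ≠ p')
    (h1 : p ∈ tl (F := F) α β) (h2 : p' ∈ tl (F := F) α β)
    (h3 : p ∈ tl (F := F) α' β') (h4 : p' ∈ tl (F := F) α' β') : α = α' ∧ β = β' := by
  rw [mem_tl] at h1 h2 h3 h4
  have hz : p.2 ≠ p'.2 := by
    intro hz
    apply hne
    refine Prod.ext ?_ hz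
    rw [h1, h2, hz]
  have hz' : p.2 - p'.2 ≠ 0 := sub_ne_zero.2 hz
  have e1 : (p.2 - p'.2) • α = (p.2 - p'.2) • α' := by
    have : p.1 - p'.1 = (p.2 - p'.2) • α := by rw [h1, h2]; module
    rw [← this]
    rw [h3, h4]; module
  have e2 : α = α' := by
    have := congrArg (fun x => (p.2 - p'.2)⁻¹ • x) e1
    simpa [smul_smul, inv_mul_cancel₀ hz'] using this
  refine ⟨e2, ?_⟩
  subst e2
  rw [h1] at h3
  exact add_left_cancel h3

variable (F W) in
/-- the code spanned by the transversal lines -/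
def XJ : Submodule (ZMod 2) (W × F → ZMod 2) :=
  Submodule.span (ZMod 2) (Set.range fun ab : W × W => ind (tl (F := F) ab.1 ab.2))

theorem tl_mem_XJ (α β : W) : ind (tl (F := F) α β) ∈ XJ F W :=
  Submodule.subset_span ⟨(α, β), rfl⟩

/-- the group `W × W` acts on the points -/
def act (s : W × W) : Equiv.Perm (W × F) where
  toFun p := (p.1 + p.2 • s.1 + s.2, p.2)
  invFun p := (p.1 - p.2 • s.1 - s.2, p.2)
  left_inv p := Prod.ext (by simp only; abel) rfl
  right_inv p := Prod.ext (by simp only; abel) rfl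

theorem act_add (s t : W × W) (p : W × F) : act (F := F) (s + t) p = act s (act t p) := by
  simp only [act, Equiv.coe_fn_mk, Prod.fst_add, Prod.snd_add, smul_add]
  ext1
  · simp only
    abel
  · rfl

theorem act_mem_tl (s ab : W × W) (p : W × F) :
    act (F := F) s p ∈ tl (F := F) (s + ab).1 (s + ab).2 ↔ p ∈ tl (F := F) ab.1 ab.2 := by
  simp only [mem_tl, act, Equiv.coe_fn_mk, Prod.fst_add, Prod.snd_add, smul_add]
  constructor
  · intro h
    have h' : p.1 + (p.2 • s.1 + s.2) = (p.2 • ab.1 + ab.2) + (p.2 • s.1 + s.2) := by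
      rw [← add_assoc, h]; abel
    exact add_right_cancel h'
  · intro h; rw [h]; abel

/-- `W × W` acts transitively on the points -/
theorem act_trans (p p' : W × F) (h : p.2 = p'.2) : ∃ s : W × W, act (F := F) s p = p' := by
  refine ⟨(0, p'.1 - p.1), ?_⟩
  simp only [act, Equiv.coe_fn_mk, smul_zero, add_zero]
  exact Prod.ext (by simp) h

/-- every point is on exactly `card W` transversal lines -/
theorem card_tl_through (p : W × F) :
    (univ.filter fun ab : W × W => p ∈ tl (F := F) ab.1 ab.2).card = Fintype.card W := by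
  have : (univ.filter fun ab : W × W => p ∈ tl (F := F) ab.1 ab.2) =
      univ.map ⟨fun a : W => (a, p.1 - p.2 • a), fun a a' h => (Prod.ext_iff.1 h).1⟩ := by
    ext ab
    simp only [mem_filter, mem_univ, true_and, mem_tl, mem_map, Function.Embedding.coeFn_mk]
    constructor
    · intro h; exact ⟨ab.1, Prod.ext rfl (by simp [h])⟩
    · rintro ⟨a, rfl⟩; simp
  rw [this, card_map, card_univ]

end general

section regular

variable {F M : Type} [Field F] [Fintype F] [DecidableEq F]
  [AddCommGroup M] [Module F M] [Fintype M] [DecidableEq M]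

/-- regular line with slope `a` -/
def rl (a b : M) (z0 : F) : Finset ((F × M) × F) :=
  univ.filter fun p => p.2 = z0 ∧ p.1.2 = p.1.1 • a + b

@[simp] theorem mem_rl {a b : M} {z0 : F} {p : (F × M) × F} :
    p ∈ rl a b z0 ↔ p.2 = z0 ∧ p.1.2 = p.1.1 • a + b := by
  simp [rl]

theorem card_rl (a b : M) (z0 : F) : (rl a b z0).card = Fintype.card F := by
  have : rl a b z0 = univ.map ⟨fun x : F => ((x, x • a + b), z0),
      fun z z' h => (Prod.ext_iff.1 (Prod.ext_iff.1 h).1).1⟩ := by
    ext p
    simp only [mem_rl, mem_map, mem_univ, true_and, Function.Embedding.coeFn_mk]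
    constructor
    · intro h; exact ⟨p.1.1, Prod.ext (Prod.ext rfl h.2.symm) h.1.symm⟩
    · rintro ⟨z, rfl⟩; exact ⟨rfl, rfl⟩
  rw [this, card_map, card_univ]

theorem rl_unique {a b a' b' : M} {z z' : F} {p p' : (F × M) × F} (hne : p ≠ p')
    (h1 : p ∈ rl a b z) (h2 : p' ∈ rl a b z) (h3 : p ∈ rl a' b' z') (h4 : p' ∈ rl a' b' z') :
    a = a' ∧ b = b' ∧ z = z' := by
  rw [mem_rl] at h1 h2 h3 h4
  have hx : p.1.1 ≠ p'.1.1 := by
    intro hx
    apply hne
    refine Prod.ext (Prod.ext hx ?_) (h1.1.trans h2.1.symm)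
    rw [h1.2, h2.2, hx]
  have hx' : p.1.1 - p'.1.1 ≠ 0 := sub_ne_zero.2 hx
  have e1 : (p.1.1 - p'.1.1) • a = (p.1.1 - p'.1.1) • a' := by
    have : p.1.2 - p'.1.2 = (p.1.1 - p'.1.1) • a := by rw [h1.2, h2.2]; module
    rw [← this]
    rw [h3.2, h4.2]; module
  have e2 : a = a' := by
    have := congrArg (fun x => (p.1.1 - p'.1.1)⁻¹ • x) e1
    simpa [smul_smul, inv_mul_cancel₀ hx'] using this
  refine ⟨e2, ?_, h1.1.symm.trans h3.1⟩
  subst e2
  have h5 := h3.2
  rw [h1.2] at h5
  exact add_left_cancel h5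

/-- a transversal and a regular line have at most one common point -/
theorem tl_rl_unique {α β : F × M} {a b : M} {z : F} {p p' : (F × M) × F}
    (h1 : p ∈ tl (F := F) α β) (h2 : p' ∈ tl (F := F) α β)
    (h3 : p ∈ rl a b z) (h4 : p' ∈ rl a b z) : p = p' := by
  rw [mem_tl] at h1 h2
  rw [mem_rl] at h3 h4
  have hz : p.2 = p'.2 := h3.1.trans h4.1.symm
  refine Prod.ext ?_ hz
  rw [h1, h2, hz]

/-- through every point there is exactly one regular line with slope `a` -/
theorem rl_through (a : M) (p : (F × M) × F) (b : M) (z : F) :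
    p ∈ rl a b z ↔ b = p.1.2 - p.1.1 • a ∧ z = p.2 := by
  rw [mem_rl]
  constructor
  · rintro ⟨h1, h2⟩; exact ⟨by rw [h2]; abel, h1.symm⟩
  · rintro ⟨h1, h2⟩; exact ⟨h2.symm, by rw [h1]; abel⟩

/-- all lines -/
abbrev Line (F M : Type) : Type := ((F × M) × (F × M)) ⊕ (M × M × F)

/-- the points of a line -/
def pts : Line F M → Finset ((F × M) × F)
  | Sum.inl ab => tl ab.1 ab.2
  | Sum.inr abz => rl abz.1 abz.2.1 abz.2.2

theorem card_pts (L : Line F M) : (pts L).card = Fintype.card F := by
  rcases L with ab | abz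
  · exact card_tl _ _
  · exact card_rl _ _ _

theorem pts_inter {L L' : Line F M} (hne : L ≠ L') {p p' : (F × M) × F}
    (h1 : p ∈ pts L) (h2 : p' ∈ pts L) (h3 : p ∈ pts L') (h4 : p' ∈ pts L') : p = p' := by
  by_contra hp
  rcases L with ⟨α, β⟩ | ⟨a, b, z⟩ <;> rcases L' with ⟨α', β'⟩ | ⟨a', b', z'⟩
  · obtain ⟨rfl, rfl⟩ := tl_unique hp h1 h2 h3 h4
    exact hne rfl
  · exact hp (tl_rl_unique h1 h2 h3 h4)
  · exact hp (tl_rl_unique h3 h4 h1 h2)
  · obtain ⟨rfl, rfl, rfl⟩ := rl_unique hp h1 h2 h3 h4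
    exact hne rfl

end regular

end Crest.Agent.R199
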