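import Mathlib

/-!
Row 199, part II: the output of the finite geometry (helper12).

`Geo g0` : components `c : C`, active points `C × Fin 3` (three points in each class `c`), lines `Lam`
with their sets `on L` of active points, the code `X ≤ F₂^(C × Fin 3)`; the component `c` consists of
the regular lines `R c` and the extra lines `Ex c`.
`Geo.exists` is the interface theorem, proved (assembly) in `GeoMain.lean`.
-/
set_option autoImplicit false

namespace Crest.Agent.R199

open Finset

/-- indicator function of a finite set, with values in `F₂` -/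
def ind {α : Type} [DecidableEq α] (s : Finset α) : α → ZMod 2 := fun t => if t ∈ s then 1 else 0

structure Geo (g0 : ℕ) where
  /-- components = classes -/
  C : Type
  /-- lines -/
  Lam : Type
  /-- slopes -/
  S : Type
  [fC : Fintype C]
  [dC : DecidableEq C]
  [fL : Fintype Lam]
  [dL : DecidableEq Lam]
  [dS : DecidableEq S]
  /-- active points of a line -/
  on : Lam → Finset (C × Fin 3)
  /-- the code -/
  X : Submodule (ZMod 2) (C × Fin 3 → ZMod 2)
  mem : ∀ L, ind (on L) ∈ X
  bij : Function.Bijective fun (f : X) (c : C) => ∑ i : Fin 3, (f : C × Fin 3 → ZMod 2) (c, i)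
  inj : Function.Injective on
  lin : ∀ L L', L ≠ L' → (on L ∩ on L').card ≤ 1
  Q : ℕ
  card_on : ∀ L, (on L).card ≤ Q
  slope : Lam → S
  /-- regular lines of the component `c` -/
  R : C → Finset Lam
  /-- extra lines of the component `c` -/
  Ex : C → Finset Lam
  disj : ∀ c c', Disjoint (R c) (Ex c')
  q : ℕ
  q_even : Even q
  deg_R : ∀ c t, ((R c).filter (fun L => t ∈ on L)).card = q
  par_R : ∀ c t s, ((R c).filter (fun L => t ∈ on L ∧ slope L = s)).card ≤ 1
  sep : ∀ c c', c ≠ c' → ∀ L L', L ∈ R c → L ∈ R c' → L' ∈ R c → L' ∈ R c' → slope L = slope L'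
  kap : ℕ
  kap' : ℕ
  deg_Ex : ∀ c t, ((Ex c).filter (fun L => t ∈ on L)).card ≤ kap
  mul_Ex : ∀ L, (univ.filter (fun c => L ∈ Ex c)).card ≤ kap'
  /-- class sums of the extra lines of the component `c` -/
  sum_Ex : ∀ c d, ∑ L ∈ Ex c, ∑ i : Fin 3, ind (on L) (d, i) = if c = d then 1 else 0
  f0 : C × Fin 3 → ZMod 2
  f0_mem : f0 ∈ X
  f0_ne : f0 ≠ 0
  j : C → Fin 3
  f0_j : ∀ c, f0 (c, j c) = 0
  num : 11 * kap + 3 * kap' + 20 + 5 * (Q + 1) ^ (g0 + 1) < q

attribute [instance] Geo.fC Geo.dC Geo.fL Geo.dL Geo.dS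

end Crest.Agent.R199
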