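import Crest.Agent.R199.Basic
import Crest.Prelude.Def_WordHyperbolic

/-!
Row 199, part HYPERBOLIC (helper24), definitions and the elementary API (all proved here).
`BB k` (products of at most `k` segments) is the ball of radius `k` of the word metric of
`S = Seg A q` (= all segments `q (mk w)`, `Rd A x w y`). `lv BB l` = sphere of radius `l`.
`CC` = "in a common cell touching `BB k`", `Ch k m` = chain of `m` such steps in the sphere `k+1`.
-/
set_option autoImplicit false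

namespace Crest.Agent.R199

open FreeGroup (IsReduced invRev)

variable {T P G : Type} [Group G] {A : IG T P} {gam : ℕ} {q : FreeGroup T →* G} {BB : ℕ → Set G}

/-- the sphere of radius `l` -/
def lv (BB : ℕ → Set G) (l : ℕ) : Set G := {g | g ∈ BB l ∧ ∀ k, k < l → g ∉ BB k}

/-- `p, p'` lie in a common cell which contains an element of `BB k`. -/
def CC (A : IG T P) (q : FreeGroup T →* G) (BB : ℕ → Set G) (k : ℕ) (p p' : G) : Prop :=
  ∃ g ∈ BB k, ∃ x v y v' y', Rd A x v y ∧ Rd A x v' y' ∧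
    p = g * q (FreeGroup.mk v) ∧ p' = g * q (FreeGroup.mk v')

/-- a chain of `m` steps from `p` to `p'` inside the sphere of radius `k+1`, consecutive elements
being in a common cell touching `BB k`. -/
def Ch (A : IG T P) (q : FreeGroup T →* G) (BB : ℕ → Set G) (k : ℕ) : ℕ → G → G → Prop
  | 0, p, p' => p ∈ lv BB (k + 1) ∧ p = p'
  | m + 1, p, p' => ∃ r, p ∈ lv BB (k + 1) ∧ CC A q BB k p r ∧ Ch A q BB k m r p'

/-- a geodesic `f` on `[i,j]` for the balls `BB`. -/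
def Geo (BB : ℕ → Set G) (f : ℕ → G) (i j : ℕ) : Prop :=
  (∀ s, i ≤ s → s < j → (f s)⁻¹ * f (s + 1) ∈ BB 1) ∧
  (∀ s t n, i ≤ s → s ≤ t → t ≤ j → (f s)⁻¹ * f t ∈ BB n → t ≤ s + n)

/-! ### balls -/

theorem mk_append (v w : List (T × Bool)) :
    FreeGroup.mk (v ++ w) = FreeGroup.mk v * FreeGroup.mk w := by
  rw [FreeGroup.mul_mk]

theorem mk_invRev (v : List (T × Bool)) :
    FreeGroup.mk (invRev v) = (FreeGroup.mk v)⁻¹ := by
  rw [FreeGroup.inv_mk]

theorem BB_one_iff (hL : Lay A gam q BB) (g : G) :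
    g ∈ BB 1 ↔ ∃ x w y, Rd A x w y ∧ g = q (FreeGroup.mk w) := by
  rw [hL.succ 0]
  constructor
  · rintro ⟨g', hg', x, w, y, h1, h2⟩
    rw [hL.zero] at hg'
    rw [Set.mem_singleton_iff] at hg'
    exact ⟨x, w, y, h1, by rw [h2, hg', one_mul]⟩
  · rintro ⟨x, w, y, h1, h2⟩
    exact ⟨1, by rw [hL.zero]; rfl, x, w, y, h1, by rw [h2, one_mul]⟩

theorem BB_succ_iff (hL : Lay A gam q BB) (k : ℕ) (h : G) :
    h ∈ BB (k + 1) ↔ ∃ g ∈ BB k, g⁻¹ * h ∈ BB 1 := by
  rw [hL.succ k]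
  constructor
  · rintro ⟨g, hg, x, w, y, h1, h2⟩
    exact ⟨g, hg, (BB_one_iff hL _).2 ⟨x, w, y, h1, by rw [h2]; group⟩⟩
  · rintro ⟨g, hg, h1⟩
    obtain ⟨x, w, y, h2, h3⟩ := (BB_one_iff hL _).1 h1
    exact ⟨g, hg, x, w, y, h2, by rw [← h3]; group⟩

theorem BB_inv_one (hL : Lay A gam q BB) {g : G} (h : g ∈ BB 1) : g⁻¹ ∈ BB 1 := by
  obtain ⟨x, w, y, h1, h2⟩ := (BB_one_iff hL _).1 h
  exact (BB_one_iff hL _).2 ⟨y, invRev w, x, Rd_inv h1, by rw [mk_invRev, map_inv, h2]⟩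

theorem one_mem_BB (hL : Lay A gam q BB) (hP : Nonempty P) (n : ℕ) : (1 : G) ∈ BB n := by
  induction n with
  | zero => rw [hL.zero]; rfl
  | succ n ih =>
    obtain ⟨x⟩ := hP
    exact (hL.succ n 1).2 ⟨1, ih, x, [], x, rfl, by
      rw [show FreeGroup.mk ([] : List (T × Bool)) = 1 from rfl, map_one, one_mul]⟩

theorem BB_mono_succ (hL : Lay A gam q BB) (hP : Nonempty P) {n : ℕ} {g : G} (h : g ∈ BB n) :
    g ∈ BB (n + 1) := by
  rw [BB_succ_iff hL]
  exact ⟨g, h, by rw [inv_mul_cancel]; exact one_mem_BB hL hP 1⟩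

theorem BB_mono (hL : Lay A gam q BB) (hP : Nonempty P) {m n : ℕ} (hmn : m ≤ n) {g : G}
    (h : g ∈ BB m) : g ∈ BB n := by
  induction hmn with
  | refl => exact h
  | step _ ih => exact BB_mono_succ hL hP ih

theorem BB_mul (hL : Lay A gam q BB) {m n : ℕ} {g h : G} (hg : g ∈ BB m) (hh : h ∈ BB n) :
    g * h ∈ BB (m + n) := by
  induction n generalizing h with
  | zero =>
    rw [hL.zero, Set.mem_singleton_iff] at hh
    rw [hh, mul_one]; exact hg
  | succ n ih =>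
    obtain ⟨h', hh', h1⟩ := (BB_succ_iff hL _ _).1 hh
    rw [← Nat.add_assoc, BB_succ_iff hL]
    exact ⟨g * h', ih hh', by
      rw [show (g * h')⁻¹ * (g * h) = h'⁻¹ * h by group]; exact h1⟩

theorem BB_inv (hL : Lay A gam q BB) {n : ℕ} {g : G} (hg : g ∈ BB n) : g⁻¹ ∈ BB n := by
  induction n generalizing g with
  | zero =>
    rw [hL.zero, Set.mem_singleton_iff] at hg ⊢
    rw [hg, inv_one]
  | succ n ih =>
    obtain ⟨h', hh', h1⟩ := (BB_succ_iff hL _ _).1 hg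
    have h2 := BB_mul hL (BB_inv_one hL h1) (ih hh')
    rw [show (h'⁻¹ * g)⁻¹ * h'⁻¹ = g⁻¹ by group, Nat.add_comm] at h2
    exact h2

/-- triangle inequality for the balls -/
theorem BB_tri (hL : Lay A gam q BB) {m n : ℕ} {a b c : G} (h : a⁻¹ * b ∈ BB m)
    (h' : b⁻¹ * c ∈ BB n) : a⁻¹ * c ∈ BB (m + n) := by
  have := BB_mul hL h h'
  rwa [show a⁻¹ * b * (b⁻¹ * c) = a⁻¹ * c by group] at this

theorem BB_symm (hL : Lay A gam q BB) {m : ℕ} {a b : G} (h : a⁻¹ * b ∈ BB m) :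
    b⁻¹ * a ∈ BB m := by
  have := BB_inv hL h
  rwa [show (a⁻¹ * b)⁻¹ = b⁻¹ * a by group] at this

theorem BB_step (hL : Lay A gam q BB) {m n : ℕ} {a b : G} (ha : a ∈ BB m)
    (h : a⁻¹ * b ∈ BB n) : b ∈ BB (m + n) := by
  have := BB_mul hL ha h
  rwa [show a * (a⁻¹ * b) = b by group] at this

theorem exists_mem_BB (hL : Lay A gam q BB) (hA : RG A gam) (g : G) : ∃ n, g ∈ BB n := by
  obtain ⟨f, rfl⟩ := hL.surj g
  obtain ⟨w, rfl⟩ := Quot.exists_rep f
  change ∃ n, q (FreeGroup.mk w) ∈ BB n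
  induction w using List.reverseRecOn with
  | nil => exact ⟨0, by rw [hL.zero]; exact map_one q⟩
  | append_singleton w a ih =>
    obtain ⟨n, hn⟩ := ih
    obtain ⟨y, y', hy⟩ := hA.US a
    refine ⟨n + 1, ?_⟩
    rw [mk_append, map_mul]
    exact BB_mul hL hn ((BB_one_iff hL _).2 ⟨y, [a], y', Rd_single.2 hy, rfl⟩)

/-! ### spheres -/

theorem lv_succ_iff (hL : Lay A gam q BB) (hP : Nonempty P) {k : ℕ} {g : G} :
    g ∈ lv BB (k + 1) ↔ g ∈ BB (k + 1) ∧ g ∉ BB k := by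
  constructor
  · rintro ⟨h1, h2⟩; exact ⟨h1, h2 k (Nat.lt_succ_self k)⟩
  · rintro ⟨h1, h2⟩
    exact ⟨h1, fun j hj h => h2 (BB_mono hL hP (Nat.lt_succ_iff.1 hj) h)⟩

theorem exists_lv (hL : Lay A gam q BB) (hA : RG A gam) (g : G) : ∃ n, g ∈ lv BB n := by
  classical
  have h := exists_mem_BB hL hA g
  exact ⟨Nat.find h, Nat.find_spec h, fun k hk => Nat.find_min h hk⟩

theorem lv_zero (hL : Lay A gam q BB) {g : G} (h : g ∈ lv BB 0) : g = 1 := by
  have := h.1; rwa [hL.zero, Set.mem_singleton_iff] at this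

/-- the levels of adjacent elements differ by at most one -/
theorem lv_adj (hL : Lay A gam q BB) {k : ℕ} {g h : G} (hg : g ∈ BB k) (hh : g⁻¹ * h ∈ BB 1) :
    h ∈ BB (k + 1) := BB_step hL hg hh

/-- every element of level `k+1` has a neighbour of level `k` -/
theorem lv_down (hL : Lay A gam q BB) {k : ℕ} {g : G} (hg : g ∈ lv BB (k + 1)) :
    ∃ b ∈ lv BB k, b⁻¹ * g ∈ BB 1 := by
  obtain ⟨b, hb, h1⟩ := (BB_succ_iff hL _ _).1 hg.1
  refine ⟨b, ⟨hb, fun j hj hbj => ?_⟩, h1⟩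
  exact hg.2 (j + 1) (by omega) (BB_step hL hbj h1)

/-- a descending chain from an element of level `a` -/
theorem exists_chain (hL : Lay A gam q BB) {a : ℕ} {g : G} (hg : g ∈ lv BB a) :
    ∃ xs : ℕ → G, xs a = g ∧ (∀ j, j ≤ a → xs j ∈ lv BB j) ∧
      ∀ j, j < a → (xs j)⁻¹ * xs (j + 1) ∈ BB 1 := by
  induction a generalizing g with
  | zero =>
    refine ⟨fun _ => g, rfl, fun j hj => ?_, fun j hj => absurd hj (Nat.not_lt_zero _)⟩
    rw [Nat.le_zero.1 hj]; exact hg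
  | succ a ih =>
    obtain ⟨b, hb, h1⟩ := lv_down hL hg
    obtain ⟨xs, h2, h3, h4⟩ := ih hb
    classical
    refine ⟨fun j => if j = a + 1 then g else xs j, by simp, fun j hj => ?_, fun j hj => ?_⟩
    · by_cases h : j = a + 1
      · simp only [h, if_true]; exact hg
      · simp only [h, if_false]; exact h3 j (by omega)
    · have hj1 : j ≠ a + 1 := by omega
      by_cases h : j = a
      · subst h
        simp only [hj1, if_false, if_true]
        rw [h2]; exact h1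
      · have h5 : j + 1 ≠ a + 1 := by omega
        simp only [hj1, h5, if_false]
        exact h4 j (by omega)

/-! ### chains -/

theorem CC.symm {k : ℕ} {p p' : G} (h : CC A q BB k p p') : CC A q BB k p' p := by
  obtain ⟨g, hg, x, v, y, v', y', h1, h2, h3, h4⟩ := h
  exact ⟨g, hg, x, v', y', v, y, h2, h1, h4, h3⟩

theorem CC.refl (hL : Lay A gam q BB) {k : ℕ} {p : G} (h : p ∈ BB (k + 1)) :
    CC A q BB k p p := by
  obtain ⟨g, hg, x, w, y, h1, h2⟩ := (hL.succ k p).1 h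
  exact ⟨g, hg, x, w, y, w, y, h1, h1, h2, h2⟩

theorem CC.dist (hL : Lay A gam q BB) {k : ℕ} {p p' : G} (h : CC A q BB k p p') :
    p⁻¹ * p' ∈ BB 1 := by
  obtain ⟨g, hg, x, v, y, v', y', h1, h2, h3, h4⟩ := h
  refine (BB_one_iff hL _).2 ⟨y, invRev v ++ v', y', Rd_trans (Rd_inv h1) h2, ?_⟩
  rw [mk_append, mk_invRev, map_mul, map_inv, h3, h4]; group

theorem Ch.left {k m : ℕ} {p p' : G} (h : Ch A q BB k m p p') : p ∈ lv BB (k + 1) := by
  cases m with
  | zero => exact h.1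
  | succ m => obtain ⟨r, h1, _⟩ := h; exact h1

theorem Ch.right {k m : ℕ} {p p' : G} (h : Ch A q BB k m p p') : p' ∈ lv BB (k + 1) := by
  induction m generalizing p with
  | zero => obtain ⟨h1, rfl⟩ := h; exact h1
  | succ m ih => obtain ⟨r, _, _, h3⟩ := h; exact ih h3

theorem Ch.refl {k : ℕ} {p : G} (h : p ∈ lv BB (k + 1)) : Ch A q BB k 0 p p := ⟨h, rfl⟩

theorem Ch.single {k : ℕ} {p p' : G} (h : p ∈ lv BB (k + 1)) (h' : p' ∈ lv BB (k + 1))
    (hc : CC A q BB k p p') : Ch A q BB k 1 p p' := ⟨p', h, hc, h', rfl⟩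

theorem Ch.trans {k m n : ℕ} {p r p' : G} (h : Ch A q BB k m p r) (h' : Ch A q BB k n r p') :
    Ch A q BB k (m + n) p p' := by
  induction m generalizing p with
  | zero => obtain ⟨_, rfl⟩ := h; rw [Nat.zero_add]; exact h'
  | succ m ih =>
    obtain ⟨s, h1, h2, h3⟩ := h
    rw [show m + 1 + n = (m + n) + 1 by omega]
    exact ⟨s, h1, h2, ih h3⟩

theorem Ch.symm {k m : ℕ} {p p' : G} (h : Ch A q BB k m p p') : Ch A q BB k m p' p := by
  induction m generalizing p with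
  | zero => obtain ⟨h1, rfl⟩ := h; exact ⟨h1, rfl⟩
  | succ m ih =>
    obtain ⟨s, h1, h2, h3⟩ := h
    exact Ch.trans (ih h3) (Ch.single h3.left h1 h2.symm)

theorem Ch.mono (hL : Lay A gam q BB) {k m n : ℕ} (hmn : m ≤ n) {p p' : G}
    (h : Ch A q BB k m p p') : Ch A q BB k n p p' := by
  induction hmn with
  | refl => exact h
  | step _ ih =>
    exact ⟨p, h.left, CC.refl hL h.left.1, ih⟩

theorem Ch.dist (hL : Lay A gam q BB) (hP : Nonempty P) {k m : ℕ} {p p' : G}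
    (h : Ch A q BB k m p p') : p⁻¹ * p' ∈ BB m := by
  induction m generalizing p with
  | zero => obtain ⟨_, rfl⟩ := h; rw [inv_mul_cancel]; exact one_mem_BB hL hP 0
  | succ m ih =>
    obtain ⟨s, h1, h2, h3⟩ := h
    have := BB_tri hL (h2.dist hL) (ih h3)
    rwa [Nat.add_comm] at this

end Crest.Agent.R199
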