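import Crest.Agent.R199.HypFlat

/-!
Row 199, part HYPERBOLIC: `Desc` (descent along a geodesic) and the tree-like property.
-/
set_option autoImplicit false

namespace Crest.Agent.R199

open FreeGroup (IsReduced invRev)

variable {T P G : Type} [Group G] {A : IG T P} {gam : ℕ} {q : FreeGroup T →* G} {BB : ℕ → Set G}

/-- `t` is the first index of `f` in `BB l` -/
def Fst (BB : ℕ → Set G) (f : ℕ → G) (l t : ℕ) : Prop := f t ∈ BB l ∧ ∀ s, s < t → f s ∉ BB l

omit [Group G] in
theorem exists_fst {f : ℕ → G} {l t : ℕ} (h : f t ∈ BB l) : ∃ s, s ≤ t ∧ Fst BB f l s := by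
  classical
  have hne : ∃ s, f s ∈ BB l := ⟨t, h⟩
  exact ⟨Nat.find hne, Nat.find_min' hne h, Nat.find_spec hne, fun s hs => Nat.find_min hne hs⟩

/-- `Desc`: `f` geodesic on `[0,n]` starting at level `a`, `xs` a descending chain from `f 0`. -/
theorem desc (hL : Lay A gam q BB) (hP : Nonempty P) (hgam : 129 ≤ gam) {a n : ℕ} {f : ℕ → G}
    (hf : Geo BB f 0 n) (hfa : f 0 ∈ lv BB a) {xs : ℕ → G} (hxa : xs a = f 0)
    (hx : ∀ j, j ≤ a → xs j ∈ lv BB j) (hx1 : ∀ j, j < a → (xs j)⁻¹ * xs (j + 1) ∈ BB 1) :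
    ∀ d k t, k + 1 + d = a → t ≤ n → Fst BB f (k + 1) t →
      Ch A q BB k 2 (xs (k + 1)) (f t) := by
  intro d
  induction d with
  | zero =>
    intro k t hk ht hF
    have ht0 : t = 0 := by
      by_contra h
      have hka : k + 1 = a := by omega
      exact hF.2 0 (Nat.pos_of_ne_zero h) (by rw [hka]; exact hfa.1)
    subst ht0
    rw [show k + 1 = a by omega, hxa]
    exact Ch.mono hL (m := 0) (by omega) (Ch.refl (by rw [show k + 1 = a by omega]; exact hfa))
  | succ d ih =>
    intro k t hk ht hF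
    obtain ⟨t', ht', hF'⟩ := exists_fst (BB := BB) (f := f) (l := k + 1 + 1) (t := t)
      (BB_mono_succ hL hP hF.1)
    have htt : t' < t := by
      rcases Nat.eq_or_lt_of_le ht' with h | h
      · exfalso
        subst h
        rcases Nat.eq_zero_or_pos t' with h0 | h0
        · subst h0
          exact hfa.2 (k + 1) (by omega) hF.1
        · refine hF'.2 (t' - 1) (by omega) ?_
          have := hf.1 (t' - 1) (by omega) (by omega)
          rw [show t' - 1 + 1 = t' by omega] at this
          exact lv_adj hL hF.1 (BB_symm hL this)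
      · exact h
    have a1 : (f (t - 1))⁻¹ * f t ∈ BB 1 := by
      have := hf.1 (t - 1) (by omega) (by omega)
      rwa [show t - 1 + 1 = t by omega] at this
    have e1 : f (t - 1) ∈ lv BB (k + 1 + 1) := by
      rw [lv_succ_iff hL hP]
      exact ⟨lv_adj hL hF.1 (BB_symm hL a1), hF.2 _ (by omega)⟩
    have e2 : f t' ∈ lv BB (k + 1 + 1) := by
      rw [lv_succ_iff hL hP]
      exact ⟨hF'.1, hF.2 _ htt⟩
    have h3 := (flat hL hP hgam (t - 1 - t') (k + 1) t' (t - 1) f (by omega)
      (hf.mono (by omega) (by omega)) e2 e1 (fun s h1 h2 => hF.2 s (by omega))).2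
    have h4 := ih (k + 1) t' (by omega) (by omega) hF'
    have h5 := h4.trans h3
    refine contr hL hP (m := 10) (by omega) h5 (hx (k + 1) (by omega)).1 hF.1
      (hx1 (k + 1) (by omega)) (BB_symm hL a1)

/-- geodesics exist -/
theorem exists_geo (hL : Lay A gam q BB) {n : ℕ} {g h : G}
    (hgh : g⁻¹ * h ∈ lv BB n) : ∃ f : ℕ → G, f 0 = g ∧ f n = h ∧ Geo BB f 0 n := by
  obtain ⟨ys, h1, h2, h3⟩ := exists_chain hL hgh
  refine ⟨fun j => g * ys j, ?_, ?_, fun s _ hs => ?_, fun s t m _ hst htn hm => ?_⟩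
  · have := lv_zero hL (h2 0 (Nat.zero_le _))
    simp only [this, mul_one]
  · simp only [h1]; group
  · have := h3 s hs
    simp only []
    rwa [show (g * ys s)⁻¹ * (g * ys (s + 1)) = (ys s)⁻¹ * ys (s + 1) by group]
  · simp only [] at hm
    rw [show (g * ys s)⁻¹ * (g * ys t) = (ys s)⁻¹ * ys t by group] at hm
    by_contra hlt
    exact (h2 t htn).2 (s + m) (by omega) (BB_step hL (h2 s (by omega)).1 hm)

theorem Geo.reverse (hL : Lay A gam q BB) {f : ℕ → G} {n : ℕ} (h : Geo BB f 0 n) :
    Geo BB (fun s => f (n - s)) 0 n := by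
  refine ⟨fun s _ hs => ?_, fun s t m _ hst htn hm => ?_⟩
  · have := BB_symm hL (h.1 (n - (s + 1)) (Nat.zero_le _) (by omega))
    rwa [show n - (s + 1) + 1 = n - s by omega] at this
  · have := h.2 (n - t) (n - s) m (Nat.zero_le _) (by omega) (by omega) (BB_symm hL hm)
    omega

/-- the tree-like property for a pair, with given descending chains -/
theorem tree (hL : Lay A gam q BB) (hP : Nonempty P) (hgam : 129 ≤ gam) {a c n : ℕ} {x y : G}
    (hxa : x ∈ lv BB a) (hyc : y ∈ lv BB c) (hxy : x⁻¹ * y ∈ lv BB n)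
    {xs ys : ℕ → G} (hxs : xs a = x) (hx : ∀ j, j ≤ a → xs j ∈ lv BB j)
    (hx1 : ∀ j, j < a → (xs j)⁻¹ * xs (j + 1) ∈ BB 1)
    (hys : ys c = y) (hy : ∀ j, j ≤ c → ys j ∈ lv BB j)
    (hy1 : ∀ j, j < c → (ys j)⁻¹ * ys (j + 1) ∈ BB 1) :
    ∃ L, L ≤ a ∧ L ≤ c ∧ a + c ≤ n + 2 * L ∧ ∀ j, j < L → (xs j)⁻¹ * ys j ∈ BB 2 := by
  classical
  obtain ⟨f, hf0, hfn, hf⟩ := exists_geo hL hxy
  have hex : ∃ L, ∃ t, t ≤ n ∧ f t ∈ BB L := ⟨a, 0, Nat.zero_le _, by rw [hf0]; exact hxa.1⟩
  obtain ⟨L, hL1, hL2⟩ : ∃ L, (∃ t, t ≤ n ∧ f t ∈ BB L) ∧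
      ∀ l, l < L → ∀ t, t ≤ n → f t ∉ BB l :=
    ⟨Nat.find hex, Nat.find_spec hex, fun l hl t ht h => Nat.find_min hex hl ⟨t, ht, h⟩⟩
  have hLa : L ≤ a := by
    by_contra h
    exact hL2 a (by omega) 0 (Nat.zero_le _) (by rw [hf0]; exact hxa.1)
  have hLc : L ≤ c := by
    by_contra h
    exact hL2 c (by omega) n le_rfl (by rw [hfn]; exact hyc.1)
  obtain ⟨t0, ht0, hft0⟩ := hL1
  refine ⟨L, hLa, hLc, ?_, ?_⟩
  · -- `a + c ≤ n + 2 L`
    -- distance from `f 0` to `f t0` is at most `t0`, and from `f t0` to `f n` at most `n - t0`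
    have hpath : ∀ s d, s + d ≤ n → (f s)⁻¹ * f (s + d) ∈ BB d := by
      intro s d
      induction d with
      | zero => intro _; rw [Nat.add_zero, inv_mul_cancel]; exact one_mem_BB hL hP 0
      | succ d ihd =>
        intro hsd
        exact BB_tri hL (ihd (by omega)) (hf.1 (s + d) (Nat.zero_le _) (by omega))
    have h1 : (f t0)⁻¹ * f 0 ∈ BB t0 := by
      have := hpath 0 t0 (by omega)
      rw [Nat.zero_add] at this
      exact BB_symm hL this
    have h2 : (f t0)⁻¹ * f n ∈ BB (n - t0) := by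
      have := hpath t0 (n - t0) (by omega)
      rwa [show t0 + (n - t0) = n by omega] at this
    have h3 : a ≤ L + t0 := by
      by_contra h
      exact hxa.2 (L + t0) (by omega) (by rw [← hf0]; exact BB_step hL hft0 h1)
    have h4 : c ≤ L + (n - t0) := by
      by_contra h
      exact hyc.2 (L + (n - t0)) (by omega) (by rw [← hfn]; exact BB_step hL hft0 h2)
    omega
  · -- chains
    cases L with
    | zero => intro j hj; omega
    | succ k =>
      obtain ⟨t, ht, hF⟩ := exists_fst (BB := BB) (f := f) hft0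
      have h1 := desc hL hP hgam hf (by rw [hf0]; exact hxa) (by rw [hf0]; exact hxs) hx hx1
        (a - (k + 1)) k t (by omega) (by omega) hF
      have hfr := hf.reverse hL
      have hmem' : (fun s => f (n - s)) (n - t0) ∈ BB (k + 1) := by
        simp only []
        rw [show n - (n - t0) = t0 by omega]; exact hft0
      obtain ⟨t', ht', hF'⟩ := exists_fst (BB := BB) (f := fun s => f (n - s)) hmem'
      have h2 := desc hL hP hgam hfr (by simp only [Nat.sub_zero]; rw [hfn]; exact hyc)
        (by simp only [Nat.sub_zero]; rw [hfn]; exact hys) hy hy1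
        (c - (k + 1)) k t' (by omega) (by omega) hF'
      -- the middle part
      have htt : t ≤ n - t' := by
        by_contra h
        exact hF.2 (n - t') (by omega) hF'.1
      have h3 := (flat hL hP hgam (n - t' - t) k t (n - t') f (by omega)
        (hf.mono (Nat.zero_le _) (Nat.sub_le _ _)) h1.right h2.right
        (fun s hs1 hs2 => hL2 k (Nat.lt_succ_self k) s (by omega))).2
      have h4 : Ch A q BB k 12 (xs (k + 1)) (ys (k + 1)) :=
        (h1.trans h3).trans h2.symm
      have h5 : ∀ d j, j + 1 + d = k → Ch A q BB j 2 (xs (j + 1)) (ys (j + 1)) := by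
        intro d
        induction d with
        | zero =>
          intro j hj
          have hj' : k = j + 1 := by omega
          subst hj'
          exact contr hL hP (m := 12) (by omega) h4 (hx (j + 1) (by omega)).1
            (hy (j + 1) (by omega)).1 (hx1 (j + 1) (by omega)) (hy1 (j + 1) (by omega))
        | succ d ihd =>
          intro j hj
          have h6 := ihd (j + 1) (by omega)
          exact contr hL hP (m := 2) (by omega) h6 (hx (j + 1) (by omega)).1
            (hy (j + 1) (by omega)).1 (hx1 (j + 1) (by omega)) (hy1 (j + 1) (by omega))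
      intro j hj
      cases j with
      | zero =>
        rw [lv_zero hL (hx 0 (Nat.zero_le _)), lv_zero hL (hy 0 (Nat.zero_le _)), inv_mul_cancel]
        exact one_mem_BB hL hP 2
      | succ j =>
        exact (h5 (k - (j + 1)) j (by omega)).dist hL hP

end Crest.Agent.R199
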