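import Crest.Agent.R199.HypPath

/-!
Row 199, part HYPERBOLIC: `Flat`. A geodesic with both ends in the sphere `k+1` and staying outside
`BB k` has length at most 4 and its ends are joined by a chain `Ch k 8`.
-/
set_option autoImplicit false

namespace Crest.Agent.R199

open FreeGroup (IsReduced invRev)

variable {T P G : Type} [Group G] {A : IG T P} {gam : ℕ} {q : FreeGroup T →* G} {BB : ℕ → Set G}

/-- a chain contracts to distance 4 -/
theorem contr_dist (hL : Lay A gam q BB) (hP : Nonempty P) {k m : ℕ} {p p' : G}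
    (hm : 8 * (m + 2) + 16 < gam) (hp : Ch A q BB k m p p') : p⁻¹ * p' ∈ BB 4 := by
  obtain ⟨b, hb, h1⟩ := lv_down hL hp.left
  obtain ⟨b', hb', h2⟩ := lv_down hL hp.right
  have h3 : b⁻¹ * b' ∈ BB 2 := by
    cases k with
    | zero =>
      rw [lv_zero hL hb, lv_zero hL hb', inv_mul_cancel]
      exact one_mem_BB hL hP 2
    | succ k => exact (contr hL hP hm hp hb.1 hb'.1 h1 h2).dist hL hP
  exact BB_tri hL (BB_tri hL (BB_symm hL h1) h3) h2

theorem Geo.mono {f : ℕ → G} {i j i' j' : ℕ} (h : Geo BB f i j) (hi : i ≤ i') (hj : j' ≤ j) :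
    Geo BB f i' j' :=
  ⟨fun s h1 h2 => h.1 s (by omega) (by omega), fun s t n h1 h2 h3 h4 =>
    h.2 s t n (by omega) h2 (by omega) h4⟩

/-- two consecutive visits `s < t` of the sphere `k+1` -/
theorem flat_visits (hL : Lay A gam q BB) (hP : Nonempty P) (hgam : 129 ≤ gam) {n : ℕ}
    (IH : ∀ m, m < n → ∀ (k i j : ℕ) (f : ℕ → G), j = i + m → Geo BB f i j →
      f i ∈ lv BB (k + 1) → f j ∈ lv BB (k + 1) → (∀ s, i ≤ s → s ≤ j → f s ∉ BB k) →
      j ≤ i + 4 ∧ Ch A q BB k 8 (f i) (f j))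
    {k s t : ℕ} {f : ℕ → G} (hst : s < t) (htn : t ≤ s + n) (hf : Geo BB f s t)
    (hs : f s ∈ lv BB (k + 1)) (ht : f t ∈ lv BB (k + 1))
    (hout : ∀ r, s < r → r < t → f r ∉ BB (k + 1)) : Ch A q BB k 2 (f s) (f t) := by
  rcases Nat.lt_or_ge (s + 1) t with h | h
  · have e1 : f (s + 1) ∈ lv BB (k + 1 + 1) := by
      rw [lv_succ_iff hL hP]
      exact ⟨lv_adj hL hs.1 (hf.1 s le_rfl hst), hout _ (by omega) h⟩
    have a2 : (f (t - 1))⁻¹ * f t ∈ BB 1 := by
      have := hf.1 (t - 1) (by omega) (by omega)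
      rwa [show t - 1 + 1 = t by omega] at this
    have e2 : f (t - 1) ∈ lv BB (k + 1 + 1) := by
      rw [lv_succ_iff hL hP]
      exact ⟨lv_adj hL ht.1 (BB_symm hL a2), hout _ (by omega) (by omega)⟩
    have h3 := (IH (t - 1 - (s + 1)) (by omega) (k + 1) (s + 1) (t - 1) f (by omega)
      (hf.mono (by omega) (by omega)) e1 e2 (fun r h1 h2 => hout r (by omega) (by omega))).2
    exact contr hL hP (by omega) h3 hs.1 ht.1 (hf.1 s le_rfl hst) (BB_symm hL (BB_symm hL a2)
      |> fun h => by simpa using BB_symm hL h)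
  · have : t = s + 1 := by omega
    subst this
    exact hz hL hP (by omega) hs ht (hf.1 s le_rfl hst)

/-- `Flat` -/
theorem flat (hL : Lay A gam q BB) (hP : Nonempty P) (hgam : 129 ≤ gam) :
    ∀ n (k i j : ℕ) (f : ℕ → G), j = i + n → Geo BB f i j → f i ∈ lv BB (k + 1) →
      f j ∈ lv BB (k + 1) → (∀ s, i ≤ s → s ≤ j → f s ∉ BB k) →
      j ≤ i + 4 ∧ Ch A q BB k 8 (f i) (f j) := by
  intro n
  induction n using Nat.strong_induction_on with
  | _ n IH =>
  intro k i j f hj hf hi hj' hout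
  -- claim for every visit `t`
  have key : ∀ t, i ≤ t → t ≤ j → f t ∈ lv BB (k + 1) →
      t ≤ i + 4 ∧ Ch A q BB k (2 * (t - i)) (f i) (f t) := by
    intro t
    induction t using Nat.strong_induction_on with
    | _ t ih =>
    intro hit htj ht
    rcases Nat.eq_or_lt_of_le hit with h | h
    · subst h
      refine ⟨by omega, ?_⟩
      rw [Nat.sub_self]; exact Ch.refl ht
    · -- the last visit `s < t`
      have hex : ∃ s, i ≤ s ∧ s < t ∧ f s ∈ lv BB (k + 1) ∧
          ∀ r, s < r → r < t → f r ∉ lv BB (k + 1) := by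
        classical
        have hne : ∃ d, d < t - i ∧ f (t - 1 - d) ∈ lv BB (k + 1) :=
          ⟨t - 1 - i, by omega, by rw [show t - 1 - (t - 1 - i) = i by omega]; exact hi⟩
        obtain ⟨hd1, hd2⟩ := Nat.find_spec hne
        refine ⟨t - 1 - Nat.find hne, by omega, by omega, hd2, fun r h1 h2 h3 => ?_⟩
        refine Nat.find_min hne (m := t - 1 - r) (by omega) ⟨by omega, ?_⟩
        rw [show t - 1 - (t - 1 - r) = r by omega]; exact h3
      obtain ⟨s, h1, h2, h3, h4⟩ := hex
      obtain ⟨h5, h6⟩ := ih s h2 h1 (by omega) h3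
      have h7 : Ch A q BB k 2 (f s) (f t) := by
        refine flat_visits hL hP hgam IH h2 (by omega) (hf.mono h1 htj) h3 ht
          (fun r hr1 hr2 hr3 => h4 r hr1 hr2 ?_)
        rw [lv_succ_iff hL hP]
        exact ⟨hr3, hout r (by omega) (by omega)⟩
      have h8 := h6.trans h7
      have h9 : t ≤ i + 4 := by
        have h10 := contr_dist hL hP (m := 10) (by omega) (h8.mono hL (by omega))
        exact hf.2 i t 4 le_rfl hit htj h10
      exact ⟨h9, h8.mono hL (by omega)⟩
  obtain ⟨h1, h2⟩ := key j (by omega) le_rfl hj'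
  exact ⟨h1, h2.mono hL (by omega)⟩

end Crest.Agent.R199
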