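import Crest.Agent.R199.HypDesc

/-!
Row 199, part HYPERBOLIC, the end: a group with a layering `Lay A gam q BB` over a finite relator
graph, `gam ≥ 129`, is word-hyperbolic.
-/
set_option autoImplicit false

namespace Crest.Agent.R199

open FreeGroup (IsReduced invRev)
open Crest.GroupTheory

variable {T P G : Type} [Group G] {A : IG T P} {gam : ℕ} {q : FreeGroup T →* G} {BB : ℕ → Set G}

/-- the set of segments is finite -/
theorem finite_BB_one (hL : Lay A gam q BB) [Finite P] : (BB 1).Finite := by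
  classical
  have h : BB 1 ⊆ Set.range (fun p : P × P => if h : ∃ w, Rd A p.1 w p.2 then
      q (FreeGroup.mk h.choose) else 1) := by
    intro g hg
    obtain ⟨x, w, y, h1, h2⟩ := (BB_one_iff hL _).1 hg
    refine ⟨(x, y), ?_⟩
    have hex : ∃ w, Rd A x w y := ⟨w, h1⟩
    simp only [hex, dif_pos]
    have h3 := hL.rel x (hex.choose ++ invRev w) (Rd_trans hex.choose_spec (Rd_inv h1))
    rw [mk_append, mk_invRev, map_mul, map_inv] at h3
    rw [h2]; exact mul_inv_eq_one.1 h3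
  exact (Set.finite_range _).subset h

/-- the balls are the sets of products of lists of segments -/
theorem BB_iff_list (hL : Lay A gam q BB) (n : ℕ) (g : G) :
    g ∈ BB n ↔ ∃ l : List G, l.length = n ∧ (∀ x ∈ l, x ∈ BB 1) ∧ l.prod = g := by
  induction n generalizing g with
  | zero =>
    rw [hL.zero, Set.mem_singleton_iff]
    constructor
    · rintro rfl; exact ⟨[], rfl, by simp, rfl⟩
    · rintro ⟨l, h1, _, h3⟩
      rw [List.length_eq_zero_iff] at h1
      rw [← h3, h1, List.prod_nil]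
  | succ n ih =>
    rw [BB_succ_iff hL]
    constructor
    · rintro ⟨b, hb, h1⟩
      obtain ⟨l, h2, h3, h4⟩ := (ih b).1 hb
      refine ⟨l ++ [b⁻¹ * g], by simp [h2], ?_, by rw [List.prod_append, h4]; simp⟩
      intro x hx
      rcases List.mem_append.1 hx with hx | hx
      · exact h3 x hx
      · rw [List.mem_singleton.1 hx]; exact h1
    · rintro ⟨l, h1, h2, h3⟩
      have hne : l ≠ [] := by rintro rfl; simp at h1
      refine ⟨l.dropLast.prod, (ih _).2 ⟨l.dropLast, by simp [h1], fun x hx =>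
        h2 x (List.mem_of_mem_dropLast hx), rfl⟩, ?_⟩
      have h4 : l.dropLast.prod * l.getLast hne = g := by
        rw [← h3]
        conv_rhs => rw [← List.dropLast_append_getLast hne, List.prod_append]
        simp
      rw [← h4, inv_mul_cancel_left]
      exact h2 _ (List.getLast_mem hne)

theorem wordLength_mem (hL : Lay A gam q BB) (hA : RG A gam) (S : Finset G)
    (hS : (S : Set G) = BB 1) (g : G) : g ∈ lv BB (wordLength (S : Set G) g) := by
  have hset : {n : ℕ | ∃ l : List G, l.length = n ∧ (∀ x ∈ l, x ∈ (S : Set G) ∨ x⁻¹ ∈ (S : Set G)) ∧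
      l.prod = g} = {n | g ∈ BB n} := by
    ext n
    simp only [Set.mem_ofPred_eq]
    rw [BB_iff_list hL]
    constructor
    · rintro ⟨l, h1, h2, h3⟩
      refine ⟨l, h1, fun x hx => ?_, h3⟩
      rcases h2 x hx with h | h
      · rw [hS] at h; exact h
      · rw [hS] at h
        have := BB_inv_one hL h
        rwa [inv_inv] at this
    · rintro ⟨l, h1, h2, h3⟩
      exact ⟨l, h1, fun x hx => Or.inl (by rw [hS]; exact h2 x hx), h3⟩
  unfold wordLength
  rw [hset]
  have hne : {n | g ∈ BB n}.Nonempty := exists_mem_BB hL hA g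
  refine ⟨Nat.sInf_mem hne, fun k hk h => ?_⟩
  have h1 : sInf {n | g ∈ BB n} ≤ k := Nat.sInf_le h
  exact absurd hk (Nat.not_lt.2 h1)

omit [Group G] in
theorem lv_unique {m n : ℕ} {g : G} (hm : g ∈ lv BB m) (hn : g ∈ lv BB n) : m = n := by
  rcases Nat.lt_trichotomy m n with h | h | h
  · exact absurd hm.1 (hn.2 m h)
  · exact h
  · exact absurd hn.1 (hm.2 n h)

theorem lv_inv (hL : Lay A gam q BB) {n : ℕ} {g : G} (h : g ∈ lv BB n) : g⁻¹ ∈ lv BB n :=
  ⟨BB_inv hL h.1, fun k hk h' => h.2 k hk (by simpa using BB_inv hL h')⟩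

/-- the four-point inequality at `1` in terms of levels -/
theorem four (hL : Lay A gam q BB) (hP : Nonempty P) (hgam : 129 ≤ gam) {x y z : G}
    {a b c m n r : ℕ} (hx : x ∈ lv BB a) (hy : y ∈ lv BB b) (hz : z ∈ lv BB c)
    (hxy : x⁻¹ * y ∈ lv BB m) (hyz : y⁻¹ * z ∈ lv BB n) (hxz : x⁻¹ * z ∈ lv BB r) :
    ∃ L : ℕ, (a + b ≤ m + 2 * L ∨ b + c ≤ n + 2 * L) ∧ r + 2 * L ≤ a + c + 6 := by
  obtain ⟨xs, hx0, hx1, hx2⟩ := exists_chain hL hx
  obtain ⟨ys, hy0, hy1, hy2⟩ := exists_chain hL hy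
  obtain ⟨zs, hz0, hz1, hz2⟩ := exists_chain hL hz
  obtain ⟨L1, h1, h2, h3, h4⟩ := tree hL hP hgam hx hy hxy hx0 hx1 hx2 hy0 hy1 hy2
  obtain ⟨L2, h5, h6, h7, h8⟩ := tree hL hP hgam hy hz hyz hy0 hy1 hy2 hz0 hz1 hz2
  have hup : ∀ (a : ℕ) (x : G) (xs : ℕ → G), xs a = x →
      (∀ j, j < a → (xs j)⁻¹ * xs (j + 1) ∈ BB 1) → ∀ d j, j + d = a → (xs j)⁻¹ * x ∈ BB d := by
    intro a x xs h0 h1 d
    induction d with
    | zero =>
      intro j hj
      rw [show j = a by omega, h0, inv_mul_cancel]; exact one_mem_BB hL hP 0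
    | succ d ih =>
      intro j hj
      have := BB_tri hL (h1 j (by omega)) (ih (j + 1) (by omega))
      rwa [Nat.add_comm] at this
  have hmain : ∀ L, L ≤ L1 → L ≤ L2 → r + 2 * L ≤ a + c + 6 := by
    intro L hl1 hl2
    rcases Nat.eq_zero_or_pos L with h0 | h0
    · -- `r ≤ a + c`
      have h9 : x⁻¹ * z ∈ BB (a + c) := BB_mul hL (BB_inv hL hx.1) hz.1
      have h10 : r ≤ a + c := by
        by_contra h
        exact hxz.2 (a + c) (by omega) h9
      omega
    · have h9 := h4 (L - 1) (by omega)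
      have h10 := h8 (L - 1) (by omega)
      have h11 := BB_tri hL h9 h10
      have h12 := hup a x xs hx0 hx2 (a - (L - 1)) (L - 1) (by omega)
      have h13 := hup c z zs hz0 hz2 (c - (L - 1)) (L - 1) (by omega)
      have h14 := BB_tri hL (BB_tri hL (BB_symm hL h12) h11) h13
      have h15 : r ≤ a - (L - 1) + (2 + 2) + (c - (L - 1)) := by
        by_contra h
        exact hxz.2 _ (by omega) h14
      omega
  rcases Nat.le_total L1 L2 with h | h
  · exact ⟨L1, Or.inl h3, hmain L1 le_rfl h⟩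
  · exact ⟨L2, Or.inr h7, hmain L2 h le_rfl⟩

/-- **the layered group is word-hyperbolic** -/
theorem hyp_of_lay (hL : Lay A gam q BB) (hA : RG A gam) (hP : Nonempty P) [Finite P]
    (hgam : 129 ≤ gam) : IsHyperbolicGroup G := by
  classical
  have hfin := finite_BB_one hL
  refine ⟨hfin.toFinset, ?_, 3, by norm_num, ?_⟩
  · rw [hfin.coe_toFinset, eq_top_iff]
    intro g _
    obtain ⟨n, hn⟩ := exists_mem_BB hL hA g
    obtain ⟨l, _, h2, rfl⟩ := (BB_iff_list hL n g).1 hn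
    exact Subgroup.list_prod_mem _ (fun x hx => Subgroup.subset_closure (h2 x hx))
  · intro w x y z
    have key := wordLength_mem hL hA hfin.toFinset hfin.coe_toFinset
    set S : Set G := (hfin.toFinset : Set G) with hSdef
    have hx := lv_inv hL (key (x⁻¹ * w))
    have hy := lv_inv hL (key (y⁻¹ * w))
    have hz := lv_inv hL (key (z⁻¹ * w))
    rw [show (x⁻¹ * w)⁻¹ = w⁻¹ * x by group] at hx
    rw [show (y⁻¹ * w)⁻¹ = w⁻¹ * y by group] at hy
    rw [show (z⁻¹ * w)⁻¹ = w⁻¹ * z by group] at hz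
    have hxy := key (x⁻¹ * y)
    have hyz := key (y⁻¹ * z)
    have hxz := key (x⁻¹ * z)
    rw [show x⁻¹ * y = (w⁻¹ * x)⁻¹ * (w⁻¹ * y) by group] at hxy
    rw [show y⁻¹ * z = (w⁻¹ * y)⁻¹ * (w⁻¹ * z) by group] at hyz
    rw [show x⁻¹ * z = (w⁻¹ * x)⁻¹ * (w⁻¹ * z) by group] at hxz
    obtain ⟨L, h1, h2⟩ := four hL hP hgam hx hy hz hxy hyz hxz
    rw [show (w⁻¹ * x)⁻¹ * (w⁻¹ * y) = x⁻¹ * y by group] at h1
    rw [show (w⁻¹ * y)⁻¹ * (w⁻¹ * z) = y⁻¹ * z by group] at h1
    rw [show (w⁻¹ * x)⁻¹ * (w⁻¹ * z) = x⁻¹ * z by group] at h2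
    unfold gromovProduct wordDist
    have h2' : ((wordLength S (x⁻¹ * z) : ℕ) : ℝ) + 2 * (L : ℝ) ≤
        (wordLength S (x⁻¹ * w) : ℝ) + (wordLength S (z⁻¹ * w) : ℝ) + 6 := by exact_mod_cast h2
    rcases h1 with h1 | h1
    · have h1' : (wordLength S (x⁻¹ * w) : ℝ) + (wordLength S (y⁻¹ * w) : ℝ) ≤
          (wordLength S (x⁻¹ * y) : ℝ) + 2 * (L : ℝ) := by exact_mod_cast h1
      have h3 := min_le_left
        (((wordLength S (x⁻¹ * w) : ℝ) + (wordLength S (y⁻¹ * w) : ℝ) -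
          (wordLength S (x⁻¹ * y) : ℝ)) / 2)
        (((wordLength S (y⁻¹ * w) : ℝ) + (wordLength S (z⁻¹ * w) : ℝ) -
          (wordLength S (y⁻¹ * z) : ℝ)) / 2)
      linarith
    · have h1' : (wordLength S (y⁻¹ * w) : ℝ) + (wordLength S (z⁻¹ * w) : ℝ) ≤
          (wordLength S (y⁻¹ * z) : ℝ) + 2 * (L : ℝ) := by exact_mod_cast h1
      have h3 := min_le_right
        (((wordLength S (x⁻¹ * w) : ℝ) + (wordLength S (y⁻¹ * w) : ℝ) -
          (wordLength S (x⁻¹ * y) : ℝ)) / 2)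
        (((wordLength S (y⁻¹ * w) : ℝ) + (wordLength S (z⁻¹ * w) : ℝ) -
          (wordLength S (y⁻¹ * z) : ℝ)) / 2)
      linarith

end Crest.Agent.R199
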