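import Crest.Agent.R199.HypDefs

/-!
Row 199, part HYPERBOLIC: short paths in spheres, `Contr`, `Hz`.

`Pa k n g g'` : there is a word of length at most `n` from `g` to `g'` all of whose prefixes stay in
the sphere `k+1`.
* `cell_path` (T1 + T3): two elements `g, g'` of `BB (k+1)` in a common cell that does not touch `BB k`
  are joined by a path `Pa k 8`.
* `path_cover` (T6): `Pa k n g g'`, `n + 16 < gam` ⟹ `Ch k 2 g g'`.
* `contr`.
-/
set_option autoImplicit false

namespace Crest.Agent.R199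

open FreeGroup (IsReduced invRev)

variable {T P G : Type} [Group G] {A : IG T P} {gam : ℕ} {q : FreeGroup T →* G} {BB : ℕ → Set G}

def Pa (q : FreeGroup T →* G) (BB : ℕ → Set G) (k n : ℕ) (g g' : G) : Prop :=
  ∃ w : List (T × Bool), w.length ≤ n ∧ g * q (FreeGroup.mk w) = g' ∧
    ∀ v, v <+: w → g * q (FreeGroup.mk v) ∈ lv BB (k + 1)

theorem prefix_append_cases {α : Type} {v L1 L2 : List α} (h : v <+: L1 ++ L2) :
    v <+: L1 ∨ ∃ t, v = L1 ++ t ∧ t <+: L2 := by
  obtain ⟨u, hu⟩ := h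
  rcases List.append_eq_append_iff.1 hu with ⟨a, h1, h2⟩ | ⟨a, h1, h2⟩
  · exact Or.inl ⟨a, h1.symm⟩
  · exact Or.inr ⟨a, h1, ⟨u, h2.symm⟩⟩

theorem Pa.trans {k m n : ℕ} {g g' g'' : G} (h : Pa q BB k m g g') (h' : Pa q BB k n g' g'') :
    Pa q BB k (m + n) g g'' := by
  obtain ⟨w, h1, h2, h3⟩ := h
  obtain ⟨w', h4, h5, h6⟩ := h'
  refine ⟨w ++ w', by rw [List.length_append]; omega, ?_, fun v hv => ?_⟩
  · rw [mk_append, map_mul, ← mul_assoc, h2, h5]
  · rcases prefix_append_cases hv with hv | ⟨t, rfl, ht⟩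
    · exact h3 v hv
    · rw [mk_append, map_mul, ← mul_assoc, h2]; exact h6 t ht

/-- every prefix of a reduction of `w` equals, in the free group, a prefix of `w`. -/
theorem prefix_red {w w' : List (T × Bool)} (h : FreeGroup.Red w w') :
    ∀ v', v' <+: w' → ∃ v, v <+: w ∧ FreeGroup.mk v = FreeGroup.mk v' := by
  induction h with
  | refl => exact fun v' hv' => ⟨v', hv', rfl⟩
  | tail _ hs ih =>
    intro v' hv'
    cases hs with
    | @not L1 L2 x y =>
      rcases prefix_append_cases hv' with hv | ⟨t, rfl, ht⟩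
      · exact ih v' (hv.trans (List.prefix_append _ _))
      · obtain ⟨v, h1, h2⟩ := ih (L1 ++ ((x, y) :: (x, !y) :: t)) (by
          rw [List.prefix_append_right_inj]
          simpa using ht)
        refine ⟨v, h1, h2.trans ?_⟩
        exact Quot.sound FreeGroup.Red.Step.not

/-- the cell of `(h, x)` does not touch `BB k`; `g, g'` are elements of it in `BB (k+1)`. -/
theorem cell_path (hL : Lay A gam q BB) (hP : Nonempty P) {k : ℕ} {h : G} {x : P}
    (hcell : ∀ w y, Rd A x w y → h * q (FreeGroup.mk w) ∉ BB k)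
    {v v' : List (T × Bool)} {y y' : P} (hv : Rd A x v y) (hv' : Rd A x v' y')
    (hg : h * q (FreeGroup.mk v) ∈ BB (k + 1)) (hg' : h * q (FreeGroup.mk v') ∈ BB (k + 1)) :
    Pa q BB k 8 (h * q (FreeGroup.mk v)) (h * q (FreeGroup.mk v')) := by
  have h0 : Rd A y (invRev v ++ v') y' := Rd_trans (Rd_inv hv) hv'
  have e0 : h * q (FreeGroup.mk v) * q (FreeGroup.mk (invRev v ++ v')) =
      h * q (FreeGroup.mk v') := by
    rw [mk_append, mk_invRev, map_mul, map_inv]; group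
  obtain ⟨u, hu1, hu2⟩ := hL.T3 (k + 1) (h * q (FreeGroup.mk v)) y (invRev v ++ v') y' hg h0
    (by rw [e0]; exact hg')
  obtain ⟨u', hr, _, _, hred⟩ := exists_reduced u
  have hu1' : Rd A y u' y' := Rd_red hred hu1
  have hu2' : ∀ t, t <+: u' → h * q (FreeGroup.mk v) * q (FreeGroup.mk t) ∈ BB (k + 1) := by
    intro t ht
    obtain ⟨t', h1, h2⟩ := prefix_red hred t ht
    rw [← h2]; exact hu2 t' h1
  have hnot : ∀ t z, Rd A y t z → h * q (FreeGroup.mk v) * q (FreeGroup.mk t) ∉ BB k := by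
    intro t z ht
    have := hcell (v ++ t) z (Rd_trans hv ht)
    rwa [mk_append, map_mul, ← mul_assoc] at this
  refine ⟨u', ?_, ?_, fun t ht => ?_⟩
  · rcases hL.T1 k _ y hg with ⟨t, z, h1, h2⟩ | h1
    · exact absurd h2 (hnot t z h1)
    · exact h1 u' y' hr hu1' hu2'
  · have e1 : q (FreeGroup.mk u') = q (FreeGroup.mk (invRev v ++ v')) := by
      have h2 := hL.rel y (u' ++ invRev (invRev v ++ v')) (Rd_trans hu1' (Rd_inv h0))
      rw [mk_append, mk_invRev, map_mul, map_inv] at h2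
      exact mul_inv_eq_one.1 h2
    rw [e1, e0]
  · rw [lv_succ_iff hL hP]
    obtain ⟨z, hz⟩ := Rd_prefix hu1' ht
    exact ⟨hu2' t ht, hnot t z hz⟩

theorem path_cover (hL : Lay A gam q BB) {k n : ℕ} {g g' : G} (hn : n + 16 < gam)
    (h : Pa q BB k n g g') : Ch A q BB k 2 g g' := by
  obtain ⟨w, h1, h2, h3⟩ := h
  obtain ⟨w', hr, hlen, hmk, hred⟩ := exists_reduced w
  have h3' : ∀ v, v <+: w' → g * q (FreeGroup.mk v) ∈ lv BB (k + 1) := by
    intro t ht
    obtain ⟨t', h1, h2⟩ := prefix_red hred t ht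
    rw [← h2]; exact h3 t' h1
  obtain ⟨w₁, w₂, rfl, ⟨b, hb, x, v, y, y', h4, h5, h6⟩, ⟨b', hb', x', u, z, z', h7, h8, h9⟩⟩ :=
    hL.T6 k g w' hr (by omega) (fun v hv => ⟨(h3' v hv).1, (h3' v hv).2 k (Nat.lt_succ_self k)⟩)
  have hg : g ∈ lv BB (k + 1) := by
    have := h3' [] (List.nil_prefix)
    rwa [show FreeGroup.mk ([] : List (T × Bool)) = 1 from rfl, map_one, mul_one] at this
  have hg1 : g * q (FreeGroup.mk w₁) ∈ lv BB (k + 1) := h3' w₁ (List.prefix_append _ _)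
  have hg2 : g' ∈ lv BB (k + 1) := by
    have := h3' (w₁ ++ w₂) (List.prefix_refl _)
    rwa [hmk, h2] at this
  refine ⟨g * q (FreeGroup.mk w₁), hg, ⟨b, hb, x, v, y, v ++ w₁, y', h4, Rd_trans h4 h6, h5, ?_⟩,
    g', hg1, ⟨b', hb', x', u, z, u ++ w₂, z', h7, Rd_trans h7 h9, h8, ?_⟩, hg2, rfl⟩
  · rw [mk_append, map_mul, ← mul_assoc, ← h5]
  · rw [mk_append, map_mul, ← mul_assoc, ← h8, ← h2, ← hmk, mk_append, map_mul, mul_assoc]

/-- one step: `b` and `p` in a common cell, `p` and `b'` in a common cell, `b, b' ∈ BB (k+1)`,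
`p ∈ lv (k+2)`: there is `b₁ ∈ BB (k+1)` in both cells, joined to `b` by a short path. -/
theorem contr_step (hL : Lay A gam q BB) (hP : Nonempty P) {k : ℕ} {b b' p : G}
    (hb : b ∈ BB (k + 1)) (hb' : b' ∈ BB (k + 1)) (hp : p ∈ lv BB (k + 2))
    {x x' y y' : P} {w w' : List (T × Bool)} (hw : Rd A x w y) (hw' : Rd A x' w' y')
    (e : p = b * q (FreeGroup.mk w)) (e' : p = b' * q (FreeGroup.mk w')) :
    ∃ v' z', Rd A x' v' z' ∧ b' * q (FreeGroup.mk v') ∈ BB (k + 1) ∧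
      Pa q BB k 8 b (b' * q (FreeGroup.mk v')) := by
  obtain ⟨v, z, v', z', h1, h2, h3, h4⟩ := hL.T2 (k + 1) b b' x w y x' w' y' hb hb' hw hw'
    (by rw [← e, ← e']) (by rw [← e]; exact hp.2 _ (by omega))
  refine ⟨v', z', h2, by rw [← h3]; exact h4, ?_⟩
  have h5 := cell_path hL hP (k := k) (h := b) (x := x) (v := []) (v' := v) (y := x) (y' := z)
    (by
      intro t s ht hmem
      -- the cell contains `p`, of level `k+2`
      have h6 : (b * q (FreeGroup.mk t))⁻¹ * p ∈ BB 1 := by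
        refine (BB_one_iff hL _).2 ⟨s, invRev t ++ w, y, Rd_trans (Rd_inv ht) hw, ?_⟩
        rw [mk_append, mk_invRev, map_mul, map_inv, e]; group
      exact hp.2 (k + 1) (by omega) (BB_step hL hmem h6)) rfl h1
    (by rw [show FreeGroup.mk ([] : List (T × Bool)) = 1 from rfl, map_one, mul_one]; exact hb) h4
  rw [show FreeGroup.mk ([] : List (T × Bool)) = 1 from rfl, map_one, mul_one, h3] at h5
  exact h5

theorem contr_path (hL : Lay A gam q BB) (hP : Nonempty P) {k m : ℕ} {p p' : G}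
    (hp : Ch A q BB (k + 1) m p p') : ∀ b b', b ∈ BB (k + 1) → b' ∈ BB (k + 1) →
      b⁻¹ * p ∈ BB 1 → b'⁻¹ * p' ∈ BB 1 → Pa q BB k (8 * (m + 2)) b b' := by
  induction m generalizing p with
  | zero =>
    intro b b' hb hb' h1 h2
    obtain ⟨hp1, rfl⟩ := hp
    obtain ⟨x, w, y, h3, h4⟩ := (BB_one_iff hL _).1 h1
    obtain ⟨x', w', y', h5, h6⟩ := (BB_one_iff hL _).1 h2
    obtain ⟨v', z', h7, h8, h9⟩ := contr_step hL hP hb hb' hp1 h3 h5
      (by rw [← h4]; group) (by rw [← h6]; group)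
    refine (h9.trans (n := 8) ?_)
    have h10 := cell_path hL hP (k := k) (h := b') (x := x') (v := v') (v' := []) (y := z')
      (y' := x')
      (by
        intro t s ht hmem
        have h6 : (b' * q (FreeGroup.mk t))⁻¹ * p ∈ BB 1 := by
          refine (BB_one_iff hL _).2 ⟨s, invRev t ++ w', y', Rd_trans (Rd_inv ht) h5, ?_⟩
          rw [mk_append, mk_invRev, map_mul, map_inv, ← h6]; group
        exact hp1.2 (k + 1) (by omega) (BB_step hL hmem h6)) h7 rfl h8
      (by rw [show FreeGroup.mk ([] : List (T × Bool)) = 1 from rfl, map_one, mul_one]; exact hb')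
    rwa [show FreeGroup.mk ([] : List (T × Bool)) = 1 from rfl, map_one, mul_one] at h10
  | succ m ih =>
    intro b b' hb hb' h1 h2
    obtain ⟨r, hp1, ⟨g, hg, x', v, y, v', y', h3, h4, h5, h6⟩, h7⟩ := hp
    obtain ⟨x, w, z, h8, h9⟩ := (BB_one_iff hL _).1 h1
    obtain ⟨u, t, h10, h11, h12⟩ := contr_step hL hP hb hg hp1 h8 h3
      (by rw [← h9]; group) h5
    have h13 := ih h7 (g * q (FreeGroup.mk u)) b' h11 hb' (by
      refine (BB_one_iff hL _).2 ⟨t, invRev u ++ v', y', Rd_trans (Rd_inv h10) h4, ?_⟩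
      rw [mk_append, mk_invRev, map_mul, map_inv, h6]; group) h2
    have h14 := h12.trans h13
    rwa [show 8 + 8 * (m + 2) = 8 * (m + 1 + 2) by ring] at h14

/-- `Contr` -/
theorem contr (hL : Lay A gam q BB) (hP : Nonempty P) {k m : ℕ} {p p' b b' : G}
    (hm : 8 * (m + 2) + 16 < gam) (hp : Ch A q BB (k + 1) m p p') (hb : b ∈ BB (k + 1))
    (hb' : b' ∈ BB (k + 1)) (h1 : b⁻¹ * p ∈ BB 1) (h2 : b'⁻¹ * p' ∈ BB 1) :
    Ch A q BB k 2 b b' :=
  path_cover hL hm (contr_path hL hP hp b b' hb hb' h1 h2)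

/-- `Hz` -/
theorem hz (hL : Lay A gam q BB) (hP : Nonempty P) (hgam : 25 ≤ gam) {k : ℕ} {p p' : G}
    (hp : p ∈ lv BB (k + 1)) (hp' : p' ∈ lv BB (k + 1)) (h : p⁻¹ * p' ∈ BB 1) :
    Ch A q BB k 2 p p' := by
  obtain ⟨x, w, y, h1, h2⟩ := (BB_one_iff hL _).1 h
  have e : p' = p * q (FreeGroup.mk w) := by rw [← h2]; group
  by_cases hc : ∀ v z, Rd A x v z → p * q (FreeGroup.mk v) ∉ BB k
  · have h3 := cell_path hL hP (k := k) (h := p) (x := x) hc (v := []) (v' := w) (y := x) (y' := y)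
      rfl h1 (by
        rw [show FreeGroup.mk ([] : List (T × Bool)) = 1 from rfl, map_one, mul_one]; exact hp.1)
      (by rw [← e]; exact hp'.1)
    rw [show FreeGroup.mk ([] : List (T × Bool)) = 1 from rfl, map_one, mul_one, ← e] at h3
    exact path_cover hL (by omega) h3
  · push Not at hc
    obtain ⟨v, z, h3, h4⟩ := hc
    refine Ch.mono hL (m := 1) (by omega) (Ch.single hp hp' ⟨p * q (FreeGroup.mk v), h4, z,
      invRev v, x, invRev v ++ w, y, Rd_inv h3, Rd_trans (Rd_inv h3) h1, ?_, ?_⟩)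
    · rw [mk_invRev, map_inv]; group
    · rw [mk_append, mk_invRev, map_mul, map_inv, e]; group

end Crest.Agent.R199
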