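import Crest.Agent.R199.Basic

/-!
Row 199, piece C0: basic notions for a layered group (`Lay A gam q BB`).

`St g h`  : g and h lie in a common cell.            `Dn n g h` : chain of n `St` steps.
`CC k p p'` : p, p' lie in a common cell containing an element of BB k.
`Lev l p` : p has level exactly l.
`Ch l m p p'` : p, p' of level l joined by a chain of m cells touching BB (l-1) through elements of
level l (for l = 0: p = p' = 1).

PROOFS: all routine. BB is monotone (succ with w = [], P nonempty); `qv` is multiplicative;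
`BB k ∋ h ↔ Dn k 1 h` (induction, zero/succ); St symmetric with invRev; left invariance.
`exists_lev`: surj, h = q (mk w), `Dn w.length 1 h` by US (each letter is read on an edge of A), Nat.find.
-/
set_option autoImplicit false

namespace Crest.Agent.R199

open FreeGroup (IsReduced invRev)

variable {T P G : Type} [Group G] (A : IG T P) (q : FreeGroup T →* G) (BB : ℕ → Set G)

/-- value of a word -/
def qv {T G : Type} [Group G] (q : FreeGroup T →* G) (w : List (T × Bool)) : G :=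
  q (FreeGroup.mk w)

theorem qv_nil {T G : Type} [Group G] (q : FreeGroup T →* G) : qv q [] = 1 := by
  unfold qv; exact map_one q

theorem qv_append {T G : Type} [Group G] (q : FreeGroup T →* G) (w w' : List (T × Bool)) :
    qv q (w ++ w') = qv q w * qv q w' := by
  unfold qv; rw [← FreeGroup.mul_mk, map_mul]

theorem qv_invRev {T G : Type} [Group G] (q : FreeGroup T →* G) (w : List (T × Bool)) :
    qv q (invRev w) = (qv q w)⁻¹ := by
  unfold qv; rw [← FreeGroup.inv_mk, map_inv]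

def St (g h : G) : Prop := ∃ x w y, Rd A x w y ∧ h = g * qv q w

def Dn : ℕ → G → G → Prop
  | 0, g, h => g = h
  | n + 1, g, h => ∃ g', Dn n g g' ∧ St A q g' h

def CC (k : ℕ) (p p' : G) : Prop :=
  ∃ b ∈ BB k, ∃ x w y w' y', Rd A x w y ∧ Rd A x w' y' ∧ p = b * qv q w ∧ p' = b * qv q w'

def Lev {G : Type} (BB : ℕ → Set G) (l : ℕ) (p : G) : Prop := p ∈ BB l ∧ ∀ k, k < l → p ∉ BB k

def Ch : ℕ → ℕ → G → G → Prop
  | 0, _, p, p' => p = 1 ∧ p' = 1
  | l + 1, 0, p, p' => p = p' ∧ Lev BB (l + 1) p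
  | l + 1, m + 1, p, p' => ∃ p'', Ch (l + 1) m p p'' ∧ CC A q BB l p'' p' ∧ Lev BB (l + 1) p'

/-- `b` is an ancestor of `x` at level `k` (on a geodesic from 1 to x) -/
def Anc (k : ℕ) (x b : G) : Prop := b ∈ BB k ∧ ∃ a, Lev BB a x ∧ k ≤ a ∧ Dn A q (a - k) b x

section
variable {A q}

theorem St_refl [Nonempty P] (g : G) : St A q g g := by
  obtain ⟨x⟩ := ‹Nonempty P›
  exact ⟨x, [], x, rfl, by rw [qv_nil, mul_one]⟩

theorem St_symm {g h : G} (hs : St A q g h) : St A q h g := by
  obtain ⟨x, w, y, h1, h2⟩ := hs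
  exact ⟨y, invRev w, x, Rd_inv h1, by rw [h2, qv_invRev]; group⟩

theorem St_mul {g h : G} (c : G) (hs : St A q g h) : St A q (c * g) (c * h) := by
  obtain ⟨x, w, y, h1, h2⟩ := hs
  exact ⟨x, w, y, h1, by rw [h2, mul_assoc]⟩

theorem Dn_trans {n m : ℕ} {g h k : G} (h1 : Dn A q n g h) (h2 : Dn A q m h k) :
    Dn A q (n + m) g k := by
  induction m generalizing k with
  | zero => obtain rfl : h = k := h2; exact h1
  | succ m ih =>
    obtain ⟨k', h3, h4⟩ := h2
    exact ⟨k', ih h3, h4⟩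

theorem Dn_one {g h : G} (hs : St A q g h) : Dn A q 1 g h := ⟨g, rfl, hs⟩

theorem Dn_head {n : ℕ} {g g' h : G} (hs : St A q g g') (hd : Dn A q n g' h) :
    Dn A q (n + 1) g h := by
  have := Dn_trans (Dn_one hs) hd
  rwa [Nat.add_comm] at this

theorem Dn_split {n m : ℕ} {g h : G} (hd : Dn A q (n + m) g h) :
    ∃ k, Dn A q n g k ∧ Dn A q m k h := by
  induction m generalizing h with
  | zero => exact ⟨h, hd, rfl⟩
  | succ m ih =>
    obtain ⟨h', h1, h2⟩ := hd
    obtain ⟨k, h3, h4⟩ := ih h1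
    exact ⟨k, h3, h', h4, h2⟩

theorem Dn_head' {n : ℕ} {g h : G} (hd : Dn A q (n + 1) g h) :
    ∃ k, St A q g k ∧ Dn A q n k h := by
  rw [Nat.add_comm] at hd
  obtain ⟨k, ⟨g', h1, h2⟩, h3⟩ := Dn_split hd
  obtain rfl : g = g' := h1
  exact ⟨k, h2, h3⟩

theorem Dn_symm {n : ℕ} {g h : G} (h1 : Dn A q n g h) : Dn A q n h g := by
  induction n generalizing h with
  | zero => exact (show g = h from h1).symm
  | succ n ih =>
    obtain ⟨h', h2, h3⟩ := h1
    exact Dn_head (St_symm h3) (ih h2)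

theorem Dn_mul {n : ℕ} {g h : G} (c : G) (h1 : Dn A q n g h) : Dn A q n (c * g) (c * h) := by
  induction n generalizing h with
  | zero => exact congrArg (c * ·) (show g = h from h1)
  | succ n ih =>
    obtain ⟨h', h2, h3⟩ := h1
    exact ⟨c * h', ih h2, St_mul c h3⟩

theorem Dn_mono [Nonempty P] {n m : ℕ} {g h : G} (h1 : Dn A q n g h) (hm : n ≤ m) :
    Dn A q m g h := by
  induction hm with
  | refl => exact h1
  | step _ ih => exact ⟨h, ih, St_refl h⟩

/-- a chain as a function -/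
theorem Dn_fun {n : ℕ} {g h : G} : Dn A q n g h ↔
    ∃ c : ℕ → G, c 0 = g ∧ c n = h ∧ ∀ t, t < n → St A q (c t) (c (t + 1)) := by
  constructor
  · intro h1
    induction n generalizing h with
    | zero => exact ⟨fun _ => g, rfl, h1, fun t ht => absurd ht (Nat.not_lt_zero _)⟩
    | succ n ih =>
      obtain ⟨h', h2, h3⟩ := h1
      obtain ⟨c, c1, c2, c3⟩ := ih h2
      refine ⟨fun t => if t ≤ n then c t else h, ?_, ?_, ?_⟩
      · simpa using c1
      · simp
      · intro t ht
        by_cases htn : t < n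
        · simp only [if_pos (show t ≤ n by omega), if_pos (show t + 1 ≤ n by omega)]
          exact c3 t htn
        · obtain rfl : t = n := by omega
          simp only [le_refl, if_true, if_neg (show ¬ t + 1 ≤ t by omega), c2]
          exact h3
  · rintro ⟨c, rfl, rfl, h3⟩
    induction n with
    | zero => exact rfl
    | succ n ih => exact ⟨c n, ih fun t ht => h3 t (by omega), h3 n (by omega)⟩

end

section
variable {A q BB} {gam : ℕ} (hL : Lay A gam q BB)
include hL

theorem lay_val {x y : P} {w w' : List (T × Bool)} (h : Rd A x w y) (h' : Rd A x w' y) :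
    qv q w = qv q w' := by
  have h1 := hL.rel x _ (Rd_trans h (Rd_inv h'))
  have h2 : qv q w * (qv q w')⁻¹ = 1 := by rw [← qv_invRev, ← qv_append]; exact h1
  exact mul_inv_eq_one.1 h2

theorem BB_mono [Nonempty P] {k l : ℕ} (hkl : k ≤ l) : BB k ⊆ BB l := by
  induction hkl with
  | refl => exact fun _ h => h
  | step _ ih =>
    obtain ⟨x⟩ := ‹Nonempty P›
    intro h hh
    exact (hL.succ _ _).2 ⟨h, ih hh, x, [], x, rfl, by
      rw [show FreeGroup.mk ([] : List (T × Bool)) = 1 from rfl, map_one, mul_one]⟩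

theorem mem_BB_iff {k : ℕ} {h : G} : h ∈ BB k ↔ Dn A q k 1 h := by
  induction k generalizing h with
  | zero =>
    rw [hL.zero, Set.mem_singleton_iff]
    exact eq_comm
  | succ k ih =>
    rw [hL.succ]
    constructor
    · rintro ⟨g, hg, x, w, y, h1, h2⟩
      exact ⟨g, ih.1 hg, x, w, y, h1, h2⟩
    · rintro ⟨g, hg, x, w, y, h1, h2⟩
      exact ⟨g, ih.2 hg, x, w, y, h1, h2⟩

theorem St_BB {k : ℕ} {g h : G} (hg : g ∈ BB k) (hs : St A q g h) : h ∈ BB (k + 1) := by
  obtain ⟨x, w, y, h1, h2⟩ := hs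
  exact (hL.succ _ _).2 ⟨g, hg, x, w, y, h1, h2⟩

theorem Dn_BB {k n : ℕ} {g h : G} (hg : g ∈ BB k) (hd : Dn A q n g h) : h ∈ BB (k + n) :=
  (mem_BB_iff hL).2 (Dn_trans ((mem_BB_iff hL).1 hg) hd)

theorem exists_lev [Nonempty P] (hA : RG A gam) (h : G) : ∃ a, Lev BB a h := by
  classical
  have key : ∀ w : List (T × Bool), ∃ k, qv q w ∈ BB k := by
    intro w
    induction w using List.reverseRecOn with
    | nil => exact ⟨0, by rw [hL.zero, qv_nil]; rfl⟩
    | append_singleton w a ih =>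
      obtain ⟨k, hk⟩ := ih
      obtain ⟨y, y', hy⟩ := hA.US a
      exact ⟨k + 1, St_BB hL hk ⟨y, [a], y', Rd_single.2 hy, by rw [qv_append]⟩⟩
  obtain ⟨f, rfl⟩ := hL.surj h
  have hex : ∃ k, q f ∈ BB k := by
    obtain ⟨k, hk⟩ := key f.toWord
    refine ⟨k, ?_⟩
    unfold qv at hk
    rwa [FreeGroup.mk_toWord] at hk
  exact ⟨Nat.find hex, Nat.find_spec hex, fun k hk => Nat.find_min hex hk⟩

theorem Lev_unique {a a' : ℕ} {h : G} (h1 : Lev BB a h) (h2 : Lev BB a' h) : a = a' := by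
  rcases lt_trichotomy a a' with h3 | h3 | h3
  · exact absurd h1.1 (h2.2 _ h3)
  · exact h3
  · exact absurd h2.1 (h1.2 _ h3)

/-- levels change by at most one along a step -/
theorem Lev_St {a a' : ℕ} {g h : G} (h1 : Lev BB a g) (h2 : Lev BB a' h) (hs : St A q g h) :
    a' ≤ a + 1 := by
  by_contra h3
  exact h2.2 (a + 1) (by omega) (St_BB hL h1.1 hs)

/-- an element of level l+1 has a neighbour of level l -/
theorem exists_pred {l : ℕ} {h : G} (h1 : Lev BB (l + 1) h) : ∃ b, Lev BB l b ∧ St A q b h := by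
  obtain ⟨b, hb, x, w, y, h2, h3⟩ := (hL.succ _ _).1 h1.1
  have hs : St A q b h := ⟨x, w, y, h2, h3⟩
  exact ⟨b, ⟨hb, fun k hk hk' => h1.2 (k + 1) (by omega) (St_BB hL hk' hs)⟩, hs⟩

theorem Lev_zero {h : G} : Lev BB 0 h ↔ h = 1 := by
  unfold Lev
  rw [hL.zero, Set.mem_singleton_iff]
  exact ⟨fun h => h.1, fun h => ⟨h, fun k hk => absurd hk (Nat.not_lt_zero _)⟩⟩

theorem Anc_lev {k : ℕ} {x b : G} (h : Anc A q BB k x b) : Lev BB k b := by
  obtain ⟨h1, a, h2, h3, h4⟩ := h
  exact ⟨h1, fun k' hk' hb => h2.2 (k' + (a - k)) (by omega) (Dn_BB hL hb h4)⟩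

/-- the next ancestor -/
theorem Anc_next {k a : ℕ} {x b : G} (h : Anc A q BB k x b) (ha : Lev BB a x) (hk : k < a) :
    ∃ b', Anc A q BB (k + 1) x b' ∧ St A q b b' := by
  obtain ⟨h1, a', h2, h3, h4⟩ := h
  obtain rfl := Lev_unique hL ha h2
  obtain ⟨n, hn⟩ : ∃ n, a - k = n + 1 := ⟨a - k - 1, by omega⟩
  rw [hn] at h4
  obtain ⟨b', h5, h6⟩ := Dn_head' h4
  refine ⟨b', ⟨St_BB hL h1 h5, a, ha, hk, ?_⟩, h5⟩
  rwa [show a - (k + 1) = n by omega]

theorem Anc_exists {k a : ℕ} {x : G} (ha : Lev BB a x) (hk : k ≤ a) : ∃ b, Anc A q BB k x b := by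
  have h1 := (mem_BB_iff hL).1 ha.1
  rw [show a = k + (a - k) by omega] at h1
  obtain ⟨b, h2, h3⟩ := Dn_split h1
  exact ⟨b, (mem_BB_iff hL).2 h2, a, ha, hk, h3⟩

/-- an ancestor of an ancestor's predecessor chain: b at level k, b₂ ancestor at level k+1 with
`St b b₂` -/
theorem Anc_step {k : ℕ} {x b b' : G} (h : Anc A q BB (k + 1) x b') (hb : b ∈ BB k)
    (hs : St A q b b') : Anc A q BB k x b := by
  obtain ⟨h1, a, h2, h3, h4⟩ := h
  refine ⟨hb, a, h2, by omega, ?_⟩
  rw [show a - k = (a - (k + 1)) + 1 by omega]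
  exact Dn_head hs h4

omit hL in
theorem CC_symm {k : ℕ} {p p' : G} (h : CC A q BB k p p') : CC A q BB k p' p := by
  obtain ⟨b, hb, x, w, y, w', y', h1, h2, h3, h4⟩ := h
  exact ⟨b, hb, x, w', y', w, y, h2, h1, h4, h3⟩

omit hL in
theorem CC_St {k : ℕ} {p p' : G} (h : CC A q BB k p p') : St A q p p' := by
  obtain ⟨b, hb, x, w, y, w', y', h1, h2, h3, h4⟩ := h
  exact ⟨y, invRev w ++ w', y', Rd_trans (Rd_inv h1) h2, by
    rw [qv_append, qv_invRev, h3, h4]; group⟩

omit hL in
theorem Ch_head {l m : ℕ} {p p' p'' : G} (h1 : CC A q BB l p p'') (h2 : Lev BB (l + 1) p)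
    (h3 : Ch A q BB (l + 1) m p'' p') : Ch A q BB (l + 1) (m + 1) p p' := by
  induction m generalizing p' with
  | zero =>
    obtain ⟨rfl, h4⟩ := h3
    exact ⟨p, ⟨rfl, h2⟩, h1, h4⟩
  | succ m ih =>
    obtain ⟨r, h4, h5, h6⟩ := h3
    exact ⟨r, ih h4, h5, h6⟩

theorem Ch_Dn [Nonempty P] {l m : ℕ} {p p' : G} (h : Ch A q BB l m p p') : Dn A q m p p' := by
  cases l with
  | zero =>
    cases m with
    | zero =>
      obtain ⟨rfl, rfl⟩ := h
      rfl
    | succ m =>
      obtain ⟨rfl, rfl⟩ := h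
      exact Dn_mono (n := 0) rfl (Nat.zero_le _)
  | succ l =>
    induction m generalizing p' with
    | zero => exact h.1
    | succ m ih =>
      obtain ⟨p'', h1, h2, -⟩ := h
      exact ⟨p'', ih h1, CC_St h2⟩

theorem Ch_lev {l m : ℕ} {p p' : G} (h : Ch A q BB l m p p') : Lev BB l p ∧ Lev BB l p' := by
  cases l with
  | zero =>
    cases m with
    | zero => exact ⟨(Lev_zero hL).2 h.1, (Lev_zero hL).2 h.2⟩
    | succ m => exact ⟨(Lev_zero hL).2 h.1, (Lev_zero hL).2 h.2⟩
  | succ l =>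
    induction m generalizing p' with
    | zero =>
      obtain ⟨rfl, h1⟩ := h
      exact ⟨h1, h1⟩
    | succ m ih =>
      obtain ⟨p'', h1, h2, h3⟩ := h
      exact ⟨(ih h1).1, h3⟩

theorem Ch_symm {l m : ℕ} {p p' : G} (h : Ch A q BB l m p p') : Ch A q BB l m p' p := by
  cases l with
  | zero =>
    cases m with
    | zero => exact ⟨h.2, h.1⟩
    | succ m => exact ⟨h.2, h.1⟩
  | succ l =>
    induction m generalizing p' with
    | zero =>
      obtain ⟨rfl, h1⟩ := h
      exact ⟨rfl, h1⟩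
    | succ m ih =>
      obtain ⟨p'', h1, h2, h3⟩ := h
      exact Ch_head (CC_symm h2) h3 (ih h1)

theorem Ch_trans {l m m' : ℕ} {p p' p'' : G} (h : Ch A q BB l m p p')
    (h' : Ch A q BB l m' p' p'') : Ch A q BB l (m + m') p p'' := by
  cases l with
  | zero =>
    have e1 : p = 1 := by
      cases m with
      | zero => exact h.1
      | succ m => exact h.1
    have e2 : p'' = 1 := by
      cases m' with
      | zero => exact h'.2
      | succ m => exact h'.2
    generalize m + m' = n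
    cases n with
    | zero => exact ⟨e1, e2⟩
    | succ n => exact ⟨e1, e2⟩
  | succ l =>
    induction m' generalizing p'' with
    | zero =>
      obtain ⟨rfl, h1⟩ := h'
      exact h
    | succ m' ih =>
      obtain ⟨r, h1, h2, h3⟩ := h'
      exact ⟨r, ih h1, h2, h3⟩

theorem Ch_mono [Nonempty P] {l m m' : ℕ} {p p' : G} (h : Ch A q BB l m p p') (hm : m ≤ m') :
    Ch A q BB l m' p p' := by
  cases l with
  | zero =>
    have e : p = 1 ∧ p' = 1 := by
      cases m with
      | zero => exact h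
      | succ m => exact h
    cases m' with
    | zero => exact e
    | succ m' => exact e
  | succ l =>
    induction hm with
    | refl => exact h
    | step _ ih =>
      have hl := (Ch_lev hL h).2
      refine ⟨p', ih, ?_, hl⟩
      obtain ⟨b, hb, x, w, y, h2, h3⟩ := (hL.succ _ _).1 hl.1
      exact ⟨b, hb, x, w, y, w, y, h2, h2, h3, h3⟩

end

end Crest.Agent.R199
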