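import Crest.Agent.R199.PlusBasic

/-!
Row 199, piece B2: the direct limit of the tower, a total inverse graph in which the relators close.

PROOF. Ω := direct limit of the `Tw.B k` along the injective maps `Tw.ι k` (`iota_inj`), the
quotient of `Σ k, Tw.B k` by "equal after pushing both to a common level".
Edges: Δ.E ω a ω' iff ∃ k b b', ω = j k b, ω' = j k b', (Γ k).E b a b'. Determinism: push to a common
level (`rd_iota` for one letter). `E (j k b) a (j k b') ↔ (Γ k).E b a b'` by pushing and going back with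
`e_iota_iff`. Total: ω = j k b, US gives y,y' with A.E y a y'; `iota_at` At (ι b) b y y, `rd_at` for [a].
Relators: Rd A x w x: `rd_at` from At (ι b) b x x gives At β' b x x, Rd (ι b) w β' and β' = ι b by
`at_uniq`.
-/
set_option autoImplicit false

namespace Crest.Agent.R199

variable {T P : Type}

namespace LimitAux

variable {A : IG T P} (Tw : Tower A)

/-- push one level up -/
def up (p : Σ k, Tw.B k) : Σ k, Tw.B k := ⟨p.1 + 1, Tw.ι p.1 p.2⟩

theorem up_level (n : ℕ) (p : Σ k, Tw.B k) : ((up Tw)^[n] p).1 = p.1 + n := by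
  induction n generalizing p with
  | zero => rfl
  | succ n ih =>
    rw [Function.iterate_succ_apply, ih]
    show p.1 + 1 + n = p.1 + (n + 1)
    omega

theorem up_inj [Nonempty P] : Function.Injective (up Tw) := by
  rintro ⟨k, b⟩ ⟨l, c⟩ h
  have h1 : k + 1 = l + 1 := congrArg Sigma.fst h
  obtain rfl : k = l := by omega
  simp only [up, Sigma.mk.injEq, heq_eq_eq, true_and] at h
  rw [iota_inj (Tw.good k) (Tw.plus k) h]

/-- the relation of being equal at some level -/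
def rel (p q : Σ k, Tw.B k) : Prop := ∃ n m, (up Tw)^[n] p = (up Tw)^[m] q

theorem rel_equiv : Equivalence (rel Tw) where
  refl p := ⟨0, 0, rfl⟩
  symm := fun ⟨n, m, h⟩ => ⟨m, n, h.symm⟩
  trans := by
    rintro p q s ⟨n, m, h⟩ ⟨n', m', h'⟩
    refine ⟨n' + n, m + m', ?_⟩
    rw [Function.iterate_add_apply, h, ← Function.iterate_add_apply, Nat.add_comm,
      Function.iterate_add_apply, h', ← Function.iterate_add_apply]

def stp : Setoid (Σ k, Tw.B k) := ⟨rel Tw, rel_equiv Tw⟩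

/-- edges on the disjoint union -/
def E' (p : Σ k, Tw.B k) (a : T × Bool) (q : Σ k, Tw.B k) : Prop :=
  ∃ k b b', p = ⟨k, b⟩ ∧ q = ⟨k, b'⟩ ∧ (Tw.Γ k).E b a b'

theorem E'_level {p q : Σ k, Tw.B k} {a : T × Bool} (h : E' Tw p a q) : p.1 = q.1 := by
  obtain ⟨k, b, b', rfl, rfl, _⟩ := h
  rfl

theorem E'_mk {k : ℕ} {b b' : Tw.B k} {a : T × Bool} :
    E' Tw ⟨k, b⟩ a ⟨k, b'⟩ ↔ (Tw.Γ k).E b a b' := by
  constructor
  · rintro ⟨l, c, c', h1, h2, h3⟩
    obtain rfl : k = l := congrArg Sigma.fst h1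
    simp only [Sigma.mk.injEq, heq_eq_eq, true_and] at h1 h2
    subst h1; subst h2
    exact h3
  · intro h
    exact ⟨k, b, b', rfl, rfl, h⟩

theorem E'_det {p q q' : Σ k, Tw.B k} {a : T × Bool} (h : E' Tw p a q) (h' : E' Tw p a q') :
    q = q' := by
  obtain ⟨k, b, b', rfl, rfl, h1⟩ := h
  obtain ⟨l, c, c', h2, rfl, h3⟩ := h'
  obtain rfl : k = l := congrArg Sigma.fst h2
  simp only [Sigma.mk.injEq, heq_eq_eq, true_and] at h2
  subst h2
  rw [(Tw.Γ k).det _ _ _ _ h1 h3]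

theorem E'_symm {p q : Σ k, Tw.B k} {a : T × Bool} (h : E' Tw p a q) :
    E' Tw q (a.1, !a.2) p := by
  obtain ⟨k, b, b', rfl, rfl, h1⟩ := h
  exact ⟨k, b', b, rfl, rfl, (Tw.Γ k).symm _ _ _ h1⟩

theorem E'_up {gam : ℕ} (hA : RG A gam) (hgam : 129 ≤ gam) {p q : Σ k, Tw.B k}
    {a : T × Bool} (hl : p.1 = q.1) : E' Tw (up Tw p) a (up Tw q) ↔ E' Tw p a q := by
  obtain ⟨k, b⟩ := p
  obtain ⟨l, c⟩ := q
  obtain rfl : k = l := hl
  show E' Tw ⟨k + 1, Tw.ι k b⟩ a ⟨k + 1, Tw.ι k c⟩ ↔ _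
  rw [E'_mk, E'_mk]
  exact e_iota_iff hA hgam (Tw.good k) (Tw.plus k)

theorem E'_iter {gam : ℕ} (hA : RG A gam) (hgam : 129 ≤ gam) (n : ℕ) {p q : Σ k, Tw.B k}
    {a : T × Bool} (hl : p.1 = q.1) :
    E' Tw ((up Tw)^[n] p) a ((up Tw)^[n] q) ↔ E' Tw p a q := by
  induction n with
  | zero => rfl
  | succ n ih =>
    rw [Function.iterate_succ_apply', Function.iterate_succ_apply', E'_up Tw hA hgam, ih]
    rw [up_level, up_level, hl]

theorem E'_rel {gam : ℕ} (hA : RG A gam) (hgam : 129 ≤ gam) {p q p' q' : Σ k, Tw.B k}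
    {a : T × Bool} (hp : rel Tw p p') (hq : rel Tw q q') (hl : p'.1 = q'.1)
    (h : E' Tw p a q) : E' Tw p' a q' := by
  obtain ⟨n, m, h1⟩ := hp
  obtain ⟨n', m', h2⟩ := hq
  have hl0 := E'_level Tw h
  have e1 : p.1 + n = p'.1 + m := by
    rw [← up_level, ← up_level, h1]
  have e2 : q.1 + n' = q'.1 + m' := by
    rw [← up_level, ← up_level, h2]
  have h3 := (E'_iter Tw hA hgam (n + n') hl0 (a := a)).2 h
  have h4 : (up Tw)^[n + n'] p = (up Tw)^[n' + m] p' := by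
    rw [Nat.add_comm, Function.iterate_add_apply, h1, ← Function.iterate_add_apply]
  have h5 : (up Tw)^[n + n'] q = (up Tw)^[n + m'] q' := by
    rw [Function.iterate_add_apply, h2, ← Function.iterate_add_apply]
  have e3 : n + m' = n' + m := by omega
  rw [h4, h5, e3] at h3
  exact (E'_iter Tw hA hgam (n' + m) hl).1 h3

end LimitAux

open LimitAux

theorem exists_limit [Nonempty P] {A : IG T P} {gam : ℕ} (hA : RG A gam) (hgam : 129 ≤ gam)
    (Tw : Tower A) :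
    ∃ (Ω : Type) (Δ : IG T Ω) (j : ∀ k, Tw.B k → Ω), (∀ k, Function.Injective (j k)) ∧
      (∀ k b, j (k + 1) (Tw.ι k b) = j k b) ∧ (∀ ω, ∃ k b, j k b = ω) ∧
      (∀ k b a b', Δ.E (j k b) a (j k b') ↔ (Tw.Γ k).E b a b') ∧
      (∀ ω a, ∃ ω', Δ.E ω a ω') ∧ ∀ x w ω, Rd A x w x → Rd Δ ω w ω := by
  classical
  let Ω : Type := Quotient (stp Tw)
  let mk : (Σ k, Tw.B k) → Ω := Quotient.mk (stp Tw)
  have mk_eq : ∀ p q, mk p = mk q ↔ rel Tw p q := fun p q => Quotient.eq (r := stp Tw)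
  let Δ : IG T Ω :=
    { E := fun ω a ω' => ∃ p q, mk p = ω ∧ mk q = ω' ∧ E' Tw p a q
      symm := by
        rintro _ a _ ⟨p, q, rfl, rfl, h⟩
        exact ⟨q, p, rfl, rfl, E'_symm Tw h⟩
      det := by
        rintro _ a _ _ ⟨p, q, rfl, rfl, h⟩ ⟨p', q', h1, rfl, h'⟩
        obtain ⟨n, m, h2⟩ := (mk_eq p' p).1 h1
        rw [mk_eq]
        refine ⟨m, n, ?_⟩
        have h3 := (E'_iter Tw hA hgam m (E'_level Tw h) (a := a)).2 h
        have h4 := (E'_iter Tw hA hgam n (E'_level Tw h') (a := a)).2 h'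
        rw [h2] at h4
        exact E'_det Tw h3 h4 }
  have hup : ∀ p, mk (up Tw p) = mk p := fun p => (mk_eq _ _).2 ⟨0, 1, rfl⟩
  -- edges of a layer are edges of the limit
  have hrd : ∀ k b w b', Rd (Tw.Γ k) b w b' → Rd Δ (mk ⟨k, b⟩) w (mk ⟨k, b'⟩) := by
    intro k b w b' h
    induction w generalizing b with
    | nil =>
      obtain rfl : b = b' := h
      rfl
    | cons a w ih =>
      obtain ⟨c, h1, h2⟩ := h
      exact ⟨mk ⟨k, c⟩, ⟨_, _, rfl, rfl, (E'_mk Tw).2 h1⟩, ih c h2⟩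
  refine ⟨Ω, Δ, fun k b => mk ⟨k, b⟩, ?_, ?_, ?_, ?_, ?_, ?_⟩
  · intro k b b' h
    obtain ⟨n, m, h1⟩ := (mk_eq _ _).1 h
    have h2 := congrArg Sigma.fst h1
    rw [up_level, up_level] at h2
    obtain rfl : n = m := by simpa using h2
    have h3 := ((up_inj Tw).iterate n) h1
    simpa using h3
  · intro k b
    exact hup ⟨k, b⟩
  · intro ω
    obtain ⟨⟨k, b⟩, rfl⟩ := Quotient.exists_rep ω
    exact ⟨k, b, rfl⟩
  · intro k b a b'
    constructor
    · rintro ⟨p, q, h1, h2, h3⟩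
      exact (E'_mk Tw).1 (E'_rel Tw hA hgam ((mk_eq _ _).1 h1) ((mk_eq _ _).1 h2) rfl h3)
    · intro h
      exact ⟨_, _, rfl, rfl, (E'_mk Tw).2 h⟩
  · intro ω a
    obtain ⟨⟨k, b⟩, rfl⟩ := Quotient.exists_rep ω
    obtain ⟨y, y', hy⟩ := hA.US a
    obtain ⟨β, _, h2⟩ := rd_at (Tw.plus k) ((Tw.plus k).iota_at b y) (Rd_single.2 hy)
    have h3 := hrd _ _ _ _ h2
    have h4 : mk ⟨k + 1, Tw.ι k b⟩ = mk ⟨k, b⟩ := hup ⟨k, b⟩
    rw [h4] at h3
    exact ⟨mk ⟨k + 1, β⟩, Rd_single.1 h3⟩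
  · intro x w ω hw
    obtain ⟨⟨k, b⟩, rfl⟩ := Quotient.exists_rep ω
    obtain ⟨β, h1, h2⟩ := rd_at (Tw.plus k) ((Tw.plus k).iota_at b x) hw
    have h3 := hrd _ _ _ _ h2
    have h4 : mk ⟨k + 1, Tw.ι k b⟩ = mk ⟨k, b⟩ := hup ⟨k, b⟩
    obtain rfl := (Tw.plus k).at_uniq _ _ _ _ _ h1 ((Tw.plus k).iota_at b x)
    rw [h4] at h3
    exact h3

end Crest.Agent.R199
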