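import Crest.Agent.R199.MatchWalk
import Crest.Agent.R199.MatchCyc
import Crest.Agent.R199.MatchSeg

/-!
Row 199, pieces MT_ADD (girth_add) and MT_SWITCH (girth_switch, next file): adding an edge between far
half-edges keeps the girth.

Proof of `girth_add`. `m' = addE m h1 h2`, an involution; `girth_of_cyc`: let `c` be a cyclic walk of
`m'` of length `n`, suppose `n < g0`. `N = {h1, h2}`, `m' = m` outside `N`. If no `c i` is in `N`, then
`c` is `Cyc m ν n` : contradiction by `cyc_of_girth`. Otherwise `c i ∈ N`; `next_new` gives `j ≤ i + n`.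
`c i, c j ∈ {h1, h2}`. If `c j = c i`: `seg_Wk` is a walk from `ν (m' (c i))` to `ν (c i)`, i.e. between
`ν h1` and `ν h2`, of length `≤ n - 1`: contradiction to `far` (`Near_symm`). If `c j ≠ c i` then
`c j = m' (c i)`, so `j ≠ i + 1` (`nb`), the segment is nonempty, non-backtracking and closed
(`seg_NBw`, `seg_Clw`): its length `≤ n - 1 < g0` contradicts `hg`.
-/
set_option autoImplicit false

namespace Crest.Agent.R199

variable {H V : Type} [DecidableEq H]

theorem addE_invol (m : H → H) (hm : ∀ h, m (m h) = h) (h1 h2 : H) (hne : h1 ≠ h2)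
    (f1 : m h1 = h1) (f2 : m h2 = h2) (x : H) : addE m h1 h2 (addE m h1 h2 x) = x := by
  by_cases e1 : x = h1
  · subst e1
    simp [addE, hne.symm]
  · by_cases e2 : x = h2
    · subst e2
      simp [addE, hne.symm]
    · have e3 : m x ≠ h1 := fun h => e1 (by rw [← hm x, h, f1])
      have e4 : m x ≠ h2 := fun h => e2 (by rw [← hm x, h, f2])
      simp [addE, e1, e2, e3, e4, hm]

theorem girth_add (m : H → H) (hm : ∀ h, m (m h) = h) (ν : H → V) (g0 : ℕ) (hg : Girth m ν g0)
    (h1 h2 : H) (hne : h1 ≠ h2) (f1 : m h1 = h1) (f2 : m h2 = h2)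
    (far : ¬ Near m ν g0 (ν h1) (ν h2)) : Girth (addE m h1 h2) ν g0 := by
  set m' := addE m h1 h2 with hm'
  have e1 : m' h1 = h2 := by simp [hm', addE]
  have e2 : m' h2 = h1 := by simp [hm', addE, hne.symm]
  set N : Set H := {h1, h2} with hNdef
  have hN : ∀ x, x ∉ N → m' x = m x := by
    intro x hx
    have hx1 : x ≠ h1 := fun h => hx (Or.inl h)
    have hx2 : x ≠ h2 := fun h => hx (Or.inr h)
    simp [hm', addE, hx1, hx2]
  refine girth_of_cyc m' (addE_invol m hm h1 h2 hne f1 f2) ν g0 ?_
  intro n c hn hc
  by_contra hlt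
  push Not at hlt
  by_cases hall : ∀ i, c i ∉ N
  · have hc' : Cyc m ν n c :=
      { per := hc.per
        mv := fun i => by rw [← hN _ (hall i)]; exact hc.mv i
        nu := fun i => by rw [← hN _ (hall i)]; exact hc.nu i
        nb := fun i => by rw [← hN _ (hall i)]; exact hc.nb i }
    have := cyc_of_girth m ν g0 hg n c hn hc'
    omega
  · push Not at hall
    obtain ⟨i, hi⟩ := hall
    obtain ⟨j, hij, hjn, hj, hseg⟩ := next_new N c hn hc.per i hi
    have hW := seg_Wk m m' ν N hN n c hc i j hij hseg
    have hlen : (seg c i j).length < g0 := by rw [seg_length]; omega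
    have hopt : c j = c i ∨ c j = m' (c i) := by
      rcases hi with hi | hi <;> rcases hj with hj | hj
      · left; rw [hi, hj]
      · right; rw [hi, e1]; exact hj
      · right; rw [show c i = h2 from hi, e2]; exact hj
      · left; rw [show c i = h2 from hi, show c j = h2 from hj]
    rcases hopt with hcj | hcj
    · rw [hcj] at hW
      rcases hi with hi | hi
      · rw [hi, e1] at hW
        exact far (Near_symm m hm ν g0 _ _ ⟨_, hlen.le, hW⟩)
      · rw [show c i = h2 from hi, e2] at hW
        exact far ⟨_, hlen.le, hW⟩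
    · have hj1 : j ≠ i + 1 := by
        rintro rfl
        exact hc.nb i hcj
      have hne' : seg c i j ≠ [] := by
        intro h0
        have := seg_length c i j
        rw [h0, List.length_nil] at this
        omega
      have := hg _ hne' (seg_NBw m m' ν N hN n c hc i j hij hseg)
        (seg_Clw m m' ν N hN n c hc i j hij hseg (by rw [hcj]))
      omega

end Crest.Agent.R199
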