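import Crest.Agent.R199.DatumDefs

/-!
Row 199, part II, matching lemma: walks (helper12).
-/
set_option autoImplicit false

namespace Crest.Agent.R199

variable {H V : Type}

/-- `Wk m ν v l w`: `l` is a walk from `v` to `w` (not necessarily non-backtracking) -/
def Wk (m : H → H) (ν : H → V) : V → List H → V → Prop
  | v, [], w => v = w
  | v, h :: l, w => ν h = v ∧ m h ≠ h ∧ Wk m ν (ν (m h)) l w

/-- there is a walk of length at most `k` from `v` to `w` -/
def Near (m : H → H) (ν : H → V) (k : ℕ) (v w : V) : Prop := ∃ l, l.length ≤ k ∧ Wk m ν v l w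

/-- girth at least `g0` -/
def Girth (m : H → H) (ν : H → V) (g0 : ℕ) : Prop :=
  ∀ l : List H, l ≠ [] → NBw m ν l → Clw m ν l → g0 ≤ l.length

/-- cyclic non-backtracking walk of length `n` (as a periodic sequence) -/
structure Cyc (m : H → H) (ν : H → V) (n : ℕ) (c : ℕ → H) : Prop where
  per : ∀ i, c (i + n) = c i
  mv : ∀ i, m (c i) ≠ c i
  nu : ∀ i, ν (c (i + 1)) = ν (m (c i))
  nb : ∀ i, c (i + 1) ≠ m (c i)

/-- the half-edges `c (i+1), ..., c (j-1)` -/
def seg (c : ℕ → H) (i j : ℕ) : List H := (List.range' (i + 1) (j - i - 1)).map c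

theorem seg_length (c : ℕ → H) (i j : ℕ) : (seg c i j).length = j - i - 1 := by simp [seg]

/-- match `h1` with `h2` -/
def addE [DecidableEq H] (m : H → H) (h1 h2 : H) : H → H :=
  fun x => if x = h1 then h2 else if x = h2 then h1 else m x

/-- replace the pair `{a, b}` by the pairs `{h1, a}`, `{h2, b}` -/
def switchE [DecidableEq H] (m : H → H) (h1 h2 a b : H) : H → H :=
  fun x => if x = h1 then a else if x = a then h1 else if x = h2 then b else if x = b then h2 else m x

end Crest.Agent.R199
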