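import Crest.Agent.R199.MatchDefs

/-!
Row 199, piece MT_WALK (helper12): walks and balls.

* `Wk_append` : induction. `Wk_rev` : the reversed walk is `(l.reverse).map m`; induction on `l` with
  `Wk_append` (uses `m (m h) = h`).  `Near_symm` : consequence.
* `ball_card` : induction on `k`. `Near 0 v (ν x) ↔ ν x = v`: at most `Δ`. 
  `{x | Near (k+1) v (ν x)} ⊆ {x | ν x = v} ∪ ⋃_{h, ν h = v} {x | Near k (ν (m h)) (ν x)}`, so
  `card + 1 ≤ 1 + Δ + Δ * ((Δ+1)^(k+1) - 1) = 1 + Δ * (Δ+1)^(k+1) ≤ (Δ+1)^(k+2)`.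
-/
set_option autoImplicit false

namespace Crest.Agent.R199

variable {H V : Type}

theorem Wk_append (m : H → H) (ν : H → V) (v w : V) (l l' : List H) :
    Wk m ν v (l ++ l') w ↔ ∃ u, Wk m ν v l u ∧ Wk m ν u l' w := by
  induction l generalizing v with
  | nil =>
    constructor
    · intro h
      exact ⟨v, rfl, h⟩
    · rintro ⟨u, hu, h⟩
      have hu' : v = u := hu
      subst hu'
      exact h
  | cons a l ih =>
    constructor
    · rintro ⟨h1, h2, h3⟩
      obtain ⟨u, h4, h5⟩ := (ih _).mp h3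
      exact ⟨u, ⟨h1, h2, h4⟩, h5⟩
    · rintro ⟨u, ⟨h1, h2, h4⟩, h5⟩
      exact ⟨h1, h2, (ih _).mpr ⟨u, h4, h5⟩⟩

theorem Wk_rev (m : H → H) (hm : ∀ h, m (m h) = h) (ν : H → V) (v w : V) (l : List H)
    (h : Wk m ν v l w) : Wk m ν w (l.reverse.map m) v := by
  induction l generalizing v with
  | nil => exact Eq.symm h
  | cons a l ih =>
    obtain ⟨h1, h2, h3⟩ := h
    rw [List.reverse_cons, List.map_append, Wk_append]
    refine ⟨ν (m a), ih _ h3, rfl, ?_, ?_⟩
    · rw [hm]
      exact fun e => h2 e.symm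
    · show ν (m (m a)) = v
      rw [hm]
      exact h1

theorem Near_symm (m : H → H) (hm : ∀ h, m (m h) = h) (ν : H → V) (k : ℕ) (v w : V)
    (h : Near m ν k v w) : Near m ν k w v := by
  obtain ⟨l, hl, hw⟩ := h
  exact ⟨l.reverse.map m, by simpa using hl, Wk_rev m hm ν v w l hw⟩

namespace MWAux

theorem near_zero (m : H → H) (ν : H → V) (v w : V) : Near m ν 0 v w ↔ v = w := by
  constructor
  · rintro ⟨l, hl, hw⟩
    have : l = [] := List.length_eq_zero_iff.mp (Nat.le_zero.mp hl)
    subst this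
    exact hw
  · intro h
    exact ⟨[], le_rfl, h⟩

theorem near_succ (m : H → H) (ν : H → V) (k : ℕ) (v w : V) (h : Near m ν (k + 1) v w) :
    v = w ∨ ∃ a, ν a = v ∧ Near m ν k (ν (m a)) w := by
  obtain ⟨l, hl, hw⟩ := h
  cases l with
  | nil => exact Or.inl hw
  | cons a l =>
    obtain ⟨h1, _, h3⟩ := hw
    exact Or.inr ⟨a, h1, l, by simpa using hl, h3⟩

open Classical in
theorem ball [Fintype H] (m : H → H) (ν : H → V) (Δ : ℕ)
    (hΔ : ∀ v, (Finset.univ.filter fun h => ν h = v).card ≤ Δ) (k : ℕ) (v : V) :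
    (Finset.univ.filter fun x : H => Near m ν k v (ν x)).card + 1 ≤ (Δ + 1) ^ (k + 1) := by
  induction k generalizing v with
  | zero =>
    have h1 : (Finset.univ.filter fun x : H => Near m ν 0 v (ν x)) =
        Finset.univ.filter fun h => ν h = v := by
      ext x
      simp only [Finset.mem_filter, Finset.mem_univ, true_and, near_zero]
      exact eq_comm
    rw [h1, zero_add, pow_one]
    exact Nat.succ_le_succ (hΔ v)
  | succ k ih =>
    set X := (Δ + 1) ^ (k + 1) with hX
    have hX1 : 1 ≤ X := Nat.one_le_pow _ _ (Nat.succ_pos _)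
    have hsub : (Finset.univ.filter fun x : H => Near m ν (k + 1) v (ν x)) ⊆
        (Finset.univ.filter fun h => ν h = v) ∪
          (Finset.univ.filter fun h => ν h = v).biUnion
            (fun a => Finset.univ.filter fun x : H => Near m ν k (ν (m a)) (ν x)) := by
      intro x hx
      simp only [Finset.mem_filter, Finset.mem_univ, true_and, Finset.mem_union,
        Finset.mem_biUnion] at hx ⊢
      rcases near_succ m ν k v _ hx with h | ⟨a, h1, h2⟩
      · exact Or.inl h.symm
      · exact Or.inr ⟨a, h1, h2⟩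
    have h1 := Finset.card_le_card hsub
    have h2 := Finset.card_union_le (Finset.univ.filter fun h => ν h = v)
      ((Finset.univ.filter fun h => ν h = v).biUnion
            (fun a => Finset.univ.filter fun x : H => Near m ν k (ν (m a)) (ν x)))
    have h3 : ((Finset.univ.filter fun h => ν h = v).biUnion
            (fun a => Finset.univ.filter fun x : H => Near m ν k (ν (m a)) (ν x))).card ≤
        Δ * (X - 1) := by
      refine (Finset.card_biUnion_le_card_mul _ _ (X - 1) fun a _ => ?_).trans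
        (Nat.mul_le_mul_right _ (hΔ v))
      have := ih (ν (m a))
      omega
    have h4 := hΔ v
    have h5 : Δ * (X - 1) + Δ = Δ * X := by
      obtain ⟨Y, hY⟩ := Nat.exists_eq_add_of_le' hX1
      rw [hY, Nat.add_sub_cancel]
      ring
    have h6 : (Δ + 1) ^ (k + 1 + 1) = Δ * X + X := by
      rw [pow_succ, ← hX]
      ring
    rw [h6]
    omega

end MWAux

theorem ball_card [Fintype H] [DecidableEq V] (m : H → H) (ν : H → V) (Δ : ℕ)
    (hΔ : ∀ v, (Finset.univ.filter fun h => ν h = v).card ≤ Δ) (k : ℕ) (v : V) :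
    Set.ncard {x : H | Near m ν k v (ν x)} + 1 ≤ (Δ + 1) ^ (k + 1) := by
  classical
  have h1 : Set.ncard {x : H | Near m ν k v (ν x)} =
      (Finset.univ.filter fun x : H => Near m ν k v (ν x)).card := by
    rw [← Set.ncard_coe_finset]
    congr 1
    ext x
    simp
  rw [h1]
  refine MWAux.ball m ν Δ (fun w => ?_) k v
  convert hΔ w

end Crest.Agent.R199
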