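import Crest.Agent.R199.PlusBasic

/-!
Row 199, piece A4: MEET.

PROOF. `at_iff` gives `Rr b x y b' x' y'`; reduced: (b₁,x₁,x₁',s). For a prefix v of s let z, z' be
the ends in A from x₁, x₁' and β_v the vertex with `At β_v b₁ x₁ z` (it is also the vertex with
`At β_v b₁ x₁' z'`: Rr (b₁,x₁,z)(b₁,x₁',z') via (b₁,x₁,x₁',v)); it is the end of v read from ι b₁ in Γ'
(`rd_at` from `iota_at`). For v = s it is β (`at_cell`), which is not in range ι. For v = [] it is ι b₁.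
Take the longest prefix v with β_v = ι b₂ (e.g. `Nat.find`/`Nat.findGreatest` on the length). Then by
`at_iota` Cell (b₁,x₁)(b₂,z) and Cell (b₁,x₁')(b₂,z'). With s = v ++ s'' use (b₂,z,z',s''):
s'' ≠ [], reduced, and reading a nonempty prefix of s'' from ι b₂ leads outside range ι.
|s''| ≤ 4 if z ≠ z' by PC.
-/
set_option autoImplicit false

namespace Crest.Agent.R199

open FreeGroup (IsReduced invRev)

variable {T B B' P : Type} {A : IG T P} {Γ : IG T B} {Γ' : IG T B'} {ι : B → B'}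
  {At : B' → B → P → P → Prop} {gam : ℕ}

/-- reading `s` from `ι b₁` one leaves `ι B` immediately and never comes back -/
def Out (Γ' : IG T B') (ι : B → B') (b₁ : B) (s : List (T × Bool)) : Prop :=
  ∀ v, v <+: s → v ≠ [] → ∀ β', Rd Γ' (ι b₁) v β' → β' ∉ Set.range ι

/-- the same statement by induction on the length of the word -/
theorem meet_aux (hA : RG A gam) (hP : IsPlus A Γ Γ' ι At) {β : B'} {b b' : B} {x y x' y' : P}
    (hβ : β ∉ Set.range ι) : ∀ (n : ℕ) (b₁ : B) (x₁ x₁' : P) (s : List (T × Bool)),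
    s.length ≤ n → IsReduced s → Cell Γ A b x b₁ x₁ → Cell Γ A b' x' b₁ x₁' →
      Rd A x₁ s y → Rd A x₁' s y' → Rd Γ' (ι b₁) s β →
    ∃ b₁ x₁ x₁' s, IsReduced s ∧ s ≠ [] ∧ Cell Γ A b x b₁ x₁ ∧ Cell Γ A b' x' b₁ x₁' ∧
      Rd A x₁ s y ∧ Rd A x₁' s y' ∧ Out Γ' ι b₁ s ∧ Rd Γ' (ι b₁) s β ∧
      (x₁ ≠ x₁' → s.length ≤ 4) := by
  intro n
  induction n with
  | zero =>
    intro b₁ x₁ x₁' s hn _ _ _ _ _ hr
    have hs : s = [] := List.length_eq_zero_iff.1 (Nat.le_zero.1 hn)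
    subst hs
    exact absurd ⟨b₁, hr⟩ hβ
  | succ n ih =>
    intro b₁ x₁ x₁' s hn hred hc hc' h1 h1' hr
    by_cases hout : Out Γ' ι b₁ s
    · refine ⟨b₁, x₁, x₁', s, hred, ?_, hc, hc', h1, h1', hout, hr, fun hne =>
        hA.PC _ _ _ _ _ hne hred h1 h1'⟩
      rintro rfl
      exact hβ ⟨b₁, hr⟩
    · unfold Out at hout
      push Not at hout
      obtain ⟨v, ⟨s'', rfl⟩, hv, β', hvr, b₂, rfl⟩ := hout
      obtain ⟨z, hz1, hz2⟩ := Rd_append.1 h1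
      obtain ⟨z', hz1', hz2'⟩ := Rd_append.1 h1'
      obtain ⟨c, hc1, hc2⟩ := Rd_append.1 hr
      obtain rfl := Rd_det hvr hc1
      have hcell : Cell Γ A b₁ x₁ b₂ z :=
        (at_iota hP).1 (at_of_rd hP (hP.iota_at b₁ x₁) hz1 hvr)
      have hcell' : Cell Γ A b₁ x₁' b₂ z' :=
        (at_iota hP).1 (at_of_rd hP (hP.iota_at b₁ x₁') hz1' hvr)
      refine ih b₂ z z' s'' ?_ (isReduced_append_right hred) (hc.trans hcell)
        (hc'.trans hcell') hz2 hz2' hc2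
      have : 0 < v.length := List.length_pos_iff.2 hv
      rw [List.length_append] at hn
      omega

theorem meet (hA : RG A gam) (hP : IsPlus A Γ Γ' ι At) {β : B'} {b b' : B} {x y x' y' : P}
    (h : At β b x y) (h' : At β b' x' y') (hβ : β ∉ Set.range ι) :
    ∃ b₁ x₁ x₁' s, IsReduced s ∧ s ≠ [] ∧ Cell Γ A b x b₁ x₁ ∧ Cell Γ A b' x' b₁ x₁' ∧
      Rd A x₁ s y ∧ Rd A x₁' s y' ∧ Out Γ' ι b₁ s ∧ Rd Γ' (ι b₁) s β ∧
      (x₁ ≠ x₁' → s.length ≤ 4) := by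
  obtain ⟨b₁, x₁, x₁', s, hred, hc, hc', h1, h1'⟩ := ((hP.at_iff _ _ _ _ _ _ _ h).1 h').reduced
  obtain ⟨β', hβ', hr⟩ := rd_at hP (hP.iota_at b₁ x₁) h1
  obtain rfl := hP.at_uniq _ _ _ _ _ hβ' (at_cell hP h hc)
  exact meet_aux hA hP hβ s.length b₁ x₁ x₁' s le_rfl hred hc hc' h1 h1' hr

end Crest.Agent.R199
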