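import Crest.Agent.R199.Basic

/-!
Row 199, piece A3: first properties of a layer `IsPlus A Γ Γ' ι At`.

PROOFS.
* `at_conn`: apply `at_iff` to `h` twice: `Rr b x y b x y` contains Cell (b,x)(b₁,x₁) and Rd x₁ s y.
* `at_iota` (→): `At (ι b) b₀ x y` and `At (ι b) b y y` (iota_at) give by `at_iff`
  `Rr b y y b₀ x y`: b₁,x₁,x₁',s with Rd x₁ s y, Rd x₁' s y, so x₁ = x₁' (`Rd_inj`) and
  Cell (b₀,x)(b₁,x₁)(b,y).  (←): `Rr b y y b₀ x y` via (b,y,y,[]).
* `iota_inj`: `At (ι b') b y y` so Cell (b,y)(b',y): G1.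
* `rd_at`: `At β b x y`, Rd A y w y' : induction on w with `ex_at`, `at_uniq`, `E_iff`
  (for one letter: E y a y₁: x connected to y by at_conn, so ∃ β₁, At β₁ b x y₁ and E β a β₁).
* `at_of_rd`: by `rd_at` and `Rd_det`.
* `rd_iota`: letters: pick y,y' with A.E y a y' (US): At (ι b) b y y; `ex_at` gives β with At β b y y';
  Cell (b,y)(b',y') so `At (ι b') b y y'` by at_iota, β = ι b' by at_uniq. Then induction on w.
* `e_iota_iff` (→ of the converse): Γ'.E (ι b) a (ι b'): b₀,x,y,y' with At (ι b) b₀ x y,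
  At (ι b') b₀ x y', E y a y': Cell (b₀,x)(b,y), Cell (b₀,x)(b',y') so Cell (b,y)(b',y'). G2 at (b,y):
  Complete: Γ.E b a b'' for some b'', Cell (b'',y')(b',y'), b''=b' by G1. Otherwise a reduced p with
  |p| ≤ 8 from (b,y) to (b',y'), GI gives p = [a].
* `edge_at`: every edge of Γ' starting at β is in a cell containing β : E_iff.
-/
set_option autoImplicit false

namespace Crest.Agent.R199

open FreeGroup (IsReduced invRev)

variable {T B B' P : Type} {A : IG T P} {Γ : IG T B} {Γ' : IG T B'} {ι : B → B'}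
  {At : B' → B → P → P → Prop} {gam : ℕ}

theorem at_conn (hP : IsPlus A Γ Γ' ι At) {β : B'} {b : B} {x y : P} (h : At β b x y) :
    ∃ w, Rd A x w y := by
  obtain ⟨b₁, x₁, x₁', s, ⟨w, _, h1⟩, _, h3, _⟩ := (hP.at_iff β b x y b x y h).1 h
  exact ⟨w ++ s, Rd_trans h1 h3⟩

theorem at_iota (hP : IsPlus A Γ Γ' ι At) {b b₀ : B} {x y : P} :
    At (ι b) b₀ x y ↔ Cell Γ A b₀ x b y := by
  rw [hP.at_iff (ι b) b y y b₀ x y (hP.iota_at b y)]
  constructor
  · rintro ⟨b₁, x₁, x₁', s, h1, h2, h3, h4⟩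
    obtain rfl := Rd_inj h3 h4
    exact h2.trans h1.symm
  · intro h
    exact ⟨b, y, y, [], Cell.refl Γ A b y, h, rfl, rfl⟩

theorem iota_inj [Nonempty P] (hG : Good Γ A) (hP : IsPlus A Γ Γ' ι At) :
    Function.Injective ι := by
  intro b b' hb
  obtain ⟨y⟩ := ‹Nonempty P›
  have h1 : At (ι b') b y y := hb ▸ hP.iota_at b y
  exact hG.G1 b b' y ((at_iota hP).1 h1)

/-- the same cell, seen from another placement in `B` -/
theorem at_cell (hP : IsPlus A Γ Γ' ι At) {β : B'} {b b₁ : B} {x x₁ y : P}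
    (h : At β b x y) (hc : Cell Γ A b x b₁ x₁) : At β b₁ x₁ y := by
  obtain ⟨w, hw⟩ := at_conn hP h
  obtain ⟨v, _, hv⟩ := hc
  exact (hP.at_iff β b x y b₁ x₁ y h).2 ⟨b₁, x₁, x₁, invRev v ++ w, ⟨v, ‹_›, hv⟩,
    Cell.refl Γ A b₁ x₁, Rd_trans (Rd_inv hv) hw, Rd_trans (Rd_inv hv) hw⟩

theorem rd_at (hP : IsPlus A Γ Γ' ι At) {β : B'} {b : B} {x y y' : P} {w : List (T × Bool)}
    (h : At β b x y) (hw : Rd A y w y') : ∃ β', At β' b x y' ∧ Rd Γ' β w β' := by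
  induction w generalizing β y with
  | nil =>
    obtain rfl : y = y' := hw
    exact ⟨β, h, rfl⟩
  | cons a w ih =>
    obtain ⟨c, h1, h2⟩ := hw
    obtain ⟨v, hv⟩ := at_conn hP h
    obtain ⟨β₁, hβ₁⟩ := hP.ex_at b x (v ++ [a]) c (Rd_trans hv (Rd_single.2 h1))
    obtain ⟨β', h3, h4⟩ := ih hβ₁ h2
    exact ⟨β', h3, β₁, (hP.E_iff β a β₁).2 ⟨b, x, y, c, h, hβ₁, h1⟩, h4⟩

theorem at_of_rd (hP : IsPlus A Γ Γ' ι At) {β β' : B'} {b : B} {x y y' : P}
    {w : List (T × Bool)} (h : At β b x y) (hw : Rd A y w y') (hr : Rd Γ' β w β') :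
    At β' b x y' := by
  obtain ⟨β₁, h1, h2⟩ := rd_at hP h hw
  obtain rfl := Rd_det hr h2
  exact h1

theorem rd_iota (hA : RG A gam) (hP : IsPlus A Γ Γ' ι At) {b b' : B} {w : List (T × Bool)}
    (h : Rd Γ b w b') : Rd Γ' (ι b) w (ι b') := by
  induction w generalizing b with
  | nil =>
    obtain rfl : b = b' := h
    rfl
  | cons a w ih =>
    obtain ⟨c, h1, h2⟩ := h
    obtain ⟨y, y', hy⟩ := hA.US a
    refine ⟨ι c, (hP.E_iff _ _ _).2 ⟨b, y, y, y', hP.iota_at b y, ?_, hy⟩, ih h2⟩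
    exact (at_iota hP).2 ⟨[a], Rd_single.2 h1, Rd_single.2 hy⟩

theorem e_iota_iff (hA : RG A gam) (hgam : 129 ≤ gam) (hG : Good Γ A)
    (hP : IsPlus A Γ Γ' ι At) {b b' : B} {a : T × Bool} :
    Γ'.E (ι b) a (ι b') ↔ Γ.E b a b' := by
  constructor
  · intro h
    obtain ⟨b₀, x, y, y', h1, h2, h3⟩ := (hP.E_iff _ _ _).1 h
    have hc : Cell Γ A b y b' y' := ((at_iota hP).1 h1).symm.trans ((at_iota hP).1 h2)
    rcases hG.G2 b y with h4 | h4
    · obtain ⟨b'', h5⟩ := h4 [a] y' (Rd_single.2 h3)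
      have h6 : Cell Γ A b y b'' y' := ⟨[a], h5, Rd_single.2 h3⟩
      obtain rfl := hG.G1 b'' b' y' (h6.symm.trans hc)
      exact Rd_single.1 h5
    · obtain ⟨w, hw, h5, h6⟩ := hc.reduced
      have h7 := h4 w b' y' hw h5 h6
      have h8 : w = [a] := by
        refine hA.GI y y' w [a] hw (by simp [FreeGroup.IsReduced]) h6 (Rd_single.2 h3) ?_
        simp only [List.length_singleton]
        omega
      subst h8
      exact Rd_single.1 h5
  · intro h
    exact Rd_single.1 (rd_iota hA hP (Rd_single.2 h))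

/-- if a word read in a cell from `(b,x)` has all its prefixes inside `ι B`, it is readable in `Γ`. -/
theorem rd_of_iota (hA : RG A gam) (hgam : 129 ≤ gam) [Nonempty P] (hG : Good Γ A)
    (hP : IsPlus A Γ Γ' ι At) {b b' : B} {w : List (T × Bool)}
    (h : Rd Γ' (ι b) w (ι b'))
    (hin : ∀ v, v <+: w → ∀ β, Rd Γ' (ι b) v β → β ∈ Set.range ι) : Rd Γ b w b' := by
  induction w generalizing b with
  | nil => exact iota_inj hG hP h
  | cons a w ih =>
    obtain ⟨c, h1, h2⟩ := h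
    obtain ⟨d, rfl⟩ := hin [a] ⟨w, by simp⟩ c (Rd_single.2 h1)
    refine ⟨d, (e_iota_iff hA hgam hG hP).1 h1, ih h2 ?_⟩
    intro v hv β hβ
    obtain ⟨u, rfl⟩ := hv
    exact hin (a :: v) ⟨u, by simp⟩ β ⟨ι d, h1, hβ⟩

theorem edge_at (hP : IsPlus A Γ Γ' ι At) {β β' : B'} {a : T × Bool} (h : Γ'.E β a β') :
    ∃ b x y y', At β b x y ∧ At β' b x y' ∧ A.E y a y' :=
  (hP.E_iff β a β').1 h

end Crest.Agent.R199
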