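import Crest.Agent.R199.RrTrans

/-!
Row 199, piece A2: construction of the next layer (`IsPlus`) as a quotient.

PROOF. `Trip := {p : B × P × P // ∃ w, Rd A p.2.1 w p.2.2}`, setoid `Rr` (refl: `Rr.refl`, symm:
`Rr.symm`, trans: `Rr_trans`). `B' := Quotient`, `At β b x y := ∃ h, β = ⟦⟨(b,x,y),h⟩⟧`,
`ι b := ⟦(b,z,z)⟧` for a fixed `z : P` (from `hA.US` applied to any letter; if `T` is empty or `P` is
empty: `P` nonempty is a hypothesis below). Note `(b,x,x) ~ (b,z,z)` via (b,x,z,[]).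
Edges: `E β a β' := ∃ b x y y', At β b x y ∧ At β' b x y' ∧ A.E y a y'`.
symm: `A.symm`.  det: β = [(b,x,y)] = [(b₂,x₂,y₂)], E y a y', E y₂ a y₂': `Rr (b,x,y)(b₂,x₂,y₂)` by
`Quotient.exact`, with word s; then `s ++ [a]` shows `Rr (b,x,y')(b₂,x₂,y₂')`.
`at_iff` : `Quotient.exact`/`Quotient.sound`; note that `Rr b x y b' x' y'` implies that `x'` and `y'`
are connected in `A` (Cell (b',x')(b₁,x₁') and Rd x₁' s y').
-/
set_option autoImplicit false

namespace Crest.Agent.R199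

open FreeGroup (IsReduced invRev)

variable {T B P : Type}

/-- placements of vertices -/
def Trip (A : IG T P) (B : Type) : Type := {p : B × P × P // ∃ w, Rd A p.2.1 w p.2.2}

/-- the gluing relation is an equivalence relation -/
def tripSetoid {A : IG T P} {gam : ℕ} (hA : RG A gam) (hgam : 129 ≤ gam)
    {Γ : IG T B} (hG : Good Γ A) : Setoid (Trip A B) where
  r p q := Rr Γ A p.1.1 p.1.2.1 p.1.2.2 q.1.1 q.1.2.1 q.1.2.2
  iseqv :=
    { refl := fun p => by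
        obtain ⟨⟨b, x, y⟩, w, hw⟩ := p
        exact Rr.refl hw
      symm := fun h => h.symm
      trans := fun h h' => Rr_trans hA hgam hG h h' }

theorem exists_plus [Nonempty P] {A : IG T P} {gam : ℕ} (hA : RG A gam) (hgam : 129 ≤ gam)
    {Γ : IG T B} (hG : Good Γ A) :
    ∃ (B' : Type) (Γ' : IG T B') (ι : B → B') (At : B' → B → P → P → Prop),
      IsPlus A Γ Γ' ι At := by
  classical
  let st : Setoid (Trip A B) := tripSetoid hA hgam hG
  let At : Quotient st → B → P → P → Prop := fun β b x y =>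
    ∃ h : ∃ w, Rd A x w y, β = Quotient.mk st ⟨(b, x, y), h⟩
  obtain ⟨z⟩ := ‹Nonempty P›
  let ι : B → Quotient st := fun b => Quotient.mk st ⟨(b, z, z), [], rfl⟩
  have hex : ∀ {b b' : B} {x y x' y' : P} {h : ∃ w, Rd A x w y} {h' : ∃ w, Rd A x' w y'},
      Quotient.mk st ⟨(b, x, y), h⟩ = Quotient.mk st ⟨(b', x', y'), h'⟩ →
      Rr Γ A b x y b' x' y' := fun {b b' x y x' y' h h'} heq => Quotient.exact heq
  have hso : ∀ {b b' : B} {x y x' y' : P} {h : ∃ w, Rd A x w y} {h' : ∃ w, Rd A x' w y'},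
      Rr Γ A b x y b' x' y' →
      Quotient.mk st ⟨(b, x, y), h⟩ = Quotient.mk st ⟨(b', x', y'), h'⟩ :=
    fun {b b' x y x' y' h h'} hr => Quotient.sound hr
  let Γ' : IG T (Quotient st) :=
    { E := fun β a β' => ∃ b x y y', At β b x y ∧ At β' b x y' ∧ A.E y a y'
      symm := by
        rintro β a β' ⟨b, x, y, y', h1, h2, h3⟩
        exact ⟨b, x, y', y, h2, h1, A.symm _ _ _ h3⟩
      det := by
        rintro β a β' β'' ⟨b, x, y, y', ⟨h1, e1⟩, ⟨h2, e2⟩, h3⟩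
          ⟨b₂, x₂, y₂, y₂', ⟨h4, e4⟩, ⟨h5, e5⟩, h6⟩
        obtain ⟨b₁, x₁, x₁', s, c1, c2, r1, r2⟩ := hex (e1.symm.trans e4)
        rw [e2, e5]
        exact hso ⟨b₁, x₁, x₁', s ++ [a], c1, c2, Rd_trans r1 (Rd_single.2 h3),
          Rd_trans r2 (Rd_single.2 h6)⟩ }
  refine ⟨Quotient st, Γ', ι, At, ?_, ?_, ?_, ?_, ?_, ?_⟩
  · intro β
    induction β using Quotient.ind with
    | _ p =>
      obtain ⟨⟨b, x, y⟩, h⟩ := p
      exact ⟨b, x, y, h, rfl⟩
  · intro b x w y hw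
    exact ⟨_, ⟨w, hw⟩, rfl⟩
  · rintro β b x y b' x' y' ⟨h, rfl⟩
    constructor
    · rintro ⟨h', e⟩
      exact hex e
    · intro hr
      have h' : ∃ w, Rd A x' w y' := by
        obtain ⟨b₁, x₁, x₁', s, c1, ⟨w, _, hw⟩, r1, r2⟩ := hr
        exact ⟨w ++ s, Rd_trans hw r2⟩
      exact ⟨h', hso hr⟩
  · rintro β β' b x y ⟨h, rfl⟩ ⟨h', rfl⟩
    rfl
  · intro b x
    exact ⟨⟨[], rfl⟩, hso ⟨b, z, x, [], Cell.refl Γ A b z, Cell.refl Γ A b x, rfl, rfl⟩⟩
  · intro β a β'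
    exact Iff.rfl

end Crest.Agent.R199
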