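import Crest.Agent.R199.Geo

/-!
Row 199, part II, piece RANK1 (helper12): an `F₂`-valued function on `F^σ` with vanishing moments of
all exponents `< Q` is zero.

Proof. `MvPolynomial.map_restrict_dom_evalₗ` : every function `g : (σ → F) → F` is the evaluation of a
polynomial `P` with `P ∈ MvPolynomial.restrictDegree σ F (card F - 1)`. Expand
`∑ p, f p • eval p P = ∑ m ∈ P.support, coeff m P * ∑ p, f p • ∏ i, p i ^ m i = 0` (all `m i ≤ card F - 1`).
Take `g` the indicator function of a point `a` : `f a • 1 = 0` in `F`, so `f a = 0`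
(`f a : ZMod 2` is `0` or `1`).
-/
set_option autoImplicit false

namespace Crest.Agent.R199

open Finset

theorem moments_inj {F σ : Type} [Field F] [Fintype F] [DecidableEq F] [Algebra (ZMod 2) F]
    [Fintype σ] [DecidableEq σ] (f : (σ → F) → ZMod 2)
    (h : ∀ v : σ → ℕ, (∀ i, v i < Fintype.card F) →
      ∑ p : σ → F, f p • (∏ i, p i ^ v i) = 0) : f = 0 := by
  classical
  funext a
  obtain ⟨P, hP, hPe⟩ : ∃ P ∈ MvPolynomial.restrictDegree σ F (Fintype.card F - 1),
      MvPolynomial.evalₗ F σ P = (Pi.single a 1 : (σ → F) → F) := by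
    have h1 := MvPolynomial.map_restrict_dom_evalₗ F σ
    have h2 : (Pi.single a 1 : (σ → F) → F) ∈ (⊤ : Submodule F ((σ → F) → F)) := trivial
    rw [← h1] at h2
    exact h2
  have hsum : ∑ p : σ → F, f p • (MvPolynomial.eval p P) = 0 := by
    simp_rw [MvPolynomial.eval_eq', Finset.smul_sum]
    rw [Finset.sum_comm]
    apply Finset.sum_eq_zero
    intro m hm
    have hmv : ∀ i, m i < Fintype.card F := by
      intro i
      have h3 := (MvPolynomial.mem_restrictDegree σ P (Fintype.card F - 1)).1 hP m hm i
      have h4 : 0 < Fintype.card F := Fintype.card_pos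
      omega
    calc ∑ p : σ → F, f p • (MvPolynomial.coeff m P * ∏ i, p i ^ m i)
        = ∑ p : σ → F, MvPolynomial.coeff m P * (f p • ∏ i, p i ^ m i) := by
          refine Finset.sum_congr rfl fun p _ => ?_
          rw [mul_smul_comm]
      _ = 0 := by rw [← Finset.mul_sum, h (fun i => m i) hmv, mul_zero]
  have h5 : ∑ p : σ → F, f p • (Pi.single a (1 : F) : (σ → F) → F) p = 0 := by
    rw [← hPe]; exact hsum
  rw [Finset.sum_eq_single a] at h5
  · rw [Pi.single_eq_same, Algebra.smul_def, mul_one] at h5
    have h6 : f a = 0 := by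
      apply (algebraMap (ZMod 2) F).injective
      rw [h5, map_zero]
    simpa using h6
  · intro b _ hb
    rw [Pi.single_eq_of_ne hb, smul_zero]
  · intro ha
    exact absurd (Finset.mem_univ a) ha

end Crest.Agent.R199
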