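import Crest.Agent.R199.Limit
import Crest.Agent.R199.Act
import Crest.Agent.R199.Theta

/-!
Row 199, piece B5: θ is injective and reflects edges.

PROOF of `exists_rep`. Take θ from `exists_theta`, Ω, Δ, j from `exists_limit`, act from `exists_act`.
Claim: j k b = act (j 0 b0) (θ k b). Induction on k: k = 0: b = b0. k+1: β, At β b x y (at_ex),
Rd A x w y (at_conn); `rd_at` from At (ι b) b x x: Rd (Γ (k+1)) (ι b) w β (the end is β by at_uniq);
transport to Δ: Rd Δ (j k b) w (j (k+1) β), so by Rd_det j (k+1) β = act (j k b) (gv w) =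
act (j 0 b0) (θ k b * gv w) = act (j 0 b0) (θ (k+1) β).
inj: θ k b = θ k b' ⇒ j k b = j k b'. edge: if θ k b' = θ k b * gv [a] then
Rd Δ (j k b) [a] (act (j k b) (gv [a])) = j k b', so Δ.E (j k b) a (j k b') and then (Γ k).E b a b'.

`rep_rd`: (→) induction. (←) induction on w: the prefix [a] gives b'' with θ b'' = θ b * gv [a], so
Γ.E b a b''; continue (prefixes of a :: w).
-/
set_option autoImplicit false

namespace Crest.Agent.R199

variable {T P : Type} {A : IG T P}

structure Rep (Tw : Tower A) (θ : ∀ k, Tw.B k → Gp A) : Prop where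
  zero : θ 0 Tw.b0 = 1
  inj : ∀ k, Function.Injective (θ k)
  iota : ∀ k b, θ (k + 1) (Tw.ι k b) = θ k b
  edge : ∀ k b a b', (Tw.Γ k).E b a b' ↔ θ k b' = θ k b * gv A [a]
  at_val : ∀ k β b x y w, Tw.At k β b x y → Rd A x w y → θ (k + 1) β = θ k b * gv A w

theorem exists_rep [Nonempty P] {gam : ℕ} (hA : RG A gam) (hgam : 129 ≤ gam) (Tw : Tower A) :
    ∃ θ : ∀ k, Tw.B k → Gp A, Rep Tw θ := by
  obtain ⟨θ, h0, h1, h2, h3⟩ := exists_theta Tw
  obtain ⟨Ω, Δ, j, j1, j2, _, j4, j5, j6⟩ := exists_limit hA hgam Tw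
  obtain ⟨act, a1, a2, a3⟩ := exists_act Δ j5 j6
  -- reading in `Γ k` gives reading in `Δ`
  have hrd : ∀ k b w b', Rd (Tw.Γ k) b w b' → Rd Δ (j k b) w (j k b') := by
    intro k b w b' h
    induction w generalizing b with
    | nil =>
      obtain rfl : b = b' := h
      rfl
    | cons a w ih =>
      obtain ⟨c, h1, h2⟩ := h
      exact ⟨j k c, (j4 _ _ _ _).2 h1, ih c h2⟩
  have key : ∀ k b, j k b = act (j 0 Tw.b0) (θ k b) := by
    intro k
    induction k with
    | zero => intro b; rw [Tw.b0_uniq b, h0, a1]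
    | succ k ih =>
      intro β
      obtain ⟨b, x, y, hAt⟩ := (Tw.plus k).at_ex β
      obtain ⟨w, hw⟩ := at_conn (Tw.plus k) hAt
      obtain ⟨β', h4, h5⟩ := rd_at (Tw.plus k) ((Tw.plus k).iota_at b x) hw
      obtain rfl := (Tw.plus k).at_uniq _ _ _ _ _ hAt h4
      have h6 := hrd _ _ _ _ h5
      rw [j2] at h6
      have h7 := Rd_det h6 (a3 (j k b) w)
      rw [h7, h3 k β b x y w hAt hw, ← a2, ← ih b]
      rfl
  refine ⟨θ, h0, ?_, h1, ?_, h3⟩
  · intro k b b' h
    apply j1 k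
    exact (key k b).trans ((congrArg _ h).trans (key k b').symm)
  · intro k b a b'
    refine ⟨h2 k b a b', ?_⟩
    intro h
    have h4 := a3 (j k b) [a]
    have h5 : act (j k b) (QuotientGroup.mk (FreeGroup.mk [a])) = j k b' := by
      rw [key k b', h, ← a2, ← key k b]
      rfl
    rw [h5] at h4
    exact (j4 _ _ _ _).1 (Rd_single.1 h4)

theorem rep_rd {Tw : Tower A} {θ : ∀ k, Tw.B k → Gp A} (h : Rep Tw θ) {k : ℕ}
    {b b' : Tw.B k} {w : List (T × Bool)} :
    Rd (Tw.Γ k) b w b' ↔ θ k b' = θ k b * gv A w ∧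
      ∀ v, v <+: w → θ k b * gv A v ∈ Set.range (θ k) := by
  have hcons : ∀ (a : T × Bool) (v : List (T × Bool)), gv A (a :: v) = gv A [a] * gv A v := by
    intro a v
    rw [← gv_append]; rfl
  induction w generalizing b with
  | nil =>
    rw [Rd_nil, gv_nil, mul_one]
    constructor
    · rintro rfl
      refine ⟨rfl, ?_⟩
      intro v hv
      obtain rfl := List.prefix_nil.1 hv
      rw [gv_nil, mul_one]
      exact ⟨b, rfl⟩
    · rintro ⟨h1, _⟩
      exact (h.inj k h1).symm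
  | cons a w ih =>
    constructor
    · rintro ⟨c, h1, h2⟩
      have h3 := (h.edge k b a c).1 h1
      obtain ⟨h4, h5⟩ := ih.1 h2
      refine ⟨by rw [h4, h3, hcons a w, mul_assoc], ?_⟩
      intro v hv
      cases v with
      | nil => rw [gv_nil, mul_one]; exact ⟨b, rfl⟩
      | cons a' v =>
        rw [List.cons_prefix_cons] at hv
        obtain ⟨rfl, hv⟩ := hv
        rw [hcons, ← mul_assoc, ← h3]
        exact h5 v hv
    · rintro ⟨h1, h2⟩
      obtain ⟨c, hc⟩ := h2 [a] ⟨w, rfl⟩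
      refine ⟨c, (h.edge k b a c).2 hc, ih.2 ⟨?_, ?_⟩⟩
      · rw [h1, hc, hcons a w, mul_assoc]
      · intro v hv
        rw [hc, mul_assoc, ← hcons]
        exact h2 (a :: v) (List.cons_prefix_cons.2 ⟨rfl, hv⟩)

/-- elements of the next layer : products with a segment -/
theorem rep_succ {Tw : Tower A} {θ : ∀ k, Tw.B k → Gp A} (h : Rep Tw θ) {k : ℕ} {g : Gp A} :
    g ∈ Set.range (θ (k + 1)) ↔ ∃ b x w y, Rd A x w y ∧ g = θ k b * gv A w := by
  constructor
  · rintro ⟨β, rfl⟩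
    obtain ⟨b, x, y, hAt⟩ := (Tw.plus k).at_ex β
    obtain ⟨w, hw⟩ := at_conn (Tw.plus k) hAt
    exact ⟨b, x, w, y, hw, h.at_val k β b x y w hAt hw⟩
  · rintro ⟨b, x, w, y, hw, rfl⟩
    obtain ⟨β, hβ⟩ := (Tw.plus k).ex_at b x w y hw
    exact ⟨β, h.at_val k β b x y w hβ hw⟩

end Crest.Agent.R199
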