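import Crest.Agent.R199.Basic

/-!
Row 199, piece A1: transitivity of the gluing relation `Rr` under `Good`.

PROOF. Take both data with reduced words (`Rr.reduced`): `(b₁,x₁,x₁',s)` and `(b₂,x₂',x₂'',s₂)`:
Cell (b,x)(b₁,x₁), Cell (b',x')(b₁,x₁'), Rd x₁ s y, Rd x₁' s y';
Cell (b',x')(b₂,x₂'), Cell (b'',x'')(b₂,x₂''), Rd x₂' s₂ y', Rd x₂'' s₂ y''.
* If x₁ = x₁': y = y' (`Rd_det`), Cell (b,x)(b₁,x₁)(b',x'); use (b₂,x₂',x₂'',s₂).
* If x₂' = x₂'': y' = y'', similarly use (b₁,x₁,x₁',s).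
* Otherwise `PC` gives |s|,|s₂| ≤ 4.  Apply `G2` at (b₁,x₁').
  - Complete: from Rd x₁' s y' get β with Rd_Γ b₁ s β. (b₂,x₂') is in the same cell so it is
    complete (`Complete.of_Rd`): β₂ with Rd_Γ b₂ s₂ β₂. Cell (β,y')(β₂,y'), so β = β₂ by G1.
    Then Rr via (β, y, y'', []): Cell (b,x)(b₁,x₁)(β,y), Cell (b'',x'')(b₂,x₂'')(β,y'').
  - all reduced readable words have length ≤ 8: Cell (b₁,x₁')(b₂,x₂') by a reduced p (`Cell.reduced`),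
    |p| ≤ 8. `cancel p s₂`: p = p₁ ++ c, s₂ = invRev c ++ q, IsReduced (p₁ ++ q).
    p₁ ++ q reads x₁' → y' and so does s: by GI (lengths ≤ 12 + 4 < gam) s = p₁ ++ q.
    Let b₃, x₃' be the vertices after p₁ (in Γ from b₁, in A from x₁'), Rd_Γ b₃ c b₂.
    s = p₁ ++ q is readable from x₁: x₃ with Rd x₁ p₁ x₃, Rd x₃ q y; s₂ = invRev c ++ q from x₂'':
    x₃'' with Rd x₂'' (invRev c) x₃'', Rd x₃'' q y''. Rr via (b₃, x₃, x₃'', q). 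
-/
set_option autoImplicit false

namespace Crest.Agent.R199

open FreeGroup (IsReduced invRev)

variable {T B P : Type}

theorem Rr_trans {A : IG T P} {gam : ℕ} (hA : RG A gam) (hgam : 129 ≤ gam) {Γ : IG T B}
    (hG : Good Γ A) {b b' b'' : B} {x y x' y' x'' y'' : P}
    (h : Rr Γ A b x y b' x' y') (h' : Rr Γ A b' x' y' b'' x'' y'') :
    Rr Γ A b x y b'' x'' y'' := by
  obtain ⟨b₁, x₁, x₁', s, hs, c1, c1', r1, r1'⟩ := h.reduced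
  obtain ⟨b₂, x₂', x₂'', s₂, hs2, c2', c2'', r2', r2''⟩ := h'.reduced
  have c12 : Cell Γ A b₁ x₁' b₂ x₂' := c1'.symm.trans c2'
  by_cases e1 : x₁ = x₁'
  · subst e1
    obtain rfl := Rd_det r1 r1'
    exact ⟨b₂, x₂', x₂'', s₂, c1.trans c12, c2'', r2', r2''⟩
  by_cases e2 : x₂' = x₂''
  · subst e2
    obtain rfl := Rd_det r2' r2''
    exact ⟨b₁, x₁, x₁', s, c1, c2''.trans c12.symm, r1, r1'⟩
  have l1 : s.length ≤ 4 := hA.PC x₁ x₁' s y y' e1 hs r1 r1'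
  have l2 : s₂.length ≤ 4 := hA.PC x₂' x₂'' s₂ y' y'' e2 hs2 r2' r2''
  rcases hG.G2 b₁ x₁' with hc | hshort
  · obtain ⟨β, hβ⟩ := hc s y' r1'
    obtain ⟨β₂, hβ₂⟩ := (hc.of_Rd c12) s₂ y' r2'
    have hββ : Cell Γ A β y' β₂ y' :=
      ((Cell.of_Rd hβ r1').symm.trans c12).trans (Cell.of_Rd hβ₂ r2')
    obtain rfl := hG.G1 _ _ _ hββ
    exact ⟨β, y, y'', [], c1.trans (Cell.of_Rd hβ r1), c2''.trans (Cell.of_Rd hβ₂ r2''),
      Rd_refl y, Rd_refl y''⟩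
  · obtain ⟨p, hp, hpΓ, hpA⟩ := c12.reduced
    have lp : p.length ≤ 8 := hshort p b₂ x₂' hp hpΓ hpA
    obtain ⟨p₁, c, q, rfl, rfl, hred⟩ := cancel p s₂ hp hs2
    obtain ⟨b₃, hb3, hb3'⟩ := Rd_append.1 hpΓ
    obtain ⟨z, hz, hz'⟩ := Rd_append.1 hpA
    obtain ⟨z', hz2, hz2'⟩ := Rd_append.1 r2'
    obtain rfl := Rd_det (Rd_inv hz') hz2
    have hlen : s.length + (p₁ ++ q).length < gam := by
      simp only [List.length_append] at lp l2 ⊢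
      omega
    have hse : s = p₁ ++ q := hA.GI x₁' y' s (p₁ ++ q) hs hred r1' (Rd_trans hz hz2') hlen
    subst hse
    obtain ⟨x₃, h3, h3'⟩ := Rd_append.1 r1
    obtain ⟨x₃'', h4, h4'⟩ := Rd_append.1 r2''
    exact ⟨b₃, x₃, x₃'', q, c1.trans (Cell.of_Rd hb3 h3),
      c2''.trans (Cell.of_Rd (Rd_inv hb3') h4), h3', h4'⟩

end Crest.Agent.R199
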